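import Crest.Agent.R331.Chan

/-!
# Operator norm bounds

Use `open scoped Matrix.Norms.L2Operator` and `Matrix.l2_opNorm_mul`, `l2_opNorm_conjTranspose`,
`l2_opNorm_conjTranspose_mul_self`, `l2_opNorm_diagonal`, `l2_opNorm_mulVec`.
`opn_le_iff : opn Z ≤ r ↔ (r^2 • 1 - Zᴴ Z).PosSemidef`; with it `opn_kron_one` follows from
`Matrix.PosSemidef.kronecker`.  `trace_proj_le`: Cauchy-Schwarz for the positive form `(X, Y) ↦ Tr (ρ Xᴴ Y)`:
`|Tr (ρ P Z)|^2 ≤ Tr (ρ P) Tr (ρ Zᴴ Z) ≤ Tr (ρ P) opn Z ^ 2 Tr ρ`.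
-/

open scoped ComplexOrder Kronecker Matrix
open Matrix Crest.Quantum Crest.MathPhysics.Bosonic

noncomputable section

namespace Crest.Agent.R331

variable {A B C D : Type*} [Fintype A] [Fintype B] [Fintype C] [Fintype D]
  [DecidableEq A] [DecidableEq B] [DecidableEq C] [DecidableEq D]

set_option linter.unusedSectionVars false

open scoped Matrix.Norms.L2Operator

theorem opn_aux_dot (x : A → ℂ) :
    star x ⬝ᵥ x = ((‖(WithLp.toLp 2 x : EuclideanSpace ℂ A)‖ ^ 2 : ℝ) : ℂ) := by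
  rw [dotProduct_comm, ← EuclideanSpace.inner_toLp_toLp, inner_self_eq_norm_sq_to_K]
  simp

theorem opn_aux_form (Z : Matrix A B ℂ) (r : ℝ) (x : B → ℂ) :
    star x ⬝ᵥ ((((r ^ 2 : ℝ) : ℂ) • (1 : Matrix B B ℂ) - Zᴴ * Z) *ᵥ x) =
      (((r * ‖(WithLp.toLp 2 x : EuclideanSpace ℂ B)‖) ^ 2 -
        ‖(WithLp.toLp 2 (Z *ᵥ x) : EuclideanSpace ℂ A)‖ ^ 2 : ℝ) : ℂ) := by
  rw [sub_mulVec, dotProduct_sub, smul_mulVec, one_mulVec, dotProduct_smul, ← mulVec_mulVec,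
    dotProduct_mulVec, ← star_mulVec, opn_aux_dot, opn_aux_dot, smul_eq_mul]
  push_cast
  ring

theorem opn_aux_trace (P Q : Matrix B A ℂ) :
    (Pᴴ * Q).trace = inner ℂ (WithLp.toLp 2 (fun p : B × A => P p.1 p.2) : EuclideanSpace ℂ (B × A))
      (WithLp.toLp 2 fun p : B × A => Q p.1 p.2) := by
  rw [EuclideanSpace.inner_toLp_toLp, dotProduct, Fintype.sum_prod_type_right]
  simp only [trace, diag_apply, mul_apply, conjTranspose_apply, Pi.star_apply]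
  exact Finset.sum_congr rfl fun i _ => Finset.sum_congr rfl fun j _ => mul_comm _ _

theorem opn_nonneg (Z : Matrix A B ℂ) : 0 ≤ opn Z := by
  exact norm_nonneg Z

theorem opn_le_iff (Z : Matrix A B ℂ) {r : ℝ} (hr : 0 ≤ r) :
    opn Z ≤ r ↔ (((r ^ 2 : ℝ) : ℂ) • (1 : Matrix B B ℂ) - Zᴴ * Z).PosSemidef := by
  have h1 : opn Z ≤ r ↔ ∀ x : B → ℂ, ‖(WithLp.toLp 2 (Z *ᵥ x) : EuclideanSpace ℂ A)‖ ≤
      r * ‖(WithLp.toLp 2 x : EuclideanSpace ℂ B)‖ := by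
    rw [opn, l2_opNorm_def, ContinuousLinearMap.opNorm_le_iff hr]
    exact ⟨fun h x => h (WithLp.toLp 2 x), fun h x => h x.ofLp⟩
  rw [h1, posSemidef_iff_dotProduct_mulVec]
  have h2 : (((r ^ 2 : ℝ) : ℂ) • (1 : Matrix B B ℂ) - Zᴴ * Z).IsHermitian := by
    refine IsHermitian.sub ?_ (isHermitian_conjTranspose_mul_self Z)
    rw [IsHermitian, conjTranspose_smul, conjTranspose_one, Complex.star_def, Complex.conj_ofReal]
  simp only [h2, true_and, opn_aux_form, Complex.zero_le_real, sub_nonneg]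
  exact forall_congr' fun x => (sq_le_sq₀ (norm_nonneg _) (by positivity)).symm

theorem opn_mul (X : Matrix A B ℂ) (Y : Matrix B C ℂ) : opn (X * Y) ≤ opn X * opn Y := by
  exact l2_opNorm_mul X Y

theorem opn_add (X Y : Matrix A B ℂ) : opn (X + Y) ≤ opn X + opn Y := by
  exact norm_add_le X Y

theorem opn_sub (X Y : Matrix A B ℂ) : opn (X - Y) ≤ opn X + opn Y := by
  exact norm_sub_le X Y

theorem opn_smul (c : ℂ) (X : Matrix A B ℂ) : opn (c • X) = ‖c‖ * opn X := by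
  exact norm_smul c X

theorem opn_conjTranspose (X : Matrix A B ℂ) : opn Xᴴ = opn X := by
  exact l2_opNorm_conjTranspose X

theorem opn_one : opn (1 : Matrix A A ℂ) ≤ 1 := by
  rw [opn_le_iff _ zero_le_one]
  simpa using PosSemidef.zero

theorem opn_iso {V : Matrix A B ℂ} (hV : Vᴴ * V = 1) : opn V ≤ 1 := by
  rw [opn_le_iff _ zero_le_one, hV]
  simpa using PosSemidef.zero

theorem opn_kron_one (X : Matrix A A ℂ) : opn (X ⊗ₖ (1 : Matrix B B ℂ)) ≤ opn X := by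
  have h := ((opn_le_iff X (opn_nonneg X)).1 le_rfl).kronecker (PosSemidef.one (n := B) (R := ℂ))
  rw [opn_le_iff _ (opn_nonneg X), conjTranspose_kronecker, ← mul_kronecker_mul,
    conjTranspose_one, Matrix.mul_one]
  rwa [sub_eq_add_neg, add_kronecker, smul_kronecker, one_kronecker_one,
    ← neg_one_smul ℂ (Xᴴ * X), smul_kronecker, neg_one_smul, ← sub_eq_add_neg] at h

theorem opn_one_kron (X : Matrix B B ℂ) : opn ((1 : Matrix A A ℂ) ⊗ₖ X) ≤ opn X := by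
  have h := (PosSemidef.one (n := A) (R := ℂ)).kronecker ((opn_le_iff X (opn_nonneg X)).1 le_rfl)
  rw [opn_le_iff _ (opn_nonneg X), conjTranspose_kronecker, ← mul_kronecker_mul,
    conjTranspose_one, Matrix.mul_one]
  rwa [sub_eq_add_neg, kronecker_add, kronecker_smul, one_kronecker_one,
    ← neg_one_smul ℂ (Xᴴ * X), kronecker_smul, neg_one_smul, ← sub_eq_add_neg] at h

theorem opn_dg {U : Matrix A A ℂ} (hU : U ∈ unitaryGroup A ℂ) {p : A → ℝ} {r : ℝ} (hr : 0 ≤ r)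
    (h : ∀ i, |p i| ≤ r) : opn (dg U p) ≤ r := by
  have h1 : opn U ≤ 1 := opn_iso (mem_unitaryGroup_iff'.1 hU)
  have h2 : opn Uᴴ ≤ 1 := (opn_conjTranspose U).trans_le h1
  have h3 : opn (diagonal fun i => (p i : ℂ)) ≤ r := by
    rw [opn, l2_opNorm_diagonal, pi_norm_le_iff_of_nonneg hr]
    intro i
    rw [Complex.norm_real]
    exact h i
  calc opn (dg U p) ≤ opn U * opn (diagonal fun i => (p i : ℂ)) * opn Uᴴ :=
        (opn_mul _ _).trans (mul_le_mul_of_nonneg_right (opn_mul _ _) (opn_nonneg _))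
    _ ≤ 1 * r * 1 :=
        mul_le_mul (mul_le_mul h1 h3 (opn_nonneg _) zero_le_one) h2 (opn_nonneg _) (by positivity)
    _ = r := by ring

theorem opn_Pm (N : ℝ) (K a : Matrix A A ℂ) :
    opn (Pm N K a) ≤ (2 * |Tm N| * opn K + 1) * opn a := by
  have h1 := opn_sub ((Tm N : ℂ) • (a * K - K * a)) a
  have h2 := opn_sub (a * K) (K * a)
  have h3 := opn_mul a K
  have h4 := opn_mul K a
  rw [opn_smul, Complex.norm_real, Real.norm_eq_abs] at h1
  have h5 : |Tm N| * opn (a * K - K * a) ≤ |Tm N| * (2 * opn K * opn a) :=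
    mul_le_mul_of_nonneg_left (by linarith) (abs_nonneg _)
  rw [Pm]
  linarith

theorem opn_dfc {V : Matrix (C × D) (A × B) ℂ} (hV : Vᴴ * V = 1) {u v : ℝ} (hu : |u| ≤ 1)
    (hv : |v| ≤ 1) (a : Matrix A A ℂ) (c : Matrix C C ℂ) (d : Matrix D D ℂ) :
    opn (dfc V u v a c d) ≤ opn a + opn c + opn d := by
  have h1 : opn Vᴴ ≤ 1 := (opn_conjTranspose V).trans_le (opn_iso hV)
  have h2 : opn (mix u v c d) ≤ opn c + opn d := by
    refine (opn_add _ _).trans (add_le_add ?_ ?_)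
    · rw [opn_smul, Complex.norm_real, Real.norm_eq_abs]
      exact (mul_le_of_le_one_left (opn_nonneg _) hu).trans (opn_kron_one c)
    · rw [opn_smul, Complex.norm_real, Real.norm_eq_abs]
      exact (mul_le_of_le_one_left (opn_nonneg _) hv).trans (opn_one_kron d)
  have h3 : opn (Vᴴ * mix u v c d) ≤ opn c + opn d :=
    (opn_mul _ _).trans ((mul_le_of_le_one_left (opn_nonneg _) h1).trans h2)
  have h4 : opn ((a ⊗ₖ (1 : Matrix B B ℂ)) * Vᴴ) ≤ opn a :=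
    (opn_mul _ _).trans ((mul_le_of_le_one_right (opn_nonneg _) h1).trans (opn_kron_one a))
  have h5 := opn_sub (Vᴴ * mix u v c d) ((a ⊗ₖ (1 : Matrix B B ℂ)) * Vᴴ)
  rw [dfc]
  linarith

/-- Cauchy-Schwarz -/
theorem trace_cs {ρ : Matrix A A ℂ} (hρ : ρ.PosSemidef) (X Y : Matrix B A ℂ) :
    ‖(ρ * (Xᴴ * Y)).trace‖ ^ 2 ≤ (ρ * (Xᴴ * X)).trace.re * (ρ * (Yᴴ * Y)).trace.re := by
  open scoped MatrixOrder in
  obtain ⟨S, rfl⟩ := CStarAlgebra.nonneg_iff_eq_star_mul_self.mp hρ.nonneg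
  have e : ∀ X Y : Matrix B A ℂ,
      (star S * S * (Xᴴ * Y)).trace = ((X * Sᴴ)ᴴ * (Y * Sᴴ)).trace := fun X Y => by
    rw [star_eq_conjTranspose, Matrix.mul_assoc, trace_mul_comm, conjTranspose_mul,
      conjTranspose_conjTranspose]
    simp only [Matrix.mul_assoc]
  rw [e, e, e, opn_aux_trace, opn_aux_trace, opn_aux_trace, inner_self_eq_norm_sq_to_K,
    inner_self_eq_norm_sq_to_K]
  refine (pow_le_pow_left₀ (norm_nonneg _) (norm_inner_le_norm _ _) 2).trans_eq ?_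
  rw [mul_pow]
  simp [← Complex.ofReal_pow]

theorem trace_proj_le {ρ P : Matrix A A ℂ} (hρ : IsDensity ρ) (hP : Pᴴ = P) (hP2 : P * P = P)
    (Z : Matrix A A ℂ) : ‖(ρ * P * Z).trace‖ ≤ √((ρ * P).trace.re) * opn Z := by
  have h1 := trace_cs hρ.1 P Z
  rw [hP, hP2, ← Matrix.mul_assoc] at h1
  have h2 := trace_mul_nonneg hρ.1 ((opn_le_iff Z (opn_nonneg Z)).1 le_rfl)
  rw [Matrix.mul_sub, Matrix.mul_smul, Matrix.mul_one, trace_sub, trace_smul, hρ.2, smul_eq_mul,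
    mul_one, Complex.sub_re, Complex.ofReal_re, sub_nonneg] at h2
  have h3 : 0 ≤ (ρ * P).trace.re := by
    refine trace_mul_nonneg hρ.1 ?_
    have := posSemidef_conjTranspose_mul_self P
    rwa [hP, hP2] at this
  refine (pow_le_pow_iff_left₀ (norm_nonneg _)
    (mul_nonneg (Real.sqrt_nonneg _) (opn_nonneg _)) two_ne_zero).1 ?_
  rw [mul_pow, Real.sq_sqrt h3]
  exact h1.trans (mul_le_mul_of_nonneg_left h2 h3)

theorem bdy_le {V : Matrix (C × D) (A × B) ℂ} (hV : Vᴴ * V = 1) {F : Matrix (A × B) (C × D) ℂ}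
    {P : Matrix A A ℂ} (hP : Pᴴ = P) (hP2 : P * P = P)
    (hF : (P ⊗ₖ (1 : Matrix B B ℂ)) * F = F) {ρA : Matrix A A ℂ} {ρB : Matrix B B ℂ}
    (hA : IsDensity ρA) (hB : IsDensity ρB) (Y : Matrix C C ℂ) (Z : Matrix A A ℂ) :
    ‖bdy V F ρA ρB Y Z‖ ≤ √((ρA * P).trace.re) * (opn F * opn Y * opn Z) := by
  have hρ : IsDensity (ρA ⊗ₖ ρB) :=
    ⟨hA.1.kronecker hB.1, by rw [trace_kronecker, hA.2, hB.2, mul_one]⟩
  have h1 := trace_proj_le hρ (P := P ⊗ₖ (1 : Matrix B B ℂ))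
    (by rw [conjTranspose_kronecker, hP, conjTranspose_one])
    (by rw [← mul_kronecker_mul, hP2, Matrix.mul_one])
    (F * (Y ⊗ₖ (1 : Matrix D D ℂ)) * V * (Z ⊗ₖ (1 : Matrix B B ℂ)))
  have e1 : ((ρA ⊗ₖ ρB) * (P ⊗ₖ (1 : Matrix B B ℂ))).trace = (ρA * P).trace := by
    rw [← mul_kronecker_mul, trace_kronecker, Matrix.mul_one, hB.2, mul_one]
  have e2 : ((ρA ⊗ₖ ρB) * (P ⊗ₖ (1 : Matrix B B ℂ)) *
      (F * (Y ⊗ₖ (1 : Matrix D D ℂ)) * V * (Z ⊗ₖ (1 : Matrix B B ℂ)))).trace =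
      bdy V F ρA ρB Y Z := by
    rw [bdy]
    conv_rhs => rw [← hF]
    simp only [Matrix.mul_assoc]
  rw [e1, e2] at h1
  refine h1.trans (mul_le_mul_of_nonneg_left ?_ (Real.sqrt_nonneg _))
  have n1 := opn_nonneg F
  have n2 := opn_nonneg Y
  have h2 : opn (F * (Y ⊗ₖ (1 : Matrix D D ℂ))) ≤ opn F * opn Y :=
    (opn_mul _ _).trans (mul_le_mul_of_nonneg_left (opn_kron_one Y) n1)
  have h3 : opn (F * (Y ⊗ₖ (1 : Matrix D D ℂ)) * V) ≤ opn F * opn Y :=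
    (opn_mul _ _).trans ((mul_le_of_le_one_right (opn_nonneg _) (opn_iso hV)).trans h2)
  exact (opn_mul _ _).trans (mul_le_mul h3 (opn_kron_one Z) (opn_nonneg _) (by positivity))

end Crest.Agent.R331

end
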