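import Crest.Agent.R331.Amp3
import Crest.Agent.R331.Opn

/-!
# Algebra of the truncated ladder operators

All statements are entrywise computations with `mul_ann_apply`, `ann_mul_apply` or directly with the definition of
`ann` (`ann k l ≠ 0` forces `l = k + e j`, `tot l = tot k + 1`).
-/

open scoped ComplexOrder Kronecker Matrix
open Matrix Crest.Quantum Crest.MathPhysics.Bosonic

noncomputable section

namespace Crest.Agent.R331

variable {n K : ℕ}

theorem alg_tot_add (k : Occ n) (j : Fin n) : tot (k + Pi.single j 1) = tot k + 1 := by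
  simp [tot, Finset.sum_add_distrib]

theorem alg_ann_apply (j : Fin n) (k l : VK n K) :
    ann n K j k l = if l.1 = k.1 + Pi.single j 1 then (√(l.1 j : ℝ) : ℂ) else 0 := rfl

theorem alg_ann_ne {j : Fin n} {k l : VK n K} (h : ann n K j k l ≠ 0) :
    tot l.1 = tot k.1 + 1 := by
  rw [alg_ann_apply] at h
  split_ifs at h with h1
  · rw [h1, alg_tot_add]
  · exact absurd rfl h

theorem alg_le_tot (k : Occ n) (j : Fin n) : k j ≤ tot k :=
  Finset.single_le_sum (f := k) (fun _ _ => Nat.zero_le _) (Finset.mem_univ j)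

theorem alg_f6_succ (m : ℕ) : f6 (m + 1) = f6 m + ((m + 1 : ℕ) : ℝ) ^ 5 :=
  Finset.sum_range_succ _ _

theorem alg_f6_mono : Monotone f6 := monotone_nat_of_le_succ fun m => by
  rw [alg_f6_succ]
  exact le_add_of_nonneg_right (by positivity)

theorem dN_mul (g g' : ℕ → ℝ) : dN n K g * dN n K g' = dN n K fun m => g m * g' m := by
  unfold dN
  rw [diagonal_mul_diagonal]
  simp only [Complex.ofReal_mul]

theorem dN_herm (g : ℕ → ℝ) : (dN n K g).IsHermitian := by
  unfold dN
  exact isHermitian_diagonal_of_self_adjoint _ (funext fun k => Complex.conj_ofReal _)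

theorem dN_psd {g : ℕ → ℝ} (h : ∀ m, 0 ≤ g m) : (dN n K g).PosSemidef := by
  unfold dN
  exact PosSemidef.diagonal fun k => Complex.zero_le_real.2 (h _)

theorem dN_posDef {g : ℕ → ℝ} (h : ∀ m, 0 < g m) : (dN n K g).PosDef := by
  unfold dN
  exact PosDef.diagonal fun k => Complex.zero_lt_real.2 (h _)

theorem trace_mul_dN (X : Matrix (VK n K) (VK n K) ℂ) (g : ℕ → ℝ) :
    (X * dN n K g).trace.re = ∑ k, (X k k).re * g (tot k.1) := by
  simp [dN, trace, Matrix.mul_diagonal]

/-- `a g(N) = g(N + 1) a` -/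
theorem ann_mul_dN (j : Fin n) (g : ℕ → ℝ) :
    ann n K j * dN n K g = dN n K (fun m => g (m + 1)) * ann n K j := by
  ext k l
  simp only [dN, Matrix.mul_diagonal, Matrix.diagonal_mul]
  by_cases h : ann n K j k l = 0
  · rw [h, zero_mul, mul_zero]
  · rw [alg_ann_ne h, mul_comm]

theorem annH_mul_ann (j : Fin n) :
    (ann n K j)ᴴ * ann n K j = diagonal fun k => ((k.1 j : ℝ) : ℂ) := by
  ext k l
  rw [mul_ann_apply, conjTranspose_apply, alg_ann_apply, diagonal_apply]
  by_cases h0 : l.1 j = 0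
  · split_ifs with h1 h2 h2 <;> simp_all
  · have h1 : l.1 - Pi.single j 1 + Pi.single j 1 = l.1 := by
      funext i
      by_cases hi : i = j
      · subst hi
        simp
        omega
      · simp [hi]
    simp only [h1]
    by_cases h : k = l
    · subst h
      simp only [if_true, RCLike.star_def, Complex.conj_ofReal]
      rw [← Complex.ofReal_mul, Real.mul_self_sqrt (Nat.cast_nonneg _)]
    · rw [if_neg h, if_neg (fun h2 => h (Subtype.ext h2)), star_zero, mul_zero]

theorem ann_mul_annH (j : Fin n) :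
    ann n K j * (ann n K j)ᴴ =
      diagonal fun k => ((if tot k.1 < K then (k.1 j : ℝ) + 1 else 0 : ℝ) : ℂ) := by
  ext k l
  rw [ann_mul_apply, diagonal_apply]
  by_cases h : tot (k.1 + Pi.single j 1) ≤ K
  · have h1 : tot k.1 < K := by rwa [alg_tot_add] at h
    rw [dif_pos h, conjTranspose_apply, alg_ann_apply, if_pos h1]
    by_cases h2 : k = l
    · subst h2
      simp only [if_true, RCLike.star_def, Complex.conj_ofReal, Pi.add_apply, Pi.single_eq_same,
        Nat.cast_add, Nat.cast_one]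
      rw [← Complex.ofReal_mul, Real.mul_self_sqrt (by positivity)]
    · rw [if_neg h2, if_neg (fun h3 => h2 (Subtype.ext (add_right_cancel h3))), star_zero, mul_zero]
  · have h1 : ¬ tot k.1 < K := by rwa [alg_tot_add] at h
    rw [dif_neg h, if_neg h1]
    simp

theorem sum_annH_mul_ann : ∑ j, (ann n K j)ᴴ * ann n K j = num n K := by
  simp only [annH_mul_ann]
  ext k l
  simp only [Matrix.sum_apply, num, dN, diagonal_apply]
  split_ifs
  · simp [tot]
  · simp

theorem annH_mul_topP (j : Fin n) : (ann n K j)ᴴ * topP n K = 0 := by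
  ext k l
  simp only [topP, dN, Matrix.mul_diagonal, conjTranspose_apply, Matrix.zero_apply]
  by_cases h : ann n K j l k = 0
  · rw [h, star_zero, zero_mul]
  · have h1 := alg_ann_ne h
    have h2 := k.2
    rw [if_neg (by omega)]
    simp

theorem topP_herm : (topP n K)ᴴ = topP n K := by
  exact dN_herm _

theorem topP_mul : topP n K * topP n K = topP n K := by
  unfold topP
  rw [dN_mul]
  congr 1
  funext m
  split_ifs <;> simp

theorem opn_ann (j : Fin n) : opn (ann n K j) ≤ √(K : ℝ) := by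
  rw [opn_le_iff _ (Real.sqrt_nonneg _), Real.sq_sqrt (Nat.cast_nonneg _), annH_mul_ann,
    ← diagonal_one, ← diagonal_smul, diagonal_sub]
  refine PosSemidef.diagonal fun k => ?_
  have h : ((k.1 j : ℕ) : ℝ) ≤ K := by exact_mod_cast (alg_le_tot k.1 j).trans k.2
  simp only [Pi.zero_apply, Pi.smul_apply, smul_eq_mul, mul_one, ← Complex.ofReal_sub]
  exact Complex.zero_le_real.2 (sub_nonneg.2 h)

theorem ann_Hpen (j : Fin n) (w ε δ : ℝ) :
    ann n K j * Hpen n K w ε δ - Hpen n K w ε δ * ann n K j =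
      (w : ℂ) • ((ε : ℂ) • ann n K j + (δ : ℂ) • gann n K j) := by
  ext k l
  simp only [Hpen, gann, dN, Matrix.sub_apply, Matrix.add_apply, Matrix.smul_apply,
    Matrix.mul_diagonal, Matrix.diagonal_mul, smul_eq_mul]
  by_cases h : ann n K j k l = 0
  · simp [h]
  · rw [alg_ann_ne h, alg_f6_succ]
    push_cast
    ring

theorem qm_flo (j : Fin n) {N : ℝ} (hN : 0 < N) (δ : ℝ) : qm N (flo n K N δ) (ann n K j) = 0 := by
  ext k l
  simp only [qm, flo, dN, Matrix.sub_apply, Matrix.smul_apply, Matrix.mul_diagonal,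
    Matrix.diagonal_mul, smul_eq_mul, Matrix.zero_apply]
  by_cases h : ann n K j k l = 0
  · simp [h]
  · have h1 : (N : ℂ) + 1 ≠ 0 := by exact_mod_cast (by linarith : N + 1 ≠ 0)
    rw [alg_ann_ne h, pow_succ]
    push_cast
    field_simp
    ring

theorem trace_dN_mul_ann (j : Fin n) (g : ℕ → ℝ) : (dN n K g * ann n K j).trace = 0 := by
  refine Finset.sum_eq_zero fun k _ => ?_
  simp only [dN, diag_apply, Matrix.diagonal_mul]
  by_cases h : ann n K j k k = 0
  · rw [h, mul_zero]
  · have := alg_ann_ne h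
    omega

theorem f6_nonneg (m : ℕ) : 0 ≤ f6 m := by
  exact Finset.sum_nonneg fun i _ => by positivity

theorem f6_ge (m : ℕ) : (m : ℝ) ^ 6 / 6 ≤ f6 m := by
  induction m with
  | zero => simp [f6]
  | succ m ih =>
    rw [alg_f6_succ]
    push_cast
    have h : (0 : ℝ) ≤ m := Nat.cast_nonneg m
    have h1 : ((m : ℝ) + 1) ^ 6 / 6 - ((m : ℝ) ^ 6 / 6 + (m + 1) ^ 5) =
        -((5 / 2) * m ^ 4 + (20 / 3) * m ^ 3 + (15 / 2) * m ^ 2 + 4 * m + 5 / 6) := by ring
    have h2 : (0 : ℝ) ≤ (5 / 2) * m ^ 4 + (20 / 3) * m ^ 3 + (15 / 2) * m ^ 2 + 4 * m + 5 / 6 := by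
      positivity
    linarith

theorem top_le {X : Matrix (VK n K) (VK n K) ℂ} (hX : X.PosSemidef) :
    (X * topP n K).trace.re * f6 K ≤ (X * dN n K f6).trace.re := by
  rw [topP, trace_mul_dN, trace_mul_dN, Finset.sum_mul]
  refine Finset.sum_le_sum fun k _ => ?_
  have h : 0 ≤ (X k k).re := (Complex.le_def.1 (hX.diag_nonneg (i := k))).1
  rw [mul_assoc]
  refine mul_le_mul_of_nonneg_left ?_ h
  split_ifs with h1
  · rw [h1, one_mul]
  · rw [zero_mul]
    exact f6_nonneg _

end Crest.Agent.R331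

end
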