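import Crest.Agent.R331.Defs

/-!
# One mode pair: recurrences and orthogonality of `bsAmp`

Let `s = √η`, `t = √(1-η)`, `s^2 + t^2 = 1`.  For `p + q = k + l`, `bsAmp η k l p q = √(p! q! / (k! l!)) * coeff p (G k l)` with
the one-variable polynomial `G k l = (C s * X - C t)^k * (C t * X + C s)^l` of degree `≤ k + l`
(`Polynomial.coeff_mul`, binomial theorem); write `g k l p` for the coefficient.
* raising (`amp_up_a/b`): `G (k+1) l = (s X - t) G k l`, `G k (l+1) = (t X + s) G k l`.
* lowering (`amp_down_a/b`): with `m = k + l`, `G' = k s G (k-1) l + l t G k (l-1)` and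
  `m G - X G' = -k t G (k-1) l + l s G k (l-1)`; so `s G' - t (m G - X G') = k G (k-1) l` and
  `t G' + s (m G - X G') = l G k (l-1)`.  Take coefficients.
* orthogonality: induction on `m`; if `k > 0` use `amp_up_a` for the first factor, shift the summation index, and
  `amp_down_a` for the second factor: `√k S(k,l;k',l') = √k' S(k-1,l;k'-1,l')`; similarly if `l > 0`.
-/

open scoped ComplexOrder Kronecker Matrix
open Matrix Crest.Quantum Crest.MathPhysics.Bosonic

noncomputable section

namespace Crest.Agent.R331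

section aux

open Polynomial

/-- `√(n!)` -/
def amp1W (n : ℕ) : ℝ := √(n.factorial : ℝ)

/-- the generating polynomial -/
def amp1G (s t : ℝ) (k l : ℕ) : ℝ[X] := (C s * X + C (-t)) ^ k * (C t * X + C s) ^ l

theorem amp1W_pos (n : ℕ) : 0 < amp1W n := Real.sqrt_pos.2 (by exact_mod_cast n.factorial_pos)

theorem amp1W_succ (n : ℕ) : amp1W (n + 1) = √((n : ℝ) + 1) * amp1W n := by
  rw [amp1W, amp1W, Nat.factorial_succ, ← Real.sqrt_mul (by positivity)]
  push_cast
  rfl

theorem amp1_coeff (a b : ℝ) (k i : ℕ) :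
    ((C a * X + C b) ^ k).coeff i = k.choose i * (a ^ i * b ^ (k - i)) := by
  rw [show (C a * X + C b) ^ k = ((X + C b) ^ k).comp (C a * X) by simp, comp_C_mul_X_coeff,
    coeff_X_add_C_pow]
  ring

theorem amp1_eq (η : ℝ) (k l p q : ℕ) : bsAmp η k l p q = if p + q = k + l then
    amp1W p * amp1W q / (amp1W k * amp1W l) * (amp1G √η √(1 - η) k l).coeff p else 0 := by
  refine if_congr Iff.rfl ?_ rfl
  congr 1
  · simp only [amp1W]
    push_cast
    rw [Real.sqrt_div (by positivity), Real.sqrt_mul (by positivity), Real.sqrt_mul (by positivity)]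
  · rw [amp1G, coeff_mul, Finset.Nat.sum_antidiagonal_eq_sum_range_succ_mk]
    simp only [amp1_coeff]
    rw [← Finset.sum_filter]
    refine Finset.sum_subset_zero_on_sdiff (fun i hi => ?_) (fun i hi => ?_) fun i _ => ?_
    · simp only [Finset.mem_filter, Finset.mem_range] at hi ⊢
      omega
    · simp only [Finset.mem_sdiff, Finset.mem_filter, Finset.mem_range] at hi
      by_cases h : k < i
      · simp [Nat.choose_eq_zero_of_lt h]
      · simp [Nat.choose_eq_zero_of_lt (show l < p - i by omega)]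
    · push_cast
      ring

theorem amp1G_top (s t : ℝ) (k l : ℕ) : (amp1G s t k l).coeff (k + l + 1) = 0 := by
  refine coeff_eq_zero_of_natDegree_lt (Nat.lt_succ_of_le (natDegree_mul_le.trans (add_le_add
    (natDegree_pow_le.trans ?_) (natDegree_pow_le.trans ?_))))
  · simpa using Nat.mul_le_mul_left k (natDegree_linear_le (a := s) (b := -t))
  · simpa using Nat.mul_le_mul_left l (natDegree_linear_le (a := t) (b := s))

theorem amp1_up_p (η : ℝ) (k l p q : ℕ) : √(p : ℝ) * bsAmp η k l (p - 1) q =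
    if p + q = k + l + 1 then amp1W p * amp1W q / (amp1W k * amp1W l) *
      (X * amp1G √η √(1 - η) k l).coeff p else 0 := by
  cases p with
  | zero => simp
  | succ p =>
    rw [amp1_eq, Nat.add_sub_cancel, coeff_X_mul, amp1W_succ, mul_ite, mul_zero]
    refine if_congr (by omega) ?_ rfl
    push_cast
    ring

theorem amp1_up_q (η : ℝ) (k l p q : ℕ) : √(q : ℝ) * bsAmp η k l p (q - 1) =
    if p + q = k + l + 1 then amp1W p * amp1W q / (amp1W k * amp1W l) *
      (amp1G √η √(1 - η) k l).coeff p else 0 := by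
  cases q with
  | zero =>
    split_ifs with h
    · rw [add_zero] at h
      simp [h, amp1G_top]
    · simp
  | succ q =>
    rw [amp1_eq, Nat.add_sub_cancel, amp1W_succ, mul_ite, mul_zero]
    refine if_congr (by omega) ?_ rfl
    push_cast
    ring

theorem amp1_down_p (η : ℝ) (k l p q : ℕ) : √((p : ℝ) + 1) * bsAmp η k l (p + 1) q =
    if p + q + 1 = k + l then amp1W p * amp1W q / (amp1W k * amp1W l) *
      (derivative (amp1G √η √(1 - η) k l)).coeff p else 0 := by
  rw [amp1_eq, coeff_derivative, amp1W_succ, mul_ite, mul_zero]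
  refine if_congr (by omega) ?_ rfl
  linear_combination (amp1W p * amp1W q / (amp1W k * amp1W l) *
    (amp1G √η √(1 - η) k l).coeff (p + 1)) * Real.sq_sqrt (by positivity : (0 : ℝ) ≤ p + 1)

theorem amp1_down_q (η : ℝ) (k l p q : ℕ) : √((q : ℝ) + 1) * bsAmp η k l p (q + 1) =
    if p + q + 1 = k + l then amp1W p * amp1W q / (amp1W k * amp1W l) *
      ((C (k : ℝ) + C (l : ℝ)) * amp1G √η √(1 - η) k l -
        X * derivative (amp1G √η √(1 - η) k l)).coeff p else 0 := by
  rw [amp1_eq, amp1W_succ, mul_ite, mul_zero]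
  refine if_ctx_congr (by omega) (fun h => ?_) fun _ => rfl
  have h1 : (p : ℝ) + q + 1 = k + l := by exact_mod_cast h
  have h2 : ∀ G : ℝ[X], (X * derivative G).coeff p = p * G.coeff p := fun G => by
    cases p with
    | zero => simp
    | succ p => rw [coeff_X_mul, coeff_derivative]; push_cast; ring
  rw [coeff_sub, h2, ← C_add, coeff_C_mul, ← h1]
  linear_combination (amp1W p * amp1W q / (amp1W k * amp1W l) *
    (amp1G √η √(1 - η) k l).coeff p) * Real.sq_sqrt (by positivity : (0 : ℝ) ≤ q + 1)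

theorem amp1_pow (u : ℝ[X]) (k : ℕ) : C (k : ℝ) * u ^ k = C (k : ℝ) * u ^ (k - 1) * u := by
  cases k with
  | zero => simp
  | succ k => rw [Nat.add_sub_cancel, pow_succ, mul_assoc]

theorem amp1G_down {s t : ℝ} (h : s ^ 2 + t ^ 2 = 1) (k l : ℕ) :
    C (k : ℝ) * amp1G s t (k - 1) l = C s * derivative (amp1G s t k l) -
      C t * ((C (k : ℝ) + C (l : ℝ)) * amp1G s t k l - X * derivative (amp1G s t k l)) ∧
    C (l : ℝ) * amp1G s t k (l - 1) = C t * derivative (amp1G s t k l) +
      C s * ((C (k : ℝ) + C (l : ℝ)) * amp1G s t k l - X * derivative (amp1G s t k l)) := by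
  have h0 : (C s : ℝ[X]) ^ 2 + C t ^ 2 = 1 := by rw [← C_pow, ← C_pow, ← C_add, h, C_1]
  have e1 := amp1_pow (C s * X + C (-t)) k
  have e2 := amp1_pow (C t * X + C s) l
  simp only [amp1G, derivative_mul, derivative_pow, derivative_add, derivative_C, derivative_X,
    C_neg, derivative_neg] at e1 e2 ⊢
  constructor
  · linear_combination -(C (k : ℝ) * (C s * X + -C t) ^ (k - 1) * (C t * X + C s) ^ l) * h0 +
      ((C s * X + -C t) ^ k * C t) * e2 + (C t * (C t * X + C s) ^ l) * e1
  · linear_combination -(C (l : ℝ) * (C s * X + -C t) ^ k * (C t * X + C s) ^ (l - 1)) * h0 -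
      ((C s * X + -C t) ^ k * C s) * e2 - (C s * (C t * X + C s) ^ l) * e1

theorem amp1_sq {η : ℝ} (hη : η ∈ Set.Icc (0 : ℝ) 1) : √η ^ 2 + √(1 - η) ^ 2 = 1 := by
  rw [Real.sq_sqrt hη.1, Real.sq_sqrt (sub_nonneg.2 hη.2), add_sub_cancel]

theorem amp1_shift (m : ℕ) (A B : ℕ → ℕ → ℝ) (a b : ℝ) :
    ∑ p ∈ Finset.range (m + 1 + 1), (a * √(p : ℝ) * A (p - 1) (m + 1 - p) +
      b * √((m + 1 - p : ℕ) : ℝ) * A p (m + 1 - p - 1)) * B p (m + 1 - p) =
    ∑ p ∈ Finset.range (m + 1), A p (m - p) * (a * √((p : ℝ) + 1) * B (p + 1) (m - p) +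
      b * √(((m - p : ℕ) : ℝ) + 1) * B p (m - p + 1)) := by
  simp only [add_mul, mul_add, Finset.sum_add_distrib]
  congr 1
  · rw [Finset.sum_range_succ']
    simp only [Nat.cast_zero, Real.sqrt_zero, mul_zero, zero_mul, add_zero, Nat.add_sub_cancel,
      Nat.add_sub_add_right]
    refine Finset.sum_congr rfl fun p _ => ?_
    push_cast
    ring
  · rw [Finset.sum_range_succ]
    simp only [Nat.sub_self, Nat.cast_zero, Real.sqrt_zero, mul_zero, zero_mul, add_zero]
    refine Finset.sum_congr rfl fun p hp => ?_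
    rw [show m + 1 - p = m - p + 1 by have := Finset.mem_range.1 hp; omega, Nat.add_sub_cancel]
    push_cast
    ring

end aux

theorem amp_of_ne (η : ℝ) {k l p q : ℕ} (h : p + q ≠ k + l) : bsAmp η k l p q = 0 :=
  if_neg h

theorem amp_zero (η : ℝ) : bsAmp η 0 0 0 0 = 1 := by
  simp [bsAmp]

theorem amp_up_a (η : ℝ) (k l p q : ℕ) :
    √((k : ℝ) + 1) * bsAmp η (k + 1) l p q =
      √η * √(p : ℝ) * bsAmp η k l (p - 1) q - √(1 - η) * √(q : ℝ) * bsAmp η k l p (q - 1) := by
  rw [mul_assoc, mul_assoc, amp1_up_p, amp1_up_q, amp1_eq, amp1W_succ,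
    show amp1G √η √(1 - η) (k + 1) l = Polynomial.C √η * (Polynomial.X * amp1G √η √(1 - η) k l) -
      Polynomial.C √(1 - η) * amp1G √η √(1 - η) k l by
        simp only [amp1G, Polynomial.C_neg]; ring,
    Polynomial.coeff_sub, Polynomial.coeff_C_mul, Polynomial.coeff_C_mul, Nat.add_right_comm k 1 l]
  split_ifs
  · have := amp1W_pos k
    have := amp1W_pos l
    field_simp
  · simp

theorem amp_up_b (η : ℝ) (k l p q : ℕ) :
    √((l : ℝ) + 1) * bsAmp η k (l + 1) p q =
      √(1 - η) * √(p : ℝ) * bsAmp η k l (p - 1) q + √η * √(q : ℝ) * bsAmp η k l p (q - 1) := by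
  rw [mul_assoc, mul_assoc, amp1_up_p, amp1_up_q, amp1_eq, amp1W_succ,
    show amp1G √η √(1 - η) k (l + 1) = Polynomial.C √(1 - η) *
      (Polynomial.X * amp1G √η √(1 - η) k l) + Polynomial.C √η * amp1G √η √(1 - η) k l by
        simp only [amp1G, Polynomial.C_neg]; ring,
    Polynomial.coeff_add, Polynomial.coeff_C_mul, Polynomial.coeff_C_mul, ← add_assoc]
  split_ifs
  · have := amp1W_pos k
    have := amp1W_pos l
    field_simp
  · simp

theorem amp_down_a {η : ℝ} (hη : η ∈ Set.Icc (0 : ℝ) 1) (k l p q : ℕ) :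
    √(k : ℝ) * bsAmp η (k - 1) l p q =
      √η * √((p : ℝ) + 1) * bsAmp η k l (p + 1) q -
        √(1 - η) * √((q : ℝ) + 1) * bsAmp η k l p (q + 1) := by
  have h := congrArg (Polynomial.coeff · p) (amp1G_down (amp1_sq hη) k l).1
  simp only [Polynomial.coeff_sub (Polynomial.C _ * _), Polynomial.coeff_C_mul] at h
  rw [mul_assoc, mul_assoc, amp1_down_p, amp1_down_q, mul_ite, mul_ite, mul_left_comm √η,
    mul_left_comm √(1 - η), ite_sub_ite, ← mul_sub, ← h]
  cases k with
  | zero => simp
  | succ k =>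
    rw [amp1_eq, Nat.add_sub_cancel, amp1W_succ, mul_ite]
    refine if_congr (by omega) ?_ (by simp)
    have := amp1W_pos k
    have := amp1W_pos l
    push_cast
    field_simp
    rw [Real.sq_sqrt (by positivity)]

theorem amp_down_b {η : ℝ} (hη : η ∈ Set.Icc (0 : ℝ) 1) (k l p q : ℕ) :
    √(l : ℝ) * bsAmp η k (l - 1) p q =
      √(1 - η) * √((p : ℝ) + 1) * bsAmp η k l (p + 1) q +
        √η * √((q : ℝ) + 1) * bsAmp η k l p (q + 1) := by
  have h := congrArg (Polynomial.coeff · p) (amp1G_down (amp1_sq hη) k l).2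
  simp only [Polynomial.coeff_add (Polynomial.C _ * _), Polynomial.coeff_C_mul] at h
  rw [mul_assoc, mul_assoc, amp1_down_p, amp1_down_q, mul_ite, mul_ite, mul_left_comm √η,
    mul_left_comm √(1 - η), ite_add_ite, ← mul_add, ← h]
  cases l with
  | zero => simp
  | succ l =>
    rw [amp1_eq, Nat.add_sub_cancel, amp1W_succ, mul_ite]
    refine if_congr (by omega) ?_ (by simp)
    have := amp1W_pos k
    have := amp1W_pos l
    push_cast
    field_simp
    rw [Real.sq_sqrt (by positivity)]

theorem amp_orth1 {η : ℝ} (hη : η ∈ Set.Icc (0 : ℝ) 1) {m k l k' l' : ℕ} (h : k + l = m)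
    (h' : k' + l' = m) :
    ∑ p ∈ Finset.range (m + 1), bsAmp η k l p (m - p) * bsAmp η k' l' p (m - p) =
      if k = k' then 1 else 0 := by
  induction m generalizing k l k' l' with
  | zero =>
    obtain ⟨rfl, rfl⟩ := Nat.add_eq_zero_iff.1 h
    obtain ⟨rfl, rfl⟩ := Nat.add_eq_zero_iff.1 h'
    simp [amp_zero]
  | succ m ih =>
    cases k with
    | succ k =>
      refine mul_left_cancel₀ (a := √((k : ℝ) + 1)) (by positivity) ?_
      have h1 := amp1_shift m (bsAmp η k l) (bsAmp η k' l') √η (-√(1 - η))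
      simp only [neg_mul, ← sub_eq_add_neg, ← amp_up_a, ← amp_down_a hη] at h1
      simp only [mul_assoc, mul_left_comm _ √(k' : ℝ), ← Finset.mul_sum] at h1
      rw [h1]
      cases k' with
      | zero => simp
      | succ k' =>
        rw [Nat.add_sub_cancel, ih (by omega) (by omega)]
        by_cases h2 : k = k' <;> simp [h2]
    | zero =>
      obtain rfl : l = m + 1 := by omega
      refine mul_left_cancel₀ (a := √((m : ℝ) + 1)) (by positivity) ?_
      have h1 := amp1_shift m (bsAmp η 0 m) (bsAmp η k' l') √(1 - η) √η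
      simp only [← amp_up_b, ← amp_down_b hη] at h1
      simp only [mul_assoc, mul_left_comm _ √(l' : ℝ), ← Finset.mul_sum] at h1
      rw [h1]
      cases l' with
      | zero => simp [show 0 ≠ k' by omega]
      | succ l' =>
        rw [Nat.add_sub_cancel, ih (by omega) (by omega)]
        by_cases h2 : 0 = k'
        · simp [h2, show l' = m by omega]
        · simp [h2]

theorem amp_one (k l p q : ℕ) : bsAmp 1 k l p q = if p = k ∧ q = l then 1 else 0 := by
  have := amp1W_pos k
  have := amp1W_pos l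
  simp only [amp1_eq, amp1G, Real.sqrt_one, sub_self, Real.sqrt_zero, neg_zero, map_one, map_zero,
    one_mul, zero_mul, add_zero, zero_add, one_pow, mul_one, Polynomial.coeff_X_pow]
  by_cases h1 : p = k <;> by_cases h2 : q = l <;> simp [*, ne_of_gt]

theorem amp_zero_eta (k l p q : ℕ) :
    bsAmp 0 k l p q = if p = l ∧ q = k then (-1) ^ k else 0 := by
  have := amp1W_pos k
  have := amp1W_pos l
  simp only [amp1_eq, amp1G, Real.sqrt_one, sub_zero, Real.sqrt_zero, map_one, map_zero,
    one_mul, zero_mul, add_zero, zero_add, ← Polynomial.C_pow, Polynomial.coeff_C_mul,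
    Polynomial.coeff_X_pow]
  by_cases h1 : p = l <;> by_cases h2 : q = k <;> simp [add_comm l, mul_comm (amp1W l), *, ne_of_gt]

end Crest.Agent.R331

end
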