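import Crest.Agent.R331.Ent

/-!
# The abstract channel `out`, its adjoint `adj`, partial traces

Everything follows from `trace_mul_ptr : Tr (Y * ptr M) = Tr ((Y ⊗ 1) * M)`, `ptr_mul_left/right`, cyclicity of the
trace and `Matrix.mul_kronecker_mul`.  `ptr M = ∑ b, (E b)ᴴ * M * E b` (or `M.submatrix (·, b) (·, b)`) gives
positivity.
-/

open scoped ComplexOrder Kronecker Matrix
open Matrix Crest.Quantum Crest.MathPhysics.Bosonic

noncomputable section

namespace Crest.Agent.R331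

variable {A B C D : Type*} [Fintype A] [Fintype B] [Fintype C] [Fintype D]
  [DecidableEq A] [DecidableEq B] [DecidableEq C] [DecidableEq D]

set_option linter.unusedSectionVars false

theorem chan_ptr_mul_left (X : Matrix A A ℂ) (M : Matrix (A × B) (A × B) ℂ) :
    ptr ((X ⊗ₖ (1 : Matrix B B ℂ)) * M) = X * ptr M := by
  ext a a'
  simp only [ptr, of_apply, mul_apply, Fintype.sum_prod_type, kroneckerMap_apply, one_apply,
    mul_ite, mul_one, mul_zero, ite_mul, zero_mul, Finset.sum_ite_eq, Finset.mem_univ, if_true,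
    Finset.mul_sum]
  exact Finset.sum_comm

theorem trace_ptr (M : Matrix (A × B) (A × B) ℂ) : (ptr M).trace = M.trace := by
  simp only [ptr, trace, diag_apply, of_apply, Fintype.sum_prod_type]

theorem trace_mul_ptr (Y : Matrix A A ℂ) (M : Matrix (A × B) (A × B) ℂ) :
    (Y * ptr M).trace = ((Y ⊗ₖ (1 : Matrix B B ℂ)) * M).trace := by
  rw [← chan_ptr_mul_left, trace_ptr]

theorem ptr_add (M M' : Matrix (A × B) (A × B) ℂ) : ptr (M + M') = ptr M + ptr M' := by
  ext a a'
  simp [ptr, Finset.sum_add_distrib]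

theorem ptr_sub (M M' : Matrix (A × B) (A × B) ℂ) : ptr (M - M') = ptr M - ptr M' := by
  ext a a'
  simp [ptr, Finset.sum_sub_distrib]

theorem ptr_smul (c : ℂ) (M : Matrix (A × B) (A × B) ℂ) : ptr (c • M) = c • ptr M := by
  ext a a'
  simp [ptr, Finset.mul_sum]

theorem ptr_conjTranspose (M : Matrix (A × B) (A × B) ℂ) : ptr Mᴴ = (ptr M)ᴴ := by
  ext a a'
  simp [ptr, conjTranspose_apply]

theorem ptr_mul_left (X : Matrix A A ℂ) (M : Matrix (A × B) (A × B) ℂ) :
    ptr ((X ⊗ₖ (1 : Matrix B B ℂ)) * M) = X * ptr M := by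
  exact chan_ptr_mul_left X M

theorem ptr_mul_right (X : Matrix A A ℂ) (M : Matrix (A × B) (A × B) ℂ) :
    ptr (M * (X ⊗ₖ (1 : Matrix B B ℂ))) = ptr M * X := by
  ext a a'
  simp only [ptr, of_apply, mul_apply, Fintype.sum_prod_type, kroneckerMap_apply, one_apply,
    mul_ite, mul_one, mul_zero, Finset.sum_ite_eq', Finset.mem_univ, if_true, Finset.sum_mul]
  exact Finset.sum_comm

/-- partial cyclicity -/
theorem ptr_cyc (Z : Matrix B B ℂ) (M : Matrix (A × B) (A × B) ℂ) :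
    ptr (((1 : Matrix A A ℂ) ⊗ₖ Z) * M) = ptr (M * ((1 : Matrix A A ℂ) ⊗ₖ Z)) := by
  ext a a'
  simp only [ptr, of_apply, mul_apply, Fintype.sum_prod_type, kroneckerMap_apply, one_apply,
    ite_mul, one_mul, zero_mul, mul_ite, mul_zero, Finset.sum_ite_irrel, Finset.sum_const_zero,
    Finset.sum_ite_eq, Finset.sum_ite_eq', Finset.mem_univ, if_true]
  rw [Finset.sum_comm]
  exact Finset.sum_congr rfl fun _ _ => Finset.sum_congr rfl fun _ _ => mul_comm _ _

theorem ptr_kron (X : Matrix A A ℂ) (Z : Matrix B B ℂ) : ptr (X ⊗ₖ Z) = Z.trace • X := by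
  ext a a'
  simp only [ptr, of_apply, kroneckerMap_apply, Matrix.smul_apply, smul_eq_mul, trace, diag_apply,
    ← Finset.mul_sum]
  exact mul_comm _ _

theorem ptr_psd {M : Matrix (A × B) (A × B) ℂ} (h : M.PosSemidef) : (ptr M).PosSemidef := by
  have e : ptr M = ∑ b : B, M.submatrix (fun a => (a, b)) fun a => (a, b) := by
    ext a a'
    simp [ptr, Matrix.sum_apply]
  rw [e]
  exact posSemidef_sum _ fun b _ => h.submatrix _

variable (V : Matrix (C × D) (A × B) ℂ)

theorem sw_sw : sw (sw V) = V := by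
  rfl

theorem sw_iso (hV : Vᴴ * V = 1) : (sw V)ᴴ * sw V = 1 := by
  have e : (sw V)ᴴ * sw V = (Vᴴ * V).submatrix Prod.swap Prod.swap := by
    ext i j
    simp [sw, mul_apply]
  rw [e, hV]
  exact submatrix_one _ Prod.swap_injective

theorem sw_mul_kron (X : Matrix A A ℂ) (Y : Matrix B B ℂ) :
    sw V * (Y ⊗ₖ X) = sw (V * (X ⊗ₖ Y)) := by
  ext i j
  simp only [sw, mul_apply, submatrix_apply, id, Fintype.sum_prod_type, kroneckerMap_apply,
    Prod.swap_prod_mk, Prod.fst_swap, Prod.snd_swap]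
  rw [Finset.sum_comm]
  exact Finset.sum_congr rfl fun _ _ => Finset.sum_congr rfl fun _ _ => by rw [mul_comm (Y _ _)]

theorem mul_sw (M : Matrix (C × D) (C × D) ℂ) : M * sw V = sw (M * V) := by
  rfl

theorem out_sw (X : Matrix A A ℂ) (Y : Matrix B B ℂ) : out (sw V) Y X = out V X Y := by
  rw [out, out, sw_mul_kron]
  congr 1
  ext i j
  simp only [sw, mul_apply, submatrix_apply, id, conjTranspose_apply]
  exact (Equiv.prodComm B A).sum_comp fun k => (V * X ⊗ₖ Y) i k * star (V j k)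

theorem out_add (X X' : Matrix A A ℂ) (Y : Matrix B B ℂ) :
    out V (X + X') Y = out V X Y + out V X' Y := by
  rw [out, out, out, add_kronecker, Matrix.mul_add, Matrix.add_mul, ptr_add]

theorem out_sub (X X' : Matrix A A ℂ) (Y : Matrix B B ℂ) :
    out V (X - X') Y = out V X Y - out V X' Y := by
  rw [eq_sub_iff_add_eq, ← out_add, sub_add_cancel]

theorem out_smul (c : ℂ) (X : Matrix A A ℂ) (Y : Matrix B B ℂ) :
    out V (c • X) Y = c • out V X Y := by
  rw [out, out, smul_kronecker, Matrix.mul_smul, Matrix.smul_mul, ptr_smul]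

theorem out_smul_right (c : ℂ) (X : Matrix A A ℂ) (Y : Matrix B B ℂ) :
    out V X (c • Y) = c • out V X Y := by
  rw [out, out, kronecker_smul, Matrix.mul_smul, Matrix.smul_mul, ptr_smul]

theorem out_conjTranspose (X : Matrix A A ℂ) (Y : Matrix B B ℂ) :
    (out V X Y)ᴴ = out V Xᴴ Yᴴ := by
  rw [out, out, ← ptr_conjTranspose, conjTranspose_mul, conjTranspose_mul,
    conjTranspose_conjTranspose, conjTranspose_kronecker, Matrix.mul_assoc]

theorem out_psd {X : Matrix A A ℂ} {Y : Matrix B B ℂ} (hX : X.PosSemidef) (hY : Y.PosSemidef) :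
    (out V X Y).PosSemidef := by
  exact ptr_psd ((hX.kronecker hY).mul_mul_conjTranspose_same V)

theorem trace_out (hV : Vᴴ * V = 1) (X : Matrix A A ℂ) (Y : Matrix B B ℂ) :
    (out V X Y).trace = X.trace * Y.trace := by
  rw [out, trace_ptr, trace_mul_cycle, hV, Matrix.one_mul, trace_kronecker]

theorem out_density (hV : Vᴴ * V = 1) {X : Matrix A A ℂ} {Y : Matrix B B ℂ} (hX : IsDensity X)
    (hY : IsDensity Y) : IsDensity (out V X Y) := by
  exact ⟨out_psd V hX.1 hY.1, by rw [trace_out V hV, hX.2, hY.2, mul_one]⟩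

/-- duality -/
theorem trace_adj (ρ : Matrix B B ℂ) (Y : Matrix C C ℂ) (X : Matrix A A ℂ) :
    (adj V ρ Y * X).trace = (Y * out V X ρ).trace := by
  rw [adj, out, trace_mul_ptr, ← ptr_mul_right, trace_ptr]
  have e : X ⊗ₖ ρ = (X ⊗ₖ (1 : Matrix B B ℂ)) * ((1 : Matrix A A ℂ) ⊗ₖ ρ) := by
    rw [← mul_kronecker_mul, Matrix.mul_one, Matrix.one_mul]
  rw [e, Matrix.mul_assoc, Matrix.mul_assoc, trace_mul_comm]
  simp only [Matrix.mul_assoc]

theorem adj_add (ρ : Matrix B B ℂ) (Y Y' : Matrix C C ℂ) :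
    adj V ρ (Y + Y') = adj V ρ Y + adj V ρ Y' := by
  rw [adj, adj, adj, add_kronecker, Matrix.mul_add, Matrix.add_mul, ptr_add]

theorem adj_sub (ρ : Matrix B B ℂ) (Y Y' : Matrix C C ℂ) :
    adj V ρ (Y - Y') = adj V ρ Y - adj V ρ Y' := by
  rw [eq_sub_iff_add_eq, ← adj_add, sub_add_cancel]

theorem adj_smul (ρ : Matrix B B ℂ) (c : ℂ) (Y : Matrix C C ℂ) :
    adj V ρ (c • Y) = c • adj V ρ Y := by
  rw [adj, adj, smul_kronecker, Matrix.mul_smul, Matrix.smul_mul, ptr_smul]

theorem adj_conjTranspose {ρ : Matrix B B ℂ} (hρ : ρ.IsHermitian) (Y : Matrix C C ℂ) :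
    (adj V ρ Y)ᴴ = adj V ρ Yᴴ := by
  rw [adj, adj, ← ptr_conjTranspose, Matrix.mul_assoc, Matrix.mul_assoc, conjTranspose_mul,
    conjTranspose_kronecker, conjTranspose_one, hρ.eq, ← ptr_cyc, conjTranspose_mul,
    conjTranspose_mul, conjTranspose_conjTranspose, conjTranspose_kronecker, conjTranspose_one]
  simp only [Matrix.mul_assoc]

/-- `adj0` as a linear map -/
def adj0L (ρA : Matrix A A ℂ) (ρB : Matrix B B ℂ) : Matrix C C ℂ →ₗ[ℂ] Matrix A A ℂ where
  toFun := adj0 V ρA ρB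
  map_add' Y Y' := by
    simp only [adj0, adj_add, Matrix.add_mul, trace_add, add_smul]; abel
  map_smul' c Y := by
    simp only [adj0, adj_smul, Matrix.smul_mul, trace_smul, smul_sub, smul_smul, RingHom.id_apply,
      smul_eq_mul]

theorem adj0_conjTranspose {ρA : Matrix A A ℂ} {ρB : Matrix B B ℂ} (hA : ρA.IsHermitian)
    (hB : ρB.IsHermitian) (Y : Matrix C C ℂ) : (adj0 V ρA ρB Y)ᴴ = adj0 V ρA ρB Yᴴ := by
  rw [adj0, adj0, conjTranspose_sub, adj_conjTranspose V hB, conjTranspose_smul,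
    conjTranspose_one, ← trace_conjTranspose, conjTranspose_mul, out_conjTranspose, hA.eq, hB.eq,
    trace_mul_comm]

theorem trace_adj0 {ρA : Matrix A A ℂ} {ρB : Matrix B B ℂ} (hA : ρA.trace = 1)
    (Y : Matrix C C ℂ) : (ρA * adj0 V ρA ρB Y).trace = 0 := by
  rw [adj0, Matrix.mul_sub, trace_sub, trace_mul_comm, trace_adj, Matrix.mul_smul, Matrix.mul_one,
    trace_smul, hA, smul_eq_mul, mul_one, sub_self]

theorem trace_err (F : Matrix (A × B) (C × D) ℂ) (ρA : Matrix A A ℂ) (ρB : Matrix B B ℂ)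
    (Y : Matrix C C ℂ) (Z : Matrix A A ℂ) :
    (ρA * err V F ρB Y * Z).trace = bdy V F ρA ρB Y Z := by
  rw [err, bdy, ← ptr_mul_left, ← ptr_mul_right, trace_ptr]
  have e : ρA ⊗ₖ ρB = (ρA ⊗ₖ (1 : Matrix B B ℂ)) * ((1 : Matrix A A ℂ) ⊗ₖ ρB) := by
    rw [← mul_kronecker_mul, Matrix.mul_one, Matrix.one_mul]
  rw [e]
  simp only [Matrix.mul_assoc]

theorem continuous_out : Continuous fun p : Matrix A A ℂ × Matrix B B ℂ => out V p.1 p.2 := by
  refine continuous_matrix fun i j => ?_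
  simp only [out, ptr, of_apply, mul_apply, kroneckerMap_apply]
  fun_prop

end Crest.Agent.R331

end
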