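import Crest.Agent.R331.Amp1
import Crest.Agent.R331.Chan

/-!
# `n` modes: the beam splitter is an isometry

`ampOcc` is a product over the modes; `amp_orth` is `Finset.prod_univ_sum`/`Fintype.sum_pow`-style expansion of
`∏ j, ∑ c : Fin (m j + 1), ...` (`Finset.prod_univ_sum`, `Fintype.piFinset_univ`) and `amp_orth1`.
For `Vbs_iso`: the entry at `(k,l), (k',l')` is `∑ (p,q), amp(k,l;p,q) amp(k',l';p,q)`; only `p + q = k + l = k' + l'`
contribute; the pairs `(p,q)` with `p + q = m := k + l` are in bijection with `Splitting m`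
(`tot p, tot q ≤ tot m ≤ 2K`).  `Vbs_num`: photon number conservation, entrywise.
-/

open scoped ComplexOrder Kronecker Matrix
open Matrix Crest.Quantum Crest.MathPhysics.Bosonic

noncomputable section

namespace Crest.Agent.R331

variable {n : ℕ}

theorem tot_add (k l : Occ n) : tot (k + l) = tot k + tot l := by
  simp [tot, Finset.sum_add_distrib]

theorem tot_single (j : Fin n) : tot (Pi.single j 1 : Occ n) = 1 := by
  simp [tot]

theorem le_tot (k : Occ n) (j : Fin n) : k j ≤ tot k := by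
  exact Finset.single_le_sum (f := k) (fun _ _ => Nat.zero_le _) (Finset.mem_univ j)

theorem split_add {m : Occ n} (a : Splitting m) : a.fst + a.snd = m := by
  funext j
  have := (a j).2
  simp only [Splitting.fst, Splitting.snd, Pi.add_apply]
  omega

theorem ampOcc_of_ne (η : ℝ) {k l p q : Occ n} (h : p + q ≠ k + l) : ampOcc η k l p q = 0 := by
  obtain ⟨j, hj⟩ := Function.ne_iff.1 h
  exact Finset.prod_eq_zero (Finset.mem_univ j) (amp_of_ne η hj)

theorem amp2_exists {m p q : Occ n} (h : p + q = m) : ∃ a : Splitting m, a.fst = p ∧ a.snd = q := by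
  subst h
  refine ⟨fun j => ⟨p j, by simp only [Pi.add_apply]; omega⟩, rfl, ?_⟩
  funext j
  simp [Splitting.snd]

theorem amp2_inj {m : Occ n} {a b : Splitting m} (h : a.fst = b.fst) : a = b :=
  funext fun j => Fin.ext (congrFun h j)

/-- sums over splittings are sums over pairs -/
theorem sum_split {K : ℕ} (m : Occ n) (F : Occ n → Occ n → ℂ)
    (hF : ∀ p q, p + q = m → ¬ (tot p ≤ K ∧ tot q ≤ K) → F p q = 0) :
    ∑ a : Splitting m, F a.fst a.snd =
      ∑ pq : VK n K × VK n K, if pq.1.1 + pq.2.1 = m then F pq.1.1 pq.2.1 else 0 := by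
  have key : ∀ a : Splitting m, F a.fst a.snd ≠ 0 → tot a.fst ≤ K ∧ tot a.snd ≤ K := fun a ha => by
    by_contra h
    exact ha (hF _ _ (split_add a) h)
  refine Finset.sum_bij_ne_zero (fun a _ ha => (⟨a.fst, (key a ha).1⟩, ⟨a.snd, (key a ha).2⟩))
    (fun _ _ _ => Finset.mem_univ _) (fun a _ _ b _ _ h => ?_) (fun pq _ h => ?_) fun a _ _ => ?_
  · exact amp2_inj (congrArg (fun x : VK n K × VK n K => x.1.1) h)
  · have h1 : pq.1.1 + pq.2.1 = m := by
      by_contra h1
      exact h (if_neg h1)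
    rw [if_pos h1] at h
    obtain ⟨a, h2, h3⟩ := amp2_exists h1
    exact ⟨a, Finset.mem_univ _, by rwa [h2, h3], Prod.ext (Subtype.ext h2) (Subtype.ext h3)⟩
  · exact (if_pos (split_add a)).symm

theorem amp_orth {η : ℝ} (hη : η ∈ Set.Icc (0 : ℝ) 1) (m : Occ n) (a b : Splitting m) :
    ∑ c : Splitting m, ampOcc η a.fst a.snd c.fst c.snd * ampOcc η b.fst b.snd c.fst c.snd =
      if a = b then 1 else 0 := by
  have h1 : ∀ j, ∑ c : Fin (m j + 1), bsAmp η (a.fst j) (a.snd j) c (m j - c) *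
      bsAmp η (b.fst j) (b.snd j) c (m j - c) = if a j = b j then 1 else 0 := fun j => by
    rw [Fin.sum_univ_eq_sum_range (fun c => bsAmp η (a.fst j) (a.snd j) c (m j - c) *
      bsAmp η (b.fst j) (b.snd j) c (m j - c)),
      amp_orth1 hη (congrFun (split_add a) j) (congrFun (split_add b) j)]
    exact if_congr Fin.ext_iff.symm rfl rfl
  have h2 := Fintype.prod_sum fun j (c : Fin (m j + 1)) =>
    bsAmp η (a.fst j) (a.snd j) c (m j - c) * bsAmp η (b.fst j) (b.snd j) c (m j - c)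
  simp only [h1, Finset.prod_mul_distrib] at h2
  refine Eq.trans h2.symm ?_
  rw [Finset.prod_ite_zero]
  simp [funext_iff]

theorem Vbs_iso {η : ℝ} (hη : η ∈ Set.Icc (0 : ℝ) 1) (K : ℕ) :
    (Vbs n η K)ᴴ * Vbs n η K = 1 := by
  ext ⟨k, l⟩ ⟨k', l'⟩
  have h1 := sum_split (K := 2 * K) (k.1 + l.1)
    (fun p q => (ampOcc η k.1 l.1 p q : ℂ) * (ampOcc η k'.1 l'.1 p q : ℂ)) (fun p q h h' => by
      have h2 := congrArg tot h
      rw [tot_add, tot_add] at h2
      have := k.2
      have := l.2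
      exact absurd ⟨by omega, by omega⟩ h')
  have h2 : ((Vbs n η K)ᴴ * Vbs n η K) (k, l) (k', l') = ∑ c : Splitting (k.1 + l.1),
      (ampOcc η k.1 l.1 c.fst c.snd : ℂ) * (ampOcc η k'.1 l'.1 c.fst c.snd : ℂ) := by
    rw [h1, Matrix.mul_apply]
    refine Finset.sum_congr rfl fun pq _ => ?_
    simp only [Vbs, conjTranspose_apply, of_apply, Complex.star_def, Complex.conj_ofReal]
    split_ifs with h
    · rfl
    · rw [ampOcc_of_ne η h]; simp
  rw [h2]
  by_cases h : k'.1 + l'.1 = k.1 + l.1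
  · obtain ⟨a, a1, a2⟩ := amp2_exists (rfl : k.1 + l.1 = k.1 + l.1)
    obtain ⟨b, b1, b2⟩ := amp2_exists h
    have h3 := congrArg (fun x : ℝ => (x : ℂ)) (amp_orth hη _ a b)
    simp only [a1, a2, b1, b2] at h3
    push_cast at h3
    rw [h3, Matrix.one_apply]
    by_cases hab : a = b
    · rw [if_pos hab, if_pos, Complex.ofReal_one]
      subst hab
      exact Prod.ext (Subtype.ext (a1.symm.trans b1)) (Subtype.ext (a2.symm.trans b2))
    · rw [if_neg hab, if_neg, Complex.ofReal_zero]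
      intro h4
      exact hab (amp2_inj (a1.trans ((congrArg (fun x : VK n K × VK n K => x.1.1) h4).trans b1.symm)))
  · rw [Matrix.one_apply, if_neg]
    · refine Finset.sum_eq_zero fun c _ => ?_
      rw [ampOcc_of_ne η (k := k'.1) (by rw [split_add c]; exact Ne.symm h)]
      simp
    · intro h4
      obtain ⟨rfl, rfl⟩ := Prod.mk.inj h4
      exact h rfl

theorem Vbs_num (η : ℝ) (K : ℕ) :
    (num n (2 * K) ⊗ₖ (1 : Matrix (VK n (2 * K)) (VK n (2 * K)) ℂ) +
        (1 : Matrix (VK n (2 * K)) (VK n (2 * K)) ℂ) ⊗ₖ num n (2 * K)) * Vbs n η K =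
      Vbs n η K * (num n K ⊗ₖ (1 : Matrix (VK n K) (VK n K) ℂ) +
        (1 : Matrix (VK n K) (VK n K) ℂ) ⊗ₖ num n K) := by
  simp only [num, dN, ← diagonal_one, diagonal_kronecker_diagonal, diagonal_add]
  ext pq kl
  rw [diagonal_mul, mul_diagonal]
  simp only [Vbs, of_apply]
  by_cases h : pq.1.1 + pq.2.1 = kl.1.1 + kl.2.1
  · have h2 := congrArg (fun x => (tot x : ℂ)) h
    simp only [tot_add] at h2
    push_cast at h2 ⊢
    rw [mul_one, one_mul, mul_one, one_mul, h2, mul_comm]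
  · rw [ampOcc_of_ne η h]; simp

/-- the output has at most the total energy of the inputs:
`Tr (out N) ≤ Tr ((N ⊗ 1 + 1 ⊗ N) V (X ⊗ Y) Vᴴ) = Tr ((N ⊗ 1 + 1 ⊗ N) (X ⊗ Y))` -/
theorem out_energy_le {η : ℝ} (hη : η ∈ Set.Icc (0 : ℝ) 1) {K : ℕ}
    {X Y : Matrix (VK n K) (VK n K) ℂ} (hX : X.PosSemidef) (hY : Y.PosSemidef) :
    (out (Vbs n η K) X Y * num n (2 * K)).trace.re ≤
      (X * num n K).trace.re * Y.trace.re + X.trace.re * (Y * num n K).trace.re := by
  have hN : (num n (2 * K)).PosSemidef := by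
    refine PosSemidef.diagonal fun k => ?_
    simp only [Pi.zero_apply]
    positivity
  have hM : (Vbs n η K * (X ⊗ₖ Y) * (Vbs n η K)ᴴ).PosSemidef :=
    (hX.kronecker hY).mul_mul_conjTranspose_same _
  have h1 := trace_mul_nonneg
    ((PosSemidef.one (n := VK n (2 * K)) (R := ℂ)).kronecker hN) hM
  have h2 : (out (Vbs n η K) X Y * num n (2 * K)).trace +
      (((1 : Matrix (VK n (2 * K)) (VK n (2 * K)) ℂ) ⊗ₖ num n (2 * K)) *
        (Vbs n η K * (X ⊗ₖ Y) * (Vbs n η K)ᴴ)).trace =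
      (X * num n K).trace * Y.trace + X.trace * (Y * num n K).trace := by
    rw [trace_mul_comm, out, trace_mul_ptr, ← trace_add, ← Matrix.add_mul, ← Matrix.mul_assoc,
      ← Matrix.mul_assoc, Vbs_num, trace_mul_comm, ← Matrix.mul_assoc, ← Matrix.mul_assoc,
      Vbs_iso hη, Matrix.one_mul, Matrix.add_mul, ← mul_kronecker_mul, ← mul_kronecker_mul,
      Matrix.one_mul, Matrix.one_mul, trace_add, trace_kronecker, trace_kronecker,
      trace_mul_comm X, trace_mul_comm Y]
  have h3 := congrArg Complex.re h2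
  have hX' : X.trace.im = 0 := (Complex.nonneg_iff.1 hX.trace_nonneg).2.symm
  have hY' : Y.trace.im = 0 := (Complex.nonneg_iff.1 hY.trace_nonneg).2.symm
  simp only [Complex.add_re, Complex.mul_re, hX', hY', mul_zero, zero_mul, sub_zero] at h3
  linarith

end Crest.Agent.R331

end
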