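import Crest.Agent.R331.Amp2

/-!
# Ladder operators and the beam splitter

Entrywise.  `(X * ann) x l = √(l j) X x (l - e j)` (zero if `l j = 0`), `(ann * X) k x = √(k j + 1) X (k + e j) x` if
`tot k < K` and `0` otherwise.  In `ampOcc` only the factor of the mode `j` changes
(`Finset.prod_erase_mul`/`Finset.mul_prod_erase`).
* `Vbs_ann_a/b`: `amp_down_a/b`; if `tot p = 2K` then `ampOcc η k l (p + e j) q = 0` by photon number conservation.
* `dfc_top_a/b`: rows `(k, l)` with `tot k < K` of `dfc` vanish by `amp_up_a/b`.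
-/

open scoped ComplexOrder Kronecker Matrix
open Matrix Crest.Quantum Crest.MathPhysics.Bosonic

noncomputable section

namespace Crest.Agent.R331

variable {n : ℕ}

theorem mul_ann_apply {K : ℕ} {ι : Type*} (j : Fin n) (X : Matrix ι (VK n K) ℂ) (x : ι)
    (l : VK n K) :
    (X * ann n K j) x l = (√(l.1 j : ℝ) : ℂ) *
      X x ⟨l.1 - Pi.single j 1, le_trans (Finset.sum_le_sum fun _ _ => Nat.sub_le _ _) l.2⟩ := by
  rw [Matrix.mul_apply, Finset.sum_eq_single
    (⟨l.1 - Pi.single j 1, le_trans (Finset.sum_le_sum fun _ _ => Nat.sub_le _ _) l.2⟩ : VK n K)]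
  · simp only [ann, Matrix.of_apply]
    split_ifs with h
    · exact mul_comm _ _
    · have h0 : l.1 j = 0 := by
        by_contra h0
        refine h (funext fun i => ?_)
        by_cases hi : i = j
        · subst hi
          simp only [Pi.add_apply, Pi.sub_apply, Pi.single_eq_same]
          omega
        · simp [Pi.single_eq_of_ne hi]
      simp [h0]
  · intro k _ hk
    simp only [ann, Matrix.of_apply]
    rw [if_neg, mul_zero]
    intro h
    refine hk (Subtype.ext ?_)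
    change k.1 = l.1 - Pi.single j 1
    rw [h]
    funext i
    simp
  · simp

theorem ann_mul_apply {K : ℕ} {ι : Type*} (j : Fin n) (X : Matrix (VK n K) ι ℂ) (k : VK n K)
    (x : ι) :
    (ann n K j * X) k x = if h : tot (k.1 + Pi.single j 1) ≤ K then
      (√((k.1 j : ℝ) + 1) : ℂ) * X ⟨k.1 + Pi.single j 1, h⟩ x else 0 := by
  rw [Matrix.mul_apply]
  split_ifs with h
  · rw [Finset.sum_eq_single (⟨k.1 + Pi.single j 1, h⟩ : VK n K)]
    · simp [ann]
    · intro l _ hl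
      simp only [ann, Matrix.of_apply]
      rw [if_neg fun h' => hl (Subtype.ext h'), zero_mul]
    · simp
  · refine Finset.sum_eq_zero fun l _ => ?_
    simp only [ann, Matrix.of_apply]
    rw [if_neg fun h' : l.1 = k.1 + Pi.single j 1 => h (h' ▸ l.2), zero_mul]

section kron

variable {α β ι : Type*} [Fintype α] [Fintype β] [DecidableEq α] [DecidableEq β]

omit [DecidableEq α] in
theorem amp3_mul_kl (X : Matrix ι (α × β) ℂ) (A : Matrix α α ℂ) (x : ι) (k : α) (l : β) :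
    (X * (A ⊗ₖ (1 : Matrix β β ℂ))) x (k, l) = (X.submatrix id (fun k => (k, l)) * A) x k := by
  simp [Matrix.mul_apply, Fintype.sum_prod_type, Matrix.one_apply]

omit [DecidableEq β] in
theorem amp3_mul_kr (X : Matrix ι (α × β) ℂ) (A : Matrix β β ℂ) (x : ι) (k : α) (l : β) :
    (X * ((1 : Matrix α α ℂ) ⊗ₖ A)) x (k, l) = (X.submatrix id (fun l => (k, l)) * A) x l := by
  simp [Matrix.mul_apply, Fintype.sum_prod_type, Matrix.one_apply]

omit [DecidableEq α] in
theorem amp3_kl_mul (X : Matrix (α × β) ι ℂ) (A : Matrix α α ℂ) (x : ι) (k : α) (l : β) :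
    ((A ⊗ₖ (1 : Matrix β β ℂ)) * X) (k, l) x = (A * X.submatrix (fun k => (k, l)) id) k x := by
  simp [Matrix.mul_apply, Fintype.sum_prod_type, Matrix.one_apply]

omit [DecidableEq β] in
theorem amp3_kr_mul (X : Matrix (α × β) ι ℂ) (A : Matrix β β ℂ) (x : ι) (k : α) (l : β) :
    (((1 : Matrix α α ℂ) ⊗ₖ A) * X) (k, l) x = (A * X.submatrix (fun l => (k, l)) id) l x := by
  simp [Matrix.mul_apply, Fintype.sum_prod_type, Matrix.one_apply]

end kron

theorem amp3_split (η : ℝ) (j : Fin n) (k l p q : Occ n) {k' l' p' q' : Occ n}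
    (h : ∀ i, i ≠ j → k' i = k i ∧ l' i = l i ∧ p' i = p i ∧ q' i = q i) :
    ampOcc η k' l' p' q' = bsAmp η (k' j) (l' j) (p' j) (q' j) *
      ∏ i ∈ Finset.univ.erase j, bsAmp η (k i) (l i) (p i) (q i) := by
  rw [ampOcc, ← Finset.mul_prod_erase _ _ (Finset.mem_univ j)]
  congr 1
  refine Finset.prod_congr rfl fun i hi => ?_
  obtain ⟨h1, h2, h3, h4⟩ := h i (Finset.ne_of_mem_erase hi)
  rw [h1, h2, h3, h4]

theorem amp3_down_a {η : ℝ} (hη : η ∈ Set.Icc (0 : ℝ) 1) (j : Fin n) (k l p q : Occ n) :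
    √(k j : ℝ) * ampOcc η (k - Pi.single j 1) l p q =
      √η * (√((p j : ℝ) + 1) * ampOcc η k l (p + Pi.single j 1) q) +
        -√(1 - η) * (√((q j : ℝ) + 1) * ampOcc η k l p (q + Pi.single j 1)) := by
  rw [amp3_split η j k l p q, amp3_split η j k l p q (p' := p + _),
    amp3_split η j k l p q (q' := q + _)]
  · simp only [Pi.add_apply, Pi.sub_apply, Pi.single_eq_same]
    linear_combination (∏ i ∈ Finset.univ.erase j, bsAmp η (k i) (l i) (p i) (q i)) *
      amp_down_a hη (k j) (l j) (p j) (q j)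
  all_goals exact fun i hi => by simp [Pi.single_eq_of_ne hi]

theorem amp3_down_b {η : ℝ} (hη : η ∈ Set.Icc (0 : ℝ) 1) (j : Fin n) (k l p q : Occ n) :
    √(l j : ℝ) * ampOcc η k (l - Pi.single j 1) p q =
      √(1 - η) * (√((p j : ℝ) + 1) * ampOcc η k l (p + Pi.single j 1) q) +
        √η * (√((q j : ℝ) + 1) * ampOcc η k l p (q + Pi.single j 1)) := by
  rw [amp3_split η j k l p q, amp3_split η j k l p q (p' := p + _),
    amp3_split η j k l p q (q' := q + _)]
  · simp only [Pi.add_apply, Pi.sub_apply, Pi.single_eq_same]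
    linear_combination (∏ i ∈ Finset.univ.erase j, bsAmp η (k i) (l i) (p i) (q i)) *
      amp_down_b hη (k j) (l j) (p j) (q j)
  all_goals exact fun i hi => by simp [Pi.single_eq_of_ne hi]

theorem amp3_up_a (η : ℝ) (j : Fin n) (k l p q : Occ n) :
    √η * (√(p j : ℝ) * ampOcc η k l (p - Pi.single j 1) q) +
        -√(1 - η) * (√(q j : ℝ) * ampOcc η k l p (q - Pi.single j 1)) =
      √((k j : ℝ) + 1) * ampOcc η (k + Pi.single j 1) l p q := by
  rw [amp3_split η j k l p q, amp3_split η j k l p q (q' := q - _),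
    amp3_split η j k l p q (k' := k + _)]
  · simp only [Pi.add_apply, Pi.sub_apply, Pi.single_eq_same]
    linear_combination -(∏ i ∈ Finset.univ.erase j, bsAmp η (k i) (l i) (p i) (q i)) *
      amp_up_a η (k j) (l j) (p j) (q j)
  all_goals exact fun i hi => by simp [Pi.single_eq_of_ne hi]

theorem amp3_up_b (η : ℝ) (j : Fin n) (k l p q : Occ n) :
    √(1 - η) * (√(p j : ℝ) * ampOcc η k l (p - Pi.single j 1) q) +
        √η * (√(q j : ℝ) * ampOcc η k l p (q - Pi.single j 1)) =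
      √((l j : ℝ) + 1) * ampOcc η k (l + Pi.single j 1) p q := by
  rw [amp3_split η j k l p q, amp3_split η j k l p q (q' := q - _),
    amp3_split η j k l p q (l' := l + _)]
  · simp only [Pi.add_apply, Pi.sub_apply, Pi.single_eq_same]
    linear_combination -(∏ i ∈ Finset.univ.erase j, bsAmp η (k i) (l i) (p i) (q i)) *
      amp_up_b η (k j) (l j) (p j) (q j)
  all_goals exact fun i hi => by simp [Pi.single_eq_of_ne hi]

theorem amp3_zero (η : ℝ) {K : ℕ} (k l : VK n K) {p q : Occ n} (h : ¬ tot p ≤ 2 * K ∨ ¬ tot q ≤ 2 * K) :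
    ampOcc η k.1 l.1 p q = 0 := by
  refine ampOcc_of_ne η fun h' => ?_
  have := congrArg tot h'
  rw [tot_add, tot_add] at this
  have h1 := k.2
  have h2 := l.2
  omega

theorem amp3_mix_mul (η u v : ℝ) (K : ℕ) (j : Fin n) (p q : VK n (2 * K)) (k l : VK n K) :
    (mix u v (ann n (2 * K) j) (ann n (2 * K) j) * Vbs n η K) (p, q) (k, l) =
      ((u * (√((p.1 j : ℝ) + 1) * ampOcc η k.1 l.1 (p.1 + Pi.single j 1) q.1) +
        v * (√((q.1 j : ℝ) + 1) * ampOcc η k.1 l.1 p.1 (q.1 + Pi.single j 1)) : ℝ) : ℂ) := by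
  rw [mix, Matrix.add_mul, Matrix.smul_mul, Matrix.smul_mul, Matrix.add_apply, Matrix.smul_apply,
    Matrix.smul_apply, amp3_kl_mul, amp3_kr_mul, ann_mul_apply, ann_mul_apply]
  push_cast
  congr 2
  · split_ifs with h
    · rfl
    · rw [amp3_zero η k l (Or.inl h), Complex.ofReal_zero, mul_zero]
  · split_ifs with h
    · rfl
    · rw [amp3_zero η k l (Or.inr h), Complex.ofReal_zero, mul_zero]

theorem amp3_mul_mix (η u v : ℝ) (K : ℕ) (j : Fin n) (p q : VK n (2 * K)) (k l : VK n K) :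
    ((Vbs n η K)ᴴ * mix u v (ann n (2 * K) j) (ann n (2 * K) j)) (k, l) (p, q) =
      ((u * (√(p.1 j : ℝ) * ampOcc η k.1 l.1 (p.1 - Pi.single j 1) q.1) +
        v * (√(q.1 j : ℝ) * ampOcc η k.1 l.1 p.1 (q.1 - Pi.single j 1)) : ℝ) : ℂ) := by
  rw [mix, Matrix.mul_add, Matrix.mul_smul, Matrix.mul_smul, Matrix.add_apply, Matrix.smul_apply,
    Matrix.smul_apply, amp3_mul_kl, amp3_mul_kr, mul_ann_apply, mul_ann_apply]
  simp [Vbs]

theorem amp3_top {K : ℕ} {β ι : Type*} [Fintype β] [DecidableEq β] (Y : Matrix (VK n K × β) ι ℂ)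
    (h : ∀ (k : VK n K) l x, tot k.1 < K → Y (k, l) x = 0) :
    (topP n K ⊗ₖ (1 : Matrix β β ℂ)) * Y = Y := by
  ext ⟨k, l⟩ x
  rw [amp3_kl_mul, topP, dN, Matrix.diagonal_mul]
  split_ifs with hk
  · simp
  · rw [h k l x (lt_of_le_of_ne k.2 hk), Complex.ofReal_zero, zero_mul]

theorem Vbs_ann_a {η : ℝ} (hη : η ∈ Set.Icc (0 : ℝ) 1) (K : ℕ) (j : Fin n) :
    Vbs n η K * (ann n K j ⊗ₖ (1 : Matrix (VK n K) (VK n K) ℂ)) =
      mix (√η) (-√(1 - η)) (ann n (2 * K) j) (ann n (2 * K) j) * Vbs n η K := by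
  ext ⟨p, q⟩ ⟨k, l⟩
  rw [amp3_mix_mul, ← amp3_down_a hη, amp3_mul_kl, mul_ann_apply, Complex.ofReal_mul]
  rfl

theorem Vbs_ann_b {η : ℝ} (hη : η ∈ Set.Icc (0 : ℝ) 1) (K : ℕ) (j : Fin n) :
    sw (Vbs n η K) * (ann n K j ⊗ₖ (1 : Matrix (VK n K) (VK n K) ℂ)) =
      mix (√(1 - η)) (√η) (ann n (2 * K) j) (ann n (2 * K) j) * sw (Vbs n η K) := by
  ext ⟨p, q⟩ ⟨l, k⟩
  refine Eq.trans ?_ (amp3_mix_mul η _ _ K j p q k l).symm
  rw [← amp3_down_b hη, amp3_mul_kl, mul_ann_apply, Complex.ofReal_mul]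
  rfl

theorem dfc_top_a (η : ℝ) (K : ℕ) (j : Fin n) :
    (topP n K ⊗ₖ (1 : Matrix (VK n K) (VK n K) ℂ)) *
        dfc (Vbs n η K) (√η) (-√(1 - η)) (ann n K j) (ann n (2 * K) j) (ann n (2 * K) j) =
      dfc (Vbs n η K) (√η) (-√(1 - η)) (ann n K j) (ann n (2 * K) j) (ann n (2 * K) j) := by
  refine amp3_top _ fun k l ⟨p, q⟩ hk => ?_
  rw [dfc, Matrix.sub_apply, amp3_mul_mix, amp3_up_a, amp3_kl_mul, ann_mul_apply,
    dif_pos (by rw [tot_add, tot_single]; exact hk)]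
  simp [Vbs]

theorem dfc_top_b (η : ℝ) (K : ℕ) (j : Fin n) :
    (topP n K ⊗ₖ (1 : Matrix (VK n K) (VK n K) ℂ)) *
        dfc (sw (Vbs n η K)) (√(1 - η)) (√η) (ann n K j) (ann n (2 * K) j) (ann n (2 * K) j) =
      dfc (sw (Vbs n η K)) (√(1 - η)) (√η) (ann n K j) (ann n (2 * K) j) (ann n (2 * K) j) := by
  refine amp3_top _ fun l k ⟨p, q⟩ hl => ?_
  rw [dfc, Matrix.sub_apply, sub_eq_zero]
  refine (amp3_mul_mix η _ _ K j p q k l).trans ?_
  rw [amp3_up_b, amp3_kl_mul, ann_mul_apply, dif_pos (by rw [tot_add, tot_single]; exact hl)]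
  simp [Vbs, sw]

end Crest.Agent.R331

end
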