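import Crest.Agent.R331.Chan

/-!
# Data processing (Efron-Stein) inequality

Let `ρ = ρA ⊗ ρB`, `⟨M, M'⟩ = Tr (ρ Mᴴ M')` on matrices `(C × D) × (A × B)` (positive semidefinite form),
`YA = adj0 V ρA ρB Y`, `YB = adj0 (sw V) ρB ρA Y` (both have mean zero, `trace_adj0`),
`S = V (YA ⊗ 1 + 1 ⊗ YB)`, `R = (Y ⊗ 1) V`.  Then `⟨S, S⟩ = ‖YA‖² + ‖YB‖² =: s` (isometry, cross terms vanish),
`⟨S, R⟩ = s` (definition of `adj`; the constants drop out because of mean zero),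
`⟨R, R⟩ = Tr (out * Yᴴ Y)`, and `0 ≤ ⟨R - S, R - S⟩ = ⟨R, R⟩ - s`.
-/

open scoped ComplexOrder Kronecker Matrix
open Matrix Crest.Quantum Crest.MathPhysics.Bosonic

noncomputable section

namespace Crest.Agent.R331

variable {A B C D : Type*} [Fintype A] [Fintype B] [Fintype C] [Fintype D]
  [DecidableEq A] [DecidableEq B] [DecidableEq C] [DecidableEq D]

omit [DecidableEq A] [DecidableEq B] [DecidableEq C] in
theorem dp_out (V : Matrix (C × D) (A × B) ℂ) (X : Matrix A A ℂ) (Z : Matrix B B ℂ)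
    (Y : Matrix C C ℂ) :
    ((X ⊗ₖ Z) * (Vᴴ * (Y ⊗ₖ (1 : Matrix D D ℂ)) * V)).trace = (Y * out V X Z).trace := by
  classical
  rw [out, trace_mul_ptr, ← Matrix.mul_assoc, trace_mul_comm, ← Matrix.mul_assoc,
    ← Matrix.mul_assoc, trace_mul_comm]

theorem dp_adj (V : Matrix (C × D) (A × B) ℂ) {ρA : Matrix A A ℂ} {ρB : Matrix B B ℂ}
    (hA : IsDensity ρA) (hB : IsDensity ρB) (Y : Matrix C C ℂ) :
    (Y * out V (ρA * (adj0 V ρA ρB Y)ᴴ) ρB).trace =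
      (ρA * ((adj0 V ρA ρB Y)ᴴ * adj0 V ρA ρB Y)).trace := by
  have h0 : (ρA * (adj0 V ρA ρB Y)ᴴ).trace = 0 := by
    rw [adj0_conjTranspose V hA.1.1 hB.1.1, trace_adj0 V hA.2]
  have e : adj V ρB Y = adj0 V ρA ρB Y + (Y * out V ρA ρB).trace • (1 : Matrix A A ℂ) := by
    rw [adj0, sub_add_cancel]
  rw [← trace_adj, e, Matrix.add_mul, trace_add, Matrix.smul_mul, Matrix.one_mul, trace_smul, h0,
    smul_zero, add_zero, trace_mul_comm, Matrix.mul_assoc]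

theorem dp_expand {ι κ : Type*} [Fintype ι] [Fintype κ] [DecidableEq ι] {ρ : Matrix ι ι ℂ}
    (hρ : ρ.PosSemidef) (R S : Matrix κ ι ℂ) :
    2 * (ρ * (Sᴴ * R)).trace.re ≤ (ρ * (Rᴴ * R)).trace.re + (ρ * (Sᴴ * S)).trace.re := by
  have h := trace_mul_nonneg hρ (posSemidef_conjTranspose_mul_self (R - S))
  have e : (ρ * (Rᴴ * S)).trace.re = (ρ * (Sᴴ * R)).trace.re := by
    rw [← Complex.conj_re (ρ * (Sᴴ * R)).trace, ← Complex.star_def, ← trace_conjTranspose,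
      conjTranspose_mul, conjTranspose_mul, conjTranspose_conjTranspose, hρ.1.eq, trace_mul_comm]
  simp only [conjTranspose_sub, Matrix.sub_mul, Matrix.mul_sub, trace_sub, Complex.sub_re] at h
  linarith

theorem dp_right {V : Matrix (C × D) (A × B) ℂ} (hV : Vᴴ * V = 1) {ρA : Matrix A A ℂ}
    {ρB : Matrix B B ℂ} (hA : IsDensity ρA) (hB : IsDensity ρB) (Y : Matrix C C ℂ) :
    (ρA * ((adj0 V ρA ρB Y)ᴴ * adj0 V ρA ρB Y)).trace.re +
        (ρB * ((adj0 (sw V) ρB ρA Y)ᴴ * adj0 (sw V) ρB ρA Y)).trace.re ≤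
      (out V ρA ρB * (Yᴴ * Y)).trace.re := by
  have a1 := dp_adj V hA hB Y
  have a2 := dp_adj (sw V) hB hA Y
  have a3 := trace_adj0 V (ρB := ρB) hA.2 Y
  have a4 := trace_adj0 (sw V) (ρB := ρA) hB.2 Y
  rw [out_sw] at a2
  set YA := adj0 V ρA ρB Y
  set YB := adj0 (sw V) ρB ρA Y
  set T : Matrix (A × B) (A × B) ℂ := YA ⊗ₖ (1 : Matrix B B ℂ) + (1 : Matrix A A ℂ) ⊗ₖ YB with hT
  have h := dp_expand (hA.1.kronecker hB.1) ((Y ⊗ₖ (1 : Matrix D D ℂ)) * V) (V * T)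
  have e0 : (ρA ⊗ₖ ρB) * Tᴴ = (ρA * YAᴴ) ⊗ₖ ρB + ρA ⊗ₖ (ρB * YBᴴ) := by
    rw [hT, conjTranspose_add, conjTranspose_kronecker, conjTranspose_kronecker, conjTranspose_one,
      conjTranspose_one, Matrix.mul_add, ← mul_kronecker_mul, ← mul_kronecker_mul, Matrix.mul_one,
      Matrix.mul_one]
  have e1 : ((ρA ⊗ₖ ρB) * ((V * T)ᴴ * ((Y ⊗ₖ (1 : Matrix D D ℂ)) * V))).trace =
      (ρA * (YAᴴ * YA)).trace + (ρB * (YBᴴ * YB)).trace := by
    rw [← a1, ← a2, ← dp_out, ← dp_out, ← trace_add, ← Matrix.add_mul, ← e0, conjTranspose_mul]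
    simp only [Matrix.mul_assoc]
  have e2 : ((ρA ⊗ₖ ρB) * (((Y ⊗ₖ (1 : Matrix D D ℂ)) * V)ᴴ *
      ((Y ⊗ₖ (1 : Matrix D D ℂ)) * V))).trace = (out V ρA ρB * (Yᴴ * Y)).trace := by
    rw [trace_mul_comm (out V ρA ρB), ← dp_out, ← Matrix.mul_one (1 : Matrix D D ℂ),
      mul_kronecker_mul Yᴴ Y, Matrix.mul_one, conjTranspose_mul, conjTranspose_kronecker,
      conjTranspose_one]
    simp only [Matrix.mul_assoc]
  have e3 : ((ρA ⊗ₖ ρB) * ((V * T)ᴴ * (V * T))).trace =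
      (ρA * (YAᴴ * YA)).trace + (ρB * (YBᴴ * YB)).trace := by
    rw [conjTranspose_mul, Matrix.mul_assoc, ← Matrix.mul_assoc Vᴴ, hV, Matrix.one_mul,
      ← Matrix.mul_assoc, e0, hT]
    simp only [Matrix.add_mul, Matrix.mul_add, ← mul_kronecker_mul, trace_add, trace_kronecker,
      Matrix.mul_one, a3, a4, hA.2, hB.2, mul_zero, zero_mul, mul_one, one_mul, add_zero, zero_add,
      Matrix.mul_assoc]
  rw [e1, e2, e3, Complex.add_re] at h
  linarith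

theorem dp_left {V : Matrix (C × D) (A × B) ℂ} (hV : Vᴴ * V = 1) {ρA : Matrix A A ℂ}
    {ρB : Matrix B B ℂ} (hA : IsDensity ρA) (hB : IsDensity ρB) (Y : Matrix C C ℂ) :
    (ρA * (adj0 V ρA ρB Y * (adj0 V ρA ρB Y)ᴴ)).trace.re +
        (ρB * (adj0 (sw V) ρB ρA Y * (adj0 (sw V) ρB ρA Y)ᴴ)).trace.re ≤
      (out V ρA ρB * (Y * Yᴴ)).trace.re := by
  have h := dp_right hV hA hB Yᴴ
  rwa [← adj0_conjTranspose V hA.1.1 hB.1.1, ← adj0_conjTranspose (sw V) hB.1.1 hA.1.1,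
    conjTranspose_conjTranspose, conjTranspose_conjTranspose, conjTranspose_conjTranspose] at h

end Crest.Agent.R331

end
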