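import Crest.Agent.R331.Scal

/-!
# Spectral decompositions, entropy, Klein's inequality

For unitary `U, U'` let `w i j = ‖(Uᴴ * U') i j‖^2` (doubly stochastic).
`trace_dg_mul`: `Tr (dg U a * dg U' b) = ∑ i j, w i j a i b j`.
If `dg U a = dg U' b` then `(a i - b j) (Uᴴ * U') i j = 0`, so `∑ f (a i) = ∑ w i j f (a i) = ∑ w i j f (b j) = ∑ f (b j)`:
this gives `ent_dg` from Mathlib's spectral theorem, and `dg_congr`.
`breg_eq`: `breg U a (dg U' b) = ∑ i j, w i j (b j log (b j) - b j log (a i) - b j + a i)`.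
-/

open scoped ComplexOrder Kronecker Matrix
open Matrix Crest.Quantum Crest.MathPhysics.Bosonic

noncomputable section

namespace Crest.Agent.R331

variable {ι : Type*} [Fintype ι] [DecidableEq ι]

theorem ent_l {U : Matrix ι ι ℂ} (hU : U ∈ unitaryGroup ι ℂ) : Uᴴ * U = 1 :=
  mem_unitaryGroup_iff'.1 hU

theorem ent_r {U : Matrix ι ι ℂ} (hU : U ∈ unitaryGroup ι ℂ) : U * Uᴴ = 1 :=
  mem_unitaryGroup_iff.1 hU

theorem ent_l' {U : Matrix ι ι ℂ} (hU : U ∈ unitaryGroup ι ℂ) (X : Matrix ι ι ℂ) :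
    Uᴴ * (U * X) = X := by rw [← Matrix.mul_assoc, ent_l hU, Matrix.one_mul]

theorem ent_r' {U : Matrix ι ι ℂ} (hU : U ∈ unitaryGroup ι ℂ) (X : Matrix ι ι ℂ) :
    U * (Uᴴ * X) = X := by rw [← Matrix.mul_assoc, ent_r hU, Matrix.one_mul]

theorem ent_star {U : Matrix ι ι ℂ} (hU : U ∈ unitaryGroup ι ℂ) : Uᴴ ∈ unitaryGroup ι ℂ :=
  Unitary.star_mem hU

theorem ent_mem {U U' : Matrix ι ι ℂ} (hU : U ∈ unitaryGroup ι ℂ) (hU' : U' ∈ unitaryGroup ι ℂ) :
    Uᴴ * U' ∈ unitaryGroup ι ℂ := mul_mem (ent_star hU) hU'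

theorem exists_dg {X : Matrix ι ι ℂ} (hX : X.IsHermitian) :
    ∃ U ∈ unitaryGroup ι ℂ, ∃ p : ι → ℝ, X = dg U p := by
  exact ⟨hX.eigenvectorUnitary, hX.eigenvectorUnitary.2, hX.eigenvalues, hX.spectral_theorem⟩

theorem dg_herm (U : Matrix ι ι ℂ) (p : ι → ℝ) : (dg U p).IsHermitian := by
  refine isHermitian_mul_mul_conjTranspose _ (isHermitian_diagonal_of_self_adjoint _ ?_)
  funext i
  exact Complex.conj_ofReal _

theorem conj_dg {U : Matrix ι ι ℂ} (hU : U ∈ unitaryGroup ι ℂ) (p : ι → ℝ) :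
    Uᴴ * dg U p * U = diagonal fun i => (p i : ℂ) := by
  simp only [dg, Matrix.mul_assoc, ent_l' hU, ent_l hU, Matrix.mul_one]

theorem dg_psd (U : Matrix ι ι ℂ) {p : ι → ℝ} (hp : ∀ i, 0 ≤ p i) : (dg U p).PosSemidef := by
  exact (posSemidef_diagonal_iff.2 fun i => Complex.zero_le_real.2 (hp i)).mul_mul_conjTranspose_same U

theorem dg_posDef {U : Matrix ι ι ℂ} (hU : U ∈ unitaryGroup ι ℂ) {p : ι → ℝ} (hp : ∀ i, 0 < p i) :
    (dg U p).PosDef := by
  exact (posDef_diagonal_iff.2 fun i => Complex.zero_lt_real.2 (hp i)).mul_mul_conjTranspose_same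
    (vecMul_injective_of_isUnit (IsUnit.of_mul_eq_one _ (ent_r hU)))

theorem nonneg_of_dg {U : Matrix ι ι ℂ} (hU : U ∈ unitaryGroup ι ℂ) {p : ι → ℝ}
    (h : (dg U p).PosSemidef) (i : ι) : 0 ≤ p i := by
  have h1 := h.conjTranspose_mul_mul_same U
  rw [conj_dg hU] at h1
  exact Complex.zero_le_real.1 (posSemidef_diagonal_iff.1 h1 i)

theorem pos_of_dg {U : Matrix ι ι ℂ} (hU : U ∈ unitaryGroup ι ℂ) {p : ι → ℝ}
    (h : (dg U p).PosDef) (i : ι) : 0 < p i := by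
  have h1 := h.conjTranspose_mul_mul_same
    (mulVec_injective_of_isUnit (IsUnit.of_mul_eq_one _ (ent_r hU)))
  rw [conj_dg hU] at h1
  exact Complex.zero_lt_real.1 (posDef_diagonal_iff.1 h1 i)

theorem trace_dg {U : Matrix ι ι ℂ} (hU : U ∈ unitaryGroup ι ℂ) (p : ι → ℝ) :
    (dg U p).trace = ((∑ i, p i : ℝ) : ℂ) := by
  rw [dg, trace_mul_cycle, ent_l hU, Matrix.one_mul, trace_diagonal, Complex.ofReal_sum]

theorem dg_one (p : ι → ℝ) : dg 1 p = diagonal fun i => (p i : ℂ) := by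
  rw [dg, conjTranspose_one, Matrix.one_mul, Matrix.mul_one]

theorem dg_add (U : Matrix ι ι ℂ) (p q : ι → ℝ) :
    dg U (fun i => p i + q i) = dg U p + dg U q := by
  simp only [dg, ← Matrix.add_mul, ← Matrix.mul_add, diagonal_add, Complex.ofReal_add]

theorem dg_smul (U : Matrix ι ι ℂ) (c : ℝ) (p : ι → ℝ) :
    dg U (fun i => c * p i) = (c : ℂ) • dg U p := by
  rw [dg, dg, ← Matrix.smul_mul, ← Matrix.mul_smul, ← diagonal_smul]
  simp only [Complex.ofReal_mul]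
  rfl

theorem dg_const {U : Matrix ι ι ℂ} (hU : U ∈ unitaryGroup ι ℂ) (c : ℝ) :
    dg U (fun _ => c) = (c : ℂ) • (1 : Matrix ι ι ℂ) := by
  rw [dg, ← smul_one_eq_diagonal, Matrix.mul_smul, Matrix.smul_mul, Matrix.mul_one, ent_r hU]

theorem dg_mul {U : Matrix ι ι ℂ} (hU : U ∈ unitaryGroup ι ℂ) (p q : ι → ℝ) :
    dg U p * dg U q = dg U fun i => p i * q i := by
  simp only [dg, Matrix.mul_assoc, ent_l' hU]
  simp only [← Matrix.mul_assoc (diagonal _), diagonal_mul_diagonal, Complex.ofReal_mul]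

theorem ent_self (U : Matrix ι ι ℂ) (p : ι → ℝ) (k : ι) :
    dg U p k k = ((∑ i, ‖U k i‖ ^ 2 * p i : ℝ) : ℂ) := by
  rw [dg, Matrix.mul_apply, Complex.ofReal_sum]
  refine Finset.sum_congr rfl fun i _ => ?_
  rw [mul_diagonal, conjTranspose_apply, mul_right_comm, Complex.star_def, Complex.mul_conj']
  push_cast
  rfl

theorem ent_tr (W : Matrix ι ι ℂ) (a b : ι → ℝ) :
    ((diagonal fun i => (a i : ℂ)) * dg W b).trace =
      ((∑ i, ∑ j, ‖W i j‖ ^ 2 * (a i * b j) : ℝ) : ℂ) := by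
  rw [trace, Complex.ofReal_sum]
  refine Finset.sum_congr rfl fun i _ => ?_
  rw [diag_apply, diagonal_mul, ent_self, ← Complex.ofReal_mul, Finset.mul_sum]
  congr 1
  exact Finset.sum_congr rfl fun j _ => by ring

theorem trace_dg_mul (U U' : Matrix ι ι ℂ) (a b : ι → ℝ) :
    (dg U a * dg U' b).trace = ((∑ i, ∑ j, ‖(Uᴴ * U') i j‖ ^ 2 * (a i * b j) : ℝ) : ℂ) := by
  rw [← ent_tr, dg, Matrix.mul_assoc, Matrix.mul_assoc, trace_mul_comm]
  simp only [dg, conjTranspose_mul, conjTranspose_conjTranspose, Matrix.mul_assoc]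

theorem sum_sq_row {U : Matrix ι ι ℂ} (hU : U ∈ unitaryGroup ι ℂ) (i : ι) :
    ∑ j, ‖U i j‖ ^ 2 = 1 := by
  have h := ent_self U (fun _ => 1) i
  rw [dg_const hU] at h
  simp only [mul_one, Complex.ofReal_one, one_smul, one_apply_eq] at h
  exact_mod_cast h.symm

theorem sum_sq_col {U : Matrix ι ι ℂ} (hU : U ∈ unitaryGroup ι ℂ) (j : ι) :
    ∑ i, ‖U i j‖ ^ 2 = 1 := by
  simpa using sum_sq_row (ent_star hU) j

/-- diagonal entries of `dg U p` -/
theorem dg_apply_self (U : Matrix ι ι ℂ) (p : ι → ℝ) (k : ι) :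
    dg U p k k = ((∑ i, ‖U k i‖ ^ 2 * p i : ℝ) : ℂ) := by
  exact ent_self U p k

theorem ent_iff {U U' : Matrix ι ι ℂ} (hU : U ∈ unitaryGroup ι ℂ) (hU' : U' ∈ unitaryGroup ι ℂ)
    {a b : ι → ℝ} : dg U a = dg U' b ↔ ∀ i j, (Uᴴ * U') i j = 0 ∨ a i = b j := by
  have h1 : dg U a = dg U' b ↔
      (diagonal fun i => (a i : ℂ)) * (Uᴴ * U') = Uᴴ * U' * diagonal fun i => (b i : ℂ) := by
    constructor
    · intro h
      simpa only [dg, Matrix.mul_assoc, ent_l' hU, ent_l hU', Matrix.mul_one] using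
        congrArg (fun X => Uᴴ * X * U') h
    · intro h
      simpa only [dg, Matrix.mul_assoc, ent_r' hU, ent_r hU', Matrix.mul_one] using
        congrArg (fun X => U * X * U'ᴴ) h
  rw [h1, ← Matrix.ext_iff]
  refine forall₂_congr fun i j => ?_
  rw [diagonal_mul, mul_diagonal, mul_comm, mul_eq_mul_left_iff, Complex.ofReal_inj, or_comm]

/-- functions of a matrix do not depend on the decomposition -/
theorem dg_congr {U U' : Matrix ι ι ℂ} (hU : U ∈ unitaryGroup ι ℂ) (hU' : U' ∈ unitaryGroup ι ℂ)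
    {a b : ι → ℝ} (h : dg U a = dg U' b) (f : ℝ → ℝ) :
    dg U (fun i => f (a i)) = dg U' fun i => f (b i) := by
  exact (ent_iff hU hU').2 fun i j => ((ent_iff hU hU').1 h i j).imp_right (congrArg f)

theorem ent_dg {U : Matrix ι ι ℂ} (hU : U ∈ unitaryGroup ι ℂ) (p : ι → ℝ) :
    vnEntropy (dg U p) = ∑ i, Real.negMulLog (p i) := by
  have hX := dg_herm U p
  have h := congrArg trace (dg_congr hU hX.eigenvectorUnitary.2 hX.spectral_theorem Real.negMulLog)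
  rw [trace_dg hU, trace_dg hX.eigenvectorUnitary.2, Complex.ofReal_inj] at h
  rw [vnEntropy, dif_pos hX, h, ← Finset.sum_neg_distrib]
  exact Finset.sum_congr rfl fun i _ => by rw [Real.negMulLog, neg_mul]; rfl

theorem breg_eq {U U' : Matrix ι ι ℂ} (hU : U ∈ unitaryGroup ι ℂ) (hU' : U' ∈ unitaryGroup ι ℂ)
    (a b : ι → ℝ) :
    breg U a (dg U' b) = ∑ i, ∑ j, ‖(Uᴴ * U') i j‖ ^ 2 *
      (b j * Real.log (b j) - b j * Real.log (a i) - b j + a i) := by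
  have hW := ent_mem hU hU'
  have h1 : ∀ g : ι → ℝ, ∑ i, ∑ j, ‖(Uᴴ * U') i j‖ ^ 2 * g i = ∑ i, g i := fun g => by
    simp only [← Finset.sum_mul, sum_sq_row hW, one_mul]
  have h2 : ∀ g : ι → ℝ, ∑ i, ∑ j, ‖(Uᴴ * U') i j‖ ^ 2 * g j = ∑ j, g j := fun g => by
    rw [Finset.sum_comm]
    simp only [← Finset.sum_mul, sum_sq_col hW, one_mul]
  rw [breg, ent_dg hU', mlog, trace_mul_comm, trace_dg_mul, trace_dg hU', Complex.ofReal_re,
    Complex.ofReal_re, ← h1 a, ← h2 b, ← h2 fun j => Real.negMulLog (b j)]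
  simp only [← Finset.sum_neg_distrib, ← Finset.sum_add_distrib, ← Finset.sum_sub_distrib]
  refine Finset.sum_congr rfl fun i _ => Finset.sum_congr rfl fun j _ => ?_
  rw [Real.negMulLog]
  ring

/-- Klein's inequality -/
theorem klein {U : Matrix ι ι ℂ} (hU : U ∈ unitaryGroup ι ℂ) {a : ι → ℝ} (ha : ∀ i, 0 < a i)
    {X : Matrix ι ι ℂ} (hX : X.PosSemidef) : 0 ≤ breg U a X := by
  obtain ⟨U', hU', b, rfl⟩ := exists_dg hX.1
  rw [breg_eq hU hU']
  exact Finset.sum_nonneg fun i _ => Finset.sum_nonneg fun j _ =>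
    mul_nonneg (sq_nonneg _) (breg_nonneg (ha i) (nonneg_of_dg hU' hX j))

/-- the equality case of Klein's inequality -/
theorem klein_eq {U : Matrix ι ι ℂ} (hU : U ∈ unitaryGroup ι ℂ) {a : ι → ℝ} (ha : ∀ i, 0 < a i)
    {X : Matrix ι ι ℂ} (hX : X.PosSemidef) (h : breg U a X ≤ 0) : X = dg U a := by
  obtain ⟨U', hU', b, rfl⟩ := exists_dg hX.1
  rw [breg_eq hU hU'] at h
  have h0 := fun i j => mul_nonneg (sq_nonneg ‖(Uᴴ * U') i j‖)
    (breg_nonneg (ha i) (nonneg_of_dg hU' hX j))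
  have h1 := fun i (_ : i ∈ Finset.univ) => Finset.sum_nonneg fun j (_ : j ∈ Finset.univ) => h0 i j
  refine ((ent_iff hU hU').2 fun i j => ?_).symm
  have h2 := (Finset.sum_eq_zero_iff_of_nonneg fun j _ => h0 i j).1
    ((Finset.sum_eq_zero_iff_of_nonneg h1).1 (le_antisymm h (Finset.sum_nonneg h1)) i
      (Finset.mem_univ _)) j (Finset.mem_univ _)
  exact (mul_eq_zero.1 h2).imp (fun h3 => by simpa using h3)
    fun h3 => (breg_eq_zero (ha i) (nonneg_of_dg hU' hX j) h3.le).symm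

theorem breg_self {U : Matrix ι ι ℂ} (hU : U ∈ unitaryGroup ι ℂ) (a : ι → ℝ) :
    breg U a (dg U a) = 0 := by
  rw [breg, ent_dg hU, mlog, dg_mul hU, trace_dg hU, trace_dg hU, Complex.ofReal_re,
    Complex.ofReal_re]
  simp [Real.negMulLog]

theorem ent_wf {U : Matrix ι ι ℂ} (p : ι → ℝ) (Y : Matrix ι ι ℂ) (hU : U ∈ unitaryGroup ι ℂ) :
    wf U (fun i _ => p i) Y = (dg U p * (Y * Yᴴ)).trace.re := by
  have h := ent_tr (Uᴴ * Y * U) p fun _ => 1
  rw [dg, Matrix.mul_assoc, Matrix.mul_assoc, trace_mul_comm]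
  simp only [dg, Complex.ofReal_one, diagonal_one, conjTranspose_mul, conjTranspose_conjTranspose,
    Matrix.mul_assoc, ent_r' hU, mul_one] at h ⊢
  rw [h, Complex.ofReal_re, wf]
  simp only [Matrix.mul_assoc, mul_comm (p _)]

theorem wf_right {U : Matrix ι ι ℂ} (p : ι → ℝ) (Y : Matrix ι ι ℂ) (hU : U ∈ unitaryGroup ι ℂ) :
    wf U (fun _ k => p k) Y = (dg U p * (Yᴴ * Y)).trace.re := by
  have h := ent_wf p Yᴴ hU
  rw [conjTranspose_conjTranspose] at h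
  rw [← h, wf, wf, Finset.sum_comm]
  refine Finset.sum_congr rfl fun i _ => Finset.sum_congr rfl fun k _ => ?_
  rw [← norm_star, ← conjTranspose_apply]
  simp only [conjTranspose_mul, conjTranspose_conjTranspose, Matrix.mul_assoc]

theorem wf_left {U : Matrix ι ι ℂ} (p : ι → ℝ) (Y : Matrix ι ι ℂ) (hU : U ∈ unitaryGroup ι ℂ) :
    wf U (fun i _ => p i) Y = (dg U p * (Y * Yᴴ)).trace.re := by
  exact ent_wf p Y hU

theorem ip_eq_sum {U : Matrix ι ι ℂ} (hU : U ∈ unitaryGroup ι ℂ) (X Y : Matrix ι ι ℂ) :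
    ip X Y = ∑ i, ∑ k, star ((Uᴴ * X * U) i k) * (Uᴴ * Y * U) i k := by
  have h : ip X Y = ((Uᴴ * X * U)ᴴ * (Uᴴ * Y * U)).trace := by
    simp only [conjTranspose_mul, conjTranspose_conjTranspose, Matrix.mul_assoc, ent_r' hU]
    rw [trace_mul_comm]
    simp only [Matrix.mul_assoc, ent_r hU, Matrix.mul_one, ip]
  rw [h, Finset.sum_comm]
  rfl

/-- `Tr (X Y) ≥ 0` for positive semidefinite `X`, `Y` -/
theorem trace_mul_nonneg {X Y : Matrix ι ι ℂ} (hX : X.PosSemidef) (hY : Y.PosSemidef) :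
    0 ≤ (X * Y).trace.re := by
  obtain ⟨U, hU, a, rfl⟩ := exists_dg hX.1
  obtain ⟨U', hU', b, rfl⟩ := exists_dg hY.1
  rw [trace_dg_mul, Complex.ofReal_re]
  exact Finset.sum_nonneg fun i _ => Finset.sum_nonneg fun j _ =>
    mul_nonneg (sq_nonneg _) (mul_nonneg (nonneg_of_dg hU hX i) (nonneg_of_dg hU' hY j))

end Crest.Agent.R331

end
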