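import Crest.Agent.R331.NetCore
import Crest.Agent.R331.Ent

/-!
# The network inequality for matrices

Apply `net_core` with `I = (A × A) ⊕ (B × B)`, `J = C × C`; a vector `v : C × C → ℂ` is the matrix
`Y = UC * of (curry v) * UCᴴ`, and `W v = (UAᴴ * WA Y * UA, UBᴴ * WB Y * UB)` entrywise.  At the index `(i, k)`:
`p1 = p i`, `p0 = p k`, and `(Uᴴ * Pm N (mlog U p) a * U) i k = Pv N (p i) (p k) ((Uᴴ * a * U) i k)`,
`(Uᴴ * qm N (dg U p) a * U) i k = qv N (p i) (p k) ((Uᴴ * a * U) i k)`; `ip_eq_sum`.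
-/

open scoped ComplexOrder Kronecker Matrix
open Matrix Crest.Quantum Crest.MathPhysics.Bosonic

noncomputable section

namespace Crest.Agent.R331

variable {A B C : Type*} [Fintype A] [Fintype B] [Fintype C]
  [DecidableEq A] [DecidableEq B] [DecidableEq C]

theorem matnet_right {U : Matrix A A ℂ} (hU : U ∈ unitaryGroup A ℂ) (p : A → ℝ)
    (a : Matrix A A ℂ) (i k : A) :
    (Uᴴ * (a * dg U p) * U) i k = (Uᴴ * a * U) i k * (p k : ℂ) := by
  have h : Uᴴ * (a * dg U p) * U = (Uᴴ * a * U) * diagonal fun i => (p i : ℂ) := by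
    rw [← conj_dg hU p]
    simp only [Matrix.mul_assoc, ent_r' hU]
  rw [h, Matrix.mul_diagonal]

theorem matnet_left {U : Matrix A A ℂ} (hU : U ∈ unitaryGroup A ℂ) (p : A → ℝ)
    (a : Matrix A A ℂ) (i k : A) :
    (Uᴴ * (dg U p * a) * U) i k = (p i : ℂ) * (Uᴴ * a * U) i k := by
  have h : Uᴴ * (dg U p * a) * U = (diagonal fun i => (p i : ℂ)) * (Uᴴ * a * U) := by
    rw [← conj_dg hU p]
    simp only [Matrix.mul_assoc, ent_r' hU]
  rw [h, Matrix.diagonal_mul]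

theorem conj_Pm {U : Matrix A A ℂ} (hU : U ∈ unitaryGroup A ℂ) (N : ℝ) (p : A → ℝ)
    (a : Matrix A A ℂ) (i k : A) :
    (Uᴴ * Pm N (mlog U p) a * U) i k = Pv N (p i) (p k) ((Uᴴ * a * U) i k) := by
  unfold Pm mlog Pv
  simp only [Matrix.mul_sub, Matrix.sub_mul, Matrix.mul_smul, Matrix.smul_mul, Matrix.sub_apply,
    Matrix.smul_apply, smul_eq_mul, matnet_right hU, matnet_left hU]
  push_cast
  ring

theorem conj_qm {U : Matrix A A ℂ} (hU : U ∈ unitaryGroup A ℂ) (N : ℝ) (p : A → ℝ)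
    (a : Matrix A A ℂ) (i k : A) :
    (Uᴴ * qm N (dg U p) a * U) i k = qv N (p i) (p k) ((Uᴴ * a * U) i k) := by
  unfold qm qv
  simp only [Matrix.mul_sub, Matrix.sub_mul, Matrix.mul_smul, Matrix.smul_mul, Matrix.sub_apply,
    Matrix.smul_apply, smul_eq_mul, matnet_right hU, matnet_left hU]
  push_cast
  ring

/-- the matrix with entries `v` in the basis `U` -/
def matnet_unc (U : Matrix C C ℂ) : (C × C → ℂ) →ₗ[ℂ] Matrix C C ℂ where
  toFun v := U * Matrix.of (fun i k => v (i, k)) * Uᴴ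
  map_add' v w := by
    rw [← Matrix.add_mul, ← Matrix.mul_add]
    rfl
  map_smul' c v := by
    rw [RingHom.id_apply, ← Matrix.smul_mul, ← Matrix.mul_smul]
    rfl

/-- the entries in the basis `U` -/
def matnet_cur (U : Matrix C C ℂ) : Matrix C C ℂ →ₗ[ℂ] (C × C → ℂ) where
  toFun Y ik := (Uᴴ * Y * U) ik.1 ik.2
  map_add' Y Y' := by
    funext ik
    rw [Matrix.mul_add, Matrix.add_mul]
    rfl
  map_smul' c Y := by
    funext ik
    rw [Matrix.mul_smul, Matrix.smul_mul]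
    rfl

theorem matnet_cur_unc {U : Matrix C C ℂ} (hU : U ∈ unitaryGroup C ℂ) (v : C × C → ℂ) (i k : C) :
    (Uᴴ * matnet_unc U v * U) i k = v (i, k) := by
  have h : Uᴴ * matnet_unc U v * U = Matrix.of fun i k => v (i, k) := by
    show Uᴴ * (U * Matrix.of (fun i k => v (i, k)) * Uᴴ) * U = _
    simp only [Matrix.mul_assoc, ent_l' hU, ent_l hU, Matrix.mul_one]
  rw [h]
  rfl

theorem matnet_unc_cur {U : Matrix C C ℂ} (hU : U ∈ unitaryGroup C ℂ) (Y : Matrix C C ℂ) :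
    matnet_unc U (fun ik => (Uᴴ * Y * U) ik.1 ik.2) = Y := by
  show U * (Uᴴ * Y * U) * Uᴴ = Y
  simp only [Matrix.mul_assoc, ent_r' hU, ent_r hU, Matrix.mul_one]

/-- the network map in coordinates -/
def matnet_W (WA : Matrix C C ℂ →ₗ[ℂ] Matrix A A ℂ) (WB : Matrix C C ℂ →ₗ[ℂ] Matrix B B ℂ)
    (UA : Matrix A A ℂ) (UB : Matrix B B ℂ) (UC : Matrix C C ℂ) :
    (C × C → ℂ) →ₗ[ℂ] ((A × A) ⊕ (B × B) → ℂ) where
  toFun v := Sum.elim (matnet_cur UA (WA (matnet_unc UC v))) (matnet_cur UB (WB (matnet_unc UC v)))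
  map_add' v w := by
    funext x
    rcases x with x | x <;> simp
  map_smul' c v := by
    funext x
    rcases x with x | x <;> simp

theorem matnet_valid (WA : Matrix C C ℂ →ₗ[ℂ] Matrix A A ℂ) (WB : Matrix C C ℂ →ₗ[ℂ] Matrix B B ℂ)
    (UA : Matrix A A ℂ) (UB : Matrix B B ℂ) {UC : Matrix C C ℂ} (hUC : UC ∈ unitaryGroup C ℂ)
    {f : (A × A) ⊕ (B × B) → ℝ} {g : C × C → ℝ}
    (h : ∀ Y, wf UA (fun i k => f (Sum.inl (i, k))) (WA Y) +
      wf UB (fun i k => f (Sum.inr (i, k))) (WB Y) ≤ wf UC (fun i k => g (i, k)) Y) :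
    Valid (matnet_W WA WB UA UB UC) f g := by
  intro v
  have h1 := h (matnet_unc UC v)
  unfold wf at h1
  simp only [matnet_cur_unc hUC] at h1
  rw [Fintype.sum_sum_type, Fintype.sum_prod_type, Fintype.sum_prod_type, Fintype.sum_prod_type]
  exact h1

theorem matnet_wf_mul (U : Matrix A A ℂ) (c : ℝ) {w w' : A → A → ℝ} (h : ∀ i k, w' i k = c * w i k)
    (Y : Matrix A A ℂ) : wf U w' Y = c * wf U w Y := by
  unfold wf
  simp only [Finset.mul_sum, h, mul_assoc]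

theorem mat_net (WA : Matrix C C ℂ →ₗ[ℂ] Matrix A A ℂ) (WB : Matrix C C ℂ →ₗ[ℂ] Matrix B B ℂ)
    {ε NA NB NC : ℝ} (hε0 : 0 ≤ ε) (hε1 : ε < 1) (hNA : 0 < NA) (hNB : 0 < NB) (hNC : 0 < NC)
    {UA : Matrix A A ℂ} {UB : Matrix B B ℂ} {UC : Matrix C C ℂ} (hUA : UA ∈ unitaryGroup A ℂ)
    (hUB : UB ∈ unitaryGroup B ℂ) (hUC : UC ∈ unitaryGroup C ℂ) {pA : A → ℝ} {pB : B → ℝ}
    {pC : C → ℝ} (hpA : ∀ i, 0 < pA i) (hpB : ∀ i, 0 < pB i) (hpC : ∀ i, 0 < pC i)
    (a : Matrix A A ℂ) (b : Matrix B B ℂ) (c : Matrix C C ℂ)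
    (v0 : ∀ Y, wf UA (fun _ k => pA k) (WA Y) + wf UB (fun _ k => pB k) (WB Y) ≤
      wf UC (fun _ k => pC k) Y)
    (v1 : ∀ Y, wf UA (fun i _ => pA i) (WA Y) + wf UB (fun i _ => pB i) (WB Y) ≤
      wf UC (fun i _ => pC i) Y)
    (v2 : ∀ Y, (1 - ε) * (NA / Tm NA * wf UA (fun i k => LM (pA i) (pA k)) (WA Y) +
        NB / Tm NB * wf UB (fun i k => LM (pB i) (pB k)) (WB Y)) ≤
      NC / Tm NC * wf UC (fun i k => LM (pC i) (pC k)) Y)
    (v3 : ∀ Y, (1 - ε) * ((NA + 1) / Tm NA * wf UA (fun i k => LM (pA i) (pA k)) (WA Y) +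
        (NB + 1) / Tm NB * wf UB (fun i k => LM (pB i) (pB k)) (WB Y)) ≤
      (NC + 1) / Tm NC * wf UC (fun i k => LM (pC i) (pC k)) Y) :
    2 * (1 - ε) * (ip (WA (Pm NC (mlog UC pC) c)) (qm NA (dg UA pA) a) +
        ip (WB (Pm NC (mlog UC pC) c)) (qm NB (dg UB pB) b)).re ≤
      (1 - ε) * ((ip (Pm NC (mlog UC pC) c) (qm NC (dg UC pC) c)).re -
          ε * wf UC (fun i k => (pC i + pC k)⁻¹) (qm NC (dg UC pC) c)) +
        (ip (Pm NA (mlog UA pA) a) (qm NA (dg UA pA) a) +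
          ip (Pm NB (mlog UB pB) b) (qm NB (dg UB pB) b)).re := by
  have key := net_core (matnet_W WA WB UA UB UC) hε0 hε1 (Sum.elim (fun _ => NA) fun _ => NB)
    (Sum.elim (fun ik => pA ik.1) fun ik => pB ik.1) (Sum.elim (fun ik => pA ik.2) fun ik => pB ik.2)
    (Sum.elim (fun ik => (UAᴴ * a * UA) ik.1 ik.2) fun ik => (UBᴴ * b * UB) ik.1 ik.2) NC
    (fun ik => pC ik.1) (fun ik => pC ik.2) (fun ik => (UCᴴ * c * UC) ik.1 ik.2)
    (by rintro (x | x) <;> assumption) (by rintro (x | x); exacts [hpA _, hpB _])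
    (by rintro (x | x); exacts [hpA _, hpB _]) hNC (fun _ => hpC _) (fun _ => hpC _)
    (matnet_valid WA WB UA UB hUC v0) (matnet_valid WA WB UA UB hUC v1)
    (matnet_valid WA WB UA UB hUC fun Y => by
      rw [matnet_wf_mul UA ((1 - ε) * (NA / Tm NA)) (w := fun i k => LM (pA i) (pA k))
          (fun i k => by simp only [Sum.elim_inl]; ring),
        matnet_wf_mul UB ((1 - ε) * (NB / Tm NB)) (w := fun i k => LM (pB i) (pB k))
          (fun i k => by simp only [Sum.elim_inr]; ring),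
        matnet_wf_mul UC (NC / Tm NC) (w := fun i k => LM (pC i) (pC k)) (fun i k => by ring)]
      linarith [v2 Y])
    (matnet_valid WA WB UA UB hUC fun Y => by
      rw [matnet_wf_mul UA ((1 - ε) * ((NA + 1) / Tm NA)) (w := fun i k => LM (pA i) (pA k))
          (fun i k => by simp only [Sum.elim_inl]; ring),
        matnet_wf_mul UB ((1 - ε) * ((NB + 1) / Tm NB)) (w := fun i k => LM (pB i) (pB k))
          (fun i k => by simp only [Sum.elim_inr]; ring),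
        matnet_wf_mul UC ((NC + 1) / Tm NC) (w := fun i k => LM (pC i) (pC k)) (fun i k => by ring)]
      linarith [v3 Y])
  have h1 : matnet_unc UC (fun ik => Pv NC (pC ik.1) (pC ik.2) ((UCᴴ * c * UC) ik.1 ik.2)) =
      Pm NC (mlog UC pC) c := by
    simp only [← conj_Pm hUC]
    exact matnet_unc_cur hUC _
  have h2 : matnet_W WA WB UA UB UC
      (fun ik => Pv NC (pC ik.1) (pC ik.2) ((UCᴴ * c * UC) ik.1 ik.2)) =
      Sum.elim (fun ik => (UAᴴ * WA (Pm NC (mlog UC pC) c) * UA) ik.1 ik.2)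
        fun ik => (UBᴴ * WB (Pm NC (mlog UC pC) c) * UB) ik.1 ik.2 := by
    rw [← h1]
    rfl
  rw [h2] at key
  simp only [Fintype.sum_sum_type, Fintype.sum_prod_type, Sum.elim_inl, Sum.elim_inr] at key
  rw [ip_eq_sum hUA, ip_eq_sum hUB, ip_eq_sum hUC, ip_eq_sum hUA, ip_eq_sum hUB]
  unfold wf
  simp only [conj_Pm hUA, conj_Pm hUB, conj_Pm hUC, conj_qm hUA, conj_qm hUB, conj_qm hUC]
  exact key

end Crest.Agent.R331

end
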