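import Crest.Agent.R331.Core1
import Crest.Agent.R331.DP
import Crest.Agent.R331.MatNet

/-!
# The core inequality

Let `P = Pm NC K c`, `K = mlog UC pC`, `ρC = out V ρA ρB`, `α = uA Tr (ρA a)`, `α' = uB Tr (ρB b)`,
`κ = Tm NC Tr (ρC (c K - K c))`, `y = Tr (P ρC) = κ - α - α'` (`mean_c`), `Π = ip P (qm NC σ c)`,
`qm NC σ c = qm NC ρC c` (`hq`).  Apply `mat_net` with `WA = adj0L V ρA ρB`, `WB = adj0L (sw V) ρB ρA`, `uA • a`, `uB • b`:
`v0`, `v1` come from `dp_right`, `dp_left`, `wf_right`, `wf_left`, `trace_mul_nonneg` (`τ ≥ 0`); `v2`, `v3` from `Crit.hess`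
and `NC = uA^2 NA + uB^2 NB`, `uA^2 + uB^2 = 1`.
By `ip_adj` and `c_mul_out`: `ip (adj P) qA + ip (adj P) qB = Π + b₂`, `b₂ = -∑ u N bdy(Pᴴ, 1)`;
`ip (WA P) qA + ip (WB P) qB = Π + b₂ + conj y (α + α')`; `ip_P` evaluates the last term.  Result:
`ε Q ≤ -Re b₂ - Re b₁ - 2 Re (conj y (α+α')) - 2 Re (conj α α') + δ D / (1-ε)`.
-/

open scoped ComplexOrder Kronecker Matrix
open Matrix Crest.Quantum Crest.MathPhysics.Bosonic

noncomputable section

namespace Crest.Agent.R331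

variable {A B C D : Type*} [Fintype A] [Fintype B] [Fintype C] [Fintype D]
  [DecidableEq A] [DecidableEq B] [DecidableEq C] [DecidableEq D]

theorem core_ip_adj0 (V : Matrix (C × D) (A × B) ℂ) (ρA : Matrix A A ℂ) (ρB : Matrix B B ℂ)
    (Y : Matrix C C ℂ) (N : ℝ) (x : Matrix A A ℂ) :
    ip (adj0L V ρA ρB Y) (qm N ρA x) =
      ip (adj V ρB Y) (qm N ρA x) + star (Y * out V ρA ρB).trace * (ρA * x).trace := by
  have h : (qm N ρA x).trace = -(ρA * x).trace := by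
    simp only [qm, trace_sub, trace_smul, smul_eq_mul, trace_mul_comm x ρA]; ring
  show ip (adj0 V ρA ρB Y) (qm N ρA x) = _
  simp only [ip, adj0, conjTranspose_sub, conjTranspose_smul, conjTranspose_one, Matrix.sub_mul,
    Matrix.smul_mul, Matrix.one_mul, trace_sub, trace_smul, smul_eq_mul, h]
  ring

theorem core_num {ε δ T NA NB uA uB Q : ℝ} {Pi SA SB bA1 bB1 bA2 bB2 xa xb k gA gB : ℂ}
    (hε1 : ε < 1) (hT : 0 ≤ T) (hNA : 0 < NA) (hNB : 0 < NB) (huA : 0 < uA) (huB : 0 < uB)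
    (h1 : uA ^ 2 + uB ^ 2 = 1)
    (hS : SA + SB = Pi - ((uA * NA : ℝ) : ℂ) * bA1 - ((uB * NB : ℝ) : ℂ) * bB1)
    (h : 2 * (1 - ε) * (SA + star ((T : ℂ) * k - (uA * xa + uB * xb)) * (uA * xa) +
        (SB + star ((T : ℂ) * k - (uA * xa + uB * xb)) * (uB * xb))).re ≤
      (1 - ε) * (Pi.re - ε * Q) +
        (((1 - ε : ℝ) : ℂ) * (SA - star ((uB : ℂ) * xb) * (uA * xa) -
            ((T * NA : ℝ) : ℂ) * star bA2) + ((δ * uA ^ 2 : ℝ) : ℂ) * gA +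
          (((1 - ε : ℝ) : ℂ) * (SB - star ((uA : ℂ) * xa) * (uB * xb) -
            ((T * NB : ℝ) : ℂ) * star bB2) + ((δ * uB ^ 2 : ℝ) : ℂ) * gB)).re) :
    ε * Q ≤ NA * ‖bA1‖ + NB * ‖bB1‖ + T * NA * ‖bA2‖ + T * NB * ‖bB2‖ +
      2 * (T * ‖k‖) * (‖xa‖ + ‖xb‖) + 4 * (‖xa‖ + ‖xb‖) ^ 2 +
      δ / (1 - ε) * (uA ^ 2 * gA.re + uB ^ 2 * gB.re) := by
  have he : 0 < 1 - ε := by linarith
  have hA1 : uA ≤ 1 := by nlinarith [sq_nonneg uB]
  have hB1 : uB ≤ 1 := by nlinarith [sq_nonneg uA]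
  set α : ℂ := uA * xa with hα
  set α' : ℂ := uB * xb with hα'
  set y : ℂ := (T : ℂ) * k - (α + α') with hy
  have nα : ‖α‖ ≤ ‖xa‖ := by
    rw [hα, norm_mul, Complex.norm_real, Real.norm_eq_abs, abs_of_pos huA]
    nlinarith [norm_nonneg xa]
  have nα' : ‖α'‖ ≤ ‖xb‖ := by
    rw [hα', norm_mul, Complex.norm_real, Real.norm_eq_abs, abs_of_pos huB]
    nlinarith [norm_nonneg xb]
  have ns : ‖α + α'‖ ≤ ‖xa‖ + ‖xb‖ := (norm_add_le _ _).trans (add_le_add nα nα')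
  have ny : ‖y‖ ≤ T * ‖k‖ + (‖xa‖ + ‖xb‖) := by
    refine (norm_sub_le _ _).trans (add_le_add ?_ ns)
    rw [norm_mul, Complex.norm_real, Real.norm_eq_abs, abs_of_nonneg hT]
  have key : ∀ z : ℂ, -z.re ≤ ‖z‖ := fun z => by
    have := Complex.abs_re_le_norm z
    have := neg_abs_le z.re
    linarith
  have e1 : -(star y * (α + α')).re ≤ (T * ‖k‖ + (‖xa‖ + ‖xb‖)) * (‖xa‖ + ‖xb‖) := by
    refine (key _).trans ?_
    rw [norm_mul, norm_star]
    exact mul_le_mul ny ns (norm_nonneg _) (by positivity)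
  have e2 : -(star α' * α).re ≤ ‖xa‖ * ‖xb‖ := by
    refine (key _).trans ?_
    rw [norm_mul, norm_star, mul_comm]
    exact mul_le_mul nα nα' (norm_nonneg _) (norm_nonneg _)
  have e3 : -(star α * α').re ≤ ‖xa‖ * ‖xb‖ := by
    refine (key _).trans ?_
    rw [norm_mul, norm_star]
    exact mul_le_mul nα nα' (norm_nonneg _) (norm_nonneg _)
  have e4 : -(star bA2).re ≤ ‖bA2‖ := by simpa using key (star bA2)
  have e5 : -(star bB2).re ≤ ‖bB2‖ := by simpa using key (star bB2)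
  have e6 : uA * bA1.re ≤ ‖bA1‖ := by
    have := Complex.re_le_norm bA1
    nlinarith [norm_nonneg bA1]
  have e7 : uB * bB1.re ≤ ‖bB1‖ := by
    have := Complex.re_le_norm bB1
    nlinarith [norm_nonneg bB1]
  have hSre : SA.re + SB.re = Pi.re - uA * NA * bA1.re - uB * NB * bB1.re := by
    have := congrArg Complex.re hS
    simpa only [Complex.add_re, Complex.sub_re, Complex.re_ofReal_mul] using this
  have hl : (SA + star y * α + (SB + star y * α')).re =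
      SA.re + SB.re + (star y * (α + α')).re := by
    rw [mul_add]; simp only [Complex.add_re]; ring
  rw [hl] at h
  simp only [Complex.add_re, Complex.sub_re, Complex.re_ofReal_mul] at h
  have hfin : (1 - ε) * (ε * Q) ≤ (1 - ε) * (NA * ‖bA1‖ + NB * ‖bB1‖ + T * NA * ‖bA2‖ +
      T * NB * ‖bB2‖ + 2 * (T * ‖k‖) * (‖xa‖ + ‖xb‖) + 4 * (‖xa‖ + ‖xb‖) ^ 2) +
      δ * (uA ^ 2 * gA.re + uB ^ 2 * gB.re) := by
    have f1 : NA * (uA * bA1.re) ≤ NA * ‖bA1‖ := mul_le_mul_of_nonneg_left e6 hNA.le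
    have f2 : NB * (uB * bB1.re) ≤ NB * ‖bB1‖ := mul_le_mul_of_nonneg_left e7 hNB.le
    have f3 : T * NA * (-(star bA2).re) ≤ T * NA * ‖bA2‖ :=
      mul_le_mul_of_nonneg_left e4 (by positivity)
    have f4 : T * NB * (-(star bB2).re) ≤ T * NB * ‖bB2‖ :=
      mul_le_mul_of_nonneg_left e5 (by positivity)
    have f5 : 2 * (‖xa‖ * ‖xb‖) ≤ 2 * (‖xa‖ + ‖xb‖) ^ 2 := by
      nlinarith [norm_nonneg xa, norm_nonneg xb, mul_nonneg (norm_nonneg xa) (norm_nonneg xb)]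
    have f6 : Pi.re - (SA.re + SB.re) - 2 * (star y * (α + α')).re - (star α' * α).re -
        (star α * α').re - T * NA * (star bA2).re - T * NB * (star bB2).re ≤
        NA * ‖bA1‖ + NB * ‖bB1‖ + T * NA * ‖bA2‖ +
          T * NB * ‖bB2‖ + 2 * (T * ‖k‖) * (‖xa‖ + ‖xb‖) + 4 * (‖xa‖ + ‖xb‖) ^ 2 := by
      rw [hSre]; linarith
    have f7 := mul_le_mul_of_nonneg_left f6 he.le
    linarith
  have : ε * Q ≤ (NA * ‖bA1‖ + NB * ‖bB1‖ + T * NA * ‖bA2‖ +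
      T * NB * ‖bB2‖ + 2 * (T * ‖k‖) * (‖xa‖ + ‖xb‖) + 4 * (‖xa‖ + ‖xb‖) ^ 2) +
      δ * (uA ^ 2 * gA.re + uB ^ 2 * gB.re) / (1 - ε) := by
    rw [← sub_le_iff_le_add', le_div_iff₀ he]
    linarith
  calc ε * Q ≤ _ := this
    _ = _ := by ring

theorem core {V : Matrix (C × D) (A × B) ℂ} (hV : Vᴴ * V = 1) {a gA HA UA : Matrix A A ℂ}
    {b gB HB UB : Matrix B B ℂ} {c UC τ : Matrix C C ℂ} {d : Matrix D D ℂ} {pA : A → ℝ}
    {pB : B → ℝ} {pC : C → ℝ} {uA vA uB vB ε δ NA NB NC : ℝ} (huA : 0 < uA) (huB : 0 < uB)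
    (h1 : uA ^ 2 + uB ^ 2 = 1) (h2 : uA * vA + uB * vB = 0) (hε0 : 0 ≤ ε) (hε1 : ε < 1)
    (hNA : 0 < NA) (hNB : 0 < NB) (hNC : NC = uA ^ 2 * NA + uB ^ 2 * NB)
    (hRA : V * (a ⊗ₖ (1 : Matrix B B ℂ)) = mix uA vA c d * V)
    (hRB : sw V * (b ⊗ₖ (1 : Matrix A A ℂ)) = mix uB vB c d * sw V)
    (hHA : a * HA - HA * a = ((uA ^ 2 : ℝ) : ℂ) • ((ε : ℂ) • a + (δ : ℂ) • gA))
    (hHB : b * HB - HB * b = ((uB ^ 2 : ℝ) : ℂ) • ((ε : ℂ) • b + (δ : ℂ) • gB))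
    (hFA : (aᴴ ⊗ₖ (1 : Matrix B B ℂ)) * dfc V uA vA a c d = 0)
    (hFB : (bᴴ ⊗ₖ (1 : Matrix A A ℂ)) * dfc (sw V) uB vB b c d = 0)
    (hUC : UC ∈ unitaryGroup C ℂ) (hpC : ∀ i, 0 < pC i) (hτ : τ.PosSemidef) (hq : qm NC τ c = 0)
    (hσ : dg UC pC = out V (dg UA pA) (dg UB pB) + τ)
    (crA : Crit V HA ((1 - ε) * Tm NC) (uA ^ 2 * Tm NA) (dg UB pB) UC pC UA pA)
    (crB : Crit (sw V) HB ((1 - ε) * Tm NC) (uB ^ 2 * Tm NB) (dg UA pA) UC pC UB pB) :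
    ε * wf UC (fun i k => (pC i + pC k)⁻¹) (qm NC (dg UC pC) c) ≤
      NA * ‖bdy V (dfc V uA vA a c d) (dg UA pA) (dg UB pB) (Pm NC (mlog UC pC) c)ᴴ 1‖ +
      NB * ‖bdy (sw V) (dfc (sw V) uB vB b c d) (dg UB pB) (dg UA pA) (Pm NC (mlog UC pC) c)ᴴ 1‖ +
      Tm NC * NA * ‖bdy V (dfc V uA vA a c d) (dg UA pA) (dg UB pB) (mlog UC pC) aᴴ‖ +
      Tm NC * NB * ‖bdy (sw V) (dfc (sw V) uB vB b c d) (dg UB pB) (dg UA pA) (mlog UC pC) bᴴ‖ +
      2 * (Tm NC * ‖(out V (dg UA pA) (dg UB pB) * (c * mlog UC pC - mlog UC pC * c)).trace‖) *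
        (‖(dg UA pA * a).trace‖ + ‖(dg UB pB * b).trace‖) +
      4 * (‖(dg UA pA * a).trace‖ + ‖(dg UB pB * b).trace‖) ^ 2 +
      δ / (1 - ε) * (uA ^ 2 * (ip gA (qm NA (dg UA pA) a)).re +
        uB ^ 2 * (ip gB (qm NB (dg UB pB) b)).re) := by
  set ρA := dg UA pA with hρA
  set ρB := dg UB pB with hρB
  set K := mlog UC pC with hK
  set P := Pm NC K c with hP
  have hA : IsDensity ρA := crA.dens
  have hB : IsDensity ρB := crB.dens
  have hNC0 : 0 < NC := by rw [hNC]; positivity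
  have hT : 0 < Tm NC := Tm_pos hNC0
  have hTA : 0 < Tm NA := Tm_pos hNA
  have hTB : 0 < Tm NB := Tm_pos hNB
  have he : 0 < 1 - ε := by linarith
  have h1' : uB ^ 2 + uA ^ 2 = 1 := by linarith
  have h2' : uB * vB + uA * vA = 0 := by linarith
  have hcA := adj_c hV h1 h2 hRA hRB hB.2
  have hcB := adj_c (V := sw V) (sw_iso V hV) h1' h2' hRB (by rw [sw_sw]; exact hRA) hA.2
  have ipA := ip_P hRA hcA hHA crA huA hFA
  have ipB := ip_P hRB hcB hHB crB huB hFB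
  have adA := ip_adj (NA := NA) hRA hB.1.1 ρA P
  have adB := ip_adj (NA := NB) hRB hA.1.1 ρB P
  rw [out_sw, out_sw] at adB
  have cmo := c_mul_out h1 h2 hRA hRB ρA ρB
  have hmean := mean_c hV h1 h2 hRA hRB hA.2 hB.2
  have hPi : ip P (qm NC (dg UC pC) c) =
      (NC : ℂ) * (Pᴴ * (out V ρA ρB * c - c * out V ρA ρB)).trace -
        (Pᴴ * (c * out V ρA ρB)).trace := by
    have : qm NC (dg UC pC) c = qm NC (out V ρA ρB) c + qm NC τ c := by
      rw [hσ]; simp only [qm, Matrix.add_mul, Matrix.mul_add, smul_add]; abel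
    rw [this, hq, add_zero]
    simp only [ip, qm, Matrix.mul_sub, Matrix.mul_smul, trace_sub, trace_smul, smul_eq_mul]
    ring
  have hS : ip (adj V ρB P) (qm NA ρA ((uA : ℂ) • a)) + ip (adj (sw V) ρA P) (qm NB ρB ((uB : ℂ) • b)) =
      ip P (qm NC (dg UC pC) c) -
        ((uA * NA : ℝ) : ℂ) * bdy V (dfc V uA vA a c d) ρA ρB Pᴴ 1 -
        ((uB * NB : ℝ) : ℂ) * bdy (sw V) (dfc (sw V) uB vB b c d) ρB ρA Pᴴ 1 := by
    rw [adA, adB, hPi]
    have : (Pᴴ * (c * out V ρA ρB)).trace = (uA : ℂ) * (Pᴴ * out V (a * ρA) ρB).trace +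
        (uB : ℂ) * (Pᴴ * out V ρA (b * ρB)).trace := by
      rw [cmo]; simp only [Matrix.mul_add, Matrix.mul_smul, trace_add, trace_smul, smul_eq_mul]
    rw [this, hNC]; push_cast; ring
  have hy : (P * out V ρA ρB).trace =
      (Tm NC : ℂ) * (out V ρA ρB * (c * K - K * c)).trace -
        ((uA : ℂ) * (ρA * a).trace + (uB : ℂ) * (ρB * b).trace) := by
    rw [← hmean, trace_mul_comm, hP]
    simp only [Pm, Matrix.mul_sub (out V ρA ρB), Matrix.mul_smul, trace_sub, trace_smul, smul_eq_mul]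
  have v0 : ∀ Y, wf UA (fun _ k => pA k) (adj0L V ρA ρB Y) +
      wf UB (fun _ k => pB k) (adj0L (sw V) ρB ρA Y) ≤ wf UC (fun _ k => pC k) Y := by
    intro Y
    rw [wf_right _ _ crA.unit, wf_right _ _ crB.unit, wf_right _ _ hUC, hσ, Matrix.add_mul, trace_add,
      Complex.add_re]
    have := dp_right hV hA hB Y
    have h3 := trace_mul_nonneg hτ (posSemidef_conjTranspose_mul_self Y)
    exact le_trans this (by linarith)
  have v1 : ∀ Y, wf UA (fun i _ => pA i) (adj0L V ρA ρB Y) +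
      wf UB (fun i _ => pB i) (adj0L (sw V) ρB ρA Y) ≤ wf UC (fun i _ => pC i) Y := by
    intro Y
    rw [wf_left _ _ crA.unit, wf_left _ _ crB.unit, wf_left _ _ hUC, hσ, Matrix.add_mul, trace_add,
      Complex.add_re]
    have := dp_left hV hA hB Y
    have h3 := trace_mul_nonneg hτ (posSemidef_self_mul_conjTranspose Y)
    exact le_trans this (by linarith)
  have vv : ∀ (x y : ℝ), 0 ≤ x → 0 ≤ y → ∀ Y,
      (1 - ε) * (x / Tm NA * wf UA (fun i k => LM (pA i) (pA k)) (adj0L V ρA ρB Y) +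
        y / Tm NB * wf UB (fun i k => LM (pB i) (pB k)) (adj0L (sw V) ρB ρA Y)) ≤
      (uA ^ 2 * x + uB ^ 2 * y) / Tm NC * wf UC (fun i k => LM (pC i) (pC k)) Y := by
    intro x y hx hy Y
    have a1 := crA.hess Y
    have a2 := crB.hess Y
    change (1 - ε) * Tm NC * wf UA _ (adj0L V ρA ρB Y) ≤ _ at a1
    change (1 - ε) * Tm NC * wf UB _ (adj0L (sw V) ρB ρA Y) ≤ _ at a2
    set wA := wf UA (fun i k => LM (pA i) (pA k)) (adj0L V ρA ρB Y)
    set wB := wf UB (fun i k => LM (pB i) (pB k)) (adj0L (sw V) ρB ρA Y)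
    set wC := wf UC (fun i k => LM (pC i) (pC k)) Y
    have b1 := mul_le_mul_of_nonneg_left a1 (show 0 ≤ x / (Tm NA * Tm NC) by positivity)
    have b2 := mul_le_mul_of_nonneg_left a2 (show 0 ≤ y / (Tm NB * Tm NC) by positivity)
    have c1 : x / (Tm NA * Tm NC) * ((1 - ε) * Tm NC * wA) = (1 - ε) * (x / Tm NA * wA) := by
      field_simp
    have c2 : x / (Tm NA * Tm NC) * (uA ^ 2 * Tm NA * wC) = uA ^ 2 * x / Tm NC * wC := by
      field_simp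
    have c3 : y / (Tm NB * Tm NC) * ((1 - ε) * Tm NC * wB) = (1 - ε) * (y / Tm NB * wB) := by
      field_simp
    have c4 : y / (Tm NB * Tm NC) * (uB ^ 2 * Tm NB * wC) = uB ^ 2 * y / Tm NC * wC := by
      field_simp
    rw [c1, c2] at b1
    rw [c3, c4] at b2
    rw [mul_add, add_div, add_mul]
    exact add_le_add b1 b2
  have net := mat_net (adj0L V ρA ρB) (adj0L (sw V) ρB ρA) hε0 hε1 hNA hNB hNC0 crA.unit crB.unit hUC
    crA.pos crB.pos hpC ((uA : ℂ) • a) ((uB : ℂ) • b) c v0 v1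
    (fun Y => by have := vv NA NB hNA.le hNB.le Y; rwa [← hNC] at this)
    (fun Y => by
      have := vv (NA + 1) (NB + 1) (by linarith) (by linarith) Y
      rwa [show uA ^ 2 * (NA + 1) + uB ^ 2 * (NB + 1) = NC + 1 by rw [hNC]; linarith] at this)
  rw [← hρA, ← hρB, ← hK, ← hP, core_ip_adj0, core_ip_adj0, out_sw, hy, ipA, ipB] at net
  simp only [Matrix.mul_smul, trace_smul, smul_eq_mul] at net
  exact core_num hε1 hT.le hNA hNB huA huB h1 hS net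

end Crest.Agent.R331

end
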