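import Crest.Agent.R331.Cov

/-!
# One-sided consequences of the Euler-Lagrange equation

`el_comm`: take the commutator of the Euler-Lagrange equation with `a`, use `cov1` with `Y = mlog UC pC`, `hH`, and
`adj V ρB (Pm NC K c) = Tm NC • adj (c K - K c) - adj c` with `hc`.
`alpha_le`: multiply by `ρA = dg UA pA` and take the trace: `Tr (ρA [a, mlog UA pA]) = 0` (`dg_mul`), `trace_adj`,
`trace_err`; the result is `ε u α = -(1-ε) (u κ - T bdy) - δ u^2 Tr (ρA g)` with `α = u Tr (ρA a)`,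
`κ = T Tr (ρC (c K - K c))`.
`ip_P`: pair `el_comm` with `q = qm NA ρA (u a)`; `Tr q = -α`; `ip err q = conj (Tr (qᴴ err))`,
`qᴴ = u (NA aᴴ ρA - (NA+1) ρA aᴴ)`, `aᴴ err = 0` (`mul_err_eq_zero`), `Tr (aᴴ ρA err) = bdy .. K aᴴ`.
`ip_adj`: `ip (adj Y) q = Tr (Yᴴ out q ρB)`, `q = u NA (ρA a - a ρA) - u a ρA`, `cov2`.
-/

open scoped ComplexOrder Kronecker Matrix
open Matrix Crest.Quantum Crest.MathPhysics.Bosonic

noncomputable section

namespace Crest.Agent.R331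

variable {A B C D : Type*} [Fintype A] [Fintype B] [Fintype C] [Fintype D]
  [DecidableEq A] [DecidableEq B] [DecidableEq C] [DecidableEq D]

variable {V : Matrix (C × D) (A × B) ℂ} {a g H UA : Matrix A A ℂ} {c UC : Matrix C C ℂ}
  {d : Matrix D D ℂ} {ρB : Matrix B B ℂ} {pA : A → ℝ} {pC : C → ℝ} {u v ε δ NA NC : ℝ} {α' : ℂ}

theorem core1_comm (hR : V * (a ⊗ₖ (1 : Matrix B B ℂ)) = mix u v c d * V)
    (hH : a * H - H * a = ((u ^ 2 : ℝ) : ℂ) • ((ε : ℂ) • a + (δ : ℂ) • g))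
    (hcr : Crit V H ((1 - ε) * Tm NC) (u ^ 2 * Tm NA) ρB UC pC UA pA) :
    ((u : ℂ) ^ 2 * Tm NA) • (a * mlog UA pA - mlog UA pA * a) =
      ((1 - (ε : ℂ)) * Tm NC) • ((u : ℂ) • adj V ρB (c * mlog UC pC - mlog UC pC * c) -
        err V (dfc V u v a c d) ρB (mlog UC pC)) + (u : ℂ) ^ 2 • ((ε : ℂ) • a + (δ : ℂ) • g) := by
  obtain ⟨cst, h⟩ := hcr.el
  have h1 := congrArg (fun X => a * X - X * a) h
  simp only [mul_add, add_mul, Matrix.mul_smul, Matrix.smul_mul, mul_one, one_mul] at h1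
  rw [← cov1 hR]
  push_cast at h1 hH
  linear_combination (norm := module) h1 + hH

theorem el_comm (hR : V * (a ⊗ₖ (1 : Matrix B B ℂ)) = mix u v c d * V)
    (hc : adj V ρB c = (u : ℂ) • a + α' • (1 : Matrix A A ℂ))
    (hH : a * H - H * a = ((u ^ 2 : ℝ) : ℂ) • ((ε : ℂ) • a + (δ : ℂ) • g))
    (hcr : Crit V H ((1 - ε) * Tm NC) (u ^ 2 * Tm NA) ρB UC pC UA pA) :
    (u : ℂ) • Pm NA (mlog UA pA) ((u : ℂ) • a) =
      ((1 - ε : ℝ) : ℂ) • ((u : ℂ) • adj V ρB (Pm NC (mlog UC pC) c) +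
          ((u : ℂ) * α') • (1 : Matrix A A ℂ) -
          (Tm NC : ℂ) • err V (dfc V u v a c d) ρB (mlog UC pC)) +
        ((δ * u ^ 2 : ℝ) : ℂ) • g := by
  have h := core1_comm hR hH hcr
  simp only [Pm, adj_sub V ρB ((Tm NC : ℂ) • _), adj_smul, hc, Matrix.mul_smul, Matrix.smul_mul]
  push_cast
  linear_combination (norm := module) h

theorem alpha_le (hR : V * (a ⊗ₖ (1 : Matrix B B ℂ)) = mix u v c d * V)
    (hH : a * H - H * a = ((u ^ 2 : ℝ) : ℂ) • ((ε : ℂ) • a + (δ : ℂ) • g))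
    (hcr : Crit V H ((1 - ε) * Tm NC) (u ^ 2 * Tm NA) ρB UC pC UA pA)
    (hε0 : 0 ≤ ε) (hε1 : ε ≤ 1) (hδ : 0 ≤ δ) (hu : 0 ≤ u) (hNC : 0 < NC) :
    ε * u ^ 2 * ‖(dg UA pA * a).trace‖ ≤
      u * Tm NC * ‖(out V (dg UA pA) ρB * (c * mlog UC pC - mlog UC pC * c)).trace‖ +
        Tm NC * ‖bdy V (dfc V u v a c d) (dg UA pA) ρB (mlog UC pC) 1‖ +
        δ * u ^ 2 * ‖(dg UA pA * g).trace‖ := by
  have h := congrArg (fun X => (dg UA pA * X).trace) (core1_comm hR hH hcr)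
  have h0 : (dg UA pA * (a * mlog UA pA - mlog UA pA * a)).trace = 0 := by
    rw [mul_sub, trace_sub, ← mul_assoc, trace_mul_comm, ← mul_assoc, ← mul_assoc, mlog,
      dg_mul hcr.unit, dg_mul hcr.unit]
    simp only [mul_comm (pA _), sub_self]
  have h1 := trace_err V (dfc V u v a c d) (dg UA pA) ρB (mlog UC pC) 1
  have h2 := trace_adj V ρB (c * mlog UC pC - mlog UC pC * c) (dg UA pA)
  rw [trace_mul_comm, trace_mul_comm (c * _ - _)] at h2
  rw [mul_one] at h1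
  simp only [Matrix.mul_smul, trace_smul, h0, mul_add, trace_add, mul_sub (dg UA pA) ((u : ℂ) • _),
    trace_sub, h1, h2, smul_eq_mul] at h
  have hT := (Tm_pos hNC).le
  generalize (out V (dg UA pA) ρB * (c * mlog UC pC - mlog UC pC * c)).trace = x at h ⊢
  generalize bdy V (dfc V u v a c d) (dg UA pA) ρB (mlog UC pC) 1 = y at h ⊢
  generalize (dg UA pA * a).trace = z at h ⊢
  generalize (dg UA pA * g).trace = w at h ⊢
  have e : ((ε * u ^ 2 : ℝ) : ℂ) * z = ((1 - ε : ℝ) : ℂ) *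
      ((Tm NC : ℂ) * y - ((u * Tm NC : ℝ) : ℂ) * x) - ((δ * u ^ 2 : ℝ) : ℂ) * w := by
    push_cast
    linear_combination -h
  have n : ∀ (r : ℝ) (z : ℂ), 0 ≤ r → ‖(r : ℂ) * z‖ = r * ‖z‖ := fun r z hr => by
    rw [norm_mul, Complex.norm_real, Real.norm_of_nonneg hr]
  rw [← n _ z (by positivity), e]
  refine (norm_sub_le _ _).trans ?_
  rw [n _ w (by positivity), n _ _ (by linarith)]
  refine add_le_add_left ((mul_le_of_le_one_left (norm_nonneg _) (by linarith)).trans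
    ((norm_sub_le _ _).trans ?_)) _
  rw [n _ _ hT, n _ _ (by positivity), add_comm]

theorem ip_P (hR : V * (a ⊗ₖ (1 : Matrix B B ℂ)) = mix u v c d * V)
    (hc : adj V ρB c = (u : ℂ) • a + α' • (1 : Matrix A A ℂ))
    (hH : a * H - H * a = ((u ^ 2 : ℝ) : ℂ) • ((ε : ℂ) • a + (δ : ℂ) • g))
    (hcr : Crit V H ((1 - ε) * Tm NC) (u ^ 2 * Tm NA) ρB UC pC UA pA) (hu : 0 < u)
    (hF : (aᴴ ⊗ₖ (1 : Matrix B B ℂ)) * dfc V u v a c d = 0) :
    ip (Pm NA (mlog UA pA) ((u : ℂ) • a)) (qm NA (dg UA pA) ((u : ℂ) • a)) =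
      ((1 - ε : ℝ) : ℂ) * (ip (adj V ρB (Pm NC (mlog UC pC) c)) (qm NA (dg UA pA) ((u : ℂ) • a)) -
          star α' * ((u : ℂ) * (dg UA pA * a).trace) -
          ((Tm NC * NA : ℝ) : ℂ) * star (bdy V (dfc V u v a c d) (dg UA pA) ρB (mlog UC pC) aᴴ)) +
        ((δ * u ^ 2 : ℝ) : ℂ) * ip g (qm NA (dg UA pA) a) := by
  have h := congrArg (fun X => ip X (qm NA (dg UA pA) ((u : ℂ) • a))) (el_comm hR hc hH hcr)
  have hρ : (dg UA pA)ᴴ = dg UA pA := hcr.dens.1.isHermitian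
  have h1 : (qm NA (dg UA pA) ((u : ℂ) • a)).trace = -((u : ℂ) * (dg UA pA * a).trace) := by
    simp only [qm, Matrix.mul_smul, Matrix.smul_mul, trace_sub, trace_smul, smul_eq_mul,
      trace_mul_comm a]
    ring
  have h2 : ((err V (dfc V u v a c d) ρB (mlog UC pC))ᴴ * qm NA (dg UA pA) ((u : ℂ) • a)).trace =
      u * NA * star (bdy V (dfc V u v a c d) (dg UA pA) ρB (mlog UC pC) aᴴ) := by
    have h3 := congrArg conjTranspose (mul_err_eq_zero (V := V) hF ρB (mlog UC pC))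
    rw [conjTranspose_mul, conjTranspose_conjTranspose, conjTranspose_zero] at h3
    rw [← trace_err, ← trace_conjTranspose, conjTranspose_mul, conjTranspose_mul,
      conjTranspose_conjTranspose, hρ, trace_mul_comm a]
    simp only [qm, Matrix.mul_smul, Matrix.smul_mul, mul_sub, ← mul_assoc, h3, zero_mul, smul_zero,
      sub_zero, trace_smul, smul_eq_mul]
    ring
  have h4 : (gᴴ * qm NA (dg UA pA) ((u : ℂ) • a)).trace = u * ip g (qm NA (dg UA pA) a) := by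
    simp only [ip, qm, Matrix.mul_smul, Matrix.smul_mul, mul_sub, trace_sub, trace_smul,
      smul_eq_mul]
    ring
  generalize qm NA (dg UA pA) ((u : ℂ) • a) = q at h h1 h2 h4 ⊢
  generalize Pm NA (mlog UA pA) ((u : ℂ) • a) = P at h ⊢
  simp only [ip] at h ⊢
  simp only [conjTranspose_add, conjTranspose_sub, conjTranspose_smul, conjTranspose_one,
    Matrix.add_mul, Matrix.sub_mul, Matrix.smul_mul, one_mul, trace_add, trace_sub, trace_smul,
    smul_eq_mul, h1, h2, h4, star_mul', Complex.star_def, Complex.conj_ofReal, ip] at h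
  refine mul_left_cancel₀ (Complex.ofReal_ne_zero.2 hu.ne') ?_
  rw [h, Complex.star_def]
  push_cast
  ring

theorem ip_adj (hR : V * (a ⊗ₖ (1 : Matrix B B ℂ)) = mix u v c d * V) (hB : ρB.IsHermitian)
    (ρA : Matrix A A ℂ) (Y : Matrix C C ℂ) :
    ip (adj V ρB Y) (qm NA ρA ((u : ℂ) • a)) =
      ((u ^ 2 * NA : ℝ) : ℂ) * (Yᴴ * (out V ρA ρB * c - c * out V ρA ρB)).trace -
        ((u * NA : ℝ) : ℂ) * bdy V (dfc V u v a c d) ρA ρB Yᴴ 1 -
        (u : ℂ) * (Yᴴ * out V (a * ρA) ρB).trace := by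
  have h := cov2 hR ρA ρB Yᴴ
  rw [← trace_adj] at h
  rw [ip, adj_conjTranspose V hB, ← trace_adj V ρB Yᴴ (a * ρA)]
  simp only [qm, Matrix.mul_smul, Matrix.smul_mul, mul_sub (adj V ρB Yᴴ), trace_sub, trace_smul,
    smul_eq_mul] at h ⊢
  push_cast
  linear_combination (u * NA) * h

end Crest.Agent.R331

end
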