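import Crest.Agent.R331.Chan

/-!
# Covariance of the channel

`cov1`: `a * adj Y = ptr ((1 ⊗ ρ) (a ⊗ 1) Vᴴ (Y ⊗ 1) V)` with `(a ⊗ 1) Vᴴ = Vᴴ mix - dfc`, and
`adj Y * a = ptr ((1 ⊗ ρ) Vᴴ (Y ⊗ 1) mix V)`; `[mix, Y ⊗ 1] = u [c, Y] ⊗ 1`.  `cov2` is the dual statement
(`trace_adj`, `trace_err`).  `c_mul`: `uA mix(uA, vA) + uB mix(uB, vB) = c ⊗ 1`.
-/

open scoped ComplexOrder Kronecker Matrix
open Matrix Crest.Quantum Crest.MathPhysics.Bosonic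

noncomputable section

namespace Crest.Agent.R331

variable {A B C D : Type*} [Fintype A] [Fintype B] [Fintype C] [Fintype D]
  [DecidableEq A] [DecidableEq B] [DecidableEq C] [DecidableEq D]

variable {V : Matrix (C × D) (A × B) ℂ} {a : Matrix A A ℂ} {b : Matrix B B ℂ} {c : Matrix C C ℂ}
  {d : Matrix D D ℂ} {u v uA vA uB vB : ℝ}

set_option linter.unusedSectionVars false

theorem cov_comm (X : Matrix A A ℂ) (Z : Matrix B B ℂ) :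
    ((1 : Matrix A A ℂ) ⊗ₖ Z) * (X ⊗ₖ (1 : Matrix B B ℂ)) =
      (X ⊗ₖ (1 : Matrix B B ℂ)) * ((1 : Matrix A A ℂ) ⊗ₖ Z) := by
  rw [← mul_kronecker_mul, ← mul_kronecker_mul, Matrix.mul_one, Matrix.one_mul, Matrix.mul_one,
    Matrix.one_mul]

theorem cov_sub_kron (X X' : Matrix A A ℂ) (Z : Matrix B B ℂ) :
    (X - X') ⊗ₖ Z = X ⊗ₖ Z - X' ⊗ₖ Z := by
  rw [eq_sub_iff_add_eq, ← add_kronecker, sub_add_cancel]

theorem cov1 (hR : V * (a ⊗ₖ (1 : Matrix B B ℂ)) = mix u v c d * V) (ρ : Matrix B B ℂ)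
    (Y : Matrix C C ℂ) :
    a * adj V ρ Y - adj V ρ Y * a =
      (u : ℂ) • adj V ρ (c * Y - Y * c) - err V (dfc V u v a c d) ρ Y := by
  have e1 : (a ⊗ₖ (1 : Matrix B B ℂ)) * Vᴴ = Vᴴ * mix u v c d - dfc V u v a c d := by
    rw [dfc, sub_sub_cancel]
  have e3 : mix u v c d * (Y ⊗ₖ (1 : Matrix D D ℂ)) = (Y ⊗ₖ (1 : Matrix D D ℂ)) * mix u v c d +
      (u : ℂ) • ((c * Y - Y * c) ⊗ₖ (1 : Matrix D D ℂ)) := by
    rw [mix, Matrix.add_mul, Matrix.mul_add, Matrix.smul_mul, Matrix.smul_mul, Matrix.mul_smul,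
      Matrix.mul_smul, cov_comm, cov_sub_kron, smul_sub]
    simp only [← mul_kronecker_mul, Matrix.mul_one, Matrix.one_mul]
    abel
  rw [adj, adj, err, ← ptr_mul_left, ← ptr_mul_right, ← ptr_sub, ← ptr_smul, ← ptr_sub]
  congr 1
  have k1 : (a ⊗ₖ (1 : Matrix B B ℂ)) *
      (((1 : Matrix A A ℂ) ⊗ₖ ρ) * Vᴴ * (Y ⊗ₖ (1 : Matrix D D ℂ)) * V) =
      ((1 : Matrix A A ℂ) ⊗ₖ ρ) * Vᴴ * (mix u v c d * (Y ⊗ₖ (1 : Matrix D D ℂ))) * V -
        ((1 : Matrix A A ℂ) ⊗ₖ ρ) * dfc V u v a c d * (Y ⊗ₖ (1 : Matrix D D ℂ)) * V := by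
    rw [← Matrix.mul_assoc, ← Matrix.mul_assoc, ← Matrix.mul_assoc, ← cov_comm,
      Matrix.mul_assoc _ _ Vᴴ, e1, Matrix.mul_sub, Matrix.sub_mul, Matrix.sub_mul]
    simp only [Matrix.mul_assoc]
  rw [k1, e3, Matrix.mul_assoc _ V, hR, Matrix.mul_add, Matrix.add_mul, Matrix.mul_smul,
    Matrix.smul_mul]
  simp only [Matrix.mul_assoc]
  abel

theorem cov2 (hR : V * (a ⊗ₖ (1 : Matrix B B ℂ)) = mix u v c d * V) (ρA : Matrix A A ℂ)
    (ρB : Matrix B B ℂ) (Y : Matrix C C ℂ) :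
    (Y * out V (ρA * a - a * ρA) ρB).trace =
      (u : ℂ) * (Y * (out V ρA ρB * c - c * out V ρA ρB)).trace -
        bdy V (dfc V u v a c d) ρA ρB Y 1 := by
  have h := congrArg (fun Z => (ρA * Z).trace) (cov1 hR ρB Y)
  simp only [Matrix.mul_sub, trace_sub, Matrix.mul_smul, trace_smul, smul_eq_mul] at h
  rw [trace_mul_comm ρA (adj V ρB (c * Y - Y * c)), trace_adj, Matrix.sub_mul, trace_sub] at h
  rw [← trace_adj, ← trace_err, Matrix.mul_one, Matrix.mul_sub, Matrix.mul_sub, trace_sub,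
    trace_sub, ← Matrix.mul_assoc Y, ← Matrix.mul_assoc Y, trace_mul_cycle Y, ← h,
    trace_mul_comm (adj V ρB Y), Matrix.mul_assoc, ← Matrix.mul_assoc (adj V ρB Y),
    trace_mul_comm _ ρA]

theorem c_mul (h1 : uA ^ 2 + uB ^ 2 = 1) (h2 : uA * vA + uB * vB = 0)
    (hRA : V * (a ⊗ₖ (1 : Matrix B B ℂ)) = mix uA vA c d * V)
    (hRB : sw V * (b ⊗ₖ (1 : Matrix A A ℂ)) = mix uB vB c d * sw V) :
    (c ⊗ₖ (1 : Matrix D D ℂ)) * V =
      V * ((uA : ℂ) • (a ⊗ₖ (1 : Matrix B B ℂ)) + (uB : ℂ) • ((1 : Matrix A A ℂ) ⊗ₖ b)) := by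
  have hB : V * ((1 : Matrix A A ℂ) ⊗ₖ b) = mix uB vB c d * V := by
    rw [sw_mul_kron, mul_sw] at hRB
    have := congrArg sw hRB
    rwa [sw_sw, sw_sw] at this
  have k1 : (uA : ℂ) * uA + uB * uB = 1 := by
    rw [← sq, ← sq]
    exact_mod_cast h1
  have k2 : (uA : ℂ) * vA + uB * vB = 0 := by exact_mod_cast h2
  rw [Matrix.mul_add, Matrix.mul_smul, Matrix.mul_smul, hRA, hB, ← Matrix.smul_mul,
    ← Matrix.smul_mul, ← Matrix.add_mul, mix, mix, smul_add, smul_add, smul_smul, smul_smul,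
    smul_smul, smul_smul, add_add_add_comm, ← add_smul, ← add_smul, k1, k2, one_smul, zero_smul,
    add_zero]

theorem adj_c (hV : Vᴴ * V = 1) (h1 : uA ^ 2 + uB ^ 2 = 1) (h2 : uA * vA + uB * vB = 0)
    (hRA : V * (a ⊗ₖ (1 : Matrix B B ℂ)) = mix uA vA c d * V)
    (hRB : sw V * (b ⊗ₖ (1 : Matrix A A ℂ)) = mix uB vB c d * sw V) {ρB : Matrix B B ℂ}
    (hB : ρB.trace = 1) :
    adj V ρB c = (uA : ℂ) • a + ((uB : ℂ) * (ρB * b).trace) • (1 : Matrix A A ℂ) := by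
  rw [adj, Matrix.mul_assoc, c_mul h1 h2 hRA hRB, Matrix.mul_assoc, ← Matrix.mul_assoc Vᴴ, hV,
    Matrix.one_mul, Matrix.mul_add, Matrix.mul_smul, Matrix.mul_smul, ← mul_kronecker_mul,
    ← mul_kronecker_mul, ptr_add, ptr_smul, ptr_smul, ptr_kron, ptr_kron, Matrix.one_mul,
    Matrix.mul_one, Matrix.mul_one, hB, one_smul, smul_smul]

theorem c_mul_out (h1 : uA ^ 2 + uB ^ 2 = 1) (h2 : uA * vA + uB * vB = 0)
    (hRA : V * (a ⊗ₖ (1 : Matrix B B ℂ)) = mix uA vA c d * V)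
    (hRB : sw V * (b ⊗ₖ (1 : Matrix A A ℂ)) = mix uB vB c d * sw V) (ρA : Matrix A A ℂ)
    (ρB : Matrix B B ℂ) :
    c * out V ρA ρB = (uA : ℂ) • out V (a * ρA) ρB + (uB : ℂ) • out V ρA (b * ρB) := by
  rw [out, out, out, ← ptr_mul_left, ← Matrix.mul_assoc, ← Matrix.mul_assoc, c_mul h1 h2 hRA hRB,
    Matrix.mul_assoc V, Matrix.add_mul, Matrix.smul_mul, Matrix.smul_mul, ← mul_kronecker_mul,
    ← mul_kronecker_mul, Matrix.one_mul, Matrix.one_mul, Matrix.mul_add, Matrix.add_mul,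
    Matrix.mul_smul, Matrix.mul_smul, Matrix.smul_mul, Matrix.smul_mul, ptr_add, ptr_smul, ptr_smul]

theorem mean_c (hV : Vᴴ * V = 1) (h1 : uA ^ 2 + uB ^ 2 = 1) (h2 : uA * vA + uB * vB = 0)
    (hRA : V * (a ⊗ₖ (1 : Matrix B B ℂ)) = mix uA vA c d * V)
    (hRB : sw V * (b ⊗ₖ (1 : Matrix A A ℂ)) = mix uB vB c d * sw V) {ρA : Matrix A A ℂ}
    {ρB : Matrix B B ℂ} (hA : ρA.trace = 1) (hB : ρB.trace = 1) :
    (out V ρA ρB * c).trace = (uA : ℂ) * (ρA * a).trace + (uB : ℂ) * (ρB * b).trace := by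
  rw [trace_mul_comm, c_mul_out h1 h2 hRA hRB, trace_add, trace_smul, trace_smul, trace_out V hV,
    trace_out V hV, hA, hB, mul_one, one_mul, smul_eq_mul, smul_eq_mul, trace_mul_comm a,
    trace_mul_comm b]

/-- the energy of the output; from `Vᴴ (cᴴ c ⊗ 1) V = (uA a ⊗ 1 + uB 1 ⊗ b)ᴴ (uA a ⊗ 1 + uB 1 ⊗ b)` -/
theorem energy_c (hV : Vᴴ * V = 1) (h1 : uA ^ 2 + uB ^ 2 = 1) (h2 : uA * vA + uB * vB = 0)
    (hRA : V * (a ⊗ₖ (1 : Matrix B B ℂ)) = mix uA vA c d * V)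
    (hRB : sw V * (b ⊗ₖ (1 : Matrix A A ℂ)) = mix uB vB c d * sw V) {ρA : Matrix A A ℂ}
    {ρB : Matrix B B ℂ} (hA : IsDensity ρA) (hB : IsDensity ρB) (huA : 0 ≤ uA) (huB : 0 ≤ uB) :
    uA ^ 2 * (ρA * (aᴴ * a)).trace.re + uB ^ 2 * (ρB * (bᴴ * b)).trace.re ≤
      (out V ρA ρB * (cᴴ * c)).trace.re + 2 * uA * uB * (‖(ρA * a).trace‖ * ‖(ρB * b).trace‖) := by
  have hc := c_mul h1 h2 hRA hRB
  set S := (uA : ℂ) • (a ⊗ₖ (1 : Matrix B B ℂ)) + (uB : ℂ) • ((1 : Matrix A A ℂ) ⊗ₖ b) with hS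
  have e1 : (out V ρA ρB * (cᴴ * c)).trace = ((ρA ⊗ₖ ρB) * (Sᴴ * S)).trace := by
    have k : (cᴴ * c) ⊗ₖ (1 : Matrix D D ℂ) =
        (c ⊗ₖ (1 : Matrix D D ℂ))ᴴ * (c ⊗ₖ (1 : Matrix D D ℂ)) := by
      rw [conjTranspose_kronecker, ← mul_kronecker_mul, conjTranspose_one, Matrix.mul_one]
    have k2 : Sᴴ * S = ((c ⊗ₖ (1 : Matrix D D ℂ)) * V)ᴴ * ((c ⊗ₖ (1 : Matrix D D ℂ)) * V) := by
      rw [hc, conjTranspose_mul, Matrix.mul_assoc, ← Matrix.mul_assoc Vᴴ, hV, Matrix.one_mul]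
    rw [trace_mul_comm, out, trace_mul_ptr, k, k2, conjTranspose_mul, Matrix.mul_assoc V,
      ← Matrix.mul_assoc _ V, trace_mul_comm]
    simp only [Matrix.mul_assoc]
  have e2 : ((ρA ⊗ₖ ρB) * (Sᴴ * S)).trace =
      ((uA ^ 2 : ℝ) : ℂ) * (ρA * (aᴴ * a)).trace + ((uB ^ 2 : ℝ) : ℂ) * (ρB * (bᴴ * b)).trace +
        ((uA * uB : ℝ) : ℂ) * ((ρA * aᴴ).trace * (ρB * b).trace +
          (ρA * a).trace * (ρB * bᴴ).trace) := by
    simp only [hS, conjTranspose_add, conjTranspose_smul, conjTranspose_kronecker,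
      conjTranspose_one, Matrix.add_mul, Matrix.mul_add, Matrix.smul_mul, Matrix.mul_smul,
      ← mul_kronecker_mul, Matrix.mul_one, Matrix.one_mul, trace_add, trace_smul, trace_kronecker,
      hA.2, hB.2, smul_eq_mul, Complex.star_def, Complex.conj_ofReal]
    push_cast
    ring
  have n1 : ‖(ρA * aᴴ).trace‖ = ‖(ρA * a).trace‖ := by
    rw [← norm_star, ← trace_conjTranspose, conjTranspose_mul, conjTranspose_conjTranspose,
      hA.1.1.eq, trace_mul_comm]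
  have n2 : ‖(ρB * bᴴ).trace‖ = ‖(ρB * b).trace‖ := by
    rw [← norm_star, ← trace_conjTranspose, conjTranspose_mul, conjTranspose_conjTranspose,
      hB.1.1.eq, trace_mul_comm]
  have n3 : ‖(ρA * aᴴ).trace * (ρB * b).trace + (ρA * a).trace * (ρB * bᴴ).trace‖ ≤
      2 * (‖(ρA * a).trace‖ * ‖(ρB * b).trace‖) := by
    refine (norm_add_le _ _).trans_eq ?_
    rw [norm_mul, norm_mul, n1, n2]
    ring
  have n4 := (abs_le.1 ((Complex.abs_re_le_norm _).trans n3)).1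
  rw [e1, e2, Complex.add_re, Complex.add_re, Complex.re_ofReal_mul, Complex.re_ofReal_mul,
    Complex.re_ofReal_mul]
  have n5 := mul_le_mul_of_nonneg_left n4 (mul_nonneg huA huB)
  linarith

theorem mul_err_eq_zero {F : Matrix (A × B) (C × D) ℂ} {X : Matrix A A ℂ}
    (h : (X ⊗ₖ (1 : Matrix B B ℂ)) * F = 0) (ρ : Matrix B B ℂ) (Y : Matrix C C ℂ) :
    X * err V F ρ Y = 0 := by
  rw [err, ← ptr_mul_left, ← Matrix.mul_assoc, ← Matrix.mul_assoc, ← Matrix.mul_assoc, ← cov_comm,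
    Matrix.mul_assoc _ _ F, h, Matrix.mul_zero, Matrix.zero_mul, Matrix.zero_mul]
  ext i j
  simp [ptr]

end Crest.Agent.R331

end
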