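import Mathlib
import Crest.Prelude.Def_FockState

/-!
# R331 (entropy photon-number inequality): definitions and overview

`T(N) = 1 / log (1 + 1/N)` (`Tm`).  The inequality is equivalent to: for all `N_A, N_B > 0`,
`T_C S(ρ_C) - η T_A S(ρ_A) - (1-η) T_B S(ρ_B)` is minimised by the thermal pair, `N_C = η N_A + (1-η) N_B`.

* finite dimensional part: on `VK n K` (at most `K` photons) minimise
  `Psi = (1-ε) T_C S(σ) + ∑_X η_X (-T_X S(ρ_X) + ε E(ρ_X) + δ F(ρ_X))`, `σ = ρ_C + δ γ^N`, `F` a sixth moment.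
  At a minimiser: Euler-Lagrange equation (`EL`), second order condition (`Hess2`), data processing (`DP`),
  covariance of the beam splitter (`Cov`).  A network inequality (`Net`, `NetCore`, `MatNet`) then shows that
  `N_C σ c - (N_C+1) c σ` is small (`Core`), so `σ` is almost thermal (`Rigid`), which bounds `min Psi` from below.
* infinite dimensional part (`Inf*`): truncation, construction of the output state, semicontinuity of entropy.
-/

open scoped ComplexOrder Kronecker Matrix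
open Matrix Crest.Quantum Crest.MathPhysics.Bosonic

noncomputable section

namespace Crest.Agent.R331

/-! ### scalar functions -/

/-- the reciprocal of the logarithmic mean -/
def invL (a b : ℝ) : ℝ := ∫ s in (0 : ℝ)..1, 1 / ((1 - s) * a + s * b)

/-- the logarithmic mean `(b - a) / (log b - log a)` -/
def LM (a b : ℝ) : ℝ := (invL a b)⁻¹

/-- the second divided difference `[a, a, b]` of `x log x` -/
def phi (a b : ℝ) : ℝ := ∫ s in (0 : ℝ)..1, (1 - s) / ((1 - s) * a + s * b)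

/-- the temperature of a thermal mode with mean photon number `N` -/
def Tm (N : ℝ) : ℝ := (Real.log (1 + 1 / N))⁻¹

/-- `∫_0^∞ u^c / ∏ (u + z i)^(b i) du` after the substitution `u = t / (1 - t)` -/
def Iz (z : Fin 4 → ℝ) (b : Fin 4 → ℕ) (c : ℕ) : ℝ :=
  ∫ t in (0 : ℝ)..1, t ^ c * (1 - t) ^ (∑ i, b i - 2 - c) / ∏ i, (t + (1 - t) * z i) ^ b i

def rz (z : Fin 4 → ℝ) (b : Fin 4 → ℕ) : ℝ := Iz z b 1 / Iz z b 0

/-- the key function `∫ u / ∏ (u + z i) / ∫ 1 / ∏ (u + z i)` -/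
def rho (z : Fin 4 → ℝ) : ℝ := rz z fun _ => 1

/-- the four weights attached to a pair of eigenvalues `(p₁, p₀)` and a photon number `N` -/
def zpt (N p1 p0 : ℝ) : Fin 4 → ℝ :=
  ![p0, p1, N * (LM p1 p0 / Tm N), (N + 1) * (LM p1 p0 / Tm N)]

/-- entry of the potential `T [a, K] - a` in an eigenbasis -/
def Pv (N p1 p0 : ℝ) (a : ℂ) : ℂ := ((Tm N * (Real.log p1 - Real.log p0) - 1 : ℝ) : ℂ) * a

/-- entry of the current `N ρ a - (N+1) a ρ` in an eigenbasis -/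
def qv (N p1 p0 : ℝ) (a : ℂ) : ℂ := ((N * p1 - (N + 1) * p0 : ℝ) : ℂ) * a

/-- `W^* f W ≤ g` for diagonal weights `f`, `g` -/
def Valid {I J : Type*} [Fintype I] [Fintype J] (W : (J → ℂ) →ₗ[ℂ] (I → ℂ)) (f : I → ℝ)
    (g : J → ℝ) : Prop :=
  ∀ v : J → ℂ, ∑ i, f i * ‖W v i‖ ^ 2 ≤ ∑ j, g j * ‖v j‖ ^ 2

/-! ### matrices -/

section Mat

variable {ι : Type*} [Fintype ι] [DecidableEq ι]

/-- the matrix with eigenvectors the columns of `U` and eigenvalues `p` -/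
def dg (U : Matrix ι ι ℂ) (p : ι → ℝ) : Matrix ι ι ℂ :=
  U * diagonal (fun i => (p i : ℂ)) * Uᴴ

/-- `-log` of `dg U p` -/
def mlog (U : Matrix ι ι ℂ) (p : ι → ℝ) : Matrix ι ι ℂ := dg U fun i => -Real.log (p i)

/-- relative entropy (Bregman divergence) of `B` with respect to `dg U a` -/
def breg (U : Matrix ι ι ℂ) (a : ι → ℝ) (B : Matrix ι ι ℂ) : ℝ :=
  -vnEntropy B + (B * mlog U a).trace.re - B.trace.re + ∑ i, a i

/-- weighted quadratic form in the basis `U` -/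
def wf (U : Matrix ι ι ℂ) (w : ι → ι → ℝ) (Y : Matrix ι ι ℂ) : ℝ :=
  ∑ i, ∑ k, w i k * ‖(Uᴴ * Y * U) i k‖ ^ 2

/-- Hilbert-Schmidt inner product -/
def ip (X Y : Matrix ι ι ℂ) : ℂ := (Xᴴ * Y).trace

/-- the "potential" `T [a, K] - a` -/
def Pm (N : ℝ) (K a : Matrix ι ι ℂ) : Matrix ι ι ℂ := (Tm N : ℂ) • (a * K - K * a) - a

/-- the "current" `N ρ a - (N+1) a ρ` -/
def qm (N : ℝ) (ρ a : Matrix ι ι ℂ) : Matrix ι ι ℂ :=
  (N : ℂ) • (ρ * a) - ((N : ℂ) + 1) • (a * ρ)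

open scoped Matrix.Norms.L2Operator in
/-- the operator norm of a matrix -/
def opn {m n : Type*} [Fintype m] [Fintype n] [DecidableEq n] (Z : Matrix m n ℂ) : ℝ := ‖Z‖

end Mat

/-! ### the abstract two-input channel -/

section Chan

variable {A B C D : Type*} [Fintype A] [Fintype B] [Fintype C] [Fintype D]
  [DecidableEq A] [DecidableEq B] [DecidableEq C] [DecidableEq D]

/-- partial trace over the second factor -/
def ptr (M : Matrix (A × B) (A × B) ℂ) : Matrix A A ℂ := Matrix.of fun a a' => ∑ b, M (a, b) (a', b)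

/-- output state `Tr_D V (X ⊗ Y) V^*` -/
def out (V : Matrix (C × D) (A × B) ℂ) (X : Matrix A A ℂ) (Y : Matrix B B ℂ) : Matrix C C ℂ :=
  ptr (V * (X ⊗ₖ Y) * Vᴴ)

/-- exchange of the two inputs -/
def sw (V : Matrix (C × D) (A × B) ℂ) : Matrix (C × D) (B × A) ℂ := V.submatrix id Prod.swap

/-- the adjoint of `X ↦ out V X ρ` -/
def adj (V : Matrix (C × D) (A × B) ℂ) (ρ : Matrix B B ℂ) (Y : Matrix C C ℂ) : Matrix A A ℂ :=
  ptr (((1 : Matrix A A ℂ) ⊗ₖ ρ) * Vᴴ * (Y ⊗ₖ (1 : Matrix D D ℂ)) * V)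

/-- the centred adjoint -/
def adj0 (V : Matrix (C × D) (A × B) ℂ) (ρA : Matrix A A ℂ) (ρB : Matrix B B ℂ)
    (Y : Matrix C C ℂ) : Matrix A A ℂ :=
  adj V ρB Y - (Y * out V ρA ρB).trace • (1 : Matrix A A ℂ)

/-- `u c ⊗ 1 + v 1 ⊗ d` -/
def mix (u v : ℝ) (c : Matrix C C ℂ) (d : Matrix D D ℂ) : Matrix (C × D) (C × D) ℂ :=
  (u : ℂ) • (c ⊗ₖ (1 : Matrix D D ℂ)) + (v : ℂ) • ((1 : Matrix C C ℂ) ⊗ₖ d)

/-- the defect of the relation `(a ⊗ 1) V^* = V^* (u c ⊗ 1 + v 1 ⊗ d)` (caused by the truncation) -/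
def dfc (V : Matrix (C × D) (A × B) ℂ) (u v : ℝ) (a : Matrix A A ℂ) (c : Matrix C C ℂ)
    (d : Matrix D D ℂ) : Matrix (A × B) (C × D) ℂ :=
  Vᴴ * mix u v c d - (a ⊗ₖ (1 : Matrix B B ℂ)) * Vᴴ

/-- boundary operator `Tr_B (1 ⊗ ρ_B) F (Y ⊗ 1) V` -/
def err (V : Matrix (C × D) (A × B) ℂ) (F : Matrix (A × B) (C × D) ℂ) (ρB : Matrix B B ℂ)
    (Y : Matrix C C ℂ) : Matrix A A ℂ :=
  ptr (((1 : Matrix A A ℂ) ⊗ₖ ρB) * F * (Y ⊗ₖ (1 : Matrix D D ℂ)) * V)

/-- boundary term `Tr (ρ_A ⊗ ρ_B) F (Y ⊗ 1) V (Z ⊗ 1)` -/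
def bdy (V : Matrix (C × D) (A × B) ℂ) (F : Matrix (A × B) (C × D) ℂ) (ρA : Matrix A A ℂ)
    (ρB : Matrix B B ℂ) (Y : Matrix C C ℂ) (Z : Matrix A A ℂ) : ℂ :=
  ((ρA ⊗ₖ ρB) * F * (Y ⊗ₖ (1 : Matrix D D ℂ)) * V * (Z ⊗ₖ (1 : Matrix B B ℂ))).trace

/-- the one-sided functional -/
def Psi1 (V : Matrix (C × D) (A × B) ℂ) (τ : Matrix C C ℂ) (H : Matrix A A ℂ) (κC κA : ℝ)
    (ρB : Matrix B B ℂ) (ω : Matrix A A ℂ) : ℝ :=
  κC * vnEntropy (out V ω ρB + τ) - κA * vnEntropy ω + (ω * H).trace.re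

/-- the functional that is minimised -/
def Psi (V : Matrix (C × D) (A × B) ℂ) (τ : Matrix C C ℂ) (HA : Matrix A A ℂ) (HB : Matrix B B ℂ)
    (κC κA κB : ℝ) (ρA : Matrix A A ℂ) (ρB : Matrix B B ℂ) : ℝ :=
  κC * vnEntropy (out V ρA ρB + τ) - κA * vnEntropy ρA - κB * vnEntropy ρB
    + (ρA * HA).trace.re + (ρB * HB).trace.re

/-- What minimality in the first input gives: `ρA = dg UA pA` has full rank, satisfies the
Euler-Lagrange equation and the second order condition. -/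
structure Crit (V : Matrix (C × D) (A × B) ℂ) (H : Matrix A A ℂ) (κC κA : ℝ)
    (ρB : Matrix B B ℂ) (UC : Matrix C C ℂ) (pC : C → ℝ) (UA : Matrix A A ℂ) (pA : A → ℝ) :
    Prop where
  unit : UA ∈ unitaryGroup A ℂ
  pos : ∀ i, 0 < pA i
  dens : IsDensity (dg UA pA)
  el : ∃ cst : ℝ, (κA : ℂ) • mlog UA pA =
    (κC : ℂ) • adj V ρB (mlog UC pC) + H + (cst : ℂ) • (1 : Matrix A A ℂ)
  hess : ∀ Y : Matrix C C ℂ,
    κC * wf UA (fun i k => LM (pA i) (pA k)) (adj0 V (dg UA pA) ρB Y) ≤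
      κA * wf UC (fun i k => LM (pC i) (pC k)) Y

end Chan

/-! ### truncated Fock space -/

/-- total photon number -/
def tot {n : ℕ} (k : Occ n) : ℕ := ∑ j, k j

/-- occupation tuples with at most `K` photons -/
abbrev VK (n K : ℕ) : Type := {k : Occ n // tot k ≤ K}

instance (n K : ℕ) : Fintype (VK n K) :=
  Fintype.subtype ((Fintype.piFinset fun _ : Fin n => Finset.range (K + 1)).filter
    fun k => tot k ≤ K) (by
      intro k
      simp only [Finset.mem_filter, Fintype.mem_piFinset, Finset.mem_range, and_iff_right_iff_imp]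
      intro h j
      have : k j ≤ tot k :=
        Finset.single_le_sum (f := k) (fun _ _ => Nat.zero_le _) (Finset.mem_univ j)
      omega)

instance (n K : ℕ) : Nonempty (VK n K) := ⟨⟨0, by simp [tot]⟩⟩

/-- truncated annihilation operator of mode `j` -/
def ann (n K : ℕ) (j : Fin n) : Matrix (VK n K) (VK n K) ℂ :=
  Matrix.of fun k l => if l.1 = k.1 + Pi.single j 1 then (√(l.1 j : ℝ) : ℂ) else 0

/-- a function of the total photon number -/
def dN (n K : ℕ) (g : ℕ → ℝ) : Matrix (VK n K) (VK n K) ℂ :=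
  diagonal fun k => (g (tot k.1) : ℂ)

/-- the number operator -/
def num (n K : ℕ) : Matrix (VK n K) (VK n K) ℂ := dN n K fun m => (m : ℝ)

/-- projection onto the top level -/
def topP (n K : ℕ) : Matrix (VK n K) (VK n K) ℂ := dN n K fun m => if m = K then 1 else 0

/-- the beam splitter as an isometry -/
def Vbs (n : ℕ) (η : ℝ) (K : ℕ) :
    Matrix (VK n (2 * K) × VK n (2 * K)) (VK n K × VK n K) ℂ :=
  Matrix.of fun pq kl => (ampOcc η kl.1.1 kl.2.1 pq.1.1 pq.2.1 : ℂ)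

/-- the penalty `f(m) = ∑_{i ≤ m} i^5` -/
def f6 (m : ℕ) : ℝ := ∑ i ∈ Finset.range (m + 1), (i : ℝ) ^ 5

/-- `a_j f'(N)`, `f'(m) = m^5` -/
def gann (n K : ℕ) (j : Fin n) : Matrix (VK n K) (VK n K) ℂ :=
  ann n K j * dN n K fun m => (m : ℝ) ^ 5

/-- the penalty Hamiltonian `w (ε N + δ f(N))` -/
def Hpen (n K : ℕ) (w ε δ : ℝ) : Matrix (VK n K) (VK n K) ℂ :=
  dN n K fun m => w * (ε * m + δ * f6 m)

/-- the floor `δ (N/(N+1))^{number operator}` -/
def flo (n K : ℕ) (N δ : ℝ) : Matrix (VK n K) (VK n K) ℂ :=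
  dN n K fun m => δ * (N / (N + 1)) ^ m

/-- the functional for the beam splitter -/
def PsiF (n : ℕ) (η NA NB ε δ : ℝ) (K : ℕ) (ρA ρB : Matrix (VK n K) (VK n K) ℂ) : ℝ :=
  Psi (Vbs n η K) (flo n (2 * K) (η * NA + (1 - η) * NB) δ) (Hpen n K η ε δ) (Hpen n K (1 - η) ε δ)
    ((1 - ε) * Tm (η * NA + (1 - η) * NB)) (η * Tm NA) ((1 - η) * Tm NB) ρA ρB

/-- truncated partition function -/
def Zs (n K : ℕ) (x : ℝ) : ℝ := ∑ k : VK n K, x ^ tot k.1

/-- truncated (unnormalised) thermal energy -/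
def Es (n K : ℕ) (x : ℝ) : ℝ := ∑ k : VK n K, (tot k.1 : ℝ) * x ^ tot k.1

/-- All the data of a minimiser of `PsiF`. -/
structure MinData (n : ℕ) (η NA NB ε δ : ℝ) (K : ℕ) where
  UA : Matrix (VK n K) (VK n K) ℂ
  pA : VK n K → ℝ
  UB : Matrix (VK n K) (VK n K) ℂ
  pB : VK n K → ℝ
  UC : Matrix (VK n (2 * K)) (VK n (2 * K)) ℂ
  pC : VK n (2 * K) → ℝ
  unitC : UC ∈ unitaryGroup (VK n (2 * K)) ℂ
  posC : ∀ i, 0 < pC i
  eqC : dg UC pC =
    out (Vbs n η K) (dg UA pA) (dg UB pB) + flo n (2 * K) (η * NA + (1 - η) * NB) δ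
  critA : Crit (Vbs n η K) (Hpen n K η ε δ) ((1 - ε) * Tm (η * NA + (1 - η) * NB)) (η * Tm NA)
    (dg UB pB) UC pC UA pA
  critB : Crit (sw (Vbs n η K)) (Hpen n K (1 - η) ε δ) ((1 - ε) * Tm (η * NA + (1 - η) * NB))
    ((1 - η) * Tm NB) (dg UA pA) UC pC UB pB
  isMin : ∀ ωA ωB : Matrix (VK n K) (VK n K) ℂ, IsDensity ωA → IsDensity ωB →
    PsiF n η NA NB ε δ K (dg UA pA) (dg UB pB) ≤ PsiF n η NA NB ε δ K ωA ωB

/-- the isometric embedding `VK n K₀ → VK n K` -/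
def pad (n K₀ K : ℕ) : Matrix (VK n K) (VK n K₀) ℂ :=
  Matrix.of fun k l => if k.1 = l.1 then 1 else 0

/-! ### operators on Fock space -/

/-- the compression of an operator to `VK n K` -/
def mat {n : ℕ} (K : ℕ) (X : Fock n →L[ℂ] Fock n) : Matrix (VK n K) (VK n K) ℂ :=
  Matrix.of fun k l => entry X k.1 l.1

/-- the operator with a finite matrix -/
def emb {n K : ℕ} (M : Matrix (VK n K) (VK n K) ℂ) : Fock n →L[ℂ] Fock n :=
  ∑ k, ∑ l, M k l • InnerProductSpace.rankOne ℂ (ket k.1) (ket l.1)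

/-- `-X log X` -/
def fc {n : ℕ} (X : Fock n →L[ℂ] Fock n) : Fock n →L[ℂ] Fock n :=
  cfc (fun z : ℂ => (-(z.re * Real.log z.re) : ℂ)) X

/-- the operator `∑ |t j⟩⟨t j|` of a square summable family -/
def hsOp {n : ℕ} {J : Type*} (t : J → Fock n) : Fock n →L[ℂ] Fock n :=
  ∑' j, InnerProductSpace.rankOne ℂ (t j) (t j)

/-- the amplitude `⟨k, e| U |u ⊗ v⟩` -/
def outv {n : ℕ} (η : ℝ) (u v : Occ n → ℂ) (k e : Occ n) : ℂ :=
  ∑ a : Splitting (k + e), (ampOcc η a.fst a.snd k e : ℂ) * u a.fst * v a.snd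

/-- truncation of a vector to at most `K` photons -/
def cut {n : ℕ} (K : ℕ) : Fock n →L[ℂ] Fock n := emb (1 : Matrix (VK n K) (VK n K) ℂ)

end Crest.Agent.R331

end
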