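import Crest.Agent.R331.Chan

/-!
# Euler-Lagrange equation (Gibbs principle)

Let `K = mlog UC pC`, `G = κC adj V ρB K + H` (Hermitian) `= dg U h`, `Z = ∑ exp (-h i / κA)`,
`p i = exp (-h i / κA) / Z`, `ω = dg U p` (a density matrix), so `κA mlog U p = G + κA log Z`.
`klein` for `out V ω ρB + τ` (same trace as `dg UC pC`) and `breg_self` give
`S(out ω + τ) - S(out ρA + τ) ≤ Re Tr (out (ω - ρA) K) = Re Tr (adj K (ω - ρA))`.  Insert this in the minimality:
`Re Tr (ρA G) - κA S(ρA) ≤ Re Tr (ω G) - κA S(ω)`, which says `κA breg U p ρA ≤ κA breg U p ω = 0`.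
Hence `ρA = ω` by `klein_eq`.
-/

open scoped ComplexOrder Kronecker Matrix
open Matrix Crest.Quantum Crest.MathPhysics.Bosonic

noncomputable section

namespace Crest.Agent.R331

variable {A B C D : Type*} [Fintype A] [Fintype B] [Fintype C] [Fintype D]
  [DecidableEq A] [DecidableEq B] [DecidableEq C] [DecidableEq D]

theorem euler_lagrange {V : Matrix (C × D) (A × B) ℂ} (hV : Vᴴ * V = 1) {τ : Matrix C C ℂ}
    (hτ : τ.PosSemidef) {H : Matrix A A ℂ} (hH : H.IsHermitian) {κC κA : ℝ} (hκC : 0 ≤ κC)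
    (hκA : 0 < κA) {ρA : Matrix A A ℂ} {ρB : Matrix B B ℂ} (hA : IsDensity ρA) (hB : IsDensity ρB)
    {UC : Matrix C C ℂ} (hUC : UC ∈ unitaryGroup C ℂ) {pC : C → ℝ} (hpC : ∀ i, 0 < pC i)
    (hσ : dg UC pC = out V ρA ρB + τ)
    (hmin : ∀ ω, IsDensity ω → Psi1 V τ H κC κA ρB ρA ≤ Psi1 V τ H κC κA ρB ω) :
    ∃ UA ∈ unitaryGroup A ℂ, ∃ pA : A → ℝ, (∀ i, 0 < pA i) ∧ ρA = dg UA pA ∧
      ∃ cst : ℝ, (κA : ℂ) • mlog UA pA =
        (κC : ℂ) • adj V ρB (mlog UC pC) + H + (cst : ℂ) • (1 : Matrix A A ℂ) := by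
  have : Nonempty A := by
    by_contra h
    have := not_nonempty_iff.1 h
    have h2 := hA.2
    simp [trace] at h2
  have hK : (mlog UC pC).IsHermitian := dg_herm _ _
  have hadj : (adj V ρB (mlog UC pC)).IsHermitian := by
    rw [IsHermitian, adj_conjTranspose V hB.1.1, hK.eq]
  have hG : ((κC : ℂ) • adj V ρB (mlog UC pC) + H).IsHermitian := by
    refine IsHermitian.add ?_ hH
    rw [IsHermitian, conjTranspose_smul, hadj.eq, Complex.star_def, Complex.conj_ofReal]
  obtain ⟨U, hU, h, hGU⟩ := exists_dg hG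
  set Z : ℝ := ∑ i, Real.exp (-h i / κA) with hZ
  have hZ0 : 0 < Z := Finset.sum_pos (fun i _ => Real.exp_pos _) Finset.univ_nonempty
  set p : A → ℝ := fun i => Real.exp (-h i / κA) / Z with hp
  have hp0 : ∀ i, 0 < p i := fun i => div_pos (Real.exp_pos _) hZ0
  have hp1 : ∑ i, p i = 1 := by rw [← Finset.sum_div, div_self hZ0.ne']
  have hω : IsDensity (dg U p) := ⟨dg_psd U fun i => (hp0 i).le, by rw [trace_dg hU, hp1]; simp⟩
  have hEL : (κA : ℂ) • mlog U p = (κC : ℂ) • adj V ρB (mlog UC pC) + H +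
      ((κA * Real.log Z : ℝ) : ℂ) • (1 : Matrix A A ℂ) := by
    rw [hGU, mlog, ← dg_smul, ← dg_const hU, ← dg_add]
    congr 1
    funext i
    simp only [hp]
    rw [Real.log_div (Real.exp_pos _).ne' hZ0.ne', Real.log_exp]
    field_simp
    ring
  have htr : ∀ X : Matrix A A ℂ, X.trace = 1 → κA * (X * mlog U p).trace.re =
      κC * (out V X ρB * mlog UC pC).trace.re + (X * H).trace.re + κA * Real.log Z := by
    intro X hX
    have h1 := congrArg (fun M => (X * M).trace.re) hEL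
    simp only [Matrix.mul_add, Matrix.mul_smul, trace_add, trace_smul, hX,
      smul_eq_mul, mul_one, Complex.add_re, Complex.re_ofReal_mul, Complex.ofReal_re] at h1
    rw [h1, trace_mul_comm X (adj _ _ _), trace_adj, trace_mul_comm (mlog UC pC)]
  have k1 := klein hUC hpC ((out_psd V hω.1 hB.1).add hτ)
  have k2 := breg_self hUC pC
  have k3 := breg_self hU p
  have k4 := hmin _ hω
  have k5 := htr _ hω.2
  have k6 := htr _ hA.2
  rw [hσ] at k2
  refine ⟨U, hU, p, hp0, klein_eq hU hp0 hA.1 ?_, _, hEL⟩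
  simp only [breg, Psi1, Matrix.add_mul, trace_add, Complex.add_re, trace_out V hV, hA.2, hB.2,
    hω.2, Complex.one_re, mul_one] at k1 k2 k3 k4 ⊢
  refine le_of_mul_le_mul_left ?_ hκA
  have k7 := mul_nonneg hκC k1
  have k8 := congrArg (fun x => κC * x) k2
  have k9 := congrArg (fun x => κA * x) k3
  simp only [mul_zero] at k8 k9 ⊢
  linarith

end Crest.Agent.R331

end
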