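import Crest.Agent.R331.Ent

/-!
# More entropy inequalities

* `jensen_diag`, `peierls`: Jensen's inequality for the concave `negMulLog` with the weights `‖U k i‖^2`.
* `mlog_le` (operator monotonicity of `log` in the form needed): let `X = dg U a ≥ c |u⟩⟨u|`, `u` a unit vector,
  `w i = ‖(Uᴴ u) i‖^2`.  With `s = ∑ w i / a i = ⟨u, X⁻¹ u⟩` and `v = X⁻¹ u`: `s = ⟨v, X v⟩ ≥ c |⟨u, v⟩|^2 = c s^2`, so
  `s ≤ 1/c`, and `∑ w i log (1 / a i) ≤ log s` (Jensen, or `log x ≤ x - 1` applied to `c / a i`).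
* `ent_add_le`: `S(X + Y) = Tr X K + Tr Y K`, `K = -log (X + Y)`; expand `X`, `Y` in eigenvectors and use `mlog_le`.
* `ent_ge_of_le`: `diagonal b ≥ X ≥ p i |u i⟩⟨u i|` for the eigenvectors `u i` of `X`; use `mlog_le` with `U = 1`.
* `ent_isometry`: `X = dg U a`, `J X Jᴴ = dg U' b`, `w i j = ‖(U'ᴴ J U) j i‖^2`; `(b j - a i) (U'ᴴ J U) j i = 0`,
  `∑ j, w i j = 1`, and `∑ i, w i j = 1` whenever `b j ≠ 0` (then the eigenvector lies in the range of `J`).
-/

open scoped ComplexOrder Kronecker Matrix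
open Matrix Crest.Quantum Crest.MathPhysics.Bosonic

noncomputable section

namespace Crest.Agent.R331

variable {ι : Type*} [Fintype ι] [DecidableEq ι]

theorem jensen_diag {U : Matrix ι ι ℂ} (hU : U ∈ unitaryGroup ι ℂ) {p : ι → ℝ} (hp : ∀ i, 0 ≤ p i)
    (k : ι) : (dg U (fun i => Real.negMulLog (p i)) k k).re ≤ Real.negMulLog (dg U p k k).re := by
  rw [dg_apply_self, dg_apply_self, Complex.ofReal_re, Complex.ofReal_re]
  exact Real.concaveOn_negMulLog.le_map_sum (t := Finset.univ) (w := fun i => ‖U k i‖ ^ 2)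
    (fun i _ => sq_nonneg _) (sum_sq_row hU k) fun i _ => hp i

theorem ent2_conj {κ : Type*} [Fintype κ] (A : Matrix κ ι ℂ) (U : Matrix ι ι ℂ) (p : ι → ℝ) :
    A * dg U p * Aᴴ = A * U * diagonal (fun i => (p i : ℂ)) * (A * U)ᴴ := by
  simp only [dg, conjTranspose_mul, Matrix.mul_assoc]

theorem peierls {U : Matrix ι ι ℂ} (hU : U ∈ unitaryGroup ι ℂ) {X : Matrix ι ι ℂ}
    (hX : X.PosSemidef) : vnEntropy X ≤ ∑ i, Real.negMulLog ((Uᴴ * X * U) i i).re := by
  obtain ⟨V, hV, p, rfl⟩ := exists_dg hX.1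
  have hp := nonneg_of_dg hV hX
  have hW : Uᴴ * V ∈ unitaryGroup ι ℂ := mul_mem (Unitary.star_mem hU) hV
  have e : Uᴴ * dg V p * U = dg (Uᴴ * V) p := by
    have := ent2_conj Uᴴ V p
    rwa [conjTranspose_conjTranspose] at this
  rw [e, ent_dg hV, ← Complex.ofReal_re (∑ i, _), ← trace_dg hW, trace, Complex.re_sum]
  exact Finset.sum_le_sum fun k _ => jensen_diag hW hp k

theorem ent2_quad (U : Matrix ι ι ℂ) (p : ι → ℝ) (u : ι → ℂ) :
    star u ⬝ᵥ (dg U p *ᵥ u) = ((∑ i, ‖(Uᴴ *ᵥ u) i‖ ^ 2 * p i : ℝ) : ℂ) := by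
  have e : star u ᵥ* U = star (Uᴴ *ᵥ u) := by rw [star_mulVec, conjTranspose_conjTranspose]
  rw [dg, ← mulVec_mulVec, ← mulVec_mulVec, dotProduct_mulVec, e, dotProduct, Complex.ofReal_sum]
  refine Finset.sum_congr rfl fun i _ => ?_
  rw [mulVec_diagonal, Pi.star_apply, Complex.ofReal_mul, Complex.ofReal_pow, ← Complex.conj_mul',
    Complex.star_def]
  ring

theorem mlog_le {U : Matrix ι ι ℂ} (hU : U ∈ unitaryGroup ι ℂ) {a : ι → ℝ} (ha : ∀ i, 0 < a i)
    {u : ι → ℂ} (hu : star u ⬝ᵥ u = 1) {c : ℝ} (hc : 0 < c)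
    (h : (dg U a - (c : ℂ) • vecMulVec u (star u)).PosSemidef) :
    (star u ⬝ᵥ (mlog U a *ᵥ u)).re ≤ -Real.log c := by
  set w : ι → ℝ := fun i => ‖(Uᴴ *ᵥ u) i‖ ^ 2 with hw
  have hw0 : ∀ i, 0 ≤ w i := fun i => sq_nonneg _
  have hw1 : ∑ i, w i = 1 := by
    have h1 := ent2_quad U (fun _ => 1) u
    rw [dg_const hU, Complex.ofReal_one, one_smul, one_mulVec, hu] at h1
    simpa [hw] using (Complex.ofReal_eq_one.1 h1.symm)
  set s : ℝ := ∑ i, w i * (a i)⁻¹ with hs
  set v := dg U (fun i => (a i)⁻¹) *ᵥ u with hv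
  have h1 : star u ⬝ᵥ v = s := ent2_quad U _ u
  have h2 : star v ⬝ᵥ u = s := by
    rw [star_dotProduct, h1, Complex.star_def, Complex.conj_ofReal]
  have h3 : dg U a *ᵥ v = u := by
    rw [hv, mulVec_mulVec, dg_mul hU]
    simp only [mul_inv_cancel₀ (ha _).ne']
    rw [dg_const hU, Complex.ofReal_one, one_smul, one_mulVec]
  have h4 := h.dotProduct_mulVec_nonneg v
  rw [sub_mulVec, h3, smul_mulVec, vecMulVec_mulVec, h1, dotProduct_sub, dotProduct_smul,
    dotProduct_smul, h2] at h4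
  have h5 : 0 ≤ s - c * (s * s) := by
    have e : ((s - c * (s * s) : ℝ) : ℂ) = (s : ℂ) - (c : ℂ) • MulOpposite.op (s : ℂ) • (s : ℂ) := by
      simp
    exact_mod_cast e ▸ h4
  have hs0 : 0 ≤ s := Finset.sum_nonneg fun i _ => mul_nonneg (hw0 i) (inv_nonneg.2 (ha i).le)
  have h6 : c * s ≤ 1 := by
    by_contra hcon
    push Not at hcon
    have : 0 < s := (mul_pos_iff_of_pos_left hc).1 (zero_lt_one.trans hcon)
    nlinarith
  rw [mlog, ent2_quad, Complex.ofReal_re]
  have h7 : ∑ i, w i * -Real.log (a i) ≤ ∑ i, (c * (w i * (a i)⁻¹) - w i - Real.log c * w i) := by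
    refine Finset.sum_le_sum fun i _ => ?_
    have e1 := Real.log_le_sub_one_of_pos (mul_pos hc (inv_pos.2 (ha i)))
    rw [Real.log_mul hc.ne' (inv_pos.2 (ha i)).ne', Real.log_inv] at e1
    nlinarith [mul_le_mul_of_nonneg_left e1 (hw0 i)]
  rw [Finset.sum_sub_distrib, Finset.sum_sub_distrib, ← Finset.mul_sum, ← Finset.mul_sum, hw1,
    ← hs] at h7
  linarith

theorem ent2_single (V : Matrix ι ι ℂ) (i : ι) (c : ℝ) :
    dg V (Pi.single i c) = (c : ℂ) • vecMulVec (fun k => V k i) (star fun k => V k i) := by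
  ext k l
  rw [dg, mul_apply, Finset.sum_eq_single i]
  · simp [vecMulVec_apply]; ring
  · intro j _ hj
    simp [Pi.single_eq_of_ne hj]
  · simp

/-- `Tr (-log A) X ≤ S(X)` for `0 ≤ X ≤ A` -/
theorem ent2_tr {U : Matrix ι ι ℂ} (hU : U ∈ unitaryGroup ι ℂ) {a : ι → ℝ} (ha : ∀ i, 0 < a i)
    {X : Matrix ι ι ℂ} (hX : X.PosSemidef) (h : (dg U a - X).PosSemidef) :
    (mlog U a * X).trace.re ≤ vnEntropy X := by
  obtain ⟨V, hV, p, rfl⟩ := exists_dg hX.1
  have hp := nonneg_of_dg hV hX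
  rw [mlog, trace_dg_mul, Complex.ofReal_re, ent_dg hV, Finset.sum_comm]
  refine Finset.sum_le_sum fun i _ => ?_
  rcases (hp i).eq_or_lt with h0 | h0
  · simp [← h0]
  · have hu : star (fun k => V k i) ⬝ᵥ (fun k => V k i) = 1 := by
      have := congrFun (congrFun (mem_unitaryGroup_iff'.1 hV) i) i
      simpa [mul_apply, dotProduct] using this
    have h1 : dg V p = dg V (fun j => p j - Pi.single (M := fun _ => ℝ) i (p i) j) +
        dg V (Pi.single i (p i)) := by
      rw [← dg_add]; simp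
    have h2 : (dg V (fun j => p j - Pi.single (M := fun _ => ℝ) i (p i) j)).PosSemidef := by
      refine dg_psd V fun j => ?_
      by_cases hj : j = i
      · simp [hj]
      · simpa [Pi.single_eq_of_ne hj] using hp j
    have h3 := mlog_le hU ha hu h0 (by
      have := h.add h2
      rw [← ent2_single]
      convert this using 1
      rw [h1]; abel)
    rw [mlog, ent2_quad, Complex.ofReal_re] at h3
    have h4 := mul_le_mul_of_nonneg_left h3 h0.le
    rw [Finset.mul_sum] at h4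
    refine le_of_eq_of_le (Finset.sum_congr rfl fun j _ => ?_) (h4.trans_eq ?_)
    · have : (Uᴴ *ᵥ fun k => V k i) j = (Uᴴ * V) j i := rfl
      rw [this]; ring
    · rw [Real.negMulLog]; ring

theorem ent_add_le {X Y : Matrix ι ι ℂ} (hX : X.PosSemidef) (hY : Y.PosDef) :
    vnEntropy (X + Y) ≤ vnEntropy X + vnEntropy Y := by
  have hZ : (X + Y).PosDef := PosDef.posSemidef_add hX hY
  obtain ⟨U, hU, a, e⟩ := exists_dg hZ.1
  have ha := pos_of_dg hU (e ▸ hZ)
  have h1 := ent2_tr hU ha hX (by rw [← e, add_sub_cancel_left]; exact hY.posSemidef)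
  have h2 := ent2_tr hU ha hY.posSemidef (by rw [← e, add_sub_cancel_right]; exact hX)
  have h3 : (mlog U a * (X + Y)).trace.re = vnEntropy (X + Y) := by
    rw [e, mlog, dg_mul hU, trace_dg hU, Complex.ofReal_re, ent_dg hU]
    exact Finset.sum_congr rfl fun i _ => by rw [Real.negMulLog]; ring
  rw [← h3, Matrix.mul_add, trace_add, Complex.add_re]
  exact add_le_add h1 h2

theorem ent_ge_of_le {X : Matrix ι ι ℂ} (hX : X.PosSemidef) {b : ι → ℝ} (hb : ∀ k, 0 < b k)
    (h : ((diagonal fun k => (b k : ℂ)) - X).PosSemidef) :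
    ∑ k, (X k k).re * (-Real.log (b k)) ≤ vnEntropy X := by
  have h1 := ent2_tr (one_mem _) hb hX (by rw [dg_one]; exact h)
  rw [mlog, dg_one, trace, Complex.re_sum] at h1
  refine le_of_eq_of_le (Finset.sum_congr rfl fun k _ => ?_) h1
  rw [diag_apply, diagonal_mul, Complex.re_ofReal_mul, mul_comm]

theorem ent_ge_trace {X : Matrix ι ι ℂ} (hX : X.PosSemidef) :
    Real.negMulLog X.trace.re ≤ vnEntropy X := by
  obtain ⟨V, hV, p, rfl⟩ := exists_dg hX.1
  have hp := nonneg_of_dg hV hX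
  rw [trace_dg hV, Complex.ofReal_re, ent_dg hV, Real.negMulLog, neg_mul, Finset.sum_mul,
    ← Finset.sum_neg_distrib]
  refine Finset.sum_le_sum fun i _ => ?_
  rw [Real.negMulLog, neg_mul, neg_le_neg_iff]
  rcases (hp i).eq_or_lt with h0 | h0
  · simp [← h0]
  · exact mul_le_mul_of_nonneg_left (Real.log_le_log h0
      (Finset.single_le_sum (fun j _ => hp j) (Finset.mem_univ i))) h0.le

theorem ent_smul {X : Matrix ι ι ℂ} (hX : X.IsHermitian) (c : ℝ) :
    vnEntropy ((c : ℂ) • X) = c * vnEntropy X + Real.negMulLog c * X.trace.re := by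
  obtain ⟨V, hV, p, rfl⟩ := exists_dg hX
  rw [← dg_smul, ent_dg hV, ent_dg hV, trace_dg hV, Complex.ofReal_re, Finset.mul_sum,
    Finset.mul_sum, ← Finset.sum_add_distrib]
  exact Finset.sum_congr rfl fun i _ => by rw [Real.negMulLog_mul]; ring

theorem ent_diagonal (p : ι → ℝ) :
    vnEntropy (diagonal fun i => (p i : ℂ)) = ∑ i, Real.negMulLog (p i) := by
  rw [← dg_one, ent_dg (one_mem _)]

theorem ent_isometry {κ : Type*} [Fintype κ] [DecidableEq κ] {J : Matrix κ ι ℂ} (hJ : Jᴴ * J = 1)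
    {X : Matrix ι ι ℂ} (hX : X.IsHermitian) : vnEntropy (J * X * Jᴴ) = vnEntropy X := by
  obtain ⟨U, hU, a, rfl⟩ := exists_dg hX
  obtain ⟨V, hV, b, e⟩ := exists_dg (isHermitian_mul_mul_conjTranspose J hX)
  have hU1 : Uᴴ * U = 1 := mem_unitaryGroup_iff'.1 hU
  have hV1 : V * Vᴴ = 1 := mem_unitaryGroup_iff.1 hV
  set W : Matrix κ ι ℂ := Vᴴ * J * U with hW
  have h1 : Wᴴ * W = 1 := by
    calc Wᴴ * W = Uᴴ * (Jᴴ * (V * Vᴴ) * J) * U := by
          simp only [hW, conjTranspose_mul, conjTranspose_conjTranspose, Matrix.mul_assoc]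
      _ = 1 := by rw [hV1, Matrix.mul_one, hJ, Matrix.mul_one, hU1]
  have h2 : (diagonal fun j => (b j : ℂ)) = W * diagonal (fun i => (a i : ℂ)) * Wᴴ := by
    rw [← conj_dg hV, ← e, hW, ← ent2_conj]
    simp only [conjTranspose_mul, conjTranspose_conjTranspose, Matrix.mul_assoc]
  have h3 : ∀ j i, W j i ≠ 0 → b j = a i := by
    intro j i h
    have e1 : (diagonal fun j => (b j : ℂ)) * W = W * diagonal (fun i => (a i : ℂ)) := by
      rw [h2, Matrix.mul_assoc, h1, Matrix.mul_one]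
    have e2 := congrFun (congrFun e1 j) i
    rw [diagonal_mul, mul_diagonal, mul_comm] at e2
    exact_mod_cast mul_left_cancel₀ h e2
  have h4 : ∀ (f : ℝ → ℝ) j i, ‖W j i‖ ^ 2 * f (a i) = ‖W j i‖ ^ 2 * f (b j) := by
    intro f j i
    by_cases h : W j i = 0
    · simp [h]
    · rw [h3 j i h]
  have h5 : ∀ i, ∑ j, ‖W j i‖ ^ 2 = 1 := by
    intro i
    have e1 := congrFun (congrFun h1 i) i
    simp only [mul_apply, conjTranspose_apply, one_apply_eq, Complex.star_def,
      Complex.conj_mul'] at e1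
    exact_mod_cast e1
  have h6 : ∀ j, ∑ i, ‖W j i‖ ^ 2 * b j = b j := by
    intro j
    have e1 := congrFun (congrFun h2 j) j
    rw [diagonal_apply_eq, mul_apply] at e1
    have e2 : ∀ i, (W * diagonal fun i => (a i : ℂ)) j i * Wᴴ i j = ((‖W j i‖ ^ 2 * b j : ℝ) : ℂ) := by
      intro i
      rw [← h4 (fun x => x) j i, mul_diagonal, conjTranspose_apply, Complex.ofReal_mul,
        Complex.ofReal_pow, ← Complex.mul_conj', Complex.star_def]
      ring
    simp only [e2] at e1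
    exact_mod_cast e1.symm
  rw [e, ent_dg hV, ent_dg hU]
  calc ∑ j, Real.negMulLog (b j) = ∑ j, ∑ i, ‖W j i‖ ^ 2 * Real.negMulLog (b j) := by
        refine Finset.sum_congr rfl fun j _ => ?_
        calc Real.negMulLog (b j) = -(∑ i, ‖W j i‖ ^ 2 * b j) * Real.log (b j) := by
              rw [h6, Real.negMulLog]
          _ = _ := by
              rw [neg_mul, Finset.sum_mul, ← Finset.sum_neg_distrib]
              exact Finset.sum_congr rfl fun i _ => by rw [Real.negMulLog]; ring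
    _ = ∑ i, Real.negMulLog (a i) := by
        rw [Finset.sum_comm]
        refine Finset.sum_congr rfl fun i _ => ?_
        simp only [← h4 Real.negMulLog]
        rw [← Finset.sum_mul, h5, one_mul]

end Crest.Agent.R331

end
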