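import Crest.Agent.R331.Sums

/-!
# A priori bound for the penalty

Compare with the vacuum `ω = |0⟩⟨0|` (`diagonal`, entropy `0`, `Tr (ω Hpen) = 0`): by `gibbs_crude` with
`x = N_C / (N_C + 1)`, `out_energy_le`, `Es_le`: `PsiF ω ω ≤ C`.  Lower bound for any densities:
`S(σ) ≥ negMulLog (Tr σ) ≥ -C` (`ent_ge_trace`, `1 ≤ Tr σ ≤ 1 + (N_C+1)^n`), and
`-T S(ρ) + ε E(ρ) ≥ -C` (`gibbs_crude` with `x = exp (-ε / T)`).
-/

open scoped ComplexOrder Kronecker Matrix
open Matrix Crest.Quantum Crest.MathPhysics.Bosonic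

noncomputable section

namespace Crest.Agent.R331

/-- the vacuum -/
def est1_vac (n K : ℕ) : Matrix (VK n K) (VK n K) ℂ := dN n K fun m => if m = 0 then 1 else 0

theorem est1_vac_density (n K : ℕ) : IsDensity (est1_vac n K) := by
  refine ⟨dN_psd fun m => by split_ifs <;> norm_num, ?_⟩
  unfold est1_vac dN
  rw [Matrix.trace_diagonal, Finset.sum_eq_single (⟨0, by simp [tot]⟩ : VK n K)]
  · simp [tot]
  · intro k _ hk
    beta_reduce
    rw [if_neg, Complex.ofReal_zero]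
    intro h
    refine hk (Subtype.ext (funext fun j => ?_))
    have := le_tot k.1 j
    simp only [Pi.zero_apply]
    omega
  · simp

theorem est1_vac_ent (n K : ℕ) : vnEntropy (est1_vac n K) = 0 := by
  unfold est1_vac dN
  rw [ent_diagonal]
  refine Finset.sum_eq_zero fun k _ => ?_
  beta_reduce
  split_ifs <;> simp

theorem est1_vac_tr (n K : ℕ) {g : ℕ → ℝ} (hg : g 0 = 0) :
    (est1_vac n K * dN n K g).trace.re = 0 := by
  rw [trace_mul_dN]
  refine Finset.sum_eq_zero fun k _ => ?_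
  unfold est1_vac dN
  rw [Matrix.diagonal_apply_eq, Complex.ofReal_re]
  beta_reduce
  split_ifs with h
  · rw [h, hg, mul_zero]
  · rw [zero_mul]

theorem est1_Hpen {n K : ℕ} (X : Matrix (VK n K) (VK n K) ℂ) (w ε δ : ℝ) :
    (X * Hpen n K w ε δ).trace.re =
      w * (ε * (X * num n K).trace.re + δ * (X * dN n K f6).trace.re) := by
  unfold Hpen num
  simp only [trace_mul_dN, Finset.mul_sum, ← Finset.sum_add_distrib]
  refine Finset.sum_congr rfl fun k _ => ?_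
  ring

theorem est1_flo_psd (n K : ℕ) {N δ : ℝ} (hN : 0 < N) (hδ : 0 ≤ δ) : (flo n K N δ).PosSemidef :=
  dN_psd fun m => by positivity

theorem est1_flo_num (n K : ℕ) (N δ : ℝ) :
    (flo n K N δ * num n K).trace.re = δ * Es n K (N / (N + 1)) := by
  unfold num
  rw [trace_mul_dN, Es, Finset.mul_sum]
  refine Finset.sum_congr rfl fun k _ => ?_
  unfold flo dN
  rw [Matrix.diagonal_apply_eq, Complex.ofReal_re]
  ring

theorem est1_gibbs {n : ℕ} {T ε : ℝ} (hT : 0 < T) (hε : 0 < ε) : ∃ C : ℝ, 0 ≤ C ∧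
    ∀ K, ∀ X : Matrix (VK n K) (VK n K) ℂ, IsDensity X →
      T * vnEntropy X ≤ ε * (X * num n K).trace.re + C := by
  have h0 : 0 < Real.exp (-(ε / T)) := Real.exp_pos _
  have h1 : Real.exp (-(ε / T)) < 1 := by
    rw [← Real.exp_zero]; exact Real.exp_lt_exp.mpr (neg_neg_of_pos (div_pos hε hT))
  have h2 : 0 ≤ ((1 - Real.exp (-(ε / T)))⁻¹) ^ n := pow_nonneg (inv_nonneg.mpr (by linarith)) _
  refine ⟨T * ((1 - Real.exp (-(ε / T)))⁻¹) ^ n, by positivity, fun K X hX => ?_⟩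
  have h := gibbs_crude hX.1 h0 h1
  rw [Real.log_exp, neg_neg, hX.2, Complex.one_re] at h
  have h3 := mul_le_mul_of_nonneg_left h hT.le
  have h4 : T * (ε / T * (X * num n K).trace.re) = ε * (X * num n K).trace.re := by field_simp
  rw [mul_sub, mul_add, h4] at h3
  linarith

theorem est1_upper {n : ℕ} {η N : ℝ} (hη : η ∈ Set.Icc (0 : ℝ) 1) (hN : 0 < N) :
    ∃ C : ℝ, 0 ≤ C ∧ ∀ δ ∈ Set.Ioc (0 : ℝ) 1, ∀ K,
      vnEntropy (out (Vbs n η K) (est1_vac n K) (est1_vac n K) + flo n (2 * K) N δ) ≤ C := by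
  have hx0 : 0 ≤ N / (N + 1) := by positivity
  have hx1 : N / (N + 1) < 1 := (div_lt_one (by positivity)).mpr (by linarith)
  have h2 : 0 ≤ ((1 - N / (N + 1))⁻¹) ^ (n + 1) := pow_nonneg (inv_nonneg.mpr (by linarith)) _
  refine ⟨n * (N / (N + 1)) * ((1 - N / (N + 1))⁻¹) ^ (n + 1) + ((1 - 1 / 2 : ℝ)⁻¹) ^ n,
    by positivity, fun δ hδ K => ?_⟩
  have hv := (est1_vac_density n K).1
  have hpsd := (out_psd (V := Vbs n η K) hv hv).add (est1_flo_psd n (2 * K) hN hδ.1.le)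
  have h := gibbs_crude hpsd (x := 1 / 2) (by norm_num) (by norm_num)
  have h3 := out_energy_le hη hv hv
  have h4 : (est1_vac n K * num n K).trace.re = 0 := est1_vac_tr n K (by simp)
  rw [h4, zero_mul, mul_zero, add_zero] at h3
  have h5 := Es_le (n := n) (2 * K) hx0 hx1
  have h6 : 0 ≤ Es n (2 * K) (N / (N + 1)) := Finset.sum_nonneg fun k _ => by positivity
  have h7 : δ * Es n (2 * K) (N / (N + 1)) ≤ Es n (2 * K) (N / (N + 1)) :=
    mul_le_of_le_one_left h6 hδ.2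
  have h8 := trace_mul_nonneg hpsd (dN_psd (n := n) (K := 2 * K) (g := fun m => (m : ℝ))
    fun m => Nat.cast_nonneg m)
  have h9 : -Real.log (1 / 2) ≤ 1 := by
    rw [one_div, Real.log_inv, neg_neg]
    linarith [Real.log_two_lt_d9]
  have h10 := mul_le_of_le_one_left h8 h9
  have h11 := (Complex.nonneg_iff.mp hpsd.trace_nonneg).1
  have h12 : ((out (Vbs n η K) (est1_vac n K) (est1_vac n K) + flo n (2 * K) N δ) *
      num n (2 * K)).trace.re = (out (Vbs n η K) (est1_vac n K) (est1_vac n K) *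
      num n (2 * K)).trace.re + δ * Es n (2 * K) (N / (N + 1)) := by
    rw [Matrix.add_mul, Matrix.trace_add, Complex.add_re, est1_flo_num]
  unfold num at h h3 h12
  linarith

theorem est1_lower {n : ℕ} {η N : ℝ} (hη : η ∈ Set.Icc (0 : ℝ) 1) (hN : 0 < N) {δ : ℝ}
    (hδ : δ ∈ Set.Ioc (0 : ℝ) 1) {K : ℕ} {X Y : Matrix (VK n K) (VK n K) ℂ} (hX : IsDensity X)
    (hY : IsDensity Y) :
    -(1 + (N + 1) ^ n) ^ 2 ≤ vnEntropy (out (Vbs n η K) X Y + flo n (2 * K) N δ) := by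
  have ho := out_density _ (Vbs_iso hη K) hX hY
  have hpsd := ho.1.add (est1_flo_psd n (2 * K) hN hδ.1.le)
  refine le_trans ?_ (ent_ge_trace hpsd)
  have h0 := (Complex.nonneg_iff.mp hpsd.trace_nonneg).1
  have h1 : (out (Vbs n η K) X Y + flo n (2 * K) N δ).trace.re ≤ 1 + (N + 1) ^ n := by
    rw [Matrix.trace_add, Complex.add_re, ho.2, Complex.one_re]
    have h2 := trace_flo_le (n := n) (2 * K) hN hδ.1.le
    have h3 : δ * (N + 1) ^ n ≤ (N + 1) ^ n := mul_le_of_le_one_left (by positivity) hδ.2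
    linarith
  set t := (out (Vbs n η K) X Y + flo n (2 * K) N δ).trace.re
  have h2 := mul_le_mul_of_nonneg_left (Real.log_le_self h0) h0
  have h3 := pow_le_pow_left₀ h0 h1 2
  rw [Real.negMulLog]
  nlinarith

theorem apriori {n : ℕ} {η NA NB ε : ℝ} (hη : η ∈ Set.Ioo (0 : ℝ) 1) (hNA : 0 < NA) (hNB : 0 < NB)
    (hε : ε ∈ Set.Ioo (0 : ℝ) 1) :
    ∃ C : ℝ, 0 ≤ C ∧ ∀ δ ∈ Set.Ioc (0 : ℝ) 1, ∀ K, ∀ ρA ρB : Matrix (VK n K) (VK n K) ℂ,
      IsDensity ρA → IsDensity ρB →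
      (∀ ωA ωB : Matrix (VK n K) (VK n K) ℂ, IsDensity ωA → IsDensity ωB →
        PsiF n η NA NB ε δ K ρA ρB ≤ PsiF n η NA NB ε δ K ωA ωB) →
      δ * (ρA * dN n K f6).trace.re ≤ C ∧ δ * (ρB * dN n K f6).trace.re ≤ C := by
  have hη' : η ∈ Set.Icc (0 : ℝ) 1 := ⟨hη.1.le, hη.2.le⟩
  have hη1 : 0 < 1 - η := by linarith [hη.2]
  have hη0 := hη.1
  set NC := η * NA + (1 - η) * NB with hNC
  have hC : 0 < NC := by positivity
  have hκ : 0 ≤ (1 - ε) * Tm NC := mul_nonneg (by linarith [hε.2]) (Tm_pos hC).le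
  obtain ⟨CA, hCA0, hCA⟩ := est1_gibbs (n := n) (Tm_pos hNA) hε.1
  obtain ⟨CB, hCB0, hCB⟩ := est1_gibbs (n := n) (Tm_pos hNB) hε.1
  obtain ⟨C0, hC00, hC0⟩ := est1_upper (n := n) hη' hC
  set D := (1 - ε) * Tm NC * C0 + (1 - ε) * Tm NC * (1 + (NC + 1) ^ n) ^ 2 + η * CA + (1 - η) * CB
    with hD
  have hD0 : 0 ≤ D := by positivity
  refine ⟨D / η + D / (1 - η), by positivity, fun δ hδ K ρA ρB hA hB hmin => ?_⟩
  have h1 := hmin _ _ (est1_vac_density n K) (est1_vac_density n K)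
  have hf0 : f6 0 = 0 := by simp [f6]
  have h2 : (est1_vac n K * num n K).trace.re = 0 := est1_vac_tr n K (by simp)
  have h3 : (est1_vac n K * dN n K f6).trace.re = 0 := est1_vac_tr n K hf0
  simp only [PsiF, Psi, est1_Hpen, est1_vac_ent, h2, h3, ← hNC] at h1
  have h4 := mul_le_mul_of_nonneg_left (hC0 δ hδ K) hκ
  have h5 := mul_le_mul_of_nonneg_left (est1_lower hη' hC hδ hA hB) hκ
  have h6 := mul_le_mul_of_nonneg_left (hCA K ρA hA) hη0.le
  have h7 := mul_le_mul_of_nonneg_left (hCB K ρB hB) hη1.le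
  have h8 : 0 ≤ δ * (ρA * dN n K f6).trace.re :=
    mul_nonneg hδ.1.le (trace_mul_nonneg hA.1 (dN_psd f6_nonneg))
  have h9 : 0 ≤ δ * (ρB * dN n K f6).trace.re :=
    mul_nonneg hδ.1.le (trace_mul_nonneg hB.1 (dN_psd f6_nonneg))
  have key : η * (δ * (ρA * dN n K f6).trace.re) + (1 - η) * (δ * (ρB * dN n K f6).trace.re) ≤ D := by
    rw [hD]
    linarith
  have h10 := mul_nonneg hη0.le h8
  have h11 := mul_nonneg hη1.le h9
  constructor
  · refine le_trans ?_ (le_add_of_nonneg_right (by positivity))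
    rw [le_div_iff₀' hη0]
    linarith
  · refine le_trans ?_ (le_add_of_nonneg_left (by positivity))
    rw [le_div_iff₀' hη1]
    linarith

end Crest.Agent.R331

end
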