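import Crest.Agent.R331.Alg

/-!
# The terms produced by the penalty

* `gann_le`: `Tr (ρ gann) = ∑_k ρ (k + e j) k √(k j + 1) (|k|+1)^5`, `|ρ l k| ≤ (ρ l l + ρ k k)/2` for `ρ ≥ 0`, so
  the norm is `≤ ∑ ρ k k (|k|+1)^5 √(|k|+1)`, and `(m+1)^5 √(m+1) ≤ lam * m^6/6 + C ≤ lam * f6 m + C`.
* `ip_gann_le`: `ip (a f') (N ρ a - (N+1) a ρ) = N Tr (ρ a f' aᴴ) - (N+1) Tr (ρ f' aᴴ a)`; with `ann_mul_dN`,
  `ann_mul_annH`, `annH_mul_ann` the sum over `j` is `≤ ∑ ρ k k (N (m+n)(m+1)^5 - (N+1) m^6)`, `m = |k|`, and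
  `N (m+n)(m+1)^5 - (N+1) m^6` is bounded above.
-/

open scoped ComplexOrder Kronecker Matrix
open Matrix Crest.Quantum Crest.MathPhysics.Bosonic

noncomputable section

namespace Crest.Agent.R331

theorem psd_entry_le {ι : Type*} [Fintype ι] {X : Matrix ι ι ℂ} (hX : X.PosSemidef) (k l : ι) :
    ‖X k l‖ ≤ ((X k k).re + (X l l).re) / 2 := by
  classical
  obtain ⟨U, hU, p, rfl⟩ := exists_dg hX.isHermitian
  have hp := nonneg_of_dg hU hX
  have h1 : dg U p k l = ∑ i, U k i * (p i : ℂ) * star (U l i) := by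
    unfold dg
    simp only [Matrix.mul_apply (M := U * _), Matrix.mul_diagonal, Matrix.conjTranspose_apply]
  rw [h1, dg_apply_self, dg_apply_self, Complex.ofReal_re, Complex.ofReal_re,
    ← Finset.sum_add_distrib, Finset.sum_div]
  refine (norm_sum_le _ _).trans (Finset.sum_le_sum fun i _ => ?_)
  rw [norm_mul, norm_mul, norm_star, Complex.norm_real, Real.norm_of_nonneg (hp i)]
  nlinarith [mul_nonneg (hp i) (sq_nonneg (‖U k i‖ - ‖U l i‖))]

theorem est3_pow {A c x : ℝ} (hA : 0 ≤ A) (hc : 0 < c) (hx : 0 ≤ x) :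
    A * x ^ 5 ≤ c * x ^ 6 + A * (A / c) ^ 5 := by
  rcases le_total x (A / c) with h | h
  · have h1 := mul_le_mul_of_nonneg_left (pow_le_pow_left₀ hx h 5) hA
    have h2 : 0 ≤ c * x ^ 6 := by positivity
    linarith
  · rw [div_le_iff₀ hc] at h
    have h1 := mul_le_mul_of_nonneg_right h (pow_nonneg hx 5)
    have h2 : 0 ≤ A * (A / c) ^ 5 := by positivity
    linarith [show x * c * x ^ 5 = c * x ^ 6 by ring]

theorem est3_trace_diag {ι : Type*} [Fintype ι] [DecidableEq ι] (X : Matrix ι ι ℂ) (g : ι → ℝ) :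
    (X * diagonal fun k => (g k : ℂ)).trace.re = ∑ k, (X k k).re * g k := by
  simp only [Matrix.trace, Matrix.diag, Matrix.mul_diagonal, Complex.re_sum, Complex.re_mul_ofReal]

theorem est3_avg {ι : Type*} [Fintype ι] [DecidableEq ι] {ρ : Matrix ι ι ℂ} (hρ : IsDensity ρ)
    {g g' : ι → ℝ} {C : ℝ} (h : ∀ k, g k ≤ g' k + C) :
    ∑ k, (ρ k k).re * g k ≤ ∑ k, (ρ k k).re * g' k + C := by
  have h1 : ∑ k, (ρ k k).re = 1 := by
    have := congrArg Complex.re hρ.2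
    rwa [Matrix.trace, Complex.re_sum] at this
  have h2 : ∀ k, 0 ≤ (ρ k k).re := fun k => (Complex.nonneg_iff.1 hρ.1.diag_nonneg).1
  calc ∑ k, (ρ k k).re * g k ≤ ∑ k, (ρ k k).re * (g' k + C) :=
        Finset.sum_le_sum fun k _ => mul_le_mul_of_nonneg_left (h k) (h2 k)
    _ = ∑ k, (ρ k k).re * g' k + C := by
        simp only [mul_add, Finset.sum_add_distrib, ← Finset.sum_mul, h1, one_mul]

theorem est3_amgm {x a b t : ℝ} (ht : 0 < t) (ha : 0 ≤ a) (hb : 0 ≤ b) (h : x ^ 2 ≤ a * b) :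
    x ≤ t * a + t⁻¹ * b := by
  refine (abs_le_of_sq_le_sq' (h.trans ?_) (by positivity)).2
  have h1 : t * a * (t⁻¹ * b) = a * b := by field_simp
  have h2 : 0 ≤ a * b := mul_nonneg ha hb
  nlinarith [sq_nonneg (t * a), sq_nonneg (t⁻¹ * b)]

theorem est3_dN_eq {n K : ℕ} (g : ℕ → ℝ) :
    dN n K g = diagonal fun k : VK n K => ((g (tot k.1) : ℝ) : ℂ) := rfl

theorem est3_poly (n : ℕ) {N : ℝ} (hN : 0 < N) (m : ℕ) :
    N * (((m : ℝ) + 1) ^ 5 * (m + n)) - (N + 1) * (m : ℝ) ^ 6 ≤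
      N * (31 + 32 * n) * (N * (31 + 32 * n) / 1) ^ 5 + N * n := by
  have hn : (0 : ℝ) ≤ n := Nat.cast_nonneg n
  have hA : 0 ≤ N * (31 + 32 * n) := by positivity
  rcases Nat.eq_zero_or_pos m with rfl | hm
  · have : 0 ≤ N * (31 + 32 * n) * (N * (31 + 32 * n) / 1) ^ 5 := by positivity
    simp only [Nat.cast_zero]
    linarith
  have hx : (1 : ℝ) ≤ m := by exact_mod_cast hm
  generalize (m : ℝ) = x at hx
  have hx0 : 0 ≤ x := by linarith
  have p0 : 1 ≤ x ^ 4 := one_le_pow₀ hx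
  have p1 : x ≤ x ^ 4 := le_self_pow₀ hx (by norm_num)
  have p2 : x ^ 2 ≤ x ^ 4 := pow_le_pow_right₀ hx (by norm_num)
  have p3 : x ^ 3 ≤ x ^ 4 := pow_le_pow_right₀ hx (by norm_num)
  have p4 : x ^ 4 ≤ x ^ 5 := pow_le_pow_right₀ hx (by norm_num)
  have h1 : (x + 1) ^ 5 ≤ x ^ 5 + 31 * x ^ 4 := by
    linarith [show (x + 1) ^ 5 = x ^ 5 + 5 * x ^ 4 + 10 * x ^ 3 + 10 * x ^ 2 + 5 * x + 1 by ring]
  have h2 := mul_le_mul_of_nonneg_right h1 (show 0 ≤ x + n by positivity)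
  have h3 := mul_le_mul_of_nonneg_left p4 hn
  have h4 : (x + 1) ^ 5 * (x + n) ≤ x ^ 6 + (31 + 32 * n) * x ^ 5 := by
    linarith [show (x ^ 5 + 31 * x ^ 4) * (x + n) =
      x ^ 6 + 31 * x ^ 5 + n * x ^ 5 + 31 * (n * x ^ 4) by ring]
  have h5 := mul_le_mul_of_nonneg_left h4 hN.le
  have h6 := est3_pow hA one_pos hx0
  have h7 : 0 ≤ N * n := by positivity
  linarith

theorem gann_le {lam : ℝ} (hlam : 0 < lam) :
    ∃ C : ℝ, 0 ≤ C ∧ ∀ n K, ∀ ρ : Matrix (VK n K) (VK n K) ℂ, IsDensity ρ → ∀ j : Fin n,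
      ‖(ρ * gann n K j).trace‖ ≤ lam * (ρ * dN n K f6).trace.re + C := by
  obtain ⟨t, ht⟩ : ∃ t : ℝ, t = lam / 384 := ⟨_, rfl⟩
  have ht0 : 0 < t := by rw [ht]; positivity
  refine ⟨32 * t + t⁻¹ * (t⁻¹ / (lam / 12)) ^ 5, by positivity, fun n K ρ hρ j => ?_⟩
  have h1 : gann n K j = (dN n K fun m => ((m + 1 : ℕ) : ℝ) ^ 3)ᴴ *
      (ann n K j * dN n K fun m => (m : ℝ) ^ 2) := by
    rw [(dN_herm _).eq, ← Matrix.mul_assoc, ← ann_mul_dN j fun m => (m : ℝ) ^ 3, Matrix.mul_assoc,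
      dN_mul, gann]
    congr 2
    funext m
    ring
  have h2 := trace_cs hρ.1 (dN n K fun m => ((m + 1 : ℕ) : ℝ) ^ 3)
    (ann n K j * dN n K fun m => (m : ℝ) ^ 2)
  have h3 : (ann n K j * dN n K fun m => (m : ℝ) ^ 2)ᴴ * (ann n K j * dN n K fun m => (m : ℝ) ^ 2) =
      diagonal fun k : VK n K => (((tot k.1 : ℝ) ^ 4 * k.1 j : ℝ) : ℂ) := by
    rw [Matrix.conjTranspose_mul, (dN_herm _).eq, Matrix.mul_assoc, ← Matrix.mul_assoc _ (ann n K j),
      annH_mul_ann, est3_dN_eq, Matrix.diagonal_mul_diagonal, Matrix.diagonal_mul_diagonal]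
    congr 1
    funext k
    push_cast
    ring
  rw [← h1, h3, (dN_herm _).eq, dN_mul, trace_mul_dN, est3_trace_diag] at h2
  have h0 : ∀ k, 0 ≤ (ρ k k).re := fun k => (Complex.nonneg_iff.1 hρ.1.diag_nonneg).1
  refine (est3_amgm ht0 (Finset.sum_nonneg fun k _ => mul_nonneg (h0 k) (by positivity))
    (Finset.sum_nonneg fun k _ => mul_nonneg (h0 k) (by positivity)) h2).trans ?_
  rw [trace_mul_dN, Finset.mul_sum, Finset.mul_sum, Finset.mul_sum, ← Finset.sum_add_distrib]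
  simp only [mul_left_comm _ (ρ _ _).re, ← mul_add]
  refine est3_avg hρ fun k => ?_
  have a1 : (k.1 j : ℝ) ≤ tot k.1 := by exact_mod_cast le_tot k.1 j
  have a2 := mul_le_mul_of_nonneg_left (f6_ge (tot k.1)) hlam.le
  push_cast
  have hx : (0 : ℝ) ≤ tot k.1 := Nat.cast_nonneg _
  generalize (tot k.1 : ℝ) = x at a1 hx a2 ⊢
  have a3 := add_pow_le hx zero_le_one 6
  have a4 := mul_le_mul_of_nonneg_left a3 ht0.le
  have a5 := est3_pow (A := t⁻¹) (c := lam / 12) (by positivity) (by positivity) hx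
  have a6 : t⁻¹ * (x ^ 4 * k.1 j) ≤ t⁻¹ * (x ^ 4 * x) :=
    mul_le_mul_of_nonneg_left (mul_le_mul_of_nonneg_left a1 (by positivity)) (by positivity)
  have a7 : t * (2 ^ (6 - 1) * (x ^ 6 + 1 ^ 6)) = lam / 12 * x ^ 6 + 32 * t := by
    rw [ht]
    norm_num
    ring
  rw [a7] at a4
  rw [show x ^ 4 * x = x ^ 5 by ring] at a6
  rw [show (x + 1) ^ 3 * (x + 1) ^ 3 = (x + 1) ^ 6 by ring]
  refine (add_le_add a4 (a6.trans a5)).trans ?_
  generalize t⁻¹ * (t⁻¹ / (lam / 12)) ^ 5 = C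
  linarith only [a2]

theorem ip_gann_le (n : ℕ) {N : ℝ} (hN : 0 < N) :
    ∃ C : ℝ, 0 ≤ C ∧ ∀ K, ∀ ρ : Matrix (VK n K) (VK n K) ℂ, IsDensity ρ →
      ∑ j, (ip (gann n K j) (qm N ρ (ann n K j))).re ≤ C := by
  refine ⟨N * (31 + 32 * n) * (N * (31 + 32 * n) / 1) ^ 5 + N * n, by positivity,
    fun K ρ hρ => ?_⟩
  have h1 : ∀ j, ip (gann n K j) (qm N ρ (ann n K j)) = (ρ * diagonal fun k : VK n K =>
      ((N * (((tot k.1 : ℝ) + 1) ^ 5 * if tot k.1 < K then (k.1 j : ℝ) + 1 else 0) -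
        (N + 1) * ((tot k.1 : ℝ) ^ 5 * k.1 j) : ℝ) : ℂ)).trace := by
    intro j
    have e1 : ((gann n K j)ᴴ * (ρ * ann n K j)).trace = (ρ * diagonal fun k : VK n K =>
        ((((tot k.1 : ℝ) + 1) ^ 5 * if tot k.1 < K then (k.1 j : ℝ) + 1 else 0 : ℝ) : ℂ)).trace := by
      rw [Matrix.trace_mul_comm, Matrix.mul_assoc, gann, Matrix.conjTranspose_mul, (dN_herm _).eq,
        ← Matrix.mul_assoc (ann n K j), ann_mul_dN, Matrix.mul_assoc, ann_mul_annH, est3_dN_eq,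
        Matrix.diagonal_mul_diagonal]
      congr 3
      funext k
      push_cast
      rfl
    have e2 : ((gann n K j)ᴴ * (ann n K j * ρ)).trace = (ρ * diagonal fun k : VK n K =>
        (((tot k.1 : ℝ) ^ 5 * k.1 j : ℝ) : ℂ)).trace := by
      rw [← Matrix.mul_assoc, Matrix.trace_mul_comm, gann, Matrix.conjTranspose_mul, (dN_herm _).eq,
        Matrix.mul_assoc _ _ (ann n K j), annH_mul_ann, est3_dN_eq, Matrix.diagonal_mul_diagonal]
      congr 3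
      funext k
      push_cast
      rfl
    unfold ip qm
    rw [Matrix.mul_sub, Matrix.mul_smul, Matrix.mul_smul, Matrix.trace_sub, Matrix.trace_smul,
      Matrix.trace_smul, e1, e2]
    simp only [Matrix.trace, Matrix.diag, Matrix.mul_diagonal, smul_eq_mul, Finset.mul_sum,
      ← Finset.sum_sub_distrib]
    refine Finset.sum_congr rfl fun k _ => ?_
    rw [Complex.ofReal_sub, Complex.ofReal_mul N, Complex.ofReal_mul (N + 1), Complex.ofReal_add,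
      Complex.ofReal_one]
    ring
  simp only [h1, est3_trace_diag]
  rw [Finset.sum_comm]
  simp only [← Finset.mul_sum]
  have h2 := est3_avg hρ (g' := fun _ => 0)
    (C := N * (31 + 32 * n) * (N * (31 + 32 * n) / 1) ^ 5 + N * n)
    (g := fun k : VK n K => ∑ j, (N * (((tot k.1 : ℝ) + 1) ^ 5 *
      if tot k.1 < K then (k.1 j : ℝ) + 1 else 0) - (N + 1) * ((tot k.1 : ℝ) ^ 5 * k.1 j)))
    fun k => ?_
  · simpa using h2
  have a1 : ∑ j, (k.1 j : ℝ) = tot k.1 := by rw [tot, Nat.cast_sum]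
  have a2 : (∑ j, if tot k.1 < K then (k.1 j : ℝ) + 1 else 0) ≤ tot k.1 + n := by
    split_ifs
    · rw [Finset.sum_add_distrib, a1]
      simp
    · rw [Finset.sum_const_zero]
      positivity
  rw [zero_add, Finset.sum_sub_distrib, ← Finset.mul_sum, ← Finset.mul_sum, ← Finset.mul_sum,
    ← Finset.mul_sum, a1]
  have a3 := mul_le_mul_of_nonneg_left (mul_le_mul_of_nonneg_left a2
    (show 0 ≤ ((tot k.1 : ℝ) + 1) ^ 5 by positivity)) hN.le
  have a4 := est3_poly n hN (tot k.1)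
  linarith [show (N + 1) * ((tot k.1 : ℝ) ^ 5 * tot k.1) = (N + 1) * (tot k.1 : ℝ) ^ 6 by ring]

end Crest.Agent.R331

end
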