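import Crest.Agent.R331.Sums
import Crest.Agent.R331.Est3

/-!
# Bounds on `K = -log σ` for `σ = ρ + flo`

`x = N/(N+1)`, `β = -log x`, `t = ∑ p i = Tr σ ∈ [1, 1 + (N+1)^n]`.
* `opn_mlog_le`: `δ x^L ≤ p i ≤ t` (apply `σ - δ x^L • 1 ≥ 0` to eigenvectors, `nonneg_of_dg`), `opn_dg`.
* `kappa_le`: `Tr (σ [c, K]) = 0`, so `Tr (ρ [c,K]) = -Tr (flo [c,K]) = -Tr (K (flo c - c flo))`, and
  `flo c - c flo = (1 - x) flo c` (`ann_mul_dN`).  Replace `K` by `K' = K + log t ≥ 0` (`trace_dN_mul_ann`); then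
  `|K' l k| ≤ √(K' l l K' k k) ≤ (K' l l + K' k k)/2`, `K k k ≤ -log (δ x^|k|)` (`mlog_le` with `u = e_k`), `moment_le`.
-/

open scoped ComplexOrder Kronecker Matrix
open Matrix Crest.Quantum Crest.MathPhysics.Bosonic

noncomputable section

namespace Crest.Agent.R331

theorem est2_p {n L : ℕ} {N δ : ℝ} (hN : 0 < N) (hδ : δ ∈ Set.Ioc (0 : ℝ) 1)
    {U : Matrix (VK n L) (VK n L) ℂ} (hU : U ∈ unitaryGroup (VK n L) ℂ) {p : VK n L → ℝ}
    {ρ : Matrix (VK n L) (VK n L) ℂ} (hρ : IsDensity ρ) (h : dg U p = ρ + flo n L N δ)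
    (i : VK n L) : δ * (N / (N + 1)) ^ L ≤ p i ∧ p i ≤ 1 + (N + 1) ^ n := by
  have hx0 : 0 < N / (N + 1) := by positivity
  have hx1 : N / (N + 1) ≤ 1 := (div_le_one (by positivity)).2 (by linarith)
  have h1 : ∀ i, δ * (N / (N + 1)) ^ L ≤ p i := by
    intro i
    have e : dg U (fun i => p i + -(δ * (N / (N + 1)) ^ L)) = ρ + diagonal fun k : VK n L =>
        ((δ * (N / (N + 1)) ^ tot k.1 - δ * (N / (N + 1)) ^ L : ℝ) : ℂ) := by
      rw [dg_add, dg_const hU, h, add_assoc]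
      congr 1
      rw [flo, dN, Matrix.smul_one_eq_diagonal, diagonal_add]
      congr 1
      funext k
      push_cast
      ring
    have h2 : (dg U fun i => p i + -(δ * (N / (N + 1)) ^ L)).PosSemidef := by
      rw [e]
      refine hρ.1.add (PosSemidef.diagonal fun k => ?_)
      refine Complex.zero_le_real.2 (sub_nonneg.2 ?_)
      exact mul_le_mul_of_nonneg_left (pow_le_pow_of_le_one hx0.le hx1 k.2) hδ.1.le
    have := nonneg_of_dg hU h2 i
    linarith
  refine ⟨h1 i, ?_⟩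
  have h2 : p i ≤ ∑ i, p i := Finset.single_le_sum (f := p)
    (fun i _ => (mul_pos hδ.1 (pow_pos hx0 _)).le.trans (h1 i)) (Finset.mem_univ i)
  have h3 := congrArg Complex.re (trace_dg hU p)
  rw [h, trace_add, hρ.2, Complex.add_re, Complex.one_re, Complex.ofReal_re] at h3
  have h4 := trace_flo_le (n := n) L hN hδ.1.le
  have h5 : δ * (N + 1) ^ n ≤ (N + 1) ^ n := mul_le_of_le_one_left (by positivity) hδ.2
  linarith

theorem est2_diag {n L : ℕ} {N δ : ℝ} (hN : 0 < N) (hδ : δ ∈ Set.Ioc (0 : ℝ) 1)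
    {U : Matrix (VK n L) (VK n L) ℂ} (hU : U ∈ unitaryGroup (VK n L) ℂ) {p : VK n L → ℝ}
    {ρ : Matrix (VK n L) (VK n L) ℂ} (hρ : IsDensity ρ) (h : dg U p = ρ + flo n L N δ)
    (k : VK n L) : (mlog U p k k).re ≤ -Real.log δ + tot k.1 * -Real.log (N / (N + 1)) := by
  have hx0 : 0 < N / (N + 1) := by positivity
  have hp : ∀ i, 0 < p i := fun i =>
    (mul_pos hδ.1 (pow_pos hx0 _)).trans_le (est2_p hN hδ hU hρ h i).1
  have h1 := mlog_le hU hp (u := Pi.single k 1) (by simp)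
    (c := δ * (N / (N + 1)) ^ tot k.1) (mul_pos hδ.1 (pow_pos hx0 _)) (by
      have e : flo n L N δ - ((δ * (N / (N + 1)) ^ tot k.1 : ℝ) : ℂ) •
          vecMulVec (Pi.single k 1) (star (Pi.single k (1 : ℂ))) = diagonal fun l : VK n L =>
          ((if l = k then 0 else δ * (N / (N + 1)) ^ tot l.1 : ℝ) : ℂ) := by
        ext a b
        simp only [flo, dN, Matrix.sub_apply, Matrix.smul_apply, vecMulVec_apply, Pi.star_apply,
          Pi.single_apply, diagonal_apply]
        by_cases hab : a = b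
        · subst hab
          by_cases hak : a = k
          · simp [hak]
          · simp [hak]
        · by_cases hak : a = k
          · have : ¬b = k := fun hb => hab (hak.trans hb.symm)
            simp [hab, this]
          · simp [hab, hak]
      rw [h, add_sub_assoc, e]
      refine hρ.1.add (PosSemidef.diagonal fun l => Complex.zero_le_real.2 ?_)
      have := hδ.1
      split_ifs <;> positivity)
  rw [Real.log_mul hδ.1.ne' (pow_pos hx0 _).ne', Real.log_pow] at h1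
  have e : star (Pi.single k (1 : ℂ)) ⬝ᵥ (mlog U p *ᵥ Pi.single k 1) = mlog U p k k := by
    simp [Pi.star_single]
  rw [e] at h1
  linarith

theorem opn_mlog_le {n : ℕ} {N : ℝ} (hN : 0 < N) :
    ∃ C : ℝ, 0 ≤ C ∧ ∀ δ ∈ Set.Ioc (0 : ℝ) 1, ∀ L, ∀ U ∈ unitaryGroup (VK n L) ℂ,
      ∀ p : VK n L → ℝ, ∀ ρ : Matrix (VK n L) (VK n L) ℂ, IsDensity ρ →
      dg U p = ρ + flo n L N δ → opn (mlog U p) ≤ C * (1 - Real.log δ + L) := by
  have hx0 : 0 < N / (N + 1) := by positivity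
  have hβ : 0 ≤ -Real.log (N / (N + 1)) := by
    rw [neg_log_ratio hN]
    exact (inv_pos.2 (Tm_pos hN)).le
  have hT : 0 ≤ Real.log (1 + (N + 1) ^ n) :=
    Real.log_nonneg (le_add_of_nonneg_right (by positivity))
  refine ⟨Real.log (1 + (N + 1) ^ n) + -Real.log (N / (N + 1)) + 1, by positivity,
    fun δ hδ L U hU p ρ hρ h => ?_⟩
  have hl : 0 ≤ -Real.log δ := neg_nonneg.2 (Real.log_nonpos hδ.1.le hδ.2)
  have hL : (0 : ℝ) ≤ L := Nat.cast_nonneg _
  refine opn_dg hU (by rw [sub_eq_add_neg]; positivity) fun i => ?_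
  obtain ⟨h1, h2⟩ := est2_p hN hδ hU hρ h i
  have h0 : 0 < δ * (N / (N + 1)) ^ L := mul_pos hδ.1 (pow_pos hx0 _)
  have h3 := Real.log_le_log h0 h1
  have h4 := Real.log_le_log (h0.trans_le h1) h2
  rw [Real.log_mul hδ.1.ne' (pow_pos hx0 _).ne', Real.log_pow] at h3
  rw [abs_le]
  constructor <;>
    nlinarith [mul_nonneg hT hl, mul_nonneg hT hL, mul_nonneg hβ hl, mul_nonneg hβ hL]

theorem kappa_le {n : ℕ} {N : ℝ} (hN : 0 < N) :
    ∃ C : ℝ, 0 ≤ C ∧ ∀ δ ∈ Set.Ioc (0 : ℝ) 1, ∀ L, ∀ U ∈ unitaryGroup (VK n L) ℂ,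
      ∀ p : VK n L → ℝ, ∀ ρ : Matrix (VK n L) (VK n L) ℂ, IsDensity ρ →
      dg U p = ρ + flo n L N δ → ∀ j : Fin n,
        ‖(ρ * (ann n L j * mlog U p - mlog U p * ann n L j)).trace‖ ≤
          C * (δ * (1 - Real.log δ)) := by
  have hx0 : 0 < N / (N + 1) := by positivity
  have hx1 : N / (N + 1) < 1 := (div_lt_one (by positivity)).2 (by linarith)
  have hβ : 0 ≤ -Real.log (N / (N + 1)) := by
    rw [neg_log_ratio hN]
    exact (inv_pos.2 (Tm_pos hN)).le
  have hT : 0 ≤ Real.log (1 + (N + 1) ^ n) :=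
    Real.log_nonneg (le_add_of_nonneg_right (by positivity))
  obtain ⟨Cm, hCm⟩ := moment_le (n := n) hx0.le hx1
  obtain ⟨β, hβ'⟩ : ∃ β, β = -Real.log (N / (N + 1)) := ⟨_, rfl⟩
  obtain ⟨T, hT'⟩ : ∃ T, T = Real.log (1 + (N + 1) ^ n) := ⟨_, rfl⟩
  rw [← hβ'] at hβ
  rw [← hT'] at hT
  refine ⟨(β + T + 1) * |Cm|, by positivity, fun δ hδ L U hU p ρ hρ h j => ?_⟩
  have hl : 0 ≤ -Real.log δ := neg_nonneg.2 (Real.log_nonpos hδ.1.le hδ.2)
  have hδ0 := hδ.1
  have hK : dg U (fun i => -Real.log (p i) + T) = mlog U p + (T : ℂ) • 1 := by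
    rw [dg_add, dg_const hU, mlog]
  have hKp : (mlog U p + (T : ℂ) • 1).PosSemidef := by
    rw [← hK]
    refine dg_psd U fun i => ?_
    obtain ⟨h1, h2⟩ := est2_p hN hδ hU hρ h i
    have h4 := Real.log_le_log ((mul_pos hδ.1 (pow_pos hx0 _)).trans_le h1) h2
    linarith
  have hdiag : ∀ k, ((mlog U p + (T : ℂ) • 1) k k).re ≤ -Real.log δ + tot k.1 * β + T := by
    intro k
    have := est2_diag hN hδ hU hρ h k
    rw [← hβ'] at this
    simp only [Matrix.add_apply, Matrix.smul_apply, one_apply_eq, smul_eq_mul, mul_one,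
      Complex.add_re, Complex.ofReal_re]
    linarith
  have hcomm : dg U p * mlog U p = mlog U p * dg U p := by
    rw [mlog, dg_mul hU, dg_mul hU]
    congr 1
    funext i
    ring
  have hD : flo n L N δ * ann n L j - ann n L j * flo n L N δ =
      dN n L (fun m => δ * (N / (N + 1)) ^ m * (1 - N / (N + 1))) * ann n L j := by
    rw [flo, ann_mul_dN, ← Matrix.sub_mul]
    congr 1
    rw [dN, dN, dN, diagonal_sub]
    congr 1
    funext k
    push_cast
    ring
  have e : (ρ * (ann n L j * mlog U p - mlog U p * ann n L j)).trace =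
      -(dN n L (fun m => δ * (N / (N + 1)) ^ m * (1 - N / (N + 1))) *
        (ann n L j * (mlog U p + (T : ℂ) • 1))).trace := by
    have e1 : ρ = dg U p - flo n L N δ := by rw [h, add_sub_cancel_right]
    have e2 : (dg U p * (ann n L j * mlog U p)).trace = (dg U p * (mlog U p * ann n L j)).trace := by
      rw [← Matrix.mul_assoc, trace_mul_comm, ← Matrix.mul_assoc, ← hcomm, Matrix.mul_assoc]
    have e3 : (flo n L N δ * (mlog U p * ann n L j)).trace =
        (ann n L j * flo n L N δ * mlog U p).trace := by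
      rw [← Matrix.mul_assoc, trace_mul_comm, Matrix.mul_assoc]
    rw [Matrix.mul_add, Matrix.mul_add, trace_add, Matrix.mul_smul, Matrix.mul_smul, trace_smul,
      Matrix.mul_one, trace_dN_mul_ann, smul_zero, add_zero, ← Matrix.mul_assoc, ← hD, e1]
    simp only [Matrix.sub_mul, Matrix.mul_sub, trace_sub, e2, e3, Matrix.mul_assoc]
    ring
  rw [e, norm_neg, trace]
  refine (norm_sum_le _ _).trans ?_
  calc _ ≤ ∑ k : VK n L, (β + T + 1) * (δ * (1 - Real.log δ)) *
        (((tot k.1 : ℝ) + 2) ^ 2 * (N / (N + 1)) ^ tot k.1) := Finset.sum_le_sum fun k _ => ?_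
    _ ≤ _ := by
        rw [← Finset.mul_sum, mul_right_comm]
        refine mul_le_mul_of_nonneg_right (mul_le_mul_of_nonneg_left
          ((hCm L).trans (le_abs_self _)) (by positivity)) ?_
        rw [sub_eq_add_neg]
        positivity
  have hm : (0 : ℝ) ≤ tot k.1 := Nat.cast_nonneg _
  have h1 : ‖(ann n L j * (mlog U p + (T : ℂ) • 1)) k k‖ ≤
      ((tot k.1 : ℝ) + 2) * ((β + T + 1) * (1 - Real.log δ) * (tot k.1 + 2)) := by
    rw [ann_mul_apply]
    split_ifs with hk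
    · rw [norm_mul, Complex.norm_real, Real.norm_of_nonneg (Real.sqrt_nonneg _)]
      have h2 : (k.1 j : ℝ) ≤ tot k.1 := by
        exact_mod_cast Finset.single_le_sum (f := k.1) (fun _ _ => Nat.zero_le _)
          (Finset.mem_univ j)
      have h3 : √((k.1 j : ℝ) + 1) ≤ tot k.1 + 2 := by
        refine Real.sqrt_le_iff.2 ⟨by positivity, ?_⟩
        nlinarith
      have h4 := psd_entry_le hKp ⟨k.1 + Pi.single j 1, hk⟩ k
      have h5 := hdiag ⟨k.1 + Pi.single j 1, hk⟩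
      have h6 := hdiag k
      have h7 : (tot (k.1 + Pi.single j 1) : ℝ) = tot k.1 + 1 := by
        simp [tot, Finset.sum_add_distrib]
      rw [h7] at h5
      refine mul_le_mul h3 (h4.trans ?_) (norm_nonneg _) (by positivity)
      nlinarith [mul_nonneg hT hl, mul_nonneg hβ hl, mul_nonneg hT hm, mul_nonneg hβ hm,
        mul_nonneg hl hm, mul_nonneg (mul_nonneg hT hl) hm, mul_nonneg (mul_nonneg hβ hl) hm]
    · rw [norm_zero, sub_eq_add_neg]
      positivity
  rw [diag_apply, dN, diagonal_mul, norm_mul, Complex.norm_real, Real.norm_of_nonneg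
    (mul_nonneg (by positivity) (by linarith))]
  calc _ ≤ δ * (N / (N + 1)) ^ tot k.1 * 1 *
        (((tot k.1 : ℝ) + 2) * ((β + T + 1) * (1 - Real.log δ) * (tot k.1 + 2))) := by
        gcongr
        linarith
    _ = _ := by ring

end Crest.Agent.R331

end
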