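import Crest.Agent.R331.MinLB

/-!
# The finite dimensional inequality

`pad_iso`, `out_pad` (entrywise; photon number conservation `ampOcc_of_ne`: `Vbs n η K * (pad ⊗ pad) = (pad ⊗ pad) * Vbs n η K₀`),
`trace_pad_dN`.  For `fd`: given densities on `VK n K₀`, apply `min_lb` to the padded matrices; by `ent_isometry`,
`ent_add_le`, `ent_flo_le`:
`PsiF ≤ (1-ε) T_C (S(out) + C δ (1 - log δ)) - η T_A S_A - (1-η) T_B S_B + ε E + δ F` with `E`, `F` independent of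
`K`.  Let `δ → 0`, `γ → 0`, `ε → 0`, and use `Tm_gBose`.
-/

open scoped ComplexOrder Kronecker Matrix
open Matrix Crest.Quantum Crest.MathPhysics.Bosonic

noncomputable section

namespace Crest.Agent.R331

variable {n : ℕ}

theorem fd_sum {K₀ K : ℕ} (h : K₀ ≤ K) (f : VK n K → ℂ) (l : VK n K₀) :
    ∑ k, f k * pad n K₀ K k l = f ⟨l.1, l.2.trans h⟩ := by
  rw [Finset.sum_eq_single (⟨l.1, l.2.trans h⟩ : VK n K)
    (fun k _ hk => by rw [pad, of_apply, if_neg fun e => hk (Subtype.ext e), mul_zero])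
    (fun hk => absurd (Finset.mem_univ _) hk), pad, of_apply, if_pos rfl, mul_one]

theorem fd_sum' {K₀ K : ℕ} (f : Occ n → ℂ) (k : VK n K) (hf : ¬ tot k.1 ≤ K₀ → f k.1 = 0) :
    ∑ l : VK n K₀, pad n K₀ K k l * f l.1 = f k.1 := by
  by_cases hk : tot k.1 ≤ K₀
  · rw [Finset.sum_eq_single (⟨k.1, hk⟩ : VK n K₀)
      (fun l _ hl => by rw [pad, of_apply, if_neg fun e => hl (Subtype.ext e.symm), zero_mul])
      (fun hk => absurd (Finset.mem_univ _) hk), pad, of_apply, if_pos rfl, one_mul]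
  · rw [hf hk]
    exact Finset.sum_eq_zero fun l _ => by
      rw [pad, of_apply, if_neg fun e : k.1 = l.1 => hk (e ▸ l.2), zero_mul]

theorem fd_Vbs (η : ℝ) {K₀ K : ℕ} (h : K₀ ≤ K) :
    Vbs n η K * (pad n K₀ K ⊗ₖ pad n K₀ K) =
      (pad n (2 * K₀) (2 * K) ⊗ₖ pad n (2 * K₀) (2 * K)) * Vbs n η K₀ := by
  ext ⟨p, q⟩ ⟨k, l⟩
  simp only [mul_apply, Fintype.sum_prod_type, kroneckerMap_apply, Vbs, of_apply]
  have e1 : ∀ k' : VK n K, ∑ l' : VK n K, (ampOcc η k'.1 l'.1 p.1 q.1 : ℂ) *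
      (pad n K₀ K k' k * pad n K₀ K l' l) = (ampOcc η k'.1 l.1 p.1 q.1 : ℂ) * pad n K₀ K k' k :=
    fun k' => by
      simp only [← mul_assoc]
      exact fd_sum h (fun l' => (ampOcc η k'.1 l'.1 p.1 q.1 : ℂ) * pad n K₀ K k' k) l
  have e2 : ∀ p' : VK n (2 * K₀), ∑ q' : VK n (2 * K₀), pad n (2 * K₀) (2 * K) p p' *
      pad n (2 * K₀) (2 * K) q q' * (ampOcc η k.1 l.1 p'.1 q'.1 : ℂ) =
      pad n (2 * K₀) (2 * K) p p' * (ampOcc η k.1 l.1 p'.1 q.1 : ℂ) := fun p' => by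
    simp only [mul_assoc, ← Finset.mul_sum]
    rw [fd_sum' (fun q' => (ampOcc η k.1 l.1 p'.1 q' : ℂ)) q fun hq => by
      rw [amp3_zero η k l (Or.inr hq), Complex.ofReal_zero]]
  simp only [e1, e2]
  rw [fd_sum h (fun k' => (ampOcc η k'.1 l.1 p.1 q.1 : ℂ)) k,
    fd_sum' (fun p' => (ampOcc η k.1 l.1 p' q.1 : ℂ)) p fun hp => by
      rw [amp3_zero η k l (Or.inl hp), Complex.ofReal_zero]]

theorem fd_ptr {A B A' B' : Type*} [Fintype A] [Fintype B] [Fintype A'] [Fintype B']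
    [DecidableEq A] [DecidableEq B] [DecidableEq A'] [DecidableEq B'] (P : Matrix A' A ℂ)
    {Q : Matrix B' B ℂ} (hQ : Qᴴ * Q = 1) (M : Matrix (A × B) (A × B) ℂ) :
    ptr ((P ⊗ₖ Q) * M * (P ⊗ₖ Q)ᴴ) = P * ptr M * Pᴴ := by
  refine Matrix.ext_iff_trace_mul_left.2 fun Y => ?_
  rw [trace_mul_ptr, ← Matrix.mul_assoc, trace_mul_comm, ← Matrix.mul_assoc, ← Matrix.mul_assoc,
    conjTranspose_kronecker, ← mul_kronecker_mul, ← mul_kronecker_mul, Matrix.mul_one, hQ,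
    ← trace_mul_ptr, ← Matrix.mul_assoc, trace_mul_comm _ Pᴴ]
  simp only [Matrix.mul_assoc]

theorem fd_dN {K₀ K : ℕ} (g : ℕ → ℝ) : dN n K g * pad n K₀ K = pad n K₀ K * dN n K₀ g := by
  ext k l
  rw [dN, dN, diagonal_mul, mul_diagonal, pad, of_apply]
  split_ifs with h
  · rw [h, mul_comm]
  · rw [mul_zero, zero_mul]

theorem fd_Hpen {K : ℕ} (X : Matrix (VK n K) (VK n K) ℂ) (w ε δ : ℝ) :
    (X * Hpen n K w ε δ).trace.re =
      ε * (w * (X * num n K).trace.re) + δ * (w * (X * dN n K f6).trace.re) := by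
  simp only [Hpen, num, trace_mul_dN, Finset.mul_sum, ← Finset.sum_add_distrib]
  exact Finset.sum_congr rfl fun k _ => by ring

theorem pad_iso {K₀ K : ℕ} (h : K₀ ≤ K) : (pad n K₀ K)ᴴ * pad n K₀ K = 1 := by
  ext l l'
  rw [mul_apply, fd_sum h (fun k => (pad n K₀ K)ᴴ l k) l', conjTranspose_apply, pad, of_apply,
    one_apply]
  by_cases e : l = l'
  · simp [e]
  · rw [if_neg e, if_neg fun e' => e (Subtype.ext e'.symm), star_zero]

theorem out_pad (η : ℝ) {K₀ K : ℕ} (h : K₀ ≤ K) (X Y : Matrix (VK n K₀) (VK n K₀) ℂ) :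
    out (Vbs n η K) (pad n K₀ K * X * (pad n K₀ K)ᴴ) (pad n K₀ K * Y * (pad n K₀ K)ᴴ) =
      pad n (2 * K₀) (2 * K) * out (Vbs n η K₀) X Y * (pad n (2 * K₀) (2 * K))ᴴ := by
  rw [out, out, ← fd_ptr _ (pad_iso (n := n) (Nat.mul_le_mul_left 2 h)), mul_kronecker_mul,
    mul_kronecker_mul, ← conjTranspose_kronecker]
  congr 1
  calc _ = Vbs n η K * (pad n K₀ K ⊗ₖ pad n K₀ K) * (X ⊗ₖ Y) *
        (Vbs n η K * (pad n K₀ K ⊗ₖ pad n K₀ K))ᴴ := by
        simp only [conjTranspose_mul, Matrix.mul_assoc]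
    _ = _ := by
        rw [fd_Vbs η h]
        simp only [conjTranspose_mul, Matrix.mul_assoc]

theorem trace_pad_dN {K₀ K : ℕ} (h : K₀ ≤ K) (X : Matrix (VK n K₀) (VK n K₀) ℂ) (g : ℕ → ℝ) :
    (pad n K₀ K * X * (pad n K₀ K)ᴴ * dN n K g).trace = (X * dN n K₀ g).trace := by
  rw [Matrix.mul_assoc, Matrix.mul_assoc, trace_mul_comm, Matrix.mul_assoc, Matrix.mul_assoc, fd_dN,
    ← Matrix.mul_assoc (pad n K₀ K)ᴴ, pad_iso h, Matrix.one_mul]

theorem fd_density {K₀ K : ℕ} (h : K₀ ≤ K) {X : Matrix (VK n K₀) (VK n K₀) ℂ} (hX : IsDensity X) :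
    IsDensity (pad n K₀ K * X * (pad n K₀ K)ᴴ) :=
  ⟨hX.1.mul_mul_conjTranspose_same _, by
    rw [trace_mul_comm, ← Matrix.mul_assoc, pad_iso h, Matrix.one_mul, hX.2]⟩

theorem fd {η NA NB : ℝ} (hη : η ∈ Set.Ioo (0 : ℝ) 1) (hNA : 0 < NA) (hNB : 0 < NB) {K : ℕ}
    {ρA ρB : Matrix (VK n K) (VK n K) ℂ} (hA : IsDensity ρA) (hB : IsDensity ρB) :
    η * Tm NA * (vnEntropy ρA - n * gBose NA) + (1 - η) * Tm NB * (vnEntropy ρB - n * gBose NB) ≤
      Tm (η * NA + (1 - η) * NB) *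
        (vnEntropy (out (Vbs n η K) ρA ρB) - n * gBose (η * NA + (1 - η) * NB)) := by
  have hN : 0 < η * NA + (1 - η) * NB := add_pos (mul_pos hη.1 hNA) (mul_pos (sub_pos.2 hη.2) hNB)
  have hT := Tm_pos hN
  obtain ⟨C, hC, hflo⟩ := ent_flo_le (n := n) hN
  have hO := out_psd (Vbs n η K) hA.1 hB.1
  set N := η * NA + (1 - η) * NB with hNdef
  set E := η * (ρA * num n K).trace.re + (1 - η) * (ρB * num n K).trace.re with hE
  set F := η * (ρA * dN n K f6).trace.re + (1 - η) * (ρB * dN n K f6).trace.re with hF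
  set S := vnEntropy (out (Vbs n η K) ρA ρB) with hS
  set R := η * Tm NA * vnEntropy ρA + (1 - η) * Tm NB * vnEntropy ρB with hR
  set L := η * (Tm NA * Real.log (1 + NA)) + (1 - η) * (Tm NB * Real.log (1 + NB)) with hL
  have h1 : ∀ ε ∈ Set.Ioo (0 : ℝ) 1, n * ((1 - ε) * (Tm N * Real.log (1 + N)) - L) - ε ≤
      (1 - ε) * Tm N * S - R + ε * E := fun ε hε => by
    obtain ⟨δ₀, hδ₀, H⟩ := min_lb n hη hNA hNB hε hε.1
    have hc : Continuous fun δ : ℝ =>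
        (1 - ε) * Tm N * (S + C * (δ + Real.negMulLog δ)) - R + ε * E + δ * F := by fun_prop
    have ht := (hc.tendsto 0).mono_left (nhdsWithin_le_nhds (s := Set.Ioi 0))
    simp only [Real.negMulLog_zero, add_zero, mul_zero, zero_mul] at ht
    refine ge_of_tendsto ht (Filter.mem_of_superset (Ioc_mem_nhdsGT hδ₀.1) fun δ hδ => ?_)
    obtain ⟨K₁, H⟩ := H δ hδ
    have hK := le_max_right K₁ K
    have h2 := H _ (le_max_left K₁ K) _ _ (fd_density hK hA) (fd_density hK hB)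
    have hK2 := Nat.mul_le_mul_left 2 hK
    have h3 := ent_add_le (hO.mul_mul_conjTranspose_same (pad n (2 * K) (2 * max K₁ K)))
      (dN_posDef (g := fun m => δ * (N / (N + 1)) ^ m) fun m => by have := hδ.1; positivity)
    rw [ent_isometry (pad_iso hK2) hO.1] at h3
    have h4 := hflo (2 * max K₁ K) δ ⟨hδ.1, hδ.2.trans hδ₀.2⟩
    rw [PsiF, Psi, out_pad η hK, ent_isometry (pad_iso hK) hA.1.1, ent_isometry (pad_iso hK) hB.1.1,
      Hpen, Hpen, trace_pad_dN hK, trace_pad_dN hK, ← Hpen, ← Hpen, fd_Hpen, fd_Hpen] at h2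
    have h5 := mul_le_mul_of_nonneg_left (h3.trans (add_le_add le_rfl h4))
      (mul_pos (sub_pos.2 hε.2) hT).le
    have h6 : δ * (1 - Real.log δ) = δ + Real.negMulLog δ := by
      rw [Real.negMulLog]
      ring
    rw [h6] at h5
    simp only [Set.mem_ofPred_eq, hE, hF, hR, hL]
    rw [flo] at h2
    linarith
  have hc : Continuous fun ε : ℝ => (1 - ε) * Tm N * S - R + ε * E -
      (n * ((1 - ε) * (Tm N * Real.log (1 + N)) - L) - ε) := by fun_prop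
  have h2 := ge_of_tendsto ((hc.tendsto 0).mono_left (nhdsWithin_le_nhds (s := Set.Ioi 0)))
    (Filter.mem_of_superset (Ioo_mem_nhdsGT one_pos) fun ε hε => sub_nonneg.2 (h1 ε hε))
  have a1 := Tm_gBose hNA
  have a2 := Tm_gBose hNB
  have a3 := Tm_gBose hN
  have e : Tm N * (S - n * gBose N) - (η * Tm NA * (vnEntropy ρA - n * gBose NA) +
      (1 - η) * Tm NB * (vnEntropy ρB - n * gBose NB)) =
      (1 - 0) * Tm N * S - R + 0 * E - (n * ((1 - 0) * (Tm N * Real.log (1 + N)) - L) - 0) := by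
    rw [hR, hL]
    linear_combination -n * a3 + n * η * a1 + n * (1 - η) * a2 - n * hNdef
  exact sub_nonneg.1 (e ▸ h2)

end Crest.Agent.R331

end
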