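import Crest.Agent.R331.Ent

/-!
# Second order expansion of the relative entropy

Let `m > 0` be a lower bound of the `a i`.  For small `t`, `X t = dg U a + t Δ ≥ m/2`; write `X t = dg U' b`, so
`b j ≥ m/2`.  Put `O = Uᴴ * U'`, `D = Uᴴ * Δ * U`.  From `Uᴴ (X t - dg U a) U' = t D O` we get
`(b j - a i) O i j = t (D O) i j`, hence by `breg_eq`, `phi_mul`:
`breg / t^2 = ∑ i j, ‖(D O) i j‖^2 phi (a i) (b j) = ∑ i, (D O diag(phi (a i) b) Oᴴ Dᴴ) i i`.
Compare with `∑ i k, ‖D i k‖^2 phi (a i) (a k)`: the matrix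
`M i = O diag(phi (a i) b) Oᴴ - diag(phi (a i) a)` has `(M i * O) k j = O k j (phi (a i) (b j) - phi (a i) (a k))`, of norm
`≤ 4/m^2 |t| ‖(D O) k j‖` (`phi_lip`), so the difference is `O(t)` (entries of unitaries are bounded by 1).
Finally `‖D i k‖ = ‖D k i‖` and `phi_add` symmetrise the limit.
-/

open scoped ComplexOrder Kronecker Matrix
open Matrix Crest.Quantum Crest.MathPhysics.Bosonic

noncomputable section

namespace Crest.Agent.R331

variable {ι : Type*} [Fintype ι] [DecidableEq ι]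

theorem hess_exists {a : ι → ℝ} (ha : ∀ i, 0 < a i) : ∃ r, 0 < r ∧ ∀ i, r < a i := by
  have h : ∀ᶠ r in nhdsWithin (0 : ℝ) (Set.Ioi 0), ∀ i, r < a i :=
    Filter.eventually_all.2 fun i => nhdsWithin_le_nhds (gt_mem_nhds (ha i))
  exact (eventually_mem_nhdsWithin.and h).exists

theorem eventually_psd {U : Matrix ι ι ℂ} (hU : U ∈ unitaryGroup ι ℂ) {a : ι → ℝ} {m : ℝ}
    (ha : ∀ i, m < a i) {Δ : Matrix ι ι ℂ} (hΔ : Δ.IsHermitian) :
    ∀ᶠ t : ℝ in nhds 0, (dg U a + (t : ℂ) • Δ - (m : ℂ) • (1 : Matrix ι ι ℂ)).PosSemidef := by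
  obtain ⟨W, hW, c, rfl⟩ := exists_dg hΔ
  obtain ⟨r, hr, h⟩ := hess_exists (a := fun i => a i - m) fun i => sub_pos.2 (ha i)
  have h1 : ∀ᶠ t : ℝ in nhds 0, ∀ j, 0 < r + t * c j := Filter.eventually_all.2 fun j =>
    (by fun_prop : Continuous fun t : ℝ => r + t * c j).continuousAt.eventually
      (lt_mem_nhds (by simpa using hr))
  filter_upwards [h1] with t ht
  have h2 := (dg_psd U (p := fun i => a i + -(m + r)) fun i => by linarith [h i]).add
    (dg_psd W fun j => (ht j).le)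
  rw [dg_add, dg_add, dg_const hU, dg_const hW, dg_smul] at h2
  convert h2 using 1
  push_cast
  module

theorem hess_row {O : Matrix ι ι ℂ} (hO : O * Oᴴ = 1) (D : Matrix ι ι ℂ) (i : ι) (f g : ι → ℝ) :
    ((∑ j, ‖(D * O) i j‖ ^ 2 * f j - ∑ k, ‖D i k‖ ^ 2 * g k : ℝ) : ℂ) =
      ∑ k, ∑ j, D i k * star ((D * O) i j) * (O k j * (f j - g k : ℝ)) := by
  have h1 : ∀ k, star (D i k) = ∑ j, star ((D * O) i j) * O k j := fun k => by
    conv_lhs => rw [← Matrix.mul_one D, ← hO, ← Matrix.mul_assoc, mul_apply]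
    simp only [star_sum, star_mul', conjTranspose_apply, star_star]
  have h2 : ∀ z : ℂ, ((‖z‖ : ℂ)) ^ 2 = z * star z := fun z => (Complex.mul_conj' z).symm
  push_cast
  simp only [h2, h1, mul_sub, Finset.sum_sub_distrib]
  congr 1
  · rw [Finset.sum_comm]
    refine Finset.sum_congr rfl fun j _ => ?_
    conv_lhs => rw [mul_apply (M := D), Finset.sum_mul, Finset.sum_mul]
    exact Finset.sum_congr rfl fun k _ => by rw [← mul_apply]; ring
  · refine Finset.sum_congr rfl fun k _ => ?_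
    rw [Finset.mul_sum, Finset.sum_mul]
    exact Finset.sum_congr rfl fun j _ => by ring

theorem hess_bound {U : Matrix ι ι ℂ} (hU : U ∈ unitaryGroup ι ℂ) {a : ι → ℝ} {m : ℝ} (hm : 0 < m)
    (ha : ∀ i, m < a i) {Δ : Matrix ι ι ℂ} (hΔ : Δ.IsHermitian) {t : ℝ} (ht : t ≠ 0)
    (h : (dg U a + (t : ℂ) • Δ - (m : ℂ) • (1 : Matrix ι ι ℂ)).PosSemidef) :
    ‖breg U a (dg U a + (t : ℂ) • Δ) / t ^ 2 -
      ∑ i, ∑ k, ‖(Uᴴ * Δ * U) i k‖ ^ 2 * phi (a i) (a k)‖ ≤ ∑ _i : ι, ∑ _k : ι, ∑ _j : ι,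
        (∑ i, ∑ k, ‖(Uᴴ * Δ * U) i k‖) ^ 3 / m ^ 2 * |t| := by
  obtain ⟨W, hW, b, hb⟩ := exists_dg (X := dg U a + (t : ℂ) • Δ) ((dg_herm U a).add (by
    rw [IsHermitian, conjTranspose_smul, hΔ.eq, Complex.star_def, Complex.conj_ofReal]))
  have hbm : ∀ j, m ≤ b j := fun j => by
    have h1 := dg_add W b fun _ => -m
    rw [dg_const hW, Complex.ofReal_neg, neg_smul, ← sub_eq_add_neg, ← hb] at h1
    linarith [nonneg_of_dg hW (h1 ▸ h) j]
  set D := Uᴴ * Δ * U with hD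
  have hO : Uᴴ * W ∈ unitaryGroup ι ℂ := mul_mem (Unitary.star_mem hU) hW
  set O := Uᴴ * W with hOdef
  have u1 : Uᴴ * U = 1 := mem_unitaryGroup_iff'.1 hU
  have u2 : U * Uᴴ = 1 := mem_unitaryGroup_iff.1 hU
  have u3 : Wᴴ * W = 1 := mem_unitaryGroup_iff'.1 hW
  have h1 : ∀ i j, O i j * (b j - a i : ℝ) = t * (D * O) i j := fun i j => by
    have h2 : O * diagonal (fun i => (b i : ℂ)) =
        diagonal (fun i => (a i : ℂ)) * O + (t : ℂ) • (D * O) := by
      have h3 := congrArg (fun X => Uᴴ * X * W) hb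
      simp only [dg, Matrix.mul_add, Matrix.add_mul, Matrix.mul_smul, Matrix.smul_mul,
        ← Matrix.mul_assoc, u1, Matrix.one_mul] at h3
      rw [Matrix.mul_assoc _ Wᴴ, u3, Matrix.mul_one] at h3
      rw [hOdef, hD, ← h3]
      simp only [← Matrix.mul_assoc]
      rw [Matrix.mul_assoc _ U, u2, Matrix.mul_one]
    have h4 := congrFun (congrFun h2 i) j
    simp only [mul_diagonal, diagonal_mul, Matrix.add_apply, Matrix.smul_apply, smul_eq_mul] at h4
    push_cast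
    linear_combination h4
  have h2 : ∀ i j, ‖O i j‖ * |b j - a i| = |t| * ‖(D * O) i j‖ := fun i j => by
    simpa only [norm_mul, Complex.norm_real, Real.norm_eq_abs] using congrArg norm (h1 i j)
  have h3 : breg U a (dg U a + (t : ℂ) • Δ) / t ^ 2 =
      ∑ i, ∑ j, ‖(D * O) i j‖ ^ 2 * phi (a i) (b j) := by
    rw [hb, breg_eq hU hW, div_eq_iff (pow_ne_zero 2 ht), Finset.sum_mul]
    refine Finset.sum_congr rfl fun i _ => ?_
    rw [Finset.sum_mul]
    refine Finset.sum_congr rfl fun j _ => ?_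
    rw [← phi_mul (hm.trans (ha i)) (hm.trans_le (hbm j)), ← mul_assoc, ← sq_abs (b j - a i),
      ← mul_pow, h2, mul_pow, sq_abs]
    ring
  set M := ∑ i, ∑ k, ‖D i k‖ with hM
  have m1 : ∀ i, ∑ k, ‖D i k‖ ≤ M := fun i => Finset.single_le_sum (f := fun i => ∑ k, ‖D i k‖)
    (fun _ _ => Finset.sum_nonneg fun _ _ => norm_nonneg _) (Finset.mem_univ i)
  have m2 : ∀ i k, ‖D i k‖ ≤ M := fun i k => (Finset.single_le_sum (f := fun k => ‖D i k‖)
    (fun _ _ => norm_nonneg _) (Finset.mem_univ k)).trans (m1 i)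
  have m3 : ∀ i j, ‖(D * O) i j‖ ≤ M := fun i j => by
    rw [mul_apply]
    refine (norm_sum_le _ _).trans ((Finset.sum_le_sum fun k _ => ?_).trans (m1 i))
    rw [norm_mul]
    exact mul_le_of_le_one_right (norm_nonneg _) (entry_norm_bound_of_unitary hO k j)
  rw [h3, ← Finset.sum_sub_distrib]
  refine (norm_sum_le _ _).trans (Finset.sum_le_sum fun i _ => ?_)
  rw [← Complex.norm_real, hess_row (mem_unitaryGroup_iff.1 hO)]
  refine (norm_sum_le _ _).trans (Finset.sum_le_sum fun k _ => (norm_sum_le _ _).trans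
    (Finset.sum_le_sum fun j _ => ?_))
  have hM0 : 0 ≤ M := (norm_nonneg _).trans (m2 i k)
  rw [norm_mul, norm_mul, norm_mul, norm_star, Complex.norm_real, Real.norm_eq_abs]
  refine (mul_le_mul (mul_le_mul (m2 i k) (m3 i j) (norm_nonneg _) hM0)
    ((mul_le_mul_of_nonneg_left (phi_lip hm (ha i).le (hbm j) (ha k).le) (norm_nonneg _)).trans
      (?_ : _ ≤ |t| * M / m ^ 2)) (by positivity) (by positivity)).trans_eq (by ring)
  rw [← mul_div_assoc, h2]
  exact div_le_div_of_nonneg_right (mul_le_mul_of_nonneg_left (m3 k j) (abs_nonneg t))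
    (by positivity)

theorem hess {U : Matrix ι ι ℂ} (hU : U ∈ unitaryGroup ι ℂ) {a : ι → ℝ} (ha : ∀ i, 0 < a i)
    {Δ : Matrix ι ι ℂ} (hΔ : Δ.IsHermitian) :
    Filter.Tendsto (fun t : ℝ => breg U a (dg U a + (t : ℂ) • Δ) / t ^ 2) (nhdsWithin 0 {0}ᶜ)
      (nhds (wf U (fun i k => invL (a i) (a k)) Δ / 2)) := by
  obtain ⟨m, hm, h⟩ := hess_exists ha
  have h1 : wf U (fun i k => invL (a i) (a k)) Δ / 2 =
      ∑ i, ∑ k, ‖(Uᴴ * Δ * U) i k‖ ^ 2 * phi (a i) (a k) := by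
    have h2 := isHermitian_conjTranspose_mul_mul U hΔ
    rw [div_eq_iff two_ne_zero, mul_two, wf]
    conv_rhs => enter [2]; rw [Finset.sum_comm]
    simp only [← Finset.sum_add_distrib]
    refine Finset.sum_congr rfl fun i _ => Finset.sum_congr rfl fun k _ => ?_
    rw [← phi_add (ha i) (ha k), ← h2.apply k i, norm_star]
    ring
  rw [h1, tendsto_iff_norm_sub_tendsto_zero]
  refine squeeze_zero' (Filter.Eventually.of_forall fun _ => norm_nonneg _)
    (((eventually_psd hU h hΔ).filter_mono nhdsWithin_le_nhds).mp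
      (eventually_nhdsWithin_of_forall fun t ht => hess_bound hU hm h hΔ ht))
    (Filter.Tendsto.mono_left (Continuous.tendsto' (by fun_prop) _ _ (by simp)) nhdsWithin_le_nhds)

end Crest.Agent.R331

end
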