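import Crest.Agent.R331.Chan
import Crest.Agent.R331.Hess

/-!
# The second order condition

`second_order`: for Hermitian traceless `δ` and small `t`, `ρA + t δ` is a density matrix (`eventually_psd`), and with
`Δ = out V δ ρB` (Hermitian, traceless), the definition of `breg`, `breg_self` and the Euler-Lagrange equation give
`Psi1 (ρA + t δ) - Psi1 ρA = κA breg UA pA (ρA + t δ) - κC breg UC pC (σ + t Δ) ≥ 0`.  Divide by `t^2` and use `hess`.

`second_order_dual`: first let `Y` be Hermitian, `YA = adj0 V ρA ρB Y`, and let `δ` be the matrix with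
`(UAᴴ δ UA) i k = LM (pA i) (pA k) (UAᴴ YA UA) i k`; it is Hermitian, traceless (`LM_self`, `trace_adj0`), and
`s := wf UA LM YA = ip YA δ = wf UA invL δ = Tr (Y Δ)`.  Cauchy-Schwarz in the basis `UC`:
`s^2 ≤ wf UC LM Y * wf UC invL Δ`, and `κC wf UC invL Δ ≤ κA s`.  For general `Y = Y₁ + i Y₂` (Hermitian parts),
`wf U w (Y₁ + i Y₂) = wf U w Y₁ + wf U w Y₂` for symmetric `w`.
-/

open scoped ComplexOrder Kronecker Matrix
open Matrix Crest.Quantum Crest.MathPhysics.Bosonic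

noncomputable section

namespace Crest.Agent.R331

variable {A B C D : Type*} [Fintype A] [Fintype B] [Fintype C] [Fintype D]
  [DecidableEq A] [DecidableEq B] [DecidableEq C] [DecidableEq D]

variable {V : Matrix (C × D) (A × B) ℂ} {τ : Matrix C C ℂ} {H : Matrix A A ℂ} {κC κA : ℝ}
  {ρB : Matrix B B ℂ} {UC : Matrix C C ℂ} {pC : C → ℝ} {UA : Matrix A A ℂ} {pA : A → ℝ}

theorem hess2_wf_nonneg {ι : Type*} [Fintype ι] (U : Matrix ι ι ℂ) {w : ι → ι → ℝ}
    (hw : ∀ i k, 0 ≤ w i k) (Y : Matrix ι ι ℂ) : 0 ≤ wf U w Y :=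
  Finset.sum_nonneg fun i _ => Finset.sum_nonneg fun k _ => mul_nonneg (hw i k) (sq_nonneg _)

theorem hess2_wf_split {ι : Type*} [Fintype ι] (U : Matrix ι ι ℂ) {w : ι → ι → ℝ}
    (hw : ∀ i k, w i k = w k i) (Y : Matrix ι ι ℂ) :
    wf U w (Y + Yᴴ) + wf U w (Complex.I • (Y - Yᴴ)) = 4 * wf U w Y := by
  have hc : Uᴴ * Yᴴ * U = (Uᴴ * Y * U)ᴴ := by
    simp only [conjTranspose_mul, conjTranspose_conjTranspose, Matrix.mul_assoc]
  have h1 : ∑ i, ∑ k, w i k * ‖(Uᴴ * Y * U) k i‖ ^ 2 = wf U w Y := by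
    unfold wf
    rw [Finset.sum_comm]
    exact Finset.sum_congr rfl fun i _ => Finset.sum_congr rfl fun k _ => by rw [hw]
  have h2 : wf U w (Y + Yᴴ) + wf U w (Complex.I • (Y - Yᴴ)) =
      2 * wf U w Y + 2 * ∑ i, ∑ k, w i k * ‖(Uᴴ * Y * U) k i‖ ^ 2 := by
    unfold wf
    simp only [Finset.mul_sum, ← Finset.sum_add_distrib]
    refine Finset.sum_congr rfl fun i _ => Finset.sum_congr rfl fun k _ => ?_
    simp only [Matrix.mul_add, Matrix.add_mul, Matrix.mul_smul, Matrix.smul_mul, Matrix.mul_sub,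
      Matrix.sub_mul, hc, Matrix.add_apply, Matrix.smul_apply, Matrix.sub_apply,
      conjTranspose_apply, norm_smul, Complex.norm_I, one_mul]
    have := parallelogram_law_with_norm ℂ ((Uᴴ * Y * U) i k) (star ((Uᴴ * Y * U) k i))
    rw [norm_star] at this
    linear_combination w i k * this
  rw [h2, h1]; ring

theorem hess2_cs {ι : Type*} [Fintype ι] [DecidableEq ι] {U : Matrix ι ι ℂ}
    (hU : U ∈ unitaryGroup ι ℂ) {p : ι → ℝ} (hp : ∀ i, 0 < p i) (X Y : Matrix ι ι ℂ) :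
    ‖ip X Y‖ ^ 2 ≤
      wf U (fun i k => LM (p i) (p k)) X * wf U (fun i k => invL (p i) (p k)) Y := by
  have h1 : ‖ip X Y‖ ≤ ∑ q : ι × ι, ‖(Uᴴ * X * U) q.1 q.2‖ * ‖(Uᴴ * Y * U) q.1 q.2‖ := by
    rw [ip_eq_sum hU, ← Fintype.sum_prod_type']
    refine (norm_sum_le _ _).trans (le_of_eq ?_)
    exact Finset.sum_congr rfl fun q _ => by rw [norm_mul, norm_star]
  have h2 := Finset.sum_sq_le_sum_mul_sum_of_sq_le_mul (Finset.univ : Finset (ι × ι))
    (r := fun q => ‖(Uᴴ * X * U) q.1 q.2‖ * ‖(Uᴴ * Y * U) q.1 q.2‖)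
    (f := fun q => LM (p q.1) (p q.2) * ‖(Uᴴ * X * U) q.1 q.2‖ ^ 2)
    (g := fun q => invL (p q.1) (p q.2) * ‖(Uᴴ * Y * U) q.1 q.2‖ ^ 2)
    (fun q _ => mul_nonneg (LM_pos (hp _) (hp _)).le (sq_nonneg _))
    (fun q _ => mul_nonneg (invL_pos (hp _) (hp _)).le (sq_nonneg _))
    (fun q _ => le_of_eq (by
      have := (invL_pos (hp q.1) (hp q.2)).ne'
      unfold LM
      field_simp))
  unfold wf
  rw [← Fintype.sum_prod_type', ← Fintype.sum_prod_type']
  exact (pow_le_pow_left₀ (norm_nonneg _) h1 2).trans h2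

theorem hess2_breg_diff {ι : Type*} [Fintype ι] [DecidableEq ι] {U : Matrix ι ι ℂ}
    (hU : U ∈ unitaryGroup ι ℂ) (a : ι → ℝ) {Δ : Matrix ι ι ℂ} (h0 : Δ.trace = 0) (t : ℝ) :
    vnEntropy (dg U a + (t : ℂ) • Δ) = vnEntropy (dg U a) - breg U a (dg U a + (t : ℂ) • Δ)
      + t * (Δ * mlog U a).trace.re := by
  have h := breg_self hU a
  unfold breg at h ⊢
  simp only [Matrix.add_mul, Matrix.smul_mul, trace_add, trace_smul, h0, smul_eq_mul, mul_zero,
    add_zero, Complex.add_re, Complex.re_ofReal_mul]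
  linarith

theorem second_order (hV : Vᴴ * V = 1) (hB : IsDensity ρB) (hUC : UC ∈ unitaryGroup C ℂ)
    (hpC : ∀ i, 0 < pC i) (hUA : UA ∈ unitaryGroup A ℂ) (hpA : ∀ i, 0 < pA i)
    (hA : IsDensity (dg UA pA)) (hσ : dg UC pC = out V (dg UA pA) ρB + τ) {cst : ℝ}
    (hel : (κA : ℂ) • mlog UA pA =
      (κC : ℂ) • adj V ρB (mlog UC pC) + H + (cst : ℂ) • (1 : Matrix A A ℂ))
    (hmin : ∀ ω, IsDensity ω → Psi1 V τ H κC κA ρB (dg UA pA) ≤ Psi1 V τ H κC κA ρB ω)
    {δ : Matrix A A ℂ} (hδ : δ.IsHermitian) (hδ0 : δ.trace = 0) :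
    κC * wf UC (fun i k => invL (pC i) (pC k)) (out V δ ρB) ≤
      κA * wf UA (fun i k => invL (pA i) (pA k)) δ := by
  have hΔ : (out V δ ρB).IsHermitian := by
    unfold Matrix.IsHermitian
    rw [out_conjTranspose, hδ.eq, hB.1.isHermitian.eq]
  have hΔ0 : (out V δ ρB).trace = 0 := by rw [trace_out V hV, hδ0, zero_mul]
  have hlin : κA * (δ * mlog UA pA).trace.re =
      κC * (out V δ ρB * mlog UC pC).trace.re + (δ * H).trace.re := by
    have h1 := congrArg (fun M => (δ * M).trace) hel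
    simp only [Matrix.mul_add, Matrix.mul_smul, trace_add, trace_smul, Matrix.mul_one, hδ0,
      smul_eq_mul, mul_zero, add_zero] at h1
    rw [trace_mul_comm δ (adj V ρB _), trace_adj, trace_mul_comm (mlog UC pC)] at h1
    have h2 := congrArg Complex.re h1
    simpa only [Complex.add_re, Complex.re_ofReal_mul] using h2
  have hev : ∀ᶠ t : ℝ in nhdsWithin 0 {0}ᶜ,
      κC * (breg UC pC (dg UC pC + (t : ℂ) • out V δ ρB) / t ^ 2) ≤
        κA * (breg UA pA (dg UA pA + (t : ℂ) • δ) / t ^ 2) := by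
    have h1 := (eventually_psd hUA (m := 0) hpA hδ).filter_mono
      (nhdsWithin_le_nhds (s := ({0}ᶜ : Set ℝ)))
    filter_upwards [h1] with t ht
    have hd : IsDensity (dg UA pA + (t : ℂ) • δ) := by
      refine ⟨by simpa using ht, ?_⟩
      rw [trace_add, trace_smul, hδ0, hA.2, smul_zero, add_zero]
    have h2 := hmin _ hd
    unfold Psi1 at h2
    have h3 : out V (dg UA pA + (t : ℂ) • δ) ρB + τ = dg UC pC + (t : ℂ) • out V δ ρB := by
      rw [out_add, out_smul, hσ]; abel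
    rw [h3, ← hσ, hess2_breg_diff hUC pC hΔ0 t, hess2_breg_diff hUA pA hδ0 t] at h2
    simp only [Matrix.add_mul, Matrix.smul_mul, trace_add, trace_smul, smul_eq_mul,
      Complex.add_re, Complex.re_ofReal_mul] at h2
    rw [← mul_div_assoc, ← mul_div_assoc]
    refine div_le_div_of_nonneg_right ?_ (sq_nonneg t)
    have h4 : t * (κA * (δ * mlog UA pA).trace.re) =
      t * (κC * (out V δ ρB * mlog UC pC).trace.re + (δ * H).trace.re) := by rw [hlin]
    nlinarith [h2, h4]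
  have := le_of_tendsto_of_tendsto ((hess hUC hpC hΔ).const_mul κC) ((hess hUA hpA hδ).const_mul κA)
    hev
  linarith

theorem hess2_herm (hB : IsDensity ρB) (hUC : UC ∈ unitaryGroup C ℂ)
    (hpC : ∀ i, 0 < pC i) (hUA : UA ∈ unitaryGroup A ℂ) (hpA : ∀ i, 0 < pA i)
    (hA : IsDensity (dg UA pA)) (hκC : 0 ≤ κC) (hκA : 0 ≤ κA)
    (h : ∀ δ : Matrix A A ℂ, δ.IsHermitian → δ.trace = 0 →
      κC * wf UC (fun i k => invL (pC i) (pC k)) (out V δ ρB) ≤
        κA * wf UA (fun i k => invL (pA i) (pA k)) δ) {Y : Matrix C C ℂ} (hY : Y.IsHermitian) :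
    κC * wf UA (fun i k => LM (pA i) (pA k)) (adj0 V (dg UA pA) ρB Y) ≤
      κA * wf UC (fun i k => LM (pC i) (pC k)) Y := by
  have hU1 : UAᴴ * UA = 1 := by
    have := mem_unitaryGroup_iff'.1 hUA
    rwa [star_eq_conjTranspose] at this
  obtain ⟨YA, hYA⟩ : ∃ YA, YA = adj0 V (dg UA pA) ρB Y := ⟨_, rfl⟩
  have hYAh : YA.IsHermitian := by
    unfold Matrix.IsHermitian
    rw [hYA, adj0_conjTranspose V (dg_herm _ _) hB.1.isHermitian, hY.eq]
  have hYA0 : (dg UA pA * YA).trace = 0 := by rw [hYA]; exact trace_adj0 V hA.2 Y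
  obtain ⟨M, hM⟩ : ∃ M, M = UAᴴ * YA * UA := ⟨_, rfl⟩
  have hMh : M.IsHermitian := by
    rw [hM]; exact isHermitian_conjTranspose_mul_mul UA hYAh
  obtain ⟨N, hN⟩ : ∃ N : Matrix A A ℂ, N = Matrix.of fun i k => (LM (pA i) (pA k) : ℂ) * M i k :=
    ⟨_, rfl⟩
  have hNh : N.IsHermitian := by
    ext i k
    rw [hN, conjTranspose_apply, of_apply, of_apply, star_mul', hMh.apply, LM_comm]
    simp
  obtain ⟨δ, hδ⟩ : ∃ δ : Matrix A A ℂ, δ = UA * N * UAᴴ := ⟨_, rfl⟩
  have hδh : δ.IsHermitian := by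
    rw [hδ]; exact isHermitian_mul_mul_conjTranspose UA hNh
  have hconj : UAᴴ * δ * UA = N := by
    rw [hδ]
    calc UAᴴ * (UA * N * UAᴴ) * UA = (UAᴴ * UA) * N * (UAᴴ * UA) := by
          simp only [Matrix.mul_assoc]
      _ = N := by rw [hU1, Matrix.one_mul, Matrix.mul_one]
  have hδ0 : δ.trace = 0 := by
    rw [hδ, trace_mul_cycle, hU1, Matrix.one_mul, ← hYA0]
    unfold dg
    have : (UA * diagonal (fun i => (pA i : ℂ)) * UAᴴ * YA).trace =
        (diagonal (fun i => (pA i : ℂ)) * M).trace := by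
      rw [hM, Matrix.mul_assoc, Matrix.mul_assoc, trace_mul_comm UA]
      simp only [Matrix.mul_assoc]
    rw [this, hN]
    simp [trace, LM_self]
  rw [← hYA]
  obtain ⟨s, hs⟩ : ∃ s, s = wf UA (fun i k => LM (pA i) (pA k)) YA := ⟨_, rfl⟩
  have hs0 : 0 ≤ s := hs ▸ hess2_wf_nonneg _ (fun i k => (LM_pos (hpA i) (hpA k)).le) _
  have hs1 : wf UA (fun i k => invL (pA i) (pA k)) δ = s := by
    rw [hs]
    unfold wf
    rw [hconj, ← hM, hN]
    refine Finset.sum_congr rfl fun i _ => Finset.sum_congr rfl fun k _ => ?_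
    have := (invL_pos (hpA i) (hpA k)).ne'
    rw [of_apply, norm_mul, Complex.norm_real, mul_pow, Real.norm_eq_abs, sq_abs]
    unfold LM
    field_simp
  have hs2 : ip YA δ = (s : ℂ) := by
    rw [ip_eq_sum hUA, hconj, hs]
    unfold wf
    rw [← hM, hN]
    push_cast
    refine Finset.sum_congr rfl fun i _ => Finset.sum_congr rfl fun k _ => ?_
    rw [of_apply, ← Complex.conj_mul', Complex.star_def]
    ring
  have hs3 : ip YA δ = ip Y (out V δ ρB) := by
    unfold ip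
    rw [hYAh.eq, hY.eq, hYA, ← trace_adj]
    unfold adj0
    rw [Matrix.sub_mul, trace_sub, Matrix.smul_mul, Matrix.one_mul, trace_smul, hδ0, smul_zero,
      sub_zero]
  have hcs := hess2_cs hUC hpC Y (out V δ ρB)
  rw [← hs3, hs2, Complex.norm_real, Real.norm_eq_abs, sq_abs] at hcs
  have hh := h δ hδh hδ0
  rw [hs1] at hh
  rw [← hs]
  have hW := hess2_wf_nonneg UC (fun i k => (LM_pos (hpC i) (hpC k)).le) Y
  rcases hs0.eq_or_lt with h0 | h0
  · rw [← h0, mul_zero]; exact mul_nonneg hκA hW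
  · refine le_of_mul_le_mul_right ?_ h0
    have e1 := mul_le_mul_of_nonneg_left hcs hκC
    have e2 := mul_le_mul_of_nonneg_left hh hW
    nlinarith [e1, e2]

theorem second_order_dual (hB : IsDensity ρB) (hUC : UC ∈ unitaryGroup C ℂ)
    (hpC : ∀ i, 0 < pC i) (hUA : UA ∈ unitaryGroup A ℂ) (hpA : ∀ i, 0 < pA i)
    (hA : IsDensity (dg UA pA)) (hκC : 0 ≤ κC) (hκA : 0 ≤ κA)
    (h : ∀ δ : Matrix A A ℂ, δ.IsHermitian → δ.trace = 0 →
      κC * wf UC (fun i k => invL (pC i) (pC k)) (out V δ ρB) ≤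
        κA * wf UA (fun i k => invL (pA i) (pA k)) δ) (Y : Matrix C C ℂ) :
    κC * wf UA (fun i k => LM (pA i) (pA k)) (adj0 V (dg UA pA) ρB Y) ≤
      κA * wf UC (fun i k => LM (pC i) (pC k)) Y := by
  have hP : (Y + Yᴴ).IsHermitian := isHermitian_add_transpose_self Y
  have hQ : (Complex.I • (Y - Yᴴ)).IsHermitian := by
    unfold Matrix.IsHermitian
    rw [conjTranspose_smul, conjTranspose_sub, conjTranspose_conjTranspose, Complex.star_def,
      Complex.conj_I, neg_smul, ← smul_neg, neg_sub]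
  have h1 := hess2_herm hB hUC hpC hUA hpA hA hκC hκA h hP
  have h2 := hess2_herm hB hUC hpC hUA hpA hA hκC hκA h hQ
  have hc := adj0_conjTranspose V (dg_herm UA pA) hB.1.isHermitian Y
  have e1 : adj0 V (dg UA pA) ρB (Y + Yᴴ) =
      adj0 V (dg UA pA) ρB Y + (adj0 V (dg UA pA) ρB Y)ᴴ := by
    rw [hc]; exact map_add (adj0L V (dg UA pA) ρB) Y Yᴴ
  have e2 : adj0 V (dg UA pA) ρB (Complex.I • (Y - Yᴴ)) =
      Complex.I • (adj0 V (dg UA pA) ρB Y - (adj0 V (dg UA pA) ρB Y)ᴴ) := by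
    rw [hc]
    exact (map_smul (adj0L V (dg UA pA) ρB) Complex.I (Y - Yᴴ)).trans
      (congrArg _ (map_sub (adj0L V (dg UA pA) ρB) Y Yᴴ))
  rw [e1] at h1
  rw [e2] at h2
  have s1 := hess2_wf_split UA (w := fun i k => LM (pA i) (pA k)) (fun i k => LM_comm _ _)
    (adj0 V (dg UA pA) ρB Y)
  have s2 := hess2_wf_split UC (w := fun i k => LM (pC i) (pC k)) (fun i k => LM_comm _ _) Y
  have t1 := congrArg (κC * ·) s1
  have t2 := congrArg (κA * ·) s2
  beta_reduce at t1 t2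
  linarith

end Crest.Agent.R331

end
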