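import Crest.Agent.R331.Ent

/-!
# Operators on Fock space: entries, `emb`, `mat`, `cut`, and the functional calculus of finite matrices

`entry T k l = (T (ket l)) k` (`lp.inner_single_left`).  An operator is determined by its entries (`lp.hasSum_single`).
`emb` is a (non-unital) star homomorphism.  `fc_emb`: let `X = emb (dg U p)` (self-adjoint), `u i = ∑ k, U k i • ket k`;
`X (u i) = p i • u i` and `X w = 0` for `w = ket l`, `l ∉ VK`.  `cfc_eigen` gives the same eigenvectors for `fc X`, with
eigenvalues `negMulLog (p i)` and `0`; `ket l = ∑ i, conj (U l i) • u i` for `l ∈ VK`.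
`cfc_eigen`: `μ` is in the spectrum; the set of `g : C(spectrum ℂ X, ℂ)` with `cfcHom g v = g μ • v` is a closed star
subalgebra containing the identity function (`ContinuousMap.induction_on_of_compact`; for the star step prove the
statement simultaneously for `g` and `star g`, using `X* v = X v`), or use real polynomials.
-/

open scoped ComplexOrder Kronecker Matrix
open Matrix Crest.Quantum Crest.MathPhysics.Bosonic

noncomputable section

namespace Crest.Agent.R331

variable {n K : ℕ}

theorem inf1_inner_ket (k : Occ n) (v : Fock n) : inner ℂ (ket k) v = v k := by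
  unfold ket
  rw [lp.inner_single_left]
  simp

theorem inf1_ket_apply (l k : Occ n) : ket l k = if k = l then 1 else 0 := by
  simp [ket, lp.single_apply, Pi.single_apply]

theorem inf1_norm_ket (k : Occ n) : ‖ket k‖ = 1 := by
  unfold ket
  rw [lp.norm_single (by norm_num), norm_one]

theorem inf1_ext_ket {S T : Fock n →L[ℂ] Fock n} (h : ∀ l, S (ket l) = T (ket l)) : S = T := by
  refine lp.ext_continuousLinearMap (by simp) fun i => ?_
  exact ContinuousLinearMap.ext_ring (h i)

/-- the vector with finitely many coordinates `x` -/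
def inf1_vec (x : VK n K → ℂ) : Fock n := ∑ k, x k • ket k.1

theorem inf1_vec_apply (x : VK n K → ℂ) (k : Occ n) :
    inf1_vec x k = if h : tot k ≤ K then x ⟨k, h⟩ else 0 := by
  rw [← inf1_inner_ket, inf1_vec, inner_sum]
  simp only [inner_smul_right, inf1_inner_ket, inf1_ket_apply]
  split_ifs with h
  · rw [Finset.sum_eq_single ⟨k, h⟩]
    · simp
    · intro b _ hb
      rw [if_neg fun e => hb (Subtype.ext e.symm), mul_zero]
    · simp
  · refine Finset.sum_eq_zero fun b _ => ?_
    rw [if_neg fun e : k = b.1 => h (e ▸ b.2), mul_zero]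

theorem inf1_vec_val (x : VK n K → ℂ) (k : VK n K) : inf1_vec x k.1 = x k := by
  rw [inf1_vec_apply, dif_pos k.2]

theorem inf1_inner_vec (x : VK n K → ℂ) (v : Fock n) :
    inner ℂ (inf1_vec x) v = ∑ k, star (x k) * v k.1 := by
  rw [inf1_vec, sum_inner]
  simp only [inner_smul_left, inf1_inner_ket]
  rfl

theorem inf1_emb_apply (M : Matrix (VK n K) (VK n K) ℂ) (v : Fock n) :
    emb M v = inf1_vec (M *ᵥ fun l => v l.1) := by
  unfold emb inf1_vec
  simp only [_root_.sum_apply, _root_.smul_apply, InnerProductSpace.rankOne_apply, inf1_inner_ket,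
    smul_smul, mulVec, dotProduct, Finset.sum_smul]

theorem inf1_emb_vec (M : Matrix (VK n K) (VK n K) ℂ) (x : VK n K → ℂ) :
    emb M (inf1_vec x) = inf1_vec (M *ᵥ x) := by
  simp only [inf1_emb_apply, inf1_vec_val]

theorem inf1_vec_smul (c : ℂ) (x : VK n K → ℂ) : inf1_vec (c • x) = c • inf1_vec x := by
  simp only [inf1_vec, Finset.smul_sum, Pi.smul_apply, smul_smul, smul_eq_mul]

theorem inf1_vec_sum {ι : Type*} (s : Finset ι) (x : ι → VK n K → ℂ) :
    inf1_vec (∑ i ∈ s, x i) = ∑ i ∈ s, inf1_vec (x i) := by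
  simp only [inf1_vec, Finset.sum_apply, Finset.sum_smul]
  exact Finset.sum_comm

theorem inf1_emb_ket (M : Matrix (VK n K) (VK n K) ℂ) {l : Occ n} (hl : ¬ tot l ≤ K) :
    emb M (ket l) = 0 := by
  have e : (fun l' : VK n K => ket l l'.1) = 0 := by
    funext l'
    rw [inf1_ket_apply, if_neg fun e : l'.1 = l => hl (e ▸ l'.2)]
    rfl
  rw [inf1_emb_apply, e, mulVec_zero]
  simp [inf1_vec]

theorem inf1_vec_single (l : VK n K) : inf1_vec (Pi.single l (1 : ℂ)) = ket l.1 := by
  unfold inf1_vec
  rw [Finset.sum_eq_single l]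
  · simp
  · intro b _ hb
    rw [Pi.single_eq_of_ne hb, zero_smul]
  · simp

theorem inf1_emb_sum {M : Matrix (VK n K) (VK n K) ℂ} {m : ℕ} {u : Fin m → VK n K → ℂ}
    (h : M = ∑ i, vecMulVec (u i) (star (u i))) :
    emb M = ∑ i, InnerProductSpace.rankOne ℂ (inf1_vec (u i)) (inf1_vec (u i)) := by
  refine ContinuousLinearMap.ext fun v => ?_
  rw [inf1_emb_apply, h, sum_mulVec, inf1_vec_sum, _root_.sum_apply]
  refine Finset.sum_congr rfl fun i _ => ?_
  rw [InnerProductSpace.rankOne_apply, inf1_inner_vec, ← inf1_vec_smul]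
  congr 1
  funext k
  simp only [mulVec, dotProduct, vecMulVec_apply, Pi.star_apply, Pi.smul_apply, smul_eq_mul,
    Finset.sum_mul]
  exact Finset.sum_congr rfl fun l _ => by ring

theorem inf1_star_emb (M : Matrix (VK n K) (VK n K) ℂ) : star (emb M) = emb Mᴴ := by
  unfold emb
  simp only [star_sum, star_smul, ContinuousLinearMap.star_eq_adjoint,
    InnerProductSpace.adjoint_rankOne, conjTranspose_apply]
  exact Finset.sum_comm

theorem inf1_dg_col {U : Matrix (VK n K) (VK n K) ℂ} (hU : U ∈ unitaryGroup (VK n K) ℂ)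
    (p : VK n K → ℝ) (i : VK n K) :
    emb (dg U p) (inf1_vec (U *ᵥ Pi.single i 1)) = (p i : ℂ) • inf1_vec (U *ᵥ Pi.single i 1) := by
  have h1 : Uᴴ * U = 1 := mem_unitaryGroup_iff'.1 hU
  rw [inf1_emb_vec, ← inf1_vec_smul, mulVec_mulVec, dg, Matrix.mul_assoc, h1, Matrix.mul_one,
    ← mulVec_mulVec, diagonal_mulVec_single, ← mulVec_smul, ← Pi.single_smul, smul_eq_mul]

theorem entry_eq (T : Fock n →L[ℂ] Fock n) (k l : Occ n) : entry T k l = T (ket l) k := by
  exact inf1_inner_ket k _

theorem ext_entry {S T : Fock n →L[ℂ] Fock n} (h : ∀ k l, entry S k l = entry T k l) : S = T := by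
  refine inf1_ext_ket fun l => lp.ext (funext fun k => ?_)
  rw [← entry_eq, ← entry_eq, h]

theorem norm_entry_le (T : Fock n →L[ℂ] Fock n) (k l : Occ n) : ‖entry T k l‖ ≤ ‖T‖ := by
  refine (norm_inner_le_norm _ _).trans ?_
  rw [inf1_norm_ket, one_mul]
  simpa only [inf1_norm_ket, mul_one] using T.le_opNorm (ket l)

theorem entry_emb (M : Matrix (VK n K) (VK n K) ℂ) (k l : Occ n) :
    entry (emb M) k l = if h : tot k ≤ K ∧ tot l ≤ K then M ⟨k, h.1⟩ ⟨l, h.2⟩ else 0 := by
  rw [entry_eq]
  by_cases hl : tot l ≤ K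
  · rw [← inf1_vec_single ⟨l, hl⟩, inf1_emb_vec, inf1_vec_apply]
    by_cases hk : tot k ≤ K
    · rw [dif_pos hk, dif_pos ⟨hk, hl⟩, mulVec_single_one]
      rfl
    · rw [dif_neg hk, dif_neg fun h => hk h.1]
  · rw [inf1_emb_ket M hl, dif_neg fun h => hl h.2]
    rfl

theorem emb_pos {M : Matrix (VK n K) (VK n K) ℂ} (h : M.PosSemidef) : (emb M).IsPositive := by
  obtain ⟨m, u, hu⟩ := posSemidef_iff_eq_sum_vecMulVec.1 h
  rw [inf1_emb_sum hu]
  exact ContinuousLinearMap.isPositive_sum _ fun _ _ => InnerProductSpace.isPositive_rankOne_self _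

theorem norm_emb_le {M : Matrix (VK n K) (VK n K) ℂ} (h : M.PosSemidef) : ‖emb M‖ ≤ M.trace.re := by
  obtain ⟨m, u, hu⟩ := posSemidef_iff_eq_sum_vecMulVec.1 h
  rw [inf1_emb_sum hu, hu, trace_sum, Complex.re_sum]
  refine (norm_sum_le _ _).trans (le_of_eq (Finset.sum_congr rfl fun i _ => ?_))
  rw [InnerProductSpace.norm_rankOne, ← inner_self_eq_norm_mul_norm (𝕜 := ℂ), inf1_inner_vec,
    trace_vecMulVec]
  simp only [inf1_vec_val, dotProduct, Pi.star_apply, RCLike.re_to_complex, mul_comm]

theorem mat_psd {X : Fock n →L[ℂ] Fock n} (h : X.IsPositive) (K : ℕ) : (mat K X).PosSemidef := by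
  refine PosSemidef.of_dotProduct_mulVec_nonneg ?_ fun x => ?_
  · ext k l
    simp only [conjTranspose_apply, mat, of_apply, entry]
    rw [← h.inner_left_eq_inner_right]
    exact inner_conj_symm _ _
  · have e : star x ⬝ᵥ (mat K X *ᵥ x) = inner ℂ (inf1_vec x) (X (inf1_vec x)) := by
      rw [inf1_inner_vec]
      refine Finset.sum_congr rfl fun k _ => ?_
      rw [← inf1_inner_ket, inf1_vec, map_sum, inner_sum]
      simp only [Pi.star_apply, mulVec, dotProduct, mat, of_apply, entry, map_smul,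
        inner_smul_right, mul_comm]
    rw [e]
    exact h.inner_nonneg_right _

theorem cut_apply (K : ℕ) (v : Fock n) (k : Occ n) : cut K v k = if tot k ≤ K then v k else 0 := by
  rw [cut, inf1_emb_apply, one_mulVec, inf1_vec_apply]
  simp

theorem cfc_eigen {X : Fock n →L[ℂ] Fock n} (hX : IsSelfAdjoint X) {v : Fock n} {μ : ℝ}
    (hv : X v = (μ : ℂ) • v) {f : ℂ → ℂ} (hf : Continuous f) : cfc f X v = f μ • v := by
  rcases eq_or_ne v 0 with rfl | h0
  · simp
  have hN : IsStarNormal X := hX.isStarNormal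
  have hμ : (μ : ℂ) ∈ spectrum ℂ X := by
    rw [spectrum.mem_iff]
    rintro ⟨u, hu⟩
    have h1 : (u : Fock n →L[ℂ] Fock n) v = 0 := by
      rw [hu, _root_.sub_apply, hv, Algebra.algebraMap_eq_smul_one, _root_.smul_apply,
        one_apply_eq_self, sub_self]
    have h2 : ((↑u⁻¹ * ↑u : Fock n →L[ℂ] Fock n)) v = 0 := by
      rw [mul_apply_eq_comp, h1, map_zero]
    rw [u.inv_mul, one_apply_eq_self] at h2
    exact h0 h2
  have key : ∀ g : C(spectrum ℂ X, ℂ), cfcHom hN g v = g ⟨μ, hμ⟩ • v := by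
    intro g
    induction g using ContinuousMap.induction_on_of_compact with
    | const r =>
      have : ContinuousMap.const (spectrum ℂ X) r = algebraMap ℂ C(spectrum ℂ X, ℂ) r := rfl
      rw [this, AlgHomClass.commutes, Algebra.algebraMap_eq_smul_one, _root_.smul_apply,
        one_apply_eq_self]
      rfl
    | id => rw [cfcHom_id hN, hv]; rfl
    | star_id =>
      rw [map_star, cfcHom_id hN, hX.star_eq, hv]
      simp
    | add f g hf hg => rw [map_add, _root_.add_apply, hf, hg, ← add_smul]; rfl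
    | mul f g hf hg =>
      rw [map_mul, mul_apply_eq_comp, hg, map_smul, hf, smul_smul, mul_comm]; rfl
    | frequently f hf =>
      have hc : IsClosed {g : C(spectrum ℂ X, ℂ) | cfcHom hN g v = g ⟨μ, hμ⟩ • v} :=
        isClosed_eq ((cfcHom_continuous hN).clm_apply continuous_const)
          ((continuous_eval_const (⟨μ, hμ⟩ : spectrum ℂ X)).fun_smul continuous_const)
      exact hc.closure_subset (mem_closure_iff_frequently.2 hf)
  rw [cfc_apply f X hN hf.continuousOn, key]
  rfl

theorem continuous_fc : Continuous fun z : ℂ => (-(z.re * Real.log z.re) : ℂ) := by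
  have h : Continuous fun z : ℂ => ((Real.negMulLog z.re : ℝ) : ℂ) :=
    Complex.continuous_ofReal.comp (Real.continuous_negMulLog.comp Complex.continuous_re)
  refine h.congr fun z => ?_
  simp [Real.negMulLog]

theorem fc_emb {U : Matrix (VK n K) (VK n K) ℂ} (hU : U ∈ unitaryGroup (VK n K) ℂ)
    (p : VK n K → ℝ) : fc (emb (dg U p)) = emb (dg U fun i => Real.negMulLog (p i)) := by
  have hX : IsSelfAdjoint (emb (dg U p)) := by
    rw [IsSelfAdjoint, inf1_star_emb, (dg_herm U p).eq]
  have h1 : U * Uᴴ = 1 := mem_unitaryGroup_iff.1 hU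
  refine inf1_ext_ket fun l => ?_
  by_cases hl : tot l ≤ K
  · have e : ket l = ∑ i, star (U ⟨l, hl⟩ i) • inf1_vec (U *ᵥ Pi.single i 1) := by
      simp only [← inf1_vec_smul]
      rw [← inf1_vec_sum, ← inf1_vec_single ⟨l, hl⟩]
      congr 1
      funext k
      have h2 := congrFun (congrFun h1 k) ⟨l, hl⟩
      rw [mul_apply, one_apply] at h2
      simp only [Finset.sum_apply, Pi.smul_apply, mulVec_single_one, col_apply, smul_eq_mul,
        Pi.single_apply]
      rw [← h2]
      exact Finset.sum_congr rfl fun i _ => by rw [conjTranspose_apply, mul_comm]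
    rw [e, map_sum, map_sum]
    refine Finset.sum_congr rfl fun i _ => ?_
    rw [map_smul, map_smul, inf1_dg_col hU, fc, cfc_eigen hX (inf1_dg_col hU p i) continuous_fc]
    simp [Real.negMulLog]
  · rw [inf1_emb_ket _ hl, fc, cfc_eigen hX (μ := 0) (by simp [inf1_emb_ket _ hl]) continuous_fc]
    simp

end Crest.Agent.R331

end
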