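import Crest.Agent.R331.Inf1

/-!
# Square summable families

`‖rankOne x x‖ = ‖x‖^2`, so the series `hsOp t` converges absolutely.  Entries: apply the continuous linear map
`T ↦ entry T k l`.  Positivity: closed cone (`ContinuousLinearMap.IsPositive`, `isPositive_rankOne_self`).  Trace:
`‖t j‖^2 = ∑ k, ‖t j k‖^2` and exchange of the nonnegative double series (`summable_prod_of_nonneg`,
`HasSum.prod_fiberwise`).  `hsOp_tendsto`:
`‖rankOne x x - rankOne y y‖ ≤ ‖x - y‖ (‖x‖ + ‖y‖) ≤ (lam + 1/lam) ‖x - y‖^2 + 2 lam ‖y‖^2`-type bounds.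
`exists_hs`: `r i = CFC.sqrt ρ.op (ket i)`, `‖r i‖^2 = Re entry ρ i i`, Parseval (`lp.inner_eq_tsum`).
`tendsto_cut`: dominated convergence (`tendsto_tsum_of_dominated_convergence`).
-/

open scoped ComplexOrder Kronecker Matrix
open Matrix Crest.Quantum Crest.MathPhysics.Bosonic

noncomputable section

namespace Crest.Agent.R331

variable {n : ℕ} {J : Type*}

open InnerProductSpace in
theorem inf2_hasSum {t : J → Fock n} (ht : Summable fun j => ‖t j‖ ^ 2) :
    HasSum (fun j => rankOne ℂ (t j) (t j)) (hsOp t) :=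
  (Summable.of_norm (by simpa [sq] using ht)).hasSum

theorem inf2_ket_left (k : Occ n) (v : Fock n) : inner ℂ (ket k) v = v k := by
  simp [ket, lp.inner_single_left]

theorem inf2_ket_right (k : Occ n) (v : Fock n) : inner ℂ v (ket k) = star (v k) := by
  rw [← inner_conj_symm, inf2_ket_left]
  rfl

theorem inf2_norm_sq (v : Fock n) : HasSum (fun k => ‖v k‖ ^ 2) (‖v‖ ^ 2) := by
  simpa using lp.hasSum_norm (p := 2) (by norm_num) v

theorem hsOp_entry {t : J → Fock n} (ht : Summable fun j => ‖t j‖ ^ 2) (k l : Occ n) :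
    HasSum (fun j => t j k * star (t j l)) (entry (hsOp t) k l) := by
  have h1 := (innerSL ℂ (ket k)).hasSum
    ((ContinuousLinearMap.apply ℂ (Fock n) (ket l)).hasSum (inf2_hasSum ht))
  refine h1.congr_fun fun j => ?_
  simp only [ContinuousLinearMap.apply_apply, InnerProductSpace.rankOne_apply, innerSL_apply_apply,
    inner_smul_right, inf2_ket_left, inf2_ket_right]
  ring

theorem hsOp_pos {t : J → Fock n} (ht : Summable fun j => ‖t j‖ ^ 2) : (hsOp t).IsPositive := by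
  exact (ContinuousLinearMap.nonneg_iff_isPositive _).1 (tsum_nonneg fun j =>
    (ContinuousLinearMap.nonneg_iff_isPositive _).2 (InnerProductSpace.isPositive_rankOne_self _))

theorem hsOp_trace {t : J → Fock n} {s : ℝ} (ht : HasSum (fun j => ‖t j‖ ^ 2) s) :
    HasSum (fun k => (entry (hsOp t) k k).re) s := by
  have h1 : Summable fun p : J × Occ n => ‖t p.1 p.2‖ ^ 2 := by
    refine (summable_prod_of_nonneg fun p => sq_nonneg _).2
      ⟨fun j => (inf2_norm_sq (t j)).summable, ?_⟩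
    simp only [fun j => (inf2_norm_sq (t j)).tsum_eq]
    exact ht.summable
  have h2 : HasSum (fun p : J × Occ n => ‖t p.1 p.2‖ ^ 2) s := by
    rw [ht.unique (h1.hasSum.prod_fiberwise fun j => inf2_norm_sq (t j))]
    exact h1.hasSum
  have h3 : HasSum (fun p : Occ n × J => ‖t p.2 p.1‖ ^ 2) s :=
    (Equiv.prodComm (Occ n) J).hasSum_iff.2 h2
  refine h3.prod_fiberwise fun k => ?_
  refine (Complex.reCLM.hasSum (hsOp_entry ht.summable k k)).congr_fun fun j => ?_
  simp only [Complex.reCLM_apply, Complex.star_def, Complex.mul_conj, Complex.ofReal_re,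
    Complex.normSq_eq_norm_sq]

theorem norm_hsOp_le {t : J → Fock n} {s : ℝ} (ht : HasSum (fun j => ‖t j‖ ^ 2) s) :
    ‖hsOp t‖ ≤ s := by
  exact tsum_of_norm_bounded ht fun j => by simp [sq]

open InnerProductSpace in
theorem inf2_sub_le (x y : Fock n) {lam : ℝ} (hl : 0 < lam) :
    ‖rankOne ℂ x x - rankOne ℂ y y‖ ≤ (1 + lam⁻¹) * ‖x - y‖ ^ 2 + lam * ‖y‖ ^ 2 := by
  obtain ⟨d, rfl⟩ : ∃ d, x = d + y := ⟨x - y, by simp⟩
  have e : rankOne ℂ (d + y) (d + y) - rankOne ℂ y y =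
      rankOne ℂ d d + rankOne ℂ d y + rankOne ℂ y d := by
    simp only [map_add, _root_.add_apply]
    abel
  rw [e, add_sub_cancel_right]
  refine (norm_add₃_le).trans ?_
  simp only [norm_rankOne]
  have h1 : 0 ≤ lam⁻¹ * (‖d‖ - lam * ‖y‖) ^ 2 := by positivity
  have h2 : lam⁻¹ * (‖d‖ - lam * ‖y‖) ^ 2 =
      lam⁻¹ * ‖d‖ ^ 2 - 2 * ‖d‖ * ‖y‖ + lam * ‖y‖ ^ 2 := by
    field_simp
    ring
  nlinarith

theorem inf2_summable {t t' : J → Fock n} (ht : Summable fun j => ‖t j‖ ^ 2)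
    (ht' : Summable fun j => ‖t' j - t j‖ ^ 2) : Summable fun j => ‖t' j‖ ^ 2 := by
  refine Summable.of_nonneg_of_le (fun j => sq_nonneg _) (fun j => ?_)
    ((ht'.mul_left 2).add (ht.mul_left 2))
  have h1 : ‖t' j‖ ≤ ‖t' j - t j‖ + ‖t j‖ := by simpa using norm_add_le (t' j - t j) (t j)
  nlinarith [norm_nonneg (t' j), sq_nonneg (‖t' j - t j‖ - ‖t j‖), norm_nonneg (t j),
    norm_nonneg (t' j - t j)]

theorem hsOp_tendsto {t : J → Fock n} (ht : Summable fun j => ‖t j‖ ^ 2) {t' : ℕ → J → Fock n}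
    (ht' : ∀ K, Summable fun j => ‖t' K j - t j‖ ^ 2)
    (h : Filter.Tendsto (fun K => ∑' j, ‖t' K j - t j‖ ^ 2) Filter.atTop (nhds 0)) :
    Filter.Tendsto (fun K => hsOp (t' K)) Filter.atTop (nhds (hsOp t)) := by
  rw [Metric.tendsto_nhds]
  intro ε hε
  set a := ∑' j, ‖t j‖ ^ 2 with ha
  have ha0 : 0 ≤ a := tsum_nonneg fun j => sq_nonneg _
  set lam := ε / (2 * (a + 1)) with hlam
  have hl : 0 < lam := by positivity
  have h1 : lam * a < ε / 2 := by
    rw [hlam, div_mul_eq_mul_div, div_lt_div_iff₀ (by positivity) (by norm_num)]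
    nlinarith
  have h2 := h.const_mul (1 + lam⁻¹)
  rw [mul_zero] at h2
  filter_upwards [h2.eventually (gt_mem_nhds (half_pos hε))] with K hK
  have h3 := (inf2_hasSum (inf2_summable ht (ht' K))).sub (inf2_hasSum ht)
  have h4 := ((ht' K).hasSum.mul_left (1 + lam⁻¹)).add (ht.hasSum.mul_left lam)
  have h5 := tsum_of_norm_bounded h4 fun j => inf2_sub_le (t' K j) (t j) hl
  rw [h3.tsum_eq] at h5
  rw [dist_eq_norm]
  linarith

theorem inf2_sqrt {H : Type*} [NormedAddCommGroup H] [InnerProductSpace ℂ H] [CompleteSpace H]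
    {T : H →L[ℂ] H} (hT : T.IsPositive) : ∃ S : H →L[ℂ] H, S.IsPositive ∧ S * S = T :=
  ⟨CFC.sqrt T, (ContinuousLinearMap.nonneg_iff_isPositive _).1 (CFC.sqrt_nonneg _),
    CFC.sqrt_mul_sqrt_self _ ((ContinuousLinearMap.nonneg_iff_isPositive _).2 hT)⟩

theorem exists_hs (ρ : FockState n) :
    ∃ r : Occ n → Fock n, HasSum (fun i => ‖r i‖ ^ 2) 1 ∧ ρ.op = hsOp r := by
  obtain ⟨S, hS, hSS⟩ : ∃ S : Fock n →L[ℂ] Fock n, S.IsPositive ∧ S * S = ρ.op :=
    inf2_sqrt ρ.pos
  have h1 : ∀ k l, entry ρ.op k l = inner ℂ (S (ket k)) (S (ket l)) := fun k l => by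
    rw [hS.inner_left_eq_inner_right, ← hSS]
    rfl
  have h2 : HasSum (fun i => ‖S (ket i)‖ ^ 2) 1 := by
    refine ρ.traceOne.congr_fun fun i => ?_
    rw [h1, ← inner_self_eq_norm_sq (𝕜 := ℂ)]
    rfl
  refine ⟨fun i => S (ket i), h2, ext_entry fun k l => ?_⟩
  refine HasSum.unique ?_ (hsOp_entry h2.summable k l)
  rw [h1]
  refine (lp.hasSum_inner (𝕜 := ℂ) (S (ket k)) (S (ket l))).congr_fun fun i => ?_
  have h3 : ∀ a b, S (ket a) b = star (S (ket b) a) := fun a b => by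
    rw [← inf2_ket_left, ← inf2_ket_right, hS.inner_left_eq_inner_right]
  rw [h3 i k, h3 i l, star_star]
  simp [mul_comm]

theorem norm_cut_le (K : ℕ) (v : Fock n) : ‖cut K v‖ ≤ ‖v‖ := by
  refine lp.norm_mono (by norm_num) fun k => ?_
  rw [cut_apply]
  split_ifs <;> simp

theorem norm_cut_sub_le (K : ℕ) (v : Fock n) : ‖cut K v - v‖ ≤ ‖v‖ := by
  refine lp.norm_mono (by norm_num) fun k => ?_
  rw [lp.coeFn_sub, Pi.sub_apply, cut_apply]
  split_ifs <;> simp

theorem tendsto_cut_apply (v : Fock n) :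
    Filter.Tendsto (fun K => cut K v) Filter.atTop (nhds v) := by
  have h1 : Filter.Tendsto (fun K => ∑' k, ‖(cut K v - v) k‖ ^ 2) Filter.atTop
      (nhds (∑' _ : Occ n, (0 : ℝ))) := by
    refine tendsto_tsum_of_dominated_convergence (inf2_norm_sq v).summable (fun k => ?_)
      (Filter.Eventually.of_forall fun K k => ?_)
    · refine tendsto_const_nhds.congr' ?_
      filter_upwards [Filter.eventually_ge_atTop (tot k)] with K hK
      rw [lp.coeFn_sub, Pi.sub_apply, cut_apply, if_pos hK]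
      simp
    · rw [lp.coeFn_sub, Pi.sub_apply, cut_apply]
      split_ifs <;> simp
  simp only [fun K => (inf2_norm_sq (cut K v - v)).tsum_eq, tsum_zero] at h1
  rw [tendsto_iff_norm_sub_tendsto_zero]
  simpa using h1.sqrt

theorem tendsto_cut {r : J → Fock n} (hr : Summable fun j => ‖r j‖ ^ 2) :
    Filter.Tendsto (fun K => ∑' j, ‖cut K (r j) - r j‖ ^ 2) Filter.atTop (nhds 0) := by
  have h1 : Filter.Tendsto (fun K => ∑' j, ‖cut K (r j) - r j‖ ^ 2) Filter.atTop
      (nhds (∑' _ : J, (0 : ℝ))) := by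
    refine tendsto_tsum_of_dominated_convergence hr (fun j => ?_)
      (Filter.Eventually.of_forall fun K j => ?_)
    · simpa using (tendsto_iff_norm_sub_tendsto_zero.1 (tendsto_cut_apply (r j))).pow 2
    · rw [Real.norm_of_nonneg (sq_nonneg _)]
      exact pow_le_pow_left₀ (norm_nonneg _) (norm_cut_sub_le _ _) 2
  simpa using h1

theorem hsOp_cut {r : J → Fock n} (hr : Summable fun j => ‖r j‖ ^ 2) (K : ℕ) :
    hsOp (fun j => cut K (r j)) = emb (mat K (hsOp r)) := by
  have h1 : Summable fun j => ‖cut K (r j)‖ ^ 2 :=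
    Summable.of_nonneg_of_le (fun j => sq_nonneg _)
      (fun j => pow_le_pow_left₀ (norm_nonneg _) (norm_cut_le _ _) 2) hr
  refine ext_entry fun k l => (hsOp_entry h1 k l).unique ?_
  rw [entry_emb]
  simp only [cut_apply]
  by_cases hk : tot k ≤ K
  · by_cases hl : tot l ≤ K
    · rw [dif_pos ⟨hk, hl⟩]
      simp only [if_pos hk, if_pos hl]
      exact hsOp_entry hr k l
    · rw [dif_neg fun h => hl h.2]
      simp only [if_neg hl, star_zero, mul_zero]
      exact hasSum_zero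
  · rw [dif_neg fun h => hk h.1]
    simp only [if_neg hk, zero_mul]
    exact hasSum_zero

theorem norm_op_le (ρ : FockState n) : ‖ρ.op‖ ≤ 1 := by
  obtain ⟨r, h1, h2⟩ := exists_hs ρ
  rw [h2]
  exact norm_hsOp_le h1

theorem tendsto_emb_mat (ρ : FockState n) :
    Filter.Tendsto (fun K => emb (mat K ρ.op)) Filter.atTop (nhds ρ.op) := by
  obtain ⟨r, h1, h2⟩ := exists_hs ρ
  rw [h2]
  simp only [← hsOp_cut h1.summable]
  exact hsOp_tendsto h1.summable (fun K => Summable.of_nonneg_of_le (fun j => sq_nonneg _)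
    (fun j => pow_le_pow_left₀ (norm_nonneg _) (norm_cut_sub_le _ _) 2) h1.summable)
    (tendsto_cut h1.summable)

end Crest.Agent.R331

end
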