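import Crest.Agent.R331.Alg
import Crest.Agent.R331.Ent2

/-!
# Thermal sums and Gibbs' inequality

`x ^ tot k = ∏ j, x ^ (k j)`; `VK n K` is contained in the box `{k | ∀ j, k j ≤ K}` and contains the box
`{k | ∀ j, k j ≤ K / n}`, and the sum over a box is `(∑_{i ≤ M} x^i)^n` (`Finset.prod_univ_sum`).  Equivalently:
`HasSum (fun k : Occ n => x ^ tot k) ((1-x)⁻¹ ^ n)` and
`HasSum (fun k => tot k * x ^ tot k) (n x / (1-x)^(n+1))` (induction on `n` or `tot k = ∑ j, k j`), and the finite sets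
`{k | tot k ≤ K}` tend to `atTop`.  `moment_le`: `(m+2)^2 x^m ≤ C y^m` for `x < y < 1`.
Gibbs: `klein` with `U = 1`, `a k = x ^ tot k` (resp. `x ^ tot k / Zs`), `mlog 1 a = dN (m * (-log x))`.
-/

open scoped ComplexOrder Kronecker Matrix
open Matrix Crest.Quantum Crest.MathPhysics.Bosonic

noncomputable section

namespace Crest.Agent.R331

variable {n : ℕ}

theorem sums_tot_cons (a : ℕ) (k : Occ n) :
    tot ((Fin.consEquiv fun _ : Fin (n + 1) => ℕ) (a, k)) = a + tot k := by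
  simp [tot, Fin.consEquiv, Fin.sum_univ_succ]

theorem sums_mul {ι κ : Type*} {f : ι → ℝ} {g : κ → ℝ} {s t : ℝ} (hf : HasSum f s)
    (hg : HasSum g t) (hf' : 0 ≤ f) (hg' : 0 ≤ g) :
    HasSum (fun x : ι × κ => f x.1 * g x.2) (s * t) :=
  hf.mul hg (hf.summable.mul_of_nonneg hg.summable hf' hg')

theorem sums_hasSum {x : ℝ} (h0 : 0 ≤ x) (h1 : x < 1) (n : ℕ) :
    HasSum (fun k : Occ n => x ^ tot k) (((1 - x)⁻¹) ^ n) ∧
      HasSum (fun k : Occ n => (tot k : ℝ) * x ^ tot k) (n * x * ((1 - x)⁻¹) ^ (n + 1)) := by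
  have hg : HasSum (fun a : ℕ => x ^ a) (1 - x)⁻¹ := hasSum_geometric_of_lt_one h0 h1
  have hg' : HasSum (fun a : ℕ => (a : ℝ) * x ^ a) (x / (1 - x) ^ 2) :=
    hasSum_coe_mul_geometric_of_norm_lt_one (by rwa [Real.norm_eq_abs, abs_of_nonneg h0])
  induction n with
  | zero =>
    constructor
    · simp [tot]
    · simp [tot]
  | succ n ih =>
    obtain ⟨ih1, ih2⟩ := ih
    have p1 : (0 : ℕ → ℝ) ≤ fun a : ℕ => x ^ a := fun a => pow_nonneg h0 a
    have p2 : (0 : ℕ → ℝ) ≤ fun a : ℕ => (a : ℝ) * x ^ a := fun a =>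
      mul_nonneg (Nat.cast_nonneg _) (pow_nonneg h0 a)
    have p3 : (0 : Occ n → ℝ) ≤ fun k : Occ n => x ^ tot k := fun a => pow_nonneg h0 _
    have p4 : (0 : Occ n → ℝ) ≤ fun k : Occ n => (tot k : ℝ) * x ^ tot k := fun a =>
      mul_nonneg (Nat.cast_nonneg _) (pow_nonneg h0 _)
    have A := sums_mul hg ih1 p1 p3
    have B := sums_mul hg' ih1 p2 p3
    have C := sums_mul hg ih2 p1 p4
    constructor
    · rw [← (Fin.consEquiv fun _ : Fin (n + 1) => ℕ).hasSum_iff]
      convert A using 1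
      · funext ⟨a, k⟩
        simp only [Function.comp, sums_tot_cons, pow_add]
      · ring
    · rw [← (Fin.consEquiv fun _ : Fin (n + 1) => ℕ).hasSum_iff]
      convert B.add C using 1
      · funext ⟨a, k⟩
        simp only [Function.comp, sums_tot_cons, pow_add]
        push_cast
        ring
      · have : (1 - x) ≠ 0 := by linarith
        rw [div_eq_mul_inv, ← inv_pow]
        push_cast
        ring

/-- the finite set of tuples with at most `K` photons -/
def sumsS (n K : ℕ) : Finset (Occ n) :=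
  (Finset.univ : Finset (VK n K)).map (Function.Embedding.subtype _)

theorem sums_mem {K : ℕ} {k : Occ n} : k ∈ sumsS n K ↔ tot k ≤ K := by
  simp [sumsS]

theorem sums_eq (K : ℕ) (g : Occ n → ℝ) : ∑ k : VK n K, g k.1 = ∑ k ∈ sumsS n K, g k := by
  simp [sumsS]

theorem sums_tendsto : Filter.Tendsto (sumsS n) Filter.atTop Filter.atTop :=
  Filter.tendsto_atTop_finset_of_monotone
    (fun _ _ h _ hk => sums_mem.2 ((sums_mem.1 hk).trans h))
    fun k => ⟨tot k, sums_mem.2 le_rfl⟩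

theorem Zs_le (K : ℕ) {x : ℝ} (h0 : 0 ≤ x) (h1 : x < 1) : Zs n K x ≤ ((1 - x)⁻¹) ^ n := by
  unfold Zs
  rw [sums_eq K fun k => x ^ tot k]
  exact sum_le_hasSum _ (fun _ _ => pow_nonneg h0 _) (sums_hasSum h0 h1 n).1

theorem one_le_Zs (K : ℕ) {x : ℝ} (h0 : 0 ≤ x) : 1 ≤ Zs n K x := by
  have h := Finset.single_le_sum (f := fun k : VK n K => x ^ tot k.1)
    (fun _ _ => pow_nonneg h0 _) (Finset.mem_univ ⟨0, by simp [tot]⟩)
  have h2 : tot (0 : Occ n) = 0 := by simp [tot]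
  simp only [h2, pow_zero] at h
  exact h

theorem Es_le (K : ℕ) {x : ℝ} (h0 : 0 ≤ x) (h1 : x < 1) :
    Es n K x ≤ n * x * ((1 - x)⁻¹) ^ (n + 1) := by
  unfold Es
  rw [sums_eq K fun k => (tot k : ℝ) * x ^ tot k]
  exact sum_le_hasSum _ (fun _ _ => mul_nonneg (Nat.cast_nonneg _) (pow_nonneg h0 _))
    (sums_hasSum h0 h1 n).2

theorem tendsto_Zs {x : ℝ} (h0 : 0 ≤ x) (h1 : x < 1) :
    Filter.Tendsto (fun K => Zs n K x) Filter.atTop (nhds (((1 - x)⁻¹) ^ n)) := by
  have h := (sums_hasSum h0 h1 n).1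
  refine (Filter.Tendsto.comp h sums_tendsto).congr fun K => ?_
  exact (sums_eq K fun k => x ^ tot k).symm

theorem tendsto_Es {x : ℝ} (h0 : 0 ≤ x) (h1 : x < 1) :
    Filter.Tendsto (fun K => Es n K x) Filter.atTop (nhds (n * x * ((1 - x)⁻¹) ^ (n + 1))) := by
  have h := (sums_hasSum h0 h1 n).2
  refine (Filter.Tendsto.comp h sums_tendsto).congr fun K => ?_
  exact (sums_eq K fun k => (tot k : ℝ) * x ^ tot k).symm

theorem moment_le {x : ℝ} (h0 : 0 ≤ x) (h1 : x < 1) :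
    ∃ C : ℝ, ∀ K, ∑ k : VK n K, ((tot k.1 : ℝ) + 2) ^ 2 * x ^ tot k.1 ≤ C := by
  set y := (1 + x) / 2 with hy
  have hy0 : 0 < y := by positivity
  have hy1 : y < 1 := by linarith
  set r := x / y with hr
  have hr0 : 0 ≤ r := by positivity
  have hr1 : |r| < 1 := by
    rw [abs_of_nonneg hr0, hr, div_lt_one hy0]; linarith
  have ht : Filter.Tendsto (fun m : ℕ => ((m : ℝ) + 2) ^ 2 * r ^ m) Filter.atTop
      (nhds (0 + 4 * 0 + 4 * 0)) := by
    refine (((tendsto_pow_const_mul_const_pow_of_abs_lt_one 2 hr1).add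
      ((tendsto_pow_const_mul_const_pow_of_abs_lt_one 1 hr1).const_mul 4)).add
      ((tendsto_pow_const_mul_const_pow_of_abs_lt_one 0 hr1).const_mul 4)).congr fun m => ?_
    ring
  obtain ⟨M, hM⟩ := ht.bddAbove_range
  have hM' : ∀ m : ℕ, ((m : ℝ) + 2) ^ 2 * r ^ m ≤ M := fun m => hM ⟨m, rfl⟩
  have hM0 : 0 ≤ M := le_trans (by positivity) (hM' 0)
  refine ⟨M * ((1 - y)⁻¹) ^ n, fun K => ?_⟩
  refine le_trans ?_ (mul_le_mul_of_nonneg_left (Zs_le (n := n) K hy0.le hy1) hM0)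
  unfold Zs
  rw [Finset.mul_sum]
  refine Finset.sum_le_sum fun k _ => ?_
  have hx : x = r * y := by rw [hr]; field_simp
  have h2 := mul_le_mul_of_nonneg_right (hM' (tot k.1)) (pow_nonneg hy0.le (tot k.1))
  rw [mul_assoc, ← mul_pow, ← hx] at h2
  exact h2

theorem sums_gibbs {K : ℕ} {X : Matrix (VK n K) (VK n K) ℂ} (hX : X.PosSemidef) {x c : ℝ}
    (h0 : 0 < x) (hc : 0 < c) :
    vnEntropy X ≤ -Real.log x * (X * num n K).trace.re - Real.log c * X.trace.re +
      c * Zs n K x - X.trace.re := by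
  have h := klein (U := (1 : Matrix (VK n K) (VK n K) ℂ)) (one_mem _)
    (a := fun k => c * x ^ tot k.1) (fun k => by positivity) hX
  unfold breg at h
  have h2 : mlog (1 : Matrix (VK n K) (VK n K) ℂ) (fun k => c * x ^ tot k.1) =
      dN n K fun m => -Real.log (c * x ^ m) := by
    unfold mlog dN
    rw [dg_one]
  have h3 : X.trace.re = ∑ k, (X k k).re := by
    simp [Matrix.trace]
  rw [h2, trace_mul_dN, ← Finset.mul_sum] at h
  unfold num Zs
  rw [trace_mul_dN]
  have h4 : ∑ k : VK n K, (X k k).re * -Real.log (c * x ^ tot k.1) =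
      -Real.log x * ∑ k : VK n K, (X k k).re * (tot k.1 : ℝ) - Real.log c * X.trace.re := by
    rw [h3, Finset.mul_sum, Finset.mul_sum, ← Finset.sum_sub_distrib]
    refine Finset.sum_congr rfl fun k _ => ?_
    rw [Real.log_mul hc.ne' (pow_pos h0 _).ne', Real.log_pow]
    ring
  linarith

theorem gibbs_crude {K : ℕ} {X : Matrix (VK n K) (VK n K) ℂ} (hX : X.PosSemidef) {x : ℝ}
    (h0 : 0 < x) (h1 : x < 1) :
    vnEntropy X ≤ -Real.log x * (X * num n K).trace.re + ((1 - x)⁻¹) ^ n - X.trace.re := by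
  have h := sums_gibbs hX h0 one_pos
  have h2 := Zs_le (n := n) K h0.le h1
  rw [Real.log_one] at h
  linarith

theorem sums_one_sub {N : ℝ} (hN : 0 < N) : (1 - N / (N + 1))⁻¹ = N + 1 := by
  have : N + 1 ≠ 0 := by positivity
  field_simp
  ring

theorem sums_log {N : ℝ} (hN : 0 < N) : -Real.log (N / (N + 1)) = Real.log (1 + 1 / N) := by
  rw [← Real.log_inv]
  congr 1
  field_simp

theorem gibbs {K : ℕ} {X : Matrix (VK n K) (VK n K) ℂ} (hX : IsDensity X) {N : ℝ} (hN : 0 < N) :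
    Tm N * vnEntropy X ≤ (X * num n K).trace.re + n * (Tm N * Real.log (1 + N)) := by
  have hx0 : 0 < N / (N + 1) := by positivity
  have hx1 : N / (N + 1) < 1 := by rw [div_lt_one (by positivity)]; linarith
  have hc : 0 < ((N + 1) ^ n)⁻¹ := by positivity
  have h := sums_gibbs hX.1 hx0 hc
  have h2 := Zs_le (n := n) K hx0.le hx1
  rw [sums_one_sub hN] at h2
  have h3 : ((N + 1) ^ n)⁻¹ * Zs n K (N / (N + 1)) ≤ 1 := by
    rw [inv_mul_le_iff₀ (by positivity)]; linarith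
  rw [hX.2, sums_log hN, Real.log_inv, Real.log_pow, Complex.one_re, add_comm N 1] at h
  rw [add_comm N 1] at h3
  have hL : 0 < Real.log (1 + 1 / N) := Real.log_pos (by simp [hN])
  have hT : 0 < Tm N := inv_pos.2 hL
  have h4 : vnEntropy X ≤ Real.log (1 + 1 / N) * (X * num n K).trace.re + n * Real.log (1 + N) := by
    linarith
  have h5 := mul_le_mul_of_nonneg_left h4 hT.le
  have h6 : Tm N * Real.log (1 + 1 / N) = 1 := inv_mul_cancel₀ hL.ne'
  rw [mul_add, ← mul_assoc, h6] at h5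
  linarith

/-- the entropy of the floor tends to `0` uniformly in the cutoff:
`S(flo) = ∑ δ x^|k| (-log δ + |k| (-log x)) ≤ δ (-log δ) Z + δ (-log x) E` -/
theorem ent_flo_le {N : ℝ} (hN : 0 < N) :
    ∃ C : ℝ, 0 ≤ C ∧ ∀ K, ∀ δ ∈ Set.Ioc (0 : ℝ) 1,
      vnEntropy (flo n K N δ) ≤ C * (δ * (1 - Real.log δ)) := by
  set x := N / (N + 1) with hx
  have hx0 : 0 < x := by positivity
  have hx1 : x < 1 := by rw [hx, div_lt_one (by positivity)]; linarith
  have hL : 0 ≤ -Real.log x := by linarith [Real.log_nonpos hx0.le hx1.le]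
  have hi : 0 < (1 - x)⁻¹ := inv_pos.2 (by linarith)
  set Z := ((1 - x)⁻¹) ^ n with hZ
  set E := n * x * ((1 - x)⁻¹) ^ (n + 1) with hE
  have hZ0 : 0 ≤ Z := by positivity
  have hE0 : 0 ≤ E := by positivity
  refine ⟨Z + -Real.log x * E, by positivity, fun K δ hδ => ?_⟩
  have hd : 0 ≤ -Real.log δ := by linarith [Real.log_nonpos hδ.1.le hδ.2]
  have h1 : vnEntropy (flo n K N δ) =
      δ * (-Real.log δ * Zs n K x + -Real.log x * Es n K x) := by
    unfold flo dN Zs Es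
    rw [ent_diagonal, Finset.mul_sum, Finset.mul_sum, ← Finset.sum_add_distrib, Finset.mul_sum]
    refine Finset.sum_congr rfl fun k _ => ?_
    rw [← hx, Real.negMulLog, Real.log_mul hδ.1.ne' (pow_pos hx0 _).ne', Real.log_pow]
    ring
  have h2 := mul_le_mul_of_nonneg_left (Zs_le (n := n) K hx0.le hx1) hd
  have h3 := mul_le_mul_of_nonneg_left (Es_le (n := n) K hx0.le hx1) hL
  rw [← hZ] at h2
  rw [← hE] at h3
  have h4 : -Real.log δ * Zs n K x + -Real.log x * Es n K x ≤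
      (Z + -Real.log x * E) * (1 - Real.log δ) := by
    have := mul_nonneg (mul_nonneg hL hE0) hd
    nlinarith
  rw [h1]
  have := mul_le_mul_of_nonneg_left h4 hδ.1.le
  linarith

theorem trace_flo_le (K : ℕ) {N δ : ℝ} (hN : 0 < N) (hδ : 0 ≤ δ) :
    (flo n K N δ).trace.re ≤ δ * (N + 1) ^ n := by
  have hx0 : 0 < N / (N + 1) := by positivity
  have hx1 : N / (N + 1) < 1 := by rw [div_lt_one (by positivity)]; linarith
  have h2 := Zs_le (n := n) K hx0.le hx1
  rw [sums_one_sub hN] at h2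
  have h1 : (flo n K N δ).trace.re = δ * Zs n K (N / (N + 1)) := by
    unfold flo dN Zs
    rw [Matrix.trace_diagonal, ← Complex.ofReal_sum, Complex.ofReal_re, Finset.mul_sum]
  rw [h1]
  exact mul_le_mul_of_nonneg_left h2 hδ

end Crest.Agent.R331

end
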