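import Crest.Agent.R331.Inf2
import Crest.Agent.R331.Sums

/-!
# Semicontinuity of the entropy

* `fc_tendsto`: `Filter.Tendsto.cfc` with the compact set `closedBall 0 1` (spectra of contractions).
* `fc_diag_nonneg`: `fc X ≥ 0` (`cfc_nonneg`; the spectrum is in `[0, 1]`).
* `ent_lsc`: choose a finite set `F` with `∑_{k ∈ F} Re entry (fc ρ) k k > s - γ/2`; with `mat K ρ = dg U p`, `0 ≤ p ≤ 1`,
  `fc_emb`, `entry_emb`, `trace_dg`, `ent_dg`: `S(mat K ρ) = ∑_{k : VK} Re entry (fc (emb (mat K ρ))) k k ≥ ∑_{k ∈ F} ...`.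
* `ent_usc`: partial sums of the nonnegative diagonal of `fc ρ.op` are limits of partial sums for `σ K`, which are
  `≤ S(σ K) ≤ C` (`gibbs_crude`), so the series converges (`summable_of_sum_le`).  For the upper bound let `0 < x < 1`,
  `β = -log x` small with `β E ≤ γ/3`, and `M` with `(1-x)^{-n} - Zs n M x ≤ γ/3`.  For `|k| > M`: `jensen_diag` and
  `negMulLog y ≤ y b + exp (-b)` (`y ≥ 0`, `b = β |k|`); for `|k| ≤ M` use `fc_tendsto`.
-/

open scoped ComplexOrder Kronecker Matrix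
open Matrix Crest.Quantum Crest.MathPhysics.Bosonic

noncomputable section

namespace Crest.Agent.R331

variable {n : ℕ}

theorem inf3_spec {X : Fock n →L[ℂ] Fock n} (h1 : ‖X‖ ≤ 1) :
    spectrum ℂ X ⊆ Metric.closedBall (0 : ℂ) 1 := by
  refine (spectrum.subset_closedBall_norm_mul X).trans (Metric.closedBall_subset_closedBall ?_)
  have h2 : ‖(1 : Fock n →L[ℂ] Fock n)‖ ≤ 1 := ContinuousLinearMap.norm_id_le
  calc ‖X‖ * ‖(1 : Fock n →L[ℂ] Fock n)‖ ≤ 1 * 1 :=
        mul_le_mul h1 h2 (norm_nonneg _) zero_le_one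
    _ = 1 := one_mul _

theorem inf3_cont (k l : Occ n) :
    Continuous fun T : Fock n →L[ℂ] Fock n => (entry T k l).re := by
  unfold entry
  refine Complex.continuous_re.comp (Continuous.inner continuous_const ?_)
  exact (ContinuousLinearMap.apply ℂ (Fock n) (ket l)).continuous

theorem inf3_diag_nonneg {X : Fock n →L[ℂ] Fock n} (hX : X.IsPositive) (k : Occ n) :
    0 ≤ (entry X k k).re := hX.re_inner_nonneg_right (ket k)

theorem fc_tendsto {X : ℕ → Fock n →L[ℂ] Fock n} {Y : Fock n →L[ℂ] Fock n}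
    (hX : ∀ K, (X K).IsPositive ∧ ‖X K‖ ≤ 1) (hY : Y.IsPositive ∧ ‖Y‖ ≤ 1)
    (h : Filter.Tendsto X Filter.atTop (nhds Y)) (k : Occ n) :
    Filter.Tendsto (fun K => (entry (fc (X K)) k k).re) Filter.atTop (nhds (entry (fc Y) k k).re) := by
  have hc : Filter.Tendsto (fun K => fc (X K)) Filter.atTop (nhds (fc Y)) :=
    h.cfc (p := IsStarNormal) (isCompact_closedBall (0 : ℂ) 1) _
      (Filter.Eventually.of_forall fun K => inf3_spec (hX K).2)
      (Filter.Eventually.of_forall fun K => (hX K).1.isSelfAdjoint.isStarNormal)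
      (inf3_spec hY.2) hY.1.isSelfAdjoint.isStarNormal continuous_fc.continuousOn
  exact ((inf3_cont k k).tendsto _).comp hc

theorem fc_diag_nonneg {X : Fock n →L[ℂ] Fock n} (hX : X.IsPositive) (h1 : ‖X‖ ≤ 1) (k : Occ n) :
    0 ≤ (entry (fc X) k k).re := by
  refine inf3_diag_nonneg ?_ k
  rw [← ContinuousLinearMap.nonneg_iff_isPositive]
  unfold fc
  refine cfc_nonneg fun z hz => ?_
  have h0 : 0 ≤ z :=
    spectrum_nonneg_of_nonneg ((ContinuousLinearMap.nonneg_iff_isPositive X).2 hX) hz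
  have h2 : ‖z‖ ≤ 1 := by simpa using inf3_spec h1 hz
  have h3 : z.re ≤ 1 := (Complex.re_le_norm z).trans h2
  have h4 := Real.negMulLog_nonneg (Complex.le_def.1 h0).1 h3
  have h5 : (-(z.re * Real.log z.re) : ℂ) = ((Real.negMulLog z.re : ℝ) : ℂ) := by
    simp [Real.negMulLog]
  rw [h5]
  exact_mod_cast h4

/-- the occupation tuples with at most `K` photons, as a finite set -/
def inf3_F (n K : ℕ) : Finset (Occ n) :=
  (Finset.univ : Finset (VK n K)).map (Function.Embedding.subtype _)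

theorem inf3_mem {K : ℕ} {k : Occ n} : k ∈ inf3_F n K ↔ tot k ≤ K := by
  simp [inf3_F]

theorem inf3_sum (K : ℕ) (f : Occ n → ℝ) : ∑ k ∈ inf3_F n K, f k = ∑ k : VK n K, f k.1 := by
  simp [inf3_F]

theorem inf3_mono {K L : ℕ} (h : K ≤ L) : inf3_F n K ⊆ inf3_F n L := fun _ hk =>
  inf3_mem.2 ((inf3_mem.1 hk).trans h)

theorem inf3_tendsto : Filter.Tendsto (inf3_F n) Filter.atTop Filter.atTop :=
  Filter.tendsto_atTop_finset_of_monotone (fun _ _ h => inf3_mono h)
    fun k => ⟨tot k, inf3_mem.2 le_rfl⟩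

theorem inf3_trace (K : ℕ) (X : Fock n →L[ℂ] Fock n) :
    (mat K X).trace.re = ∑ k ∈ inf3_F n K, (entry X k k).re := by
  rw [inf3_sum]
  simp [Matrix.trace, mat]

theorem inf3_hasSum {K : ℕ} {f : Occ n → ℝ} (h : ∀ k, K < tot k → f k = 0) :
    HasSum f (∑ k : VK n K, f k.1) := by
  rw [← inf3_sum]
  exact hasSum_sum_of_ne_finset_zero fun k hk => h k (by rwa [inf3_mem, not_le] at hk)

theorem inf3_emb_in {K : ℕ} (M : Matrix (VK n K) (VK n K) ℂ) (k : VK n K) :
    entry (emb M) k.1 k.1 = M k k := by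
  rw [entry_emb, dif_pos ⟨k.2, k.2⟩]

theorem inf3_emb_out {K : ℕ} (M : Matrix (VK n K) (VK n K) ℂ) {k : Occ n} (hk : K < tot k) :
    entry (emb M) k k = 0 := by
  rw [entry_emb, dif_neg]
  intro h
  omega

theorem inf3_fc_out {K : ℕ} {M : Matrix (VK n K) (VK n K) ℂ} (hM : M.IsHermitian) {k : Occ n}
    (hk : K < tot k) : entry (fc (emb M)) k k = 0 := by
  obtain ⟨U, hU, p, rfl⟩ := exists_dg hM
  rw [fc_emb hU, inf3_emb_out _ hk]

theorem inf3_ent {K : ℕ} {M : Matrix (VK n K) (VK n K) ℂ} (hM : M.IsHermitian) :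
    HasSum (fun k => (entry (fc (emb M)) k k).re) (vnEntropy M) := by
  have h := inf3_hasSum (K := K) (f := fun k => (entry (fc (emb M)) k k).re)
    fun k hk => by simp only [inf3_fc_out hM hk, Complex.zero_re]
  convert h using 1
  obtain ⟨U, hU, p, rfl⟩ := exists_dg hM
  have t := congrArg Complex.re (trace_dg hU fun i => Real.negMulLog (p i))
  rw [Complex.ofReal_re] at t
  rw [ent_dg hU, ← t, fc_emb hU]
  simp only [inf3_emb_in, Matrix.trace, Matrix.diag_apply, Complex.re_sum]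

theorem inf3_jensen {K : ℕ} {M : Matrix (VK n K) (VK n K) ℂ} (hM : M.PosSemidef) (k : Occ n) :
    (entry (fc (emb M)) k k).re ≤ Real.negMulLog (entry (emb M) k k).re := by
  by_cases hk : tot k ≤ K
  · obtain ⟨U, hU, p, rfl⟩ := exists_dg hM.isHermitian
    rw [fc_emb hU, inf3_emb_in _ ⟨k, hk⟩, inf3_emb_in _ ⟨k, hk⟩]
    exact jensen_diag hU (nonneg_of_dg hU hM) _
  · rw [inf3_fc_out hM.isHermitian (not_le.1 hk), inf3_emb_out _ (not_le.1 hk)]
    simp

theorem inf3_young {y : ℝ} (hy : 0 ≤ y) (b : ℝ) : Real.negMulLog y ≤ b * y + Real.exp (-b) := by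
  rcases hy.eq_or_lt with rfl | hy
  · simp [(Real.exp_pos _).le]
  · have h := Real.log_le_sub_one_of_pos (div_pos (Real.exp_pos (-b)) hy)
    rw [Real.log_div (Real.exp_pos _).ne' hy.ne', Real.log_exp] at h
    have h2 := mul_le_mul_of_nonneg_left h hy.le
    have h3 : y * (Real.exp (-b) / y - 1) = Real.exp (-b) - y := by field_simp
    rw [h3] at h2
    unfold Real.negMulLog
    nlinarith

theorem inf3_energy {K : ℕ} (M : Matrix (VK n K) (VK n K) ℂ) :
    HasSum (fun k => (tot k : ℝ) * (entry (emb M) k k).re) (M * num n K).trace.re := by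
  have h := inf3_hasSum (K := K) (f := fun k => (tot k : ℝ) * (entry (emb M) k k).re)
    fun k hk => by simp only [inf3_emb_out M hk, Complex.zero_re, mul_zero]
  convert h using 1
  rw [num, trace_mul_dN]
  exact Finset.sum_congr rfl fun k _ => by rw [inf3_emb_in, mul_comm]

theorem inf3_contr {K : ℕ} {M : Matrix (VK n K) (VK n K) ℂ} (hM : M.PosSemidef)
    (h1 : M.trace.re ≤ 1) : (emb M).IsPositive ∧ ‖emb M‖ ≤ 1 :=
  ⟨emb_pos hM, (norm_emb_le hM).trans h1⟩

/-- splitting the entropy into a head and a tail -/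
theorem inf3_split {K : ℕ} {M : Matrix (VK n K) (VK n K) ℂ} (hM : M.PosSemidef) {β : ℝ}
    (hβ : 0 < β) (J : ℕ) :
    vnEntropy M ≤ ∑ k ∈ inf3_F n J, (entry (fc (emb M)) k k).re + β * (M * num n K).trace.re +
      (((1 - Real.exp (-β))⁻¹) ^ n - Zs n J (Real.exp (-β))) := by
  classical
  have hx0 : 0 ≤ Real.exp (-β) := (Real.exp_pos _).le
  have hx1 : Real.exp (-β) < 1 := Real.exp_lt_one_iff.2 (by linarith)
  have hsub : inf3_F n J ⊆ inf3_F n (max K J) := inf3_mono (le_max_right _ _)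
  have e1 : vnEntropy M = ∑ k ∈ inf3_F n (max K J), (entry (fc (emb M)) k k).re := by
    refine (inf3_ent hM.isHermitian).unique (hasSum_sum_of_ne_finset_zero fun k hk => ?_)
    rw [inf3_mem, not_le] at hk
    rw [inf3_fc_out hM.isHermitian ((le_max_left _ _).trans_lt hk), Complex.zero_re]
  have e2 := Finset.sum_sdiff (f := fun k => (entry (fc (emb M)) k k).re) hsub
  have e3 := Finset.sum_sdiff (f := fun k : Occ n => Real.exp (-β) ^ tot k) hsub
  have z1 : ∑ k ∈ inf3_F n J, Real.exp (-β) ^ tot k = Zs n J (Real.exp (-β)) := by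
    rw [inf3_sum]; rfl
  have z2 : ∑ k ∈ inf3_F n (max K J), Real.exp (-β) ^ tot k ≤ ((1 - Real.exp (-β))⁻¹) ^ n := by
    rw [inf3_sum]; exact Zs_le _ hx0 hx1
  have b1 : ∑ k ∈ inf3_F n (max K J) \ inf3_F n J, (tot k : ℝ) * (entry (emb M) k k).re ≤
      (M * num n K).trace.re :=
    sum_le_hasSum _ (fun k _ => mul_nonneg (Nat.cast_nonneg _) (inf3_diag_nonneg (emb_pos hM) k))
      (inf3_energy M)
  have b2 : ∑ k ∈ inf3_F n (max K J) \ inf3_F n J, (entry (fc (emb M)) k k).re ≤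
      β * ∑ k ∈ inf3_F n (max K J) \ inf3_F n J, (tot k : ℝ) * (entry (emb M) k k).re +
        ∑ k ∈ inf3_F n (max K J) \ inf3_F n J, Real.exp (-β) ^ tot k := by
    rw [Finset.mul_sum, ← Finset.sum_add_distrib]
    refine Finset.sum_le_sum fun k _ => (inf3_jensen hM k).trans ?_
    refine (inf3_young (inf3_diag_nonneg (emb_pos hM) k) (β * tot k)).trans (le_of_eq ?_)
    rw [← Real.exp_nat_mul, mul_assoc]
    congr 2
    ring
  have b3 := mul_le_mul_of_nonneg_left b1 hβ.le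
  linarith

theorem tendsto_trace_mat (ρ : FockState n) :
    Filter.Tendsto (fun K => (mat K ρ.op).trace.re) Filter.atTop (nhds 1) := by
  simp only [inf3_trace]
  exact ρ.traceOne.comp inf3_tendsto

theorem trace_mat_le (ρ : FockState n) (K : ℕ) : (mat K ρ.op).trace.re ≤ 1 := by
  rw [inf3_trace]
  exact sum_le_hasSum _ (fun k _ => inf3_diag_nonneg ρ.pos k) ρ.traceOne

theorem energy_mat_le {ρ : FockState n} (h : FiniteEnergy ρ) :
    ∃ E : ℝ, 0 ≤ E ∧ ∀ K, (mat K ρ.op * num n K).trace.re ≤ E := by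
  have h0 : ∀ k : Occ n, 0 ≤ ((∑ j, k j : ℕ) : ℝ) * (entry ρ.op k k).re := fun k =>
    mul_nonneg (Nat.cast_nonneg _) (inf3_diag_nonneg ρ.pos k)
  refine ⟨∑' k : Occ n, ((∑ j, k j : ℕ) : ℝ) * (entry ρ.op k k).re, tsum_nonneg h0, fun K => ?_⟩
  refine le_trans (le_of_eq ?_) (h.sum_le_tsum (inf3_F n K) fun k _ => h0 k)
  rw [num, trace_mul_dN, inf3_sum]
  exact Finset.sum_congr rfl fun k _ => by rw [mul_comm]; rfl

theorem ent_lsc {ρ : FockState n} {s γ : ℝ} (hs : HasEntropy ρ s) (hγ : 0 < γ) :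
    ∀ᶠ K in Filter.atTop, s - γ ≤ vnEntropy (mat K ρ.op) := by
  have hs' : HasSum (fun k => (entry (fc ρ.op) k k).re) s := hs
  obtain ⟨F, hF⟩ := (Filter.Tendsto.eventually hs' (lt_mem_nhds (show s - γ < s by linarith))).exists
  have hc : ∀ K, (emb (mat K ρ.op)).IsPositive ∧ ‖emb (mat K ρ.op)‖ ≤ 1 := fun K =>
    inf3_contr (mat_psd ρ.pos K) (trace_mat_le ρ K)
  have ht : Filter.Tendsto (fun K => ∑ k ∈ F, (entry (fc (emb (mat K ρ.op))) k k).re) Filter.atTop
      (nhds (∑ k ∈ F, (entry (fc ρ.op) k k).re)) :=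
    tendsto_finsetSum F fun k _ => fc_tendsto hc ⟨ρ.pos, norm_op_le ρ⟩ (tendsto_emb_mat ρ) k
  filter_upwards [ht.eventually (lt_mem_nhds hF)] with K hK
  exact hK.le.trans (sum_le_hasSum F (fun k _ => fc_diag_nonneg (hc K).1 (hc K).2 k)
    (inf3_ent (mat_psd ρ.pos K).isHermitian))

theorem ent_usc (ρ : FockState n) {L : ℕ → ℕ} (σ : ∀ K, Matrix (VK n (L K)) (VK n (L K)) ℂ)
    (hσ : ∀ K, (σ K).PosSemidef) (h1 : ∀ K, (σ K).trace.re ≤ 1) {E : ℝ}
    (hE : ∀ K, (σ K * num n (L K)).trace.re ≤ E)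
    (h : Filter.Tendsto (fun K => emb (σ K)) Filter.atTop (nhds ρ.op)) :
    ∃ s, HasEntropy ρ s ∧ ∀ γ, 0 < γ → ∀ᶠ K in Filter.atTop, vnEntropy (σ K) ≤ s + γ := by
  have hc : ∀ K, (emb (σ K)).IsPositive ∧ ‖emb (σ K)‖ ≤ 1 := fun K => inf3_contr (hσ K) (h1 K)
  have ht : ∀ F : Finset (Occ n), Filter.Tendsto
      (fun K => ∑ k ∈ F, (entry (fc (emb (σ K))) k k).re) Filter.atTop
      (nhds (∑ k ∈ F, (entry (fc ρ.op) k k).re)) := fun F =>
    tendsto_finsetSum F fun k _ => fc_tendsto hc ⟨ρ.pos, norm_op_le ρ⟩ h k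
  have h0 : ∀ k, 0 ≤ (entry (fc ρ.op) k k).re := fc_diag_nonneg ρ.pos (norm_op_le ρ)
  have hC : ∀ K, vnEntropy (σ K) ≤ -Real.log (1 / 2) * E + ((1 - 1 / 2 : ℝ)⁻¹) ^ n := by
    intro K
    have g := gibbs_crude (hσ K) (x := 1 / 2) (by norm_num) (by norm_num)
    have l : 0 ≤ -Real.log (1 / 2) :=
      neg_nonneg.2 (Real.log_nonpos (by norm_num) (by norm_num))
    have t : 0 ≤ (σ K).trace.re := (Complex.le_def.1 (hσ K).trace_nonneg).1
    have m := mul_le_mul_of_nonneg_left (hE K) l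
    linarith
  have hsum : Summable fun k => (entry (fc ρ.op) k k).re := by
    refine summable_of_sum_le (c := -Real.log (1 / 2) * E + ((1 - 1 / 2 : ℝ)⁻¹) ^ n) h0 fun F => ?_
    refine le_of_tendsto' (ht F) fun K => le_trans ?_ (hC K)
    exact sum_le_hasSum F (fun k _ => fc_diag_nonneg (hc K).1 (hc K).2 k)
      (inf3_ent (hσ K).isHermitian)
  refine ⟨_, hsum.hasSum, fun γ hγ => ?_⟩
  have hp : 0 < |E| + 1 := by positivity
  have hβ : 0 < γ / 3 / (|E| + 1) := by positivity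
  have hβE : γ / 3 / (|E| + 1) * E ≤ γ / 3 := by
    rw [div_mul_eq_mul_div, div_le_iff₀ hp]
    exact mul_le_mul_of_nonneg_left (by linarith [le_abs_self E]) (by positivity)
  set β := γ / 3 / (|E| + 1) with hβdef
  have hx0 : 0 ≤ Real.exp (-β) := (Real.exp_pos _).le
  have hx1 : Real.exp (-β) < 1 := Real.exp_lt_one_iff.2 (by linarith)
  obtain ⟨J, hJ⟩ := ((tendsto_Zs (n := n) hx0 hx1).eventually
    (lt_mem_nhds (show ((1 - Real.exp (-β))⁻¹) ^ n - γ / 3 < ((1 - Real.exp (-β))⁻¹) ^ n by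
      linarith))).exists
  have hle : ∑ k ∈ inf3_F n J, (entry (fc ρ.op) k k).re < ∑' k, (entry (fc ρ.op) k k).re + γ / 3 := by
    have := hsum.sum_le_tsum (inf3_F n J) fun k _ => h0 k
    linarith
  filter_upwards [(ht (inf3_F n J)).eventually (gt_mem_nhds hle)] with K hK
  have s1 := inf3_split (hσ K) hβ J
  have s2 := mul_le_mul_of_nonneg_left (hE K) hβ.le
  linarith

end Crest.Agent.R331

end
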