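import Crest.Agent.R331.Inf2
import Crest.Agent.R331.Amp2

/-!
# The beam splitter isometry on Fock space

`outv_block`: for fixed `m`, `amp_orth` gives
`∑ c : Splitting m, ‖outv η u v c.fst c.snd‖^2 = ∑ a : Splitting m, ‖u a.fst‖^2 ‖v a.snd‖^2`
(to avoid dependent type problems rewrite `outv η u v k e` with `k + e = m` by `subst`/`split_add`).
`outv_hasSum`: the pairs `(k, e)` are in bijection with `Σ m, Splitting m`; sum over `m`
(`HasSum.sigma`, `summable_sigma_of_nonneg`, `HasSum.mul_of_nonneg` for `‖u‖^2 ‖v‖^2`, `lp.hasSum_norm`).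
`outF η u v e` is the vector `k ↦ outv η u v k e`.
-/

open scoped ComplexOrder Kronecker Matrix
open Matrix Crest.Quantum Crest.MathPhysics.Bosonic

noncomputable section

namespace Crest.Agent.R331

variable {n : ℕ}

theorem inf4_outv_eq (η : ℝ) (u v : Occ n → ℂ) {k e m : Occ n} (h : k + e = m) :
    outv η u v k e = ∑ a : Splitting m, (ampOcc η a.fst a.snd k e : ℂ) * u a.fst * v a.snd := by
  subst h; rfl

theorem inf4_orth {ι : Type*} [Fintype ι] [DecidableEq ι] (A : ι → ι → ℝ)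
    (hA : ∀ a b, ∑ c, A a c * A b c = if a = b then 1 else 0) (w : ι → ℂ) :
    ∑ c, ‖∑ a, (A a c : ℂ) * w a‖ ^ 2 = ∑ a, ‖w a‖ ^ 2 := by
  apply Complex.ofReal_injective
  push_cast
  simp only [← Complex.mul_conj', map_sum, map_mul, Complex.conj_ofReal, Finset.sum_mul_sum]
  rw [Finset.sum_comm]
  refine Finset.sum_congr rfl fun a _ => ?_
  rw [Finset.sum_comm]
  have e : ∀ b, ∑ c, (A a c : ℂ) * w a * ((A b c : ℂ) * (starRingEnd ℂ) (w b)) =
      if a = b then w a * (starRingEnd ℂ) (w b) else 0 := fun b => by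
    have h : ∑ c, (A a c : ℂ) * (A b c : ℂ) = if a = b then 1 else 0 := by
      have := congrArg (fun x : ℝ => (x : ℂ)) (hA a b)
      push_cast at this
      rw [this]; split_ifs <;> simp
    calc _ = (∑ c, (A a c : ℂ) * (A b c : ℂ)) * (w a * (starRingEnd ℂ) (w b)) := by
          rw [Finset.sum_mul]; exact Finset.sum_congr rfl fun c _ => by ring
      _ = _ := by rw [h]; split_ifs <;> simp
  simp only [e, Finset.sum_ite_eq, Finset.mem_univ, if_true]

/-- pairs of occupations are splittings -/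
def inf4_equiv (n : ℕ) : (Σ m : Occ n, Splitting m) ≃ Occ n × Occ n :=
  Equiv.ofBijective (fun x => (x.2.fst, x.2.snd)) (by
    constructor
    · rintro ⟨m, a⟩ ⟨m', a'⟩ h
      simp only [Prod.mk.injEq] at h
      obtain rfl : m = m' := by rw [← split_add a, ← split_add a', h.1, h.2]
      congr 1
      funext j
      exact Fin.ext (congrFun h.1 j)
    · rintro ⟨k, e⟩
      refine ⟨⟨k + e, fun j => ⟨k j, by simp only [Pi.add_apply]; omega⟩⟩, Prod.ext rfl ?_⟩
      funext j
      simp [Splitting.snd])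

theorem inf4_transfer {f g : Occ n × Occ n → ℝ} (hf : ∀ x, 0 ≤ f x) {s : ℝ} (hg : HasSum g s)
    (h : ∀ m : Occ n, ∑ c : Splitting m, f (c.fst, c.snd) = ∑ c : Splitting m, g (c.fst, c.snd)) :
    HasSum f s := by
  have h1 : HasSum (g ∘ inf4_equiv n) s := (inf4_equiv n).hasSum_iff.2 hg
  have h2 : HasSum (fun m : Occ n => ∑ c : Splitting m, f (c.fst, c.snd)) s := by
    simp only [h]
    exact h1.sigma fun m => hasSum_fintype _
  refine (inf4_equiv n).hasSum_iff.1 (h2.sigma_of_hasSum (fun m => hasSum_fintype _) ?_)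
  refine (summable_sigma_of_nonneg fun x => hf _).2 ⟨fun m => (hasSum_fintype _).summable, ?_⟩
  simp only [tsum_fintype]
  exact h2.summable

theorem inf4_norm (u : Fock n) : HasSum (fun k => ‖u k‖ ^ 2) (‖u‖ ^ 2) := by
  simpa using lp.hasSum_norm (p := 2) (by norm_num) u

theorem inf4_mul {I J : Type*} {f : I → ℝ} {g : J → ℝ} {x y : ℝ} (hf : HasSum f x) (hg : HasSum g y)
    (h1 : ∀ i, 0 ≤ f i) (h2 : ∀ j, 0 ≤ g j) : HasSum (fun p : I × J => f p.1 * g p.2) (x * y) :=
  hf.mul hg (hf.summable.mul_of_nonneg hg.summable h1 h2)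

theorem outv_block {η : ℝ} (hη : η ∈ Set.Icc (0 : ℝ) 1) (u v : Occ n → ℂ) (m : Occ n) :
    ∑ c : Splitting m, ‖outv η u v c.fst c.snd‖ ^ 2 =
      ∑ a : Splitting m, ‖u a.fst‖ ^ 2 * ‖v a.snd‖ ^ 2 := by
  classical
  have h := inf4_orth (fun a c : Splitting m => ampOcc η a.fst a.snd c.fst c.snd)
    (fun a b => by convert amp_orth hη m a b) fun a => u a.fst * v a.snd
  simp only [norm_mul, mul_pow] at h
  rw [← h]
  refine Finset.sum_congr rfl fun c _ => ?_
  simp only [inf4_outv_eq η u v (split_add c), mul_assoc]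

theorem outv_hasSum {η : ℝ} (hη : η ∈ Set.Icc (0 : ℝ) 1) (u v : Fock n) :
    HasSum (fun ke : Occ n × Occ n => ‖outv η u v ke.1 ke.2‖ ^ 2) (‖u‖ ^ 2 * ‖v‖ ^ 2) := by
  exact inf4_transfer (fun _ => by positivity)
    (inf4_mul (inf4_norm u) (inf4_norm v) (fun _ => by positivity) fun _ => by positivity)
    fun m => outv_block hη u v m

theorem outv_mem {η : ℝ} (hη : η ∈ Set.Icc (0 : ℝ) 1) (u v : Fock n) (e : Occ n) :
    Memℓp (fun k => outv η u v k e) 2 := by
  refine memℓp_gen ?_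
  have h := (outv_hasSum hη u v).summable.comp_injective (i := fun k => (k, e))
    fun k l h => congrArg Prod.fst h
  simpa [Function.comp_def] using h

/-- the component `⟨e|_D U (u ⊗ v)` -/
def outF {η : ℝ} (hη : η ∈ Set.Icc (0 : ℝ) 1) (u v : Fock n) (e : Occ n) : Fock n :=
  ⟨fun k => outv η u v k e, outv_mem hη u v e⟩

theorem outF_apply {η : ℝ} (hη : η ∈ Set.Icc (0 : ℝ) 1) (u v : Fock n) (e k : Occ n) :
    outF hη u v e k = outv η u v k e := rfl

theorem outF_hasSum {η : ℝ} (hη : η ∈ Set.Icc (0 : ℝ) 1) (u v : Fock n) :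
    HasSum (fun e => ‖outF hη u v e‖ ^ 2) (‖u‖ ^ 2 * ‖v‖ ^ 2) := by
  have h := (Equiv.prodComm (Occ n) (Occ n)).hasSum_iff.2 (outv_hasSum hη u v)
  exact h.prod_fiberwise fun e => inf4_norm (outF hη u v e)

theorem outF_sub {η : ℝ} (hη : η ∈ Set.Icc (0 : ℝ) 1) (u u' v v' : Fock n) (e : Occ n) :
    outF hη u' v' e - outF hη u v e = outF hη (u' - u) v' e + outF hη u (v' - v) e := by
  ext k
  simp only [lp.coeFn_sub, lp.coeFn_add, Pi.sub_apply, Pi.add_apply, outF_apply, outv,
    ← Finset.sum_sub_distrib, ← Finset.sum_add_distrib]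
  exact Finset.sum_congr rfl fun a _ => by ring

/-- square summability of the output family -/
theorem outF_family {η : ℝ} (hη : η ∈ Set.Icc (0 : ℝ) 1) {I J : Type*} {r : I → Fock n}
    {s : J → Fock n} {x y : ℝ} (hr : HasSum (fun i => ‖r i‖ ^ 2) x)
    (hs : HasSum (fun j => ‖s j‖ ^ 2) y) :
    HasSum (fun p : (I × J) × Occ n => ‖outF hη (r p.1.1) (s p.1.2) p.2‖ ^ 2) (x * y) := by
  have h1 := inf4_mul hr hs (fun _ => by positivity) fun _ => by positivity
  have h2 : Summable fun p : (I × J) × Occ n => ‖outF hη (r p.1.1) (s p.1.2) p.2‖ ^ 2 := by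
    refine (summable_prod_of_nonneg fun _ => by positivity).2
      ⟨fun p => (outF_hasSum hη (r p.1) (s p.2)).summable, ?_⟩
    simp only [(outF_hasSum hη _ _).tsum_eq]
    exact h1.summable
  have h3 := h2.hasSum.prod_fiberwise fun p => outF_hasSum hη (r p.1) (s p.2)
  rw [← h3.unique h1]
  exact h2.hasSum

end Crest.Agent.R331

end
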