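import Crest.Agent.R331.Inf4

/-!
# The output state

Let `t ((i,j), e) = outF hη (r i) (s j) e`.  `hsOp_out_entry`: by `hsOp_entry` the entry `(k,l)` of `hsOp t` is the sum over
`((i,j), e)` of `outv (r i) (s j) k e * star (outv (r i) (s j) l e)`; for fixed `e` the sum over `(i,j)` is the finite block
(expand the two finite sums; `hsOp_entry` for `r` and `s`; `HasSum.mul` needs summability of the product family, which
follows from absolute summability `‖r i a‖ ‖r i b‖ ≤ ‖r i‖^2`); conclude with `HasSum.prod_fiberwise` after swapping.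
`emb_out`: compare entries (`ext_entry`, `hsOp_out_entry` for the truncated families, `hsOp_cut`, `entry_emb`,
`sum_split`, `ampOcc_of_ne`): the block vanishes unless `tot (k+e) ≤ 2K`, `tot (l+e) ≤ 2K`.
`exists_out`: `exists_hs`, `hsOp_pos`, `hsOp_trace`, `outF_family`; convergence by `hsOp_tendsto`, `outF_sub`,
`outF_family`, `tendsto_cut`, `norm_cut_le`.
-/

open scoped ComplexOrder Kronecker Matrix
open Matrix Crest.Quantum Crest.MathPhysics.Bosonic

noncomputable section

namespace Crest.Agent.R331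

variable {n : ℕ}

theorem inf5_mul {I J : Type*} {f : I → ℂ} {g : J → ℂ} {a b : ℂ} (hf : HasSum f a) (hg : HasSum g b) :
    HasSum (fun p : I × J => f p.1 * g p.2) (a * b) :=
  hf.mul hg (summable_mul_of_summable_norm hf.summable.norm hg.summable.norm)

theorem inf5_fiber (η : ℝ) {I J : Type*} {r : I → Fock n} {s : J → Fock n}
    (hr : Summable fun i => ‖r i‖ ^ 2) (hs : Summable fun j => ‖s j‖ ^ 2) (k l e : Occ n) :
    HasSum (fun p : I × J => outv η (r p.1) (s p.2) k e * star (outv η (r p.1) (s p.2) l e))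
      (∑ a : Splitting (k + e), ∑ b : Splitting (l + e),
        (ampOcc η a.fst a.snd k e : ℂ) * entry (hsOp r) a.fst b.fst * entry (hsOp s) a.snd b.snd *
          (ampOcc η b.fst b.snd l e : ℂ)) := by
  have h : ∀ (a : Splitting (k + e)) (b : Splitting (l + e)), HasSum (fun p : I × J =>
      ((ampOcc η a.fst a.snd k e : ℂ) * r p.1 a.fst * s p.2 a.snd) *
        star ((ampOcc η b.fst b.snd l e : ℂ) * r p.1 b.fst * s p.2 b.snd))
      ((ampOcc η a.fst a.snd k e : ℂ) * entry (hsOp r) a.fst b.fst * entry (hsOp s) a.snd b.snd *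
          (ampOcc η b.fst b.snd l e : ℂ)) := by
    intro a b
    have h1 := (inf5_mul (hsOp_entry hr a.fst b.fst) (hsOp_entry hs a.snd b.snd)).mul_left
      ((ampOcc η a.fst a.snd k e : ℂ) * (ampOcc η b.fst b.snd l e : ℂ))
    rw [show (ampOcc η a.fst a.snd k e : ℂ) * entry (hsOp r) a.fst b.fst *
        entry (hsOp s) a.snd b.snd * (ampOcc η b.fst b.snd l e : ℂ) =
        (ampOcc η a.fst a.snd k e : ℂ) * (ampOcc η b.fst b.snd l e : ℂ) *
          (entry (hsOp r) a.fst b.fst * entry (hsOp s) a.snd b.snd) by ring]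
    refine h1.congr_fun fun p => ?_
    simp only [star_mul', Complex.star_def, Complex.conj_ofReal]
    ring
  have h2 := hasSum_sum (s := Finset.univ) fun a _ => hasSum_sum (s := Finset.univ) fun b _ => h a b
  refine h2.congr_fun fun p => ?_
  unfold outv
  rw [star_sum, Finset.sum_mul_sum]

/-- the finite block written as a sum over the truncated space -/
def inf5_blk (η : ℝ) {K : ℕ} (X Y : Matrix (VK n K) (VK n K) ℂ) (k l e : Occ n) : ℂ :=
  ∑ pq : VK n K × VK n K, ∑ pq' : VK n K × VK n K,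
    (ampOcc η pq.1.1 pq.2.1 k e : ℂ) * X pq.1 pq'.1 * Y pq.2 pq'.2 *
      (ampOcc η pq'.1.1 pq'.2.1 l e : ℂ)

theorem inf5_entry_emb {K : ℕ} (X : Matrix (VK n K) (VK n K) ℂ) (p q : VK n K) :
    entry (emb X) p.1 q.1 = X p q := by
  rw [entry_emb, dif_pos ⟨p.2, q.2⟩]

theorem inf5_blk_eq (η : ℝ) {K : ℕ} (X Y : Matrix (VK n K) (VK n K) ℂ) (k l e : Occ n) :
    ∑ a : Splitting (k + e), ∑ b : Splitting (l + e),
        (ampOcc η a.fst a.snd k e : ℂ) * entry (emb X) a.fst b.fst * entry (emb Y) a.snd b.snd *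
          (ampOcc η b.fst b.snd l e : ℂ) = inf5_blk η X Y k l e := by
  unfold inf5_blk
  rw [sum_split (K := K) (k + e) (fun p q => ∑ b : Splitting (l + e),
    (ampOcc η p q k e : ℂ) * entry (emb X) p b.fst * entry (emb Y) q b.snd *
      (ampOcc η b.fst b.snd l e : ℂ))]
  · refine Finset.sum_congr rfl fun pq _ => ?_
    split_ifs with h
    · rw [sum_split (K := K) (l + e) (fun p q =>
        (ampOcc η pq.1.1 pq.2.1 k e : ℂ) * entry (emb X) pq.1.1 p * entry (emb Y) pq.2.1 q *
          (ampOcc η p q l e : ℂ))]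
      · refine Finset.sum_congr rfl fun pq' _ => ?_
        split_ifs with h'
        · rw [inf5_entry_emb, inf5_entry_emb]
        · rw [ampOcc_of_ne η (Ne.symm h')]
          simp
      · intro p q _ hpq
        rw [not_and_or] at hpq
        rcases hpq with hp | hq
        · rw [entry_emb X, dif_neg (fun h => hp h.2)]
          simp
        · rw [entry_emb Y, dif_neg (fun h => hq h.2)]
          simp
    · rw [ampOcc_of_ne η (Ne.symm h)]
      simp
  · intro p q _ hpq
    refine Finset.sum_eq_zero fun b _ => ?_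
    rw [not_and_or] at hpq
    rcases hpq with hp | hq
    · rw [entry_emb X, dif_neg (fun h => hp h.1)]
      simp
    · rw [entry_emb Y, dif_neg (fun h => hq h.1)]
      simp

theorem inf5_amp_zero (η : ℝ) {K : ℕ} (pq : VK n K × VK n K) {k e : Occ n}
    (h : ¬ tot k + tot e ≤ 2 * K) : ampOcc η pq.1.1 pq.2.1 k e = 0 := by
  refine ampOcc_of_ne η fun h' => h ?_
  have h1 := pq.1.2
  have h2 := pq.2.2
  rw [← tot_add, h', tot_add]
  omega

theorem inf5_blk_zero (η : ℝ) {K : ℕ} (X Y : Matrix (VK n K) (VK n K) ℂ) {k l e : Occ n}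
    (h : ¬ (tot k + tot e ≤ 2 * K ∧ tot l + tot e ≤ 2 * K)) : inf5_blk η X Y k l e = 0 := by
  unfold inf5_blk
  refine Finset.sum_eq_zero fun pq _ => Finset.sum_eq_zero fun pq' _ => ?_
  rw [not_and_or] at h
  rcases h with h | h
  · rw [inf5_amp_zero η pq h]
    simp
  · rw [inf5_amp_zero η pq' h]
    simp

theorem inf5_out_apply (η : ℝ) {K : ℕ} (X Y : Matrix (VK n K) (VK n K) ℂ) (k l : VK n (2 * K)) :
    out (Vbs n η K) X Y k l = ∑ e : VK n (2 * K), inf5_blk η X Y k.1 l.1 e.1 := by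
  unfold out ptr inf5_blk
  rw [Matrix.of_apply]
  refine Finset.sum_congr rfl fun e _ => ?_
  rw [Matrix.mul_apply, Finset.sum_comm]
  refine Finset.sum_congr rfl fun pq' _ => ?_
  rw [Matrix.mul_apply, Finset.sum_mul]
  refine Finset.sum_congr rfl fun pq _ => ?_
  simp only [Vbs, Matrix.conjTranspose_apply, Matrix.of_apply, Matrix.kroneckerMap_apply,
    Complex.star_def, Complex.conj_ofReal]
  ring

theorem inf5_hasSum_blk (η : ℝ) {K : ℕ} (X Y : Matrix (VK n K) (VK n K) ℂ) (k l : Occ n) :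
    HasSum (fun e => inf5_blk η X Y k l e) (entry (emb (out (Vbs n η K) X Y)) k l) := by
  rw [entry_emb]
  split_ifs with h
  · rw [inf5_out_apply]
    refine ((Subtype.val_injective (p := fun k : Occ n => tot k ≤ 2 * K)).hasSum_iff ?_).1
      (hasSum_fintype _)
    intro e he
    refine inf5_blk_zero η X Y fun h' => he ⟨⟨e, ?_⟩, rfl⟩
    omega
  · have : (fun e => inf5_blk η X Y k l e) = fun _ => 0 := by
      funext e
      refine inf5_blk_zero η X Y fun h' => h ⟨?_, ?_⟩ <;> omega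
    rw [this]
    exact hasSum_zero

theorem inf5_summable_of_le {J : Type*} {r r' : J → Fock n} (hr : Summable fun j => ‖r j‖ ^ 2)
    (h : ∀ j, ‖r' j‖ ≤ ‖r j‖) : Summable fun j => ‖r' j‖ ^ 2 :=
  Summable.of_nonneg_of_le (fun _ => sq_nonneg _)
    (fun j => pow_le_pow_left₀ (norm_nonneg _) (h j) 2) hr

theorem inf5_norm_add_sq (x y : Fock n) : ‖x + y‖ ^ 2 ≤ 2 * ‖x‖ ^ 2 + 2 * ‖y‖ ^ 2 := by
  have h1 := pow_le_pow_left₀ (norm_nonneg _) (norm_add_le x y) 2
  nlinarith [sq_nonneg (‖x‖ - ‖y‖)]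

theorem hsOp_out_entry {η : ℝ} (hη : η ∈ Set.Icc (0 : ℝ) 1) {I J : Type*} {r : I → Fock n}
    {s : J → Fock n} (hr : Summable fun i => ‖r i‖ ^ 2) (hs : Summable fun j => ‖s j‖ ^ 2)
    (k l : Occ n) :
    HasSum (fun e : Occ n => ∑ a : Splitting (k + e), ∑ b : Splitting (l + e),
        (ampOcc η a.fst a.snd k e : ℂ) * entry (hsOp r) a.fst b.fst * entry (hsOp s) a.snd b.snd *
          (ampOcc η b.fst b.snd l e : ℂ))
      (entry (hsOp fun p : (I × J) × Occ n => outF hη (r p.1.1) (s p.1.2) p.2) k l) := by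
  have h1 := hsOp_entry (outF_family hη hr.hasSum hs.hasSum).summable k l
  have h2 := (Equiv.prodComm (Occ n) (I × J)).hasSum_iff.2 h1
  exact h2.prod_fiberwise fun e => inf5_fiber η hr hs k l e

theorem emb_out {η : ℝ} (hη : η ∈ Set.Icc (0 : ℝ) 1) {I J : Type*} {r : I → Fock n}
    {s : J → Fock n} (hr : Summable fun i => ‖r i‖ ^ 2) (hs : Summable fun j => ‖s j‖ ^ 2) (K : ℕ) :
    (hsOp fun p : (I × J) × Occ n => outF hη (cut K (r p.1.1)) (cut K (s p.1.2)) p.2) =
      emb (out (Vbs n η K) (mat K (hsOp r)) (mat K (hsOp s))) := by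
  refine ext_entry fun k l => ?_
  have h1 := hsOp_out_entry hη (r := fun i => cut K (r i)) (s := fun j => cut K (s j))
    (inf5_summable_of_le hr fun i => norm_cut_le K _)
    (inf5_summable_of_le hs fun j => norm_cut_le K _) k l
  rw [hsOp_cut hr, hsOp_cut hs] at h1
  simp only [inf5_blk_eq] at h1
  exact h1.unique (inf5_hasSum_blk η _ _ k l)

theorem exists_out {η : ℝ} (hη : η ∈ Set.Icc (0 : ℝ) 1) (ρA ρB : FockState n) :
    ∃ ρC : FockState n, IsBeamSplitterOutput η ρA ρB ρC ∧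
      Filter.Tendsto (fun K => emb (out (Vbs n η K) (mat K ρA.op) (mat K ρB.op))) Filter.atTop
        (nhds ρC.op) := by
  obtain ⟨r, hr, hA⟩ := exists_hs ρA
  obtain ⟨s, hs, hB⟩ := exists_hs ρB
  have hT := outF_family hη hr hs
  rw [mul_one] at hT
  refine ⟨⟨hsOp fun p : (Occ n × Occ n) × Occ n => outF hη (r p.1.1) (s p.1.2) p.2,
    hsOp_pos hT.summable, hsOp_trace hT⟩, fun k l => ?_, ?_⟩
  · unfold outBlock
    rw [hA, hB]
    exact hsOp_out_entry hη hr.summable hs.summable k l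
  · rw [hA, hB]
    simp only [← emb_out hη hr.summable hs.summable]
    have hx : ∀ K, Summable fun i => ‖cut K (r i) - r i‖ ^ 2 := fun K =>
      inf5_summable_of_le hr.summable fun i => norm_cut_sub_le K _
    have hy : ∀ K, Summable fun j => ‖cut K (s j)‖ ^ 2 := fun K =>
      inf5_summable_of_le hs.summable fun j => norm_cut_le K _
    have hz : ∀ K, Summable fun j => ‖cut K (s j) - s j‖ ^ 2 := fun K =>
      inf5_summable_of_le hs.summable fun j => norm_cut_sub_le K _
    have hb : ∀ K, HasSum (fun p : (Occ n × Occ n) × Occ n =>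
        2 * ‖outF hη (cut K (r p.1.1) - r p.1.1) (cut K (s p.1.2)) p.2‖ ^ 2 +
          2 * ‖outF hη (r p.1.1) (cut K (s p.1.2) - s p.1.2) p.2‖ ^ 2)
        (2 * ((∑' i, ‖cut K (r i) - r i‖ ^ 2) * ∑' j, ‖cut K (s j)‖ ^ 2) +
          2 * (1 * ∑' j, ‖cut K (s j) - s j‖ ^ 2)) := fun K =>
      ((outF_family hη (hx K).hasSum (hy K).hasSum).mul_left 2).add
        ((outF_family hη hr (hz K).hasSum).mul_left 2)
    have hle : ∀ K (p : (Occ n × Occ n) × Occ n),
        ‖outF hη (cut K (r p.1.1)) (cut K (s p.1.2)) p.2 - outF hη (r p.1.1) (s p.1.2) p.2‖ ^ 2 ≤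
        2 * ‖outF hη (cut K (r p.1.1) - r p.1.1) (cut K (s p.1.2)) p.2‖ ^ 2 +
          2 * ‖outF hη (r p.1.1) (cut K (s p.1.2) - s p.1.2) p.2‖ ^ 2 := fun K p => by
      rw [outF_sub]
      exact inf5_norm_add_sq _ _
    have hsum : ∀ K, Summable fun p : (Occ n × Occ n) × Occ n =>
        ‖outF hη (cut K (r p.1.1)) (cut K (s p.1.2)) p.2 - outF hη (r p.1.1) (s p.1.2) p.2‖ ^ 2 :=
      fun K => Summable.of_nonneg_of_le (fun _ => sq_nonneg _) (hle K) (hb K).summable
    refine hsOp_tendsto hT.summable hsum ?_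
    have hlim : Filter.Tendsto (fun K => 2 * (∑' i, ‖cut K (r i) - r i‖ ^ 2) +
        2 * ∑' j, ‖cut K (s j) - s j‖ ^ 2) Filter.atTop (nhds 0) := by
      have := ((tendsto_cut hr.summable).const_mul 2).add ((tendsto_cut hs.summable).const_mul 2)
      rwa [mul_zero, add_zero] at this
    refine squeeze_zero (fun K => tsum_nonneg fun _ => sq_nonneg _) (fun K => ?_) hlim
    have h1 := hasSum_le (hle K) (hsum K).hasSum (hb K)
    have h2 : ∑' j, ‖cut K (s j)‖ ^ 2 ≤ 1 :=
      hasSum_le (fun j => pow_le_pow_left₀ (norm_nonneg _) (norm_cut_le K _) 2) (hy K).hasSum hs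
    have h3 : 0 ≤ ∑' i, ‖cut K (r i) - r i‖ ^ 2 := tsum_nonneg fun _ => sq_nonneg _
    have h4 := mul_le_mul_of_nonneg_left h2 h3
    linarith

end Crest.Agent.R331

end
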