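import Crest.Agent.R331.Defs

/-!
# Scalar lemmas: logarithmic mean, `phi`, `Tm`

`invL a b = ∫_0^1 ds / ((1-s) a + s b)`; fundamental theorem of calculus with the antiderivative
`log ((1-s) a + s b)` gives `invL_mul`.  For `phi_mul` use the antiderivative
`b log ((1-s) a + s b) - s (b - a)` of `(b-a)^2 (1-s) / ((1-s) a + s b)`.
`invL_comm`, `phi_add`: substitution `s ↦ 1 - s` (`intervalIntegral.integral_comp_sub_left`).
-/

open scoped ComplexOrder Kronecker Matrix
open Matrix Crest.Quantum Crest.MathPhysics.Bosonic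

noncomputable section

namespace Crest.Agent.R331

theorem scal_ge {m a b s : ℝ} (ha : m ≤ a) (hb : m ≤ b) (hs : s ∈ Set.uIcc (0 : ℝ) 1) :
    m ≤ (1 - s) * a + s * b := by
  rw [Set.uIcc_of_le zero_le_one] at hs
  nlinarith [mul_nonneg hs.1 (sub_nonneg.2 hb), mul_nonneg (sub_nonneg.2 hs.2) (sub_nonneg.2 ha)]

theorem scal_pos {a b s : ℝ} (ha : 0 < a) (hb : 0 < b) (hs : s ∈ Set.uIcc (0 : ℝ) 1) :
    0 < (1 - s) * a + s * b :=
  (lt_min ha hb).trans_le (scal_ge (min_le_left a b) (min_le_right a b) hs)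

theorem scal_int {a b : ℝ} (ha : 0 < a) (hb : 0 < b) {f : ℝ → ℝ} (hf : Continuous f) :
    IntervalIntegrable (fun s => f s / ((1 - s) * a + s * b)) MeasureTheory.volume 0 1 :=
  (hf.continuousOn.div (by fun_prop) fun _ hs => (scal_pos ha hb hs).ne').intervalIntegrable

theorem scal_deriv {a b s : ℝ} (ha : 0 < a) (hb : 0 < b) (hs : s ∈ Set.uIcc (0 : ℝ) 1) :
    HasDerivAt (fun s => Real.log ((1 - s) * a + s * b)) ((b - a) / ((1 - s) * a + s * b)) s := by
  have h : HasDerivAt (fun s => (1 - s) * a + s * b) (b - a) s := by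
    refine ((((hasDerivAt_id s).const_sub 1).mul_const a).add
      ((hasDerivAt_id s).mul_const b)).congr_deriv ?_
    ring
  exact h.log (scal_pos ha hb hs).ne'

theorem scal_Tm {N : ℝ} (hN : 0 < N) : (Tm N)⁻¹ = Real.log (N + 1) - Real.log N := by
  rw [Tm, inv_inv, ← Real.log_div (by positivity) hN.ne']
  congr 1
  field_simp

theorem invL_pos {a b : ℝ} (ha : 0 < a) (hb : 0 < b) : 0 < invL a b := by
  refine intervalIntegral.intervalIntegral_pos_of_pos_on (scal_int ha hb continuous_const)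
    (fun s hs => one_div_pos.2 (scal_pos ha hb ?_)) zero_lt_one
  rw [Set.uIcc_of_le zero_le_one]
  exact Set.Ioo_subset_Icc_self hs

theorem invL_comm (a b : ℝ) : invL a b = invL b a := by
  have h := intervalIntegral.integral_comp_sub_left (a := 0) (b := 1)
    (fun s : ℝ => 1 / ((1 - s) * b + s * a)) 1
  rw [sub_self, sub_zero] at h
  rw [invL, invL, ← h]
  congr 1
  funext s
  congr 1
  ring

theorem invL_mul {a b : ℝ} (ha : 0 < a) (hb : 0 < b) :
    (b - a) * invL a b = Real.log b - Real.log a := by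
  have h := intervalIntegral.integral_eq_sub_of_hasDerivAt (fun s hs => scal_deriv ha hb hs)
    (scal_int ha hb continuous_const)
  rw [invL, ← intervalIntegral.integral_const_mul]
  simpa [div_eq_mul_inv] using h

theorem invL_self (a : ℝ) : invL a a = a⁻¹ := by
  have h : ∀ s : ℝ, (1 - s) * a + s * a = a := fun s => by ring
  simp [invL, h]

theorem invL_scale {c : ℝ} (a b : ℝ) (hc : 0 < c) : invL (c * a) (c * b) = invL a b / c := by
  rw [invL, invL, ← intervalIntegral.integral_div]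
  congr 1
  funext s
  rw [div_div]
  congr 1
  ring

theorem LM_pos {a b : ℝ} (ha : 0 < a) (hb : 0 < b) : 0 < LM a b := by
  exact inv_pos.2 (invL_pos ha hb)

theorem LM_comm (a b : ℝ) : LM a b = LM b a := by
  rw [LM, LM, invL_comm]

theorem LM_self (a : ℝ) : LM a a = a := by
  rw [LM, invL_self, inv_inv]

theorem LM_log {a b : ℝ} (ha : 0 < a) (hb : 0 < b) :
    LM a b * (Real.log b - Real.log a) = b - a := by
  rw [LM, ← invL_mul ha hb, mul_comm (b - a), inv_mul_cancel_left₀ (invL_pos ha hb).ne']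

theorem Tm_pos {N : ℝ} (hN : 0 < N) : 0 < Tm N := by
  exact inv_pos.2 (Real.log_pos (lt_add_of_pos_right _ (one_div_pos.2 hN)))

theorem invL_succ {N : ℝ} (hN : 0 < N) : invL N (N + 1) = (Tm N)⁻¹ := by
  rw [scal_Tm hN, ← invL_mul hN (by positivity), add_sub_cancel_left, one_mul]

theorem neg_log_ratio {N : ℝ} (hN : 0 < N) : -Real.log (N / (N + 1)) = (Tm N)⁻¹ := by
  rw [scal_Tm hN, Real.log_div hN.ne' (by positivity), neg_sub]

theorem Tm_gBose {N : ℝ} (hN : 0 < N) : Tm N * gBose N = N + Tm N * Real.log (1 + N) := by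
  have h := mul_inv_cancel₀ (Tm_pos hN).ne'
  rw [scal_Tm hN] at h
  rw [gBose, add_comm 1 N]
  linear_combination N * h

/-- `Tm N ≤ N + 1` (from `log (1 + x) ≥ x / (1 + x)`). -/
theorem Tm_le {N : ℝ} (hN : 0 < N) : Tm N ≤ N + 1 := by
  have h := Real.log_le_sub_one_of_pos (show 0 < N / (N + 1) by positivity)
  have h1 : (N + 1)⁻¹ ≤ (Tm N)⁻¹ := by
    rw [← neg_log_ratio hN]
    have : N / (N + 1) - 1 = -(N + 1)⁻¹ := by field_simp; ring
    linarith
  exact (inv_le_inv₀ (by positivity) (Tm_pos hN)).1 h1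

/-- the four weights are positive -/
theorem zpt_pos {N p1 p0 : ℝ} (hN : 0 < N) (h1 : 0 < p1) (h0 : 0 < p0) (k : Fin 4) :
    0 < zpt N p1 p0 k := by
  have h := div_pos (LM_pos h1 h0) (Tm_pos hN)
  fin_cases k
  · exact h0
  · exact h1
  · exact mul_pos hN h
  · exact mul_pos (by positivity) h

/-- the weights lie on the surface `L(x₀, x₁) = L(y₀, y₁)` -/
theorem zpt_surface {N p1 p0 : ℝ} (hN : 0 < N) (h1 : 0 < p1) (h0 : 0 < p0) :
    invL (zpt N p1 p0 0) (zpt N p1 p0 1) = invL (zpt N p1 p0 2) (zpt N p1 p0 3) := by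
  have h := div_pos (LM_pos h1 h0) (Tm_pos hN)
  have hT := Tm_pos hN
  have hL := invL_pos h1 h0
  change invL p0 p1 = invL (N * (LM p1 p0 / Tm N)) ((N + 1) * (LM p1 p0 / Tm N))
  rw [mul_comm N, mul_comm (N + 1), invL_scale _ _ h, invL_succ hN, invL_comm, LM]
  field_simp

theorem phi_nonneg {a b : ℝ} (ha : 0 < a) (hb : 0 < b) : 0 ≤ phi a b := by
  refine intervalIntegral.integral_nonneg zero_le_one fun s hs =>
    div_nonneg (sub_nonneg.2 hs.2) (scal_pos ha hb ?_).le
  rwa [Set.uIcc_of_le zero_le_one]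

theorem phi_mul {a b : ℝ} (ha : 0 < a) (hb : 0 < b) :
    (b - a) ^ 2 * phi a b = b * Real.log b - b * Real.log a - b + a := by
  have h := intervalIntegral.integral_eq_sub_of_hasDerivAt
    (f := fun s => b * Real.log ((1 - s) * a + s * b) - s * (b - a))
    (f' := fun s => (b - a) ^ 2 * ((1 - s) / ((1 - s) * a + s * b))) (fun s hs => ?_)
    ((scal_int ha hb (by fun_prop)).const_mul _)
  · rw [phi, ← intervalIntegral.integral_const_mul, h]
    simp only [sub_self, zero_mul, one_mul, zero_add, sub_zero, add_zero]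
    ring
  · refine (((scal_deriv ha hb hs).const_mul b).sub
      ((hasDerivAt_id s).mul_const (b - a))).congr_deriv ?_
    have := mul_inv_cancel₀ (scal_pos ha hb hs).ne'
    simp only [div_eq_mul_inv]
    linear_combination (b - a) * this

theorem phi_add {a b : ℝ} (ha : 0 < a) (hb : 0 < b) : phi a b + phi b a = invL a b := by
  have h := intervalIntegral.integral_comp_sub_left (a := 0) (b := 1)
    (fun s : ℝ => (1 - s) / ((1 - s) * b + s * a)) 1
  rw [sub_self, sub_zero] at h
  have h1 : phi b a = ∫ s in (0 : ℝ)..1, s / ((1 - s) * a + s * b) := by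
    rw [phi, ← h]
    congr 1
    funext s
    congr 1 <;> ring
  rw [h1, phi, invL, ← intervalIntegral.integral_add (scal_int ha hb (by fun_prop))
    (scal_int ha hb (f := fun s => s) (by fun_prop))]
  congr 1
  funext s
  rw [← add_div, sub_add_cancel]

theorem phi_lip {m a b b' : ℝ} (hm : 0 < m) (ha : m ≤ a) (hb : m ≤ b) (hb' : m ≤ b') :
    |phi a b - phi a b'| ≤ |b - b'| / m ^ 2 := by
  have ha0 := hm.trans_le ha
  rw [phi, phi, ← intervalIntegral.integral_sub (scal_int ha0 (hm.trans_le hb) (by fun_prop))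
    (scal_int ha0 (hm.trans_le hb') (by fun_prop)), ← Real.norm_eq_abs]
  refine (intervalIntegral.norm_integral_le_of_norm_le_const (C := |b - b'| / m ^ 2)
    fun s hs => ?_).trans (by simp)
  have hs' := Set.uIoc_subset_uIcc hs
  have h1 := scal_ge ha hb hs'
  have h2 := scal_ge ha hb' hs'
  have h3 := hm.trans_le h1
  have h4 := hm.trans_le h2
  rw [Set.uIcc_of_le zero_le_one] at hs'
  have h5 : (1 - s) / ((1 - s) * a + s * b) - (1 - s) / ((1 - s) * a + s * b') =
      (1 - s) * s * (b' - b) / (((1 - s) * a + s * b) * ((1 - s) * a + s * b')) := by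
    field_simp
    ring
  have h6 : 0 ≤ (1 - s) * s := mul_nonneg (sub_nonneg.2 hs'.2) hs'.1
  rw [h5, Real.norm_eq_abs, abs_div, abs_mul, abs_of_nonneg h6, abs_of_pos (mul_pos h3 h4),
    abs_sub_comm b' b]
  refine div_le_div₀ (abs_nonneg _) (mul_le_of_le_one_left (abs_nonneg _) (by nlinarith [sq_nonneg (s - 1)]))
    (by positivity) ?_
  rw [sq]
  exact mul_le_mul h1 h2 hm.le h3.le

theorem breg_nonneg {a b : ℝ} (ha : 0 < a) (hb : 0 ≤ b) :
    0 ≤ b * Real.log b - b * Real.log a - b + a := by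
  rcases hb.eq_or_lt with rfl | hb
  · simpa using ha.le
  · have h := mul_le_mul_of_nonneg_left (Real.log_le_sub_one_of_pos (div_pos ha hb)) hb.le
    rw [Real.log_div ha.ne' hb.ne', mul_sub b (a / b), mul_div_cancel₀ _ hb.ne'] at h
    linarith

theorem breg_eq_zero {a b : ℝ} (ha : 0 < a) (hb : 0 ≤ b)
    (h : b * Real.log b - b * Real.log a - b + a ≤ 0) : b = a := by
  rcases hb.eq_or_lt with rfl | hb
  · simp only [zero_mul, sub_zero, zero_add] at h
    linarith
  · by_contra hne
    have h1 := mul_lt_mul_of_pos_left (Real.log_lt_sub_one_of_pos (div_pos ha hb)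
      fun h2 => hne ((div_eq_one_iff_eq hb.ne').1 h2).symm) hb
    rw [Real.log_div ha.ne' hb.ne', mul_sub b (a / b), mul_div_cancel₀ _ hb.ne'] at h1
    linarith

end Crest.Agent.R331

end
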