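import Crest.Agent.R331.Amp2
import Crest.Agent.R331.Scal

/-!
# The cases `η = 1`, `η = 0`, and properties of `gBose`

`η = 1`: `ampOcc 1 a a' k e = 1` if `a = k`, `a' = e`, else `0` (`amp_one`), so
`outBlock 1 ρA ρB k l e = entry ρA k l * entry ρB e e`; the diagonal entries of `ρB` are real and sum to `1`.
`η = 0`: `outBlock 0 ρA ρB k l e = entry ρA e e * entry ρB k l` (the signs `∏ (-1)^(e j)` cancel).
-/

open scoped ComplexOrder Kronecker Matrix
open Matrix Crest.Quantum Crest.MathPhysics.Bosonic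

noncomputable section

namespace Crest.Agent.R331

variable {n : ℕ}

theorem triv_amp_one (a a' k e : Occ n) :
    ampOcc 1 a a' k e = if k = a ∧ e = a' then 1 else 0 := by
  simp only [ampOcc, amp_one, Finset.prod_boole, Finset.mem_univ, forall_const, forall_and,
    funext_iff]

theorem triv_amp_zero (a a' k e : Occ n) :
    ampOcc 0 a a' k e = if k = a' ∧ e = a then ∏ j, (-1) ^ a j else 0 := by
  simp only [ampOcc, amp_zero_eta, Finset.prod_ite_zero, Finset.mem_univ, forall_const, forall_and,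
    funext_iff]

theorem triv_sum {m p q : Occ n} (h : p + q = m) (F : Occ n → Occ n → ℂ)
    (hF : ∀ a a', ¬ (p = a ∧ q = a') → F a a' = 0) :
    ∑ a : Splitting m, F a.fst a.snd = F p q := by
  obtain ⟨a, h1, h2⟩ := amp2_exists h
  rw [Finset.sum_eq_single a (fun b _ hb => hF _ _ fun hh => hb (amp2_inj (hh.1.symm.trans h1.symm)))
    (by simp), h1, h2]

theorem triv_diag (ρ : FockState n) : HasSum (fun e => entry ρ.op e e) 1 := by
  have h := Complex.ofRealCLM.hasSum ρ.traceOne
  simp only [Complex.ofRealCLM_apply, Complex.ofReal_one] at h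
  refine h.congr_fun fun e => ?_
  exact (Complex.conj_eq_iff_re.1 (by
    rw [entry, inner_conj_symm]
    exact ρ.pos.isSymmetric _ _)).symm

theorem out_one (ρA ρB : FockState n) : IsBeamSplitterOutput 1 ρA ρB ρA := by
  intro k l
  have e1 : ∀ e, outBlock 1 ρA ρB k l e = entry ρA.op k l * entry ρB.op e e := fun e => by
    rw [outBlock, triv_sum (p := k) (q := e) rfl (fun a a' => ∑ b : Splitting (l + e),
      (ampOcc 1 a a' k e : ℂ) * entry ρA.op a b.fst * entry ρB.op a' b.snd *
        (ampOcc 1 b.fst b.snd l e : ℂ)) (fun a a' h => by simp [triv_amp_one, h]),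
      triv_sum (p := l) (q := e) rfl (fun b b' => (ampOcc 1 k e k e : ℂ) * entry ρA.op k b *
        entry ρB.op e b' * (ampOcc 1 b b' l e : ℂ)) (fun a a' h => by simp [triv_amp_one, h])]
    simp [triv_amp_one]
  simpa only [e1, mul_one] using (triv_diag ρB).mul_left (entry ρA.op k l)

theorem out_zero (ρA ρB : FockState n) : IsBeamSplitterOutput 0 ρA ρB ρB := by
  intro k l
  have e1 : ∀ e, outBlock 0 ρA ρB k l e = entry ρB.op k l * entry ρA.op e e := fun e => by
    rw [outBlock, triv_sum (p := e) (q := k) (add_comm _ _) (fun a a' => ∑ b : Splitting (l + e),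
      (ampOcc 0 a a' k e : ℂ) * entry ρA.op a b.fst * entry ρB.op a' b.snd *
        (ampOcc 0 b.fst b.snd l e : ℂ))
        (fun a a' h => by simp [triv_amp_zero, and_comm.not.1 h]),
      triv_sum (p := e) (q := l) (add_comm _ _) (fun b b' => (ampOcc 0 e k k e : ℂ) *
        entry ρA.op e b * entry ρB.op k b' * (ampOcc 0 b b' l e : ℂ))
        (fun a a' h => by simp [triv_amp_zero, and_comm.not.1 h])]
    have h1 : (∏ j, (-1 : ℝ) ^ e j) * ∏ j, (-1 : ℝ) ^ e j = 1 := by
      rw [← Finset.prod_mul_distrib]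
      exact Finset.prod_eq_one fun j _ => by rw [← mul_pow]; simp
    have h2 : ((∏ j, (-1 : ℝ) ^ e j : ℝ) : ℂ) * ((∏ j, (-1 : ℝ) ^ e j : ℝ) : ℂ) = 1 := by
      rw [← Complex.ofReal_mul, h1, Complex.ofReal_one]
    rw [triv_amp_zero, triv_amp_zero, if_pos ⟨rfl, rfl⟩, if_pos ⟨rfl, rfl⟩]
    linear_combination (entry ρB.op k l * entry ρA.op e e) * h2
  simpa only [e1, mul_one] using (triv_diag ρA).mul_left (entry ρB.op k l)

theorem gBose_zero : gBose 0 = 0 := by
  simp [gBose]

theorem continuous_gBose : Continuous gBose := by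
  exact (Real.continuous_mul_log.comp (continuous_id.add continuous_const)).sub
    Real.continuous_mul_log

/-- passage to the limit `N_X ↓ t_X`: with `N_X = t_X + γ` the left side is
`≥ -(N_A + N_B + 2) n (|g(N_A) - g(t_A)| + |g(N_B) - g(t_B)|) → 0` (`Tm_le`), while `Tm (t_C + γ) → Tm t_C > 0` if
`t_C > 0`; if `t_C = 0` the claim is `0 ≤ sC / n`. -/
theorem limit_N {n : ℕ} (hn : 1 ≤ n) {η tA tB sC : ℝ} (hη : η ∈ Set.Ioo (0 : ℝ) 1) (htA : 0 ≤ tA)
    (htB : 0 ≤ tB) (hs : 0 ≤ sC)
    (h : ∀ NA NB : ℝ, 0 < NA → 0 < NB →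
      η * Tm NA * (n * gBose tA - n * gBose NA) + (1 - η) * Tm NB * (n * gBose tB - n * gBose NB) ≤
        Tm (η * NA + (1 - η) * NB) * (sC - n * gBose (η * NA + (1 - η) * NB))) :
    gBose (η * tA + (1 - η) * tB) ≤ sC / n := by
  have hn' : (0 : ℝ) < n := by exact_mod_cast hn
  have h1 : 0 < 1 - η := sub_pos.2 hη.2
  rcases (add_nonneg (mul_nonneg hη.1.le htA) (mul_nonneg h1.le htB)).eq_or_lt with h0 | h0
  · rw [← h0, gBose_zero]
    positivity
  set tC := η * tA + (1 - η) * tB with htC
  have lim : ∀ {t : ℝ}, 0 ≤ t → Filter.Tendsto (fun γ => Tm (t + γ) * (n * gBose t - n * gBose (t + γ)))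
      (nhdsWithin 0 (Set.Ioi 0)) (nhds 0) := fun {t} ht => by
    have k1 : Continuous fun γ : ℝ => (t + γ + 1) * ‖n * gBose t - n * gBose (t + γ)‖ := by
      have := continuous_gBose
      fun_prop
    have k2 := (k1.tendsto 0).mono_left (nhdsWithin_le_nhds (s := Set.Ioi 0))
    simp only [add_zero, sub_self, norm_zero, mul_zero] at k2
    refine squeeze_zero_norm' ?_ k2
    filter_upwards [self_mem_nhdsWithin] with γ hγ
    have hp : 0 < t + γ := add_pos_of_nonneg_of_pos ht hγ
    rw [norm_mul, Real.norm_of_nonneg (Tm_pos hp).le]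
    exact mul_le_mul_of_nonneg_right (Tm_le hp) (norm_nonneg _)
  have cT : ContinuousAt Tm tC := by
    have k1 : 1 < 1 + 1 / tC := lt_add_of_pos_right _ (by positivity)
    refine ContinuousAt.inv₀ (ContinuousAt.log ?_ (by positivity)) (Real.log_pos k1).ne'
    exact continuousAt_const.add (continuousAt_const.div continuousAt_id h0.ne')
  have cR : ContinuousAt (fun γ => Tm (tC + γ) * (sC - n * gBose (tC + γ))) 0 := by
    have := continuous_gBose
    refine ContinuousAt.mul (ContinuousAt.comp (g := Tm) (f := fun γ => tC + γ)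
      (by rwa [add_zero]) (by fun_prop)) (by fun_prop)
  have k := le_of_tendsto_of_tendsto (((lim htA).const_mul η).add ((lim htB).const_mul (1 - η)))
    (cR.tendsto.mono_left nhdsWithin_le_nhds) (by
      filter_upwards [self_mem_nhdsWithin] with γ hγ
      have := h (tA + γ) (tB + γ) (add_pos_of_nonneg_of_pos htA hγ)
        (add_pos_of_nonneg_of_pos htB hγ)
      rw [show η * (tA + γ) + (1 - η) * (tB + γ) = tC + γ by rw [htC]; ring] at this
      simpa only [mul_assoc] using this)
  simp only [mul_zero, add_zero] at k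
  rw [le_div_iff₀ hn']
  have := (mul_nonneg_iff_of_pos_left (Tm_pos h0)).1 k
  linarith

end Crest.Agent.R331

end
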