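import Crest.Agent.R331.FD
import Crest.Agent.R331.Inf3
import Crest.Agent.R331.Inf5
import Crest.Agent.R331.Triv

/-!
# Assembly

`epni_open`: `exists_out` gives `ρC`; `σ K = out (Vbs n η K) (mat K ρA.op) (mat K ρB.op)` is positive, has trace
`tA tB ≤ 1` (`trace_out`, `Vbs_iso`) and bounded energy (`out_energy_le`, `energy_mat_le`), so `ent_usc` gives `sC`.
With `tX K = Re Tr (mat K ρX.op) → 1`, apply `fd` to the densities `(tX K)⁻¹ • mat K ρX.op` (`out_smul`,
`out_smul_right`, `ent_smul`), use `ent_lsc`, `ent_usc`, and let `K → ∞`, `γ → 0`.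
-/

open scoped ComplexOrder Kronecker Matrix
open Matrix Crest.Quantum Crest.MathPhysics.Bosonic

noncomputable section

namespace Crest.Agent.R331

variable {n : ℕ}

theorem main_trace {ι : Type*} [Fintype ι] {X : Matrix ι ι ℂ} (hX : X.PosSemidef) :
    X.trace = (X.trace.re : ℂ) ∧ 0 ≤ X.trace.re := by
  have h := Complex.nonneg_iff.1 hX.trace_nonneg
  exact ⟨Complex.ext rfl (by simpa using h.2.symm), h.1⟩

theorem main_dens {ι : Type*} [Fintype ι] {X : Matrix ι ι ℂ} (hX : X.PosSemidef)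
    (h : 0 < X.trace.re) : IsDensity (((X.trace.re⁻¹ : ℝ) : ℂ) • X) := by
  refine ⟨hX.smul (Complex.zero_le_real.2 (inv_pos.2 h).le), ?_⟩
  rw [trace_smul, smul_eq_mul]
  nth_rewrite 2 [(main_trace hX).1]
  rw [← Complex.ofReal_mul, inv_mul_cancel₀ h.ne', Complex.ofReal_one]

theorem main_lim {t : ℕ → ℝ} (h : Filter.Tendsto t Filter.atTop (nhds 1)) (s : ℝ) :
    Filter.Tendsto (fun K => (t K)⁻¹ * s + Real.negMulLog (t K)⁻¹ * t K) Filter.atTop (nhds s) := by
  have h1 : Filter.Tendsto (fun K => (t K)⁻¹) Filter.atTop (nhds 1) := by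
    simpa using h.inv₀ one_ne_zero
  have h2 := ((Real.continuous_negMulLog.tendsto 1).comp h1).mul h
  simpa using (h1.mul_const s).add h2

theorem epni_open {η : ℝ} (hη : η ∈ Set.Ioo (0 : ℝ) 1) {ρA ρB : FockState n} (hA : FiniteEnergy ρA)
    (hB : FiniteEnergy ρB) {sA sB : ℝ} (hsA : HasEntropy ρA sA) (hsB : HasEntropy ρB sB) :
    ∃ ρC : FockState n, IsBeamSplitterOutput η ρA ρB ρC ∧ ∃ sC : ℝ, HasEntropy ρC sC ∧
      ∀ NA NB : ℝ, 0 < NA → 0 < NB →
        η * Tm NA * (sA - n * gBose NA) + (1 - η) * Tm NB * (sB - n * gBose NB) ≤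
          Tm (η * NA + (1 - η) * NB) * (sC - n * gBose (η * NA + (1 - η) * NB)) := by
  have hη' : η ∈ Set.Icc (0 : ℝ) 1 := Set.Ioo_subset_Icc_self hη
  obtain ⟨ρC, hC, hlim⟩ := exists_out hη' ρA ρB
  obtain ⟨EA, hEA0, hEA⟩ := energy_mat_le hA
  obtain ⟨EB, hEB0, hEB⟩ := energy_mat_le hB
  have pA := fun K => mat_psd ρA.pos K
  have pB := fun K => mat_psd ρB.pos K
  have htr : ∀ K, (out (Vbs n η K) (mat K ρA.op) (mat K ρB.op)).trace.re =
      (mat K ρA.op).trace.re * (mat K ρB.op).trace.re := fun K => by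
    rw [trace_out _ (Vbs_iso hη' K), (main_trace (pA K)).1, (main_trace (pB K)).1,
      ← Complex.ofReal_mul]
    simp only [Complex.ofReal_re]
  obtain ⟨sC, hsC, husc⟩ := ent_usc ρC (L := fun K => 2 * K)
    (fun K => out (Vbs n η K) (mat K ρA.op) (mat K ρB.op)) (fun K => out_psd _ (pA K) (pB K))
    (fun K => by
      rw [htr]
      exact mul_le_one₀ (trace_mat_le ρA K) (main_trace (pB K)).2 (trace_mat_le ρB K))
    (E := EA + EB) (fun K => by
      refine (out_energy_le hη' (pA K) (pB K)).trans (add_le_add ?_ ?_)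
      · exact (mul_le_mul_of_nonneg_right (hEA K) (main_trace (pB K)).2).trans
          (mul_le_of_le_one_right hEA0 (trace_mat_le ρB K))
      · exact (mul_le_mul_of_nonneg_left (hEB K) (main_trace (pA K)).2).trans
          (mul_le_of_le_one_left hEB0 (trace_mat_le ρA K))) hlim
  refine ⟨ρC, hC, sC, hsC, fun NA NB hNA hNB => ?_⟩
  have h1η : 0 < 1 - η := sub_pos.2 hη.2
  have hNC : 0 < η * NA + (1 - η) * NB := add_pos (mul_pos hη.1 hNA) (mul_pos h1η hNB)
  have cA : 0 < η * Tm NA := mul_pos hη.1 (Tm_pos hNA)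
  have cB : 0 < (1 - η) * Tm NB := mul_pos h1η (Tm_pos hNB)
  have cC := Tm_pos hNC
  have lA := tendsto_trace_mat ρA
  have lB := tendsto_trace_mat ρB
  have lC : Filter.Tendsto (fun K => (mat K ρA.op).trace.re * (mat K ρB.op).trace.re) Filter.atTop
      (nhds 1) := by simpa using lA.mul lB
  have key : ∀ γ : ℝ, 0 < γ →
      η * Tm NA * (sA - γ - n * gBose NA) + (1 - η) * Tm NB * (sB - γ - n * gBose NB) ≤
        Tm (η * NA + (1 - η) * NB) * (sC + γ - n * gBose (η * NA + (1 - η) * NB)) := by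
    intro γ hγ
    refine le_of_tendsto_of_tendsto
      (((((main_lim lA (sA - γ)).sub_const _).const_mul _)).add
        (((main_lim lB (sB - γ)).sub_const _).const_mul _))
      (((main_lim lC (sC + γ)).sub_const _).const_mul _) ?_
    filter_upwards [ent_lsc hsA hγ, ent_lsc hsB hγ, husc γ hγ, lA.eventually (lt_mem_nhds one_pos),
      lB.eventually (lt_mem_nhds one_pos)] with K e1 e2 e3 tA tB
    have h := fd hη hNA hNB (main_dens (pA K) tA) (main_dens (pB K) tB)
    rw [out_smul, out_smul_right, smul_smul, ← Complex.ofReal_mul, ← mul_inv,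
      ent_smul (pA K).1, ent_smul (pB K).1, ent_smul (out_psd _ (pA K) (pB K)).1, htr] at h
    have iA := inv_pos.2 tA
    have iB := inv_pos.2 tB
    have iC := inv_pos.2 (mul_pos tA tB)
    refine le_trans (add_le_add ?_ ?_) (h.trans ?_)
    · gcongr
    · gcongr
    · gcongr
  refine le_of_forall_pos_le_add fun ε hε => ?_
  have hS : 0 < η * Tm NA + (1 - η) * Tm NB + Tm (η * NA + (1 - η) * NB) := by positivity
  have h := key _ (div_pos hε hS)
  have e := div_mul_cancel₀ ε hS.ne'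
  nlinarith

theorem entropy_nonneg {ρ : FockState n} {s : ℝ} (h : HasEntropy ρ s) : 0 ≤ s :=
  h.nonneg fun k => fc_diag_nonneg ρ.pos (norm_op_le ρ) k

theorem epni (hn : 1 ≤ n) (η : ℝ) (hη : η ∈ Set.Icc (0 : ℝ) 1) (ρA ρB : FockState n)
    (hA : FiniteEnergy ρA) (hB : FiniteEnergy ρB) (sA sB : ℝ) (hsA : HasEntropy ρA sA)
    (hsB : HasEntropy ρB sB) (tA tB : ℝ) (htA : 0 ≤ tA) (htB : 0 ≤ tB) (hgA : gBose tA = sA / n)
    (hgB : gBose tB = sB / n) :
    ∃ ρC : FockState n, IsBeamSplitterOutput η ρA ρB ρC ∧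
      ∃ sC : ℝ, HasEntropy ρC sC ∧ gBose (η * tA + (1 - η) * tB) ≤ sC / n := by
  have hn' : (0 : ℝ) < n := by exact_mod_cast hn
  rcases eq_or_lt_of_le hη.1 with h0 | h0
  · subst h0
    exact ⟨ρB, out_zero ρA ρB, sB, hsB, by simp [hgB]⟩
  rcases eq_or_lt_of_le hη.2 with h1 | h1
  · subst h1
    exact ⟨ρA, out_one ρA ρB, sA, hsA, by simp [hgA]⟩
  obtain ⟨ρC, hC, sC, hsC, h⟩ := epni_open ⟨h0, h1⟩ hA hB hsA hsB
  refine ⟨ρC, hC, sC, hsC, limit_N hn ⟨h0, h1⟩ htA htB (entropy_nonneg hsC) ?_⟩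
  intro NA NB hNA hNB
  have e1 : (n : ℝ) * gBose tA = sA := by rw [hgA]; field_simp
  have e2 : (n : ℝ) * gBose tB = sB := by rw [hgB]; field_simp
  rw [e1, e2]
  exact h NA NB hNA hNB

end Crest.Agent.R331

end
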