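import Crest.Agent.R331.Chan
import Crest.Agent.R331.Ent2

/-!
# Existence of a minimiser

Minimise the continuous function
`G(UA, pA, UB, pB, UC) = κC ∑ i, negMulLog ((UCᴴ (out V (dg UA pA) (dg UB pB) + τ) UC) i i).re
  - κA ∑ negMulLog (pA i) - κB ∑ negMulLog (pB i) + Re Tr (dg UA pA * HA) + Re Tr (dg UB pB * HB)`
over the compact set (unitary matrices: closed, entries of norm `≤ 1`, `entry_norm_bound_of_unitary`) ×
`stdSimplex` × ... .  By `peierls`, `Psi ≤ G`, with equality if `UC` diagonalises the output (`exists_dg`,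
`conj_dg`, `ent_dg`); every density matrix is `dg U p` with `p` in the simplex.
-/

open scoped ComplexOrder Kronecker Matrix
open Matrix Crest.Quantum Crest.MathPhysics.Bosonic

noncomputable section

namespace Crest.Agent.R331

variable {A B C D : Type*} [Fintype A] [Fintype B] [Fintype C] [Fintype D]
  [DecidableEq A] [DecidableEq B] [DecidableEq C] [DecidableEq D]

theorem isCompact_unitary : IsCompact (unitaryGroup A ℂ : Set (Matrix A A ℂ)) := by
  have hK : IsCompact (Set.pi Set.univ fun _ : A => Set.pi Set.univ fun _ : A =>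
      Metric.closedBall (0 : ℂ) 1) :=
    isCompact_univ_pi fun _ => isCompact_univ_pi fun _ => isCompact_closedBall _ _
  have hc : IsClosed (unitaryGroup A ℂ : Set (Matrix A A ℂ)) := by
    have : (unitaryGroup A ℂ : Set (Matrix A A ℂ)) = {U | U * Uᴴ = 1} := by
      ext U
      exact mem_unitaryGroup_iff
    rw [this]
    exact isClosed_eq (continuous_id.matrix_mul continuous_id.matrix_conjTranspose) continuous_const
  refine IsCompact.of_isClosed_subset (s := (Set.pi Set.univ fun _ : A => Set.pi Set.univ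
    fun _ : A => Metric.closedBall (0 : ℂ) 1 : Set (Matrix A A ℂ))) hK hc ?_
  intro U hU i _ j _
  simpa using entry_norm_bound_of_unitary hU i j

theorem min_cont_dg {X : Type*} [TopologicalSpace X] {U : X → Matrix A A ℂ} {p : X → A → ℝ}
    (hU : Continuous U) (hp : Continuous p) : Continuous fun x => dg (U x) (p x) := by
  unfold dg
  refine (hU.matrix_mul ?_).matrix_mul hU.matrix_conjTranspose
  refine Continuous.matrix_diagonal (continuous_pi fun i => ?_)
  exact Complex.continuous_ofReal.comp ((continuous_apply i).comp hp)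

theorem min_cont_out {X : Type*} [TopologicalSpace X] (V : Matrix (C × D) (A × B) ℂ)
    {M : X → Matrix A A ℂ} {N : X → Matrix B B ℂ} (hM : Continuous M) (hN : Continuous N) :
    Continuous fun x => out V (M x) (N x) := by
  have hk : Continuous fun x => M x ⊗ₖ N x := by
    refine continuous_pi fun i => continuous_pi fun j => ?_
    exact (hM.matrix_elem i.1 j.1).mul (hN.matrix_elem i.2 j.2)
  have h : Continuous fun x => V * (M x ⊗ₖ N x) * Vᴴ :=
    (continuous_const.matrix_mul hk).matrix_mul continuous_const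
  refine continuous_pi fun a => continuous_pi fun a' => ?_
  exact continuous_finsetSum _ fun b _ => h.matrix_elem (a, b) (a', b)

theorem min_dens {U : Matrix A A ℂ} (hU : U ∈ unitaryGroup A ℂ) {p : A → ℝ}
    (hp : p ∈ stdSimplex ℝ A) : IsDensity (dg U p) :=
  ⟨dg_psd U hp.1, by rw [trace_dg hU, hp.2]; simp⟩

theorem min_rep {ω : Matrix A A ℂ} (h : IsDensity ω) :
    ∃ U ∈ unitaryGroup A ℂ, ∃ p ∈ stdSimplex ℝ A, ω = dg U p := by
  obtain ⟨U, hU, p, rfl⟩ := exists_dg h.1.isHermitian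
  refine ⟨U, hU, p, ⟨nonneg_of_dg hU h.1, ?_⟩, rfl⟩
  have := h.2
  rw [trace_dg hU] at this
  exact_mod_cast this

/-- the continuous majorant -/
def minG (V : Matrix (C × D) (A × B) ℂ) (τ : Matrix C C ℂ) (HA : Matrix A A ℂ)
    (HB : Matrix B B ℂ) (κC κA κB : ℝ)
    (x : (Matrix A A ℂ × (A → ℝ)) × (Matrix B B ℂ × (B → ℝ)) × Matrix C C ℂ) : ℝ :=
  κC * ∑ i, Real.negMulLog
      ((x.2.2ᴴ * (out V (dg x.1.1 x.1.2) (dg x.2.1.1 x.2.1.2) + τ) * x.2.2) i i).re
    - κA * ∑ i, Real.negMulLog (x.1.2 i) - κB * ∑ i, Real.negMulLog (x.2.1.2 i)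
    + (dg x.1.1 x.1.2 * HA).trace.re + (dg x.2.1.1 x.2.1.2 * HB).trace.re

theorem min_cont_G (V : Matrix (C × D) (A × B) ℂ) (τ : Matrix C C ℂ) (HA : Matrix A A ℂ)
    (HB : Matrix B B ℂ) (κC κA κB : ℝ) : Continuous (minG V τ HA HB κC κA κB) := by
  have hA : Continuous fun x : (Matrix A A ℂ × (A → ℝ)) × (Matrix B B ℂ × (B → ℝ)) ×
      Matrix C C ℂ => dg x.1.1 x.1.2 := min_cont_dg (by fun_prop) (by fun_prop)
  have hB : Continuous fun x : (Matrix A A ℂ × (A → ℝ)) × (Matrix B B ℂ × (B → ℝ)) ×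
      Matrix C C ℂ => dg x.2.1.1 x.2.1.2 := min_cont_dg (by fun_prop) (by fun_prop)
  have hC : Continuous fun x : (Matrix A A ℂ × (A → ℝ)) × (Matrix B B ℂ × (B → ℝ)) ×
      Matrix C C ℂ => x.2.2 := by fun_prop
  have hO := (hC.matrix_conjTranspose.matrix_mul ((min_cont_out V hA hB).add
    (continuous_const (y := τ)))).matrix_mul hC
  unfold minG
  refine ((((continuous_const.mul (continuous_finsetSum _ fun i _ => ?_)).sub
    (continuous_const.mul (continuous_finsetSum _ fun i _ => ?_))).sub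
    (continuous_const.mul (continuous_finsetSum _ fun i _ => ?_))).add ?_).add ?_
  · exact Real.continuous_negMulLog.comp (Complex.continuous_re.comp (hO.matrix_elem i i))
  · exact Real.continuous_negMulLog.comp (by fun_prop)
  · exact Real.continuous_negMulLog.comp (by fun_prop)
  · exact Complex.continuous_re.comp (hA.matrix_mul continuous_const).matrix_trace
  · exact Complex.continuous_re.comp (hB.matrix_mul continuous_const).matrix_trace

theorem exists_min [Nonempty A] [Nonempty B] (V : Matrix (C × D) (A × B) ℂ) {τ : Matrix C C ℂ}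
    (hτ : τ.PosSemidef) (HA : Matrix A A ℂ) (HB : Matrix B B ℂ) {κC : ℝ} (hκ : 0 ≤ κC)
    (κA κB : ℝ) :
    ∃ (ρA : Matrix A A ℂ) (ρB : Matrix B B ℂ), IsDensity ρA ∧ IsDensity ρB ∧
      ∀ ωA ωB, IsDensity ωA → IsDensity ωB →
        Psi V τ HA HB κC κA κB ρA ρB ≤ Psi V τ HA HB κC κA κB ωA ωB := by
  obtain ⟨x, hx, hmin⟩ := (((isCompact_unitary (A := A)).prod (isCompact_stdSimplex ℝ A)).prod
    (((isCompact_unitary (A := B)).prod (isCompact_stdSimplex ℝ B)).prod
      (isCompact_unitary (A := C)))).exists_isMinOn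
    ⟨((1, Pi.single (Classical.arbitrary A) 1), (1, Pi.single (Classical.arbitrary B) 1), 1),
      ⟨one_mem _, single_mem_stdSimplex _ _⟩, ⟨one_mem _, single_mem_stdSimplex _ _⟩, one_mem _⟩
    (min_cont_G V τ HA HB κC κA κB).continuousOn
  obtain ⟨⟨UA, pA⟩, ⟨UB, pB⟩, UC⟩ := x
  obtain ⟨⟨hUA, hpA⟩, ⟨hUB, hpB⟩, hUC⟩ := hx
  have dA := min_dens hUA hpA
  have dB := min_dens hUB hpB
  refine ⟨dg UA pA, dg UB pB, dA, dB, fun ωA ωB hA hB => ?_⟩
  obtain ⟨UA', hUA', pA', hpA', rfl⟩ := min_rep hA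
  obtain ⟨UB', hUB', pB', hpB', rfl⟩ := min_rep hB
  obtain ⟨UC', hUC', pC', hC'⟩ := exists_dg ((out_psd V hA.1 hB.1).add hτ).isHermitian
  have h1 := hmin (a := ((UA', pA'), (UB', pB'), UC')) ⟨⟨hUA', hpA'⟩, ⟨hUB', hpB'⟩, hUC'⟩
  have h2 := mul_le_mul_of_nonneg_left (peierls hUC ((out_psd V dA.1 dB.1).add hτ)) hκ
  simp only [minG, Set.mem_ofPred_eq] at h1
  rw [hC', conj_dg hUC'] at h1
  simp only [diagonal_apply_eq, Complex.ofReal_re] at h1
  unfold Psi
  rw [hC', ent_dg hUA, ent_dg hUB, ent_dg hUA', ent_dg hUB', ent_dg hUC']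
  linarith

end Crest.Agent.R331

end
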