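import Crest.Agent.R331.Min
import Crest.Agent.R331.EL
import Crest.Agent.R331.Hess2
import Crest.Agent.R331.Alg

/-!
# Existence of the minimiser data

`exists_min`, spectral decomposition of the positive definite matrix `out + flo` (`exists_dg`, `pos_of_dg`),
`euler_lagrange`, `second_order`, `second_order_dual` for `V` and for `sw V` (`out_sw`, `sw_iso`); minimality of `Psi`
gives minimality of `Psi1` in each variable.
-/

open scoped ComplexOrder Kronecker Matrix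
open Matrix Crest.Quantum Crest.MathPhysics.Bosonic

noncomputable section

namespace Crest.Agent.R331

theorem mina_crit {A B C D : Type*} [Fintype A] [Fintype B] [Fintype C] [Fintype D]
    [DecidableEq A] [DecidableEq B] [DecidableEq C] [DecidableEq D]
    {V : Matrix (C × D) (A × B) ℂ} (hV : Vᴴ * V = 1) {τ : Matrix C C ℂ}
    (hτ : τ.PosSemidef) {H : Matrix A A ℂ} (hH : H.IsHermitian) {κC κA : ℝ} (hκC : 0 ≤ κC)
    (hκA : 0 < κA) {ρA : Matrix A A ℂ} {ρB : Matrix B B ℂ} (hA : IsDensity ρA) (hB : IsDensity ρB)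
    {UC : Matrix C C ℂ} (hUC : UC ∈ unitaryGroup C ℂ) {pC : C → ℝ} (hpC : ∀ i, 0 < pC i)
    (hσ : dg UC pC = out V ρA ρB + τ)
    (hmin : ∀ ω, IsDensity ω → Psi1 V τ H κC κA ρB ρA ≤ Psi1 V τ H κC κA ρB ω) :
    ∃ (UA : Matrix A A ℂ) (pA : A → ℝ), ρA = dg UA pA ∧ Crit V H κC κA ρB UC pC UA pA := by
  obtain ⟨UA, hUA, pA, hpA, rfl, cst, hel⟩ :=
    euler_lagrange hV hτ hH hκC hκA hA hB hUC hpC hσ hmin
  exact ⟨UA, pA, rfl, hUA, hpA, hA, ⟨cst, hel⟩,
    second_order_dual hB hUC hpC hUA hpA hA hκC hκA.le fun δ hδ hδ0 =>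
      second_order hV hB hUC hpC hUA hpA hA hσ hel hmin hδ hδ0⟩

theorem exists_minData (n : ℕ) {η NA NB ε δ : ℝ} (hη : η ∈ Set.Ioo (0 : ℝ) 1) (hNA : 0 < NA)
    (hNB : 0 < NB) (hε : ε ∈ Set.Ioo (0 : ℝ) 1) (hδ : 0 < δ) (K : ℕ) :
    Nonempty (MinData n η NA NB ε δ K) := by
  have h1η : 0 < 1 - η := sub_pos.2 hη.2
  have hη0 := hη.1
  have hN : 0 < η * NA + (1 - η) * NB := by positivity
  have hV : (Vbs n η K)ᴴ * Vbs n η K = 1 := Vbs_iso ⟨hη.1.le, hη.2.le⟩ K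
  have hτ : (flo n (2 * K) (η * NA + (1 - η) * NB) δ).PosDef :=
    dN_posDef fun m => by positivity
  have hκC : 0 ≤ (1 - ε) * Tm (η * NA + (1 - η) * NB) :=
    mul_nonneg (sub_pos.2 hε.2).le (Tm_pos hN).le
  have hκA : 0 < η * Tm NA := mul_pos hη.1 (Tm_pos hNA)
  have hκB : 0 < (1 - η) * Tm NB := mul_pos h1η (Tm_pos hNB)
  obtain ⟨ρA, ρB, hA, hB, hmin⟩ := exists_min (Vbs n η K) hτ.posSemidef (Hpen n K η ε δ)
    (Hpen n K (1 - η) ε δ) hκC (η * Tm NA) ((1 - η) * Tm NB)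
  have hσ : (out (Vbs n η K) ρA ρB + flo n (2 * K) (η * NA + (1 - η) * NB) δ).PosDef :=
    Matrix.PosDef.posSemidef_add (out_psd _ hA.1 hB.1) hτ
  obtain ⟨UC, hUC, pC, hC⟩ := exists_dg hσ.isHermitian
  have hpC : ∀ i, 0 < pC i := pos_of_dg hUC (hC ▸ hσ)
  obtain ⟨UA, pA, eA, cA⟩ := mina_crit hV hτ.posSemidef (H := Hpen n K η ε δ) (dN_herm _) hκC hκA
    hA hB hUC hpC hC.symm fun ω hω => by
      have := hmin ω ρB hω hB
      unfold Psi at this
      unfold Psi1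
      linarith
  obtain ⟨UB, pB, eB, cB⟩ := mina_crit (sw_iso _ hV) hτ.posSemidef (H := Hpen n K (1 - η) ε δ)
    (dN_herm _) hκC hκB hB hA hUC hpC (by rw [out_sw]; exact hC.symm) fun ω hω => by
      have := hmin ρA ω hA hω
      unfold Psi at this
      unfold Psi1
      rw [out_sw, out_sw]
      linarith
  subst eA eB
  exact ⟨⟨UA, pA, UB, pB, UC, pC, hUC, hpC, hC.symm, cA, cB, hmin⟩⟩

end Crest.Agent.R331

end
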