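import Crest.Agent.R331.Core
import Crest.Agent.R331.Est1
import Crest.Agent.R331.Est2
import Crest.Agent.R331.Est3

/-!
# The errors are small

Write `N = η NA + (1-η) NB`, `T = Tm N`, `uA = √η`, `uB = √(1-η)`, `ℓ(δ) = δ (1 - log δ) → 0` as `δ → 0`.

`bdy_small`: by `apriori`, `top_le`, `f6_ge`: `Tr (ρ topP) ≤ 6 C / (δ K^6)`.  `bdy_le` with `dfc_top_a/b`, `opn_dfc`,
`opn_ann` (`opn F ≤ 3 √(2K)`), `opn_mlog_le` (`≤ C (1 - log δ + 2K)`), `opn_Pm`, so every boundary term is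
`O(K^2 / K^3)` for fixed `δ`.

`alpha_small`: `alpha_le` (with `Vbs_ann_a/b`, `ann_Hpen`; rewrite `η = uA^2`), `kappa_le`, `gann_le` with
`δ ‖Tr ρ gann‖ ≤ lam C₀ + δ C_lam` (`apriori`), `bdy_small`.

`current_small`: sum `core` over the modes `j` (`annH_mul_topP` and `dfc_top` give `hFA`, `hFB`; `qm_flo`), use
`ip_gann_le`, `kappa_le`, `alpha_small`, `bdy_small`; each `wf` is nonnegative.
-/

open scoped ComplexOrder Kronecker Matrix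
open Matrix Crest.Quantum Crest.MathPhysics.Bosonic

noncomputable section

namespace Crest.Agent.R331

variable {n : ℕ} {η NA NB ε : ℝ}

theorem minb_ell {r : ℝ} (hr : 0 < r) :
    ∃ δ₀ ∈ Set.Ioc (0 : ℝ) 1, ∀ δ ∈ Set.Ioc (0 : ℝ) δ₀, δ * (1 - Real.log δ) ≤ r := by
  refine ⟨min 1 ((r / 3) ^ 2), ⟨by positivity, min_le_left _ _⟩, fun δ hδ => ?_⟩
  have h0 := hδ.1
  have h1 : δ ≤ 1 := hδ.2.trans (min_le_left _ _)
  have h2 : δ ≤ (r / 3) ^ 2 := hδ.2.trans (min_le_right _ _)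
  set s := √δ with hs
  have hs0 : 0 < s := Real.sqrt_pos.2 h0
  have hss : s ^ 2 = δ := Real.sq_sqrt h0.le
  have hsr : s ≤ r / 3 := Real.sqrt_le_iff.2 ⟨by positivity, h2⟩
  have hs1 : s ≤ 1 := Real.sqrt_le_one.2 h1
  have hl : Real.log δ = 2 * Real.log s := by rw [← hss, Real.log_pow]; norm_num
  have h3 : Real.log s⁻¹ ≤ s⁻¹ - 1 := Real.log_le_sub_one_of_pos (by positivity)
  rw [Real.log_inv] at h3
  have h4 : s * (-Real.log s) ≤ 1 := by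
    have := mul_le_mul_of_nonneg_left h3 hs0.le
    rw [mul_sub, mul_inv_cancel₀ hs0.ne'] at this
    linarith
  rw [hl, ← hss]
  nlinarith

theorem minb_N (hη : η ∈ Set.Ioo (0 : ℝ) 1) (hNA : 0 < NA) (hNB : 0 < NB) :
    0 < η * NA + (1 - η) * NB := by
  have := hη.1
  have : 0 < 1 - η := by linarith [hη.2]
  positivity

theorem minb_top {K : ℕ} (hK : 1 ≤ K) {δ C : ℝ} (hδ : 0 < δ) {ρ : Matrix (VK n K) (VK n K) ℂ}
    (hρ : IsDensity ρ) (h : δ * (ρ * dN n K f6).trace.re ≤ C) :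
    √((ρ * topP n K).trace.re) ≤ √(6 * C / δ) / (K : ℝ) ^ 3 := by
  have hK' : (0 : ℝ) < K := by exact_mod_cast hK
  have t0 : 0 ≤ (ρ * topP n K).trace.re :=
    trace_mul_nonneg hρ.1 (dN_psd fun m => by split_ifs <;> norm_num)
  have t1 := top_le hρ.1
  have t2 := mul_le_mul_of_nonneg_left (f6_ge K) t0
  have t3 : (ρ * topP n K).trace.re * (K : ℝ) ^ 6 ≤ 6 * C / δ := by
    rw [le_div_iff₀ hδ]; nlinarith
  rw [le_div_iff₀ (by positivity), ← Real.sqrt_sq (show (0 : ℝ) ≤ (K : ℝ) ^ 3 by positivity),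
    ← Real.sqrt_mul t0]
  apply Real.sqrt_le_sqrt
  calc _ = (ρ * topP n K).trace.re * (K : ℝ) ^ 6 := by ring
    _ ≤ _ := t3

theorem minb_n1 {s K c T y z : ℝ} (hss : s ^ 2 = 2 * K) (hs0 : 0 ≤ s) (hK : 1 ≤ K) (hc : 0 ≤ c)
    (hT : 0 < T) (hy0 : 0 ≤ y) (hz0 : 0 ≤ z)
    (h : (y ≤ c * K ∧ z ≤ s) ∨ (y ≤ (2 * T * (c * K) + 1) * s ∧ z ≤ 1)) :
    s * (y * z) ≤ 2 * K * (((2 * T + 1) * c + 1) * K) := by
  have hK0 : 0 ≤ K := by linarith
  have hcK : 0 ≤ c * K := mul_nonneg hc hK0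
  have hTcK : 0 ≤ T * (c * K) := mul_nonneg hT.le hcK
  rcases h with ⟨h1, h2⟩ | ⟨h1, h2⟩
  · calc s * (y * z) ≤ s * (c * K * s) := by gcongr
      _ = 2 * K * (c * K) := by rw [← hss]; ring
      _ ≤ _ := mul_le_mul_of_nonneg_left (by linarith) (by linarith)
  · calc s * (y * z) ≤ s * ((2 * T * (c * K) + 1) * s * 1) := by gcongr
      _ = 2 * K * (2 * T * (c * K) + 1) := by rw [← hss]; ring
      _ ≤ _ := mul_le_mul_of_nonneg_left (by linarith) (by linarith)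

theorem minb_n2 {ε θ w T δ C0 Cg x u al k b g F : ℝ} (hε0 : 0 < ε) (hθ : 0 < θ) (hw0 : 0 < w)
    (hT : 0 < T) (hδ : 0 < δ) (hC0 : 0 ≤ C0) (hCg : 0 ≤ Cg) (hδ2 : δ ≤ ε * θ / 4 / (Cg + 1))
    (hux : u ^ 2 = x) (hu : 0 ≤ u) (hwx : w ≤ x) (hx1 : x ≤ 1) (hk0 : 0 ≤ k)
    (h : ε * u ^ 2 * al ≤ u * T * k + T * b + δ * u ^ 2 * g) (hk : T * k ≤ ε * w * θ / 4)
    (hb : b ≤ ε * w * θ / 4 / T) (hg : g ≤ ε * θ / 4 / (C0 + 1) * F + Cg) (hF : δ * F ≤ C0) :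
    al ≤ θ := by
  have hu1 : u ≤ 1 := by nlinarith
  have hx0 : 0 < x := lt_of_lt_of_le hw0 hwx
  rw [hux] at h
  rw [le_div_iff₀ hT] at hb
  have e0 : ε * w * θ ≤ ε * x * θ := by gcongr
  have e1 : u * T * k ≤ ε * x * θ / 4 := by
    have : u * (T * k) ≤ 1 * (T * k) := mul_le_mul_of_nonneg_right hu1 (by positivity)
    linarith
  have e2 : T * b ≤ ε * x * θ / 4 := by linarith
  have e3 : δ * g ≤ ε * θ / 2 := by
    have a1 := mul_le_mul_of_nonneg_left hg hδ.le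
    have a2 : ε * θ / 4 / (C0 + 1) * (δ * F) ≤ ε * θ / 4 / (C0 + 1) * (C0 + 1) :=
      mul_le_mul_of_nonneg_left (by linarith) (by positivity)
    rw [div_mul_cancel₀ _ (by positivity)] at a2
    rw [le_div_iff₀ (by positivity)] at hδ2
    linarith
  have e4 := mul_le_mul_of_nonneg_left e3 hx0.le
  have e5 : ε * x * al ≤ ε * x * θ := by linarith
  exact le_of_mul_le_mul_left e5 (by positivity)

theorem minb_n3 {T C l k r : ℝ} (hT : 0 < T) (hl : 0 ≤ l) (hC : 0 ≤ C) (hk : k ≤ C * l)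
    (h : l ≤ r / (T * (C + 1))) : T * k ≤ r := by
  rw [le_div_iff₀ (by positivity)] at h
  have := mul_le_mul_of_nonneg_left hk hT.le
  have := mul_nonneg hT.le hl
  linarith

theorem minb_n4 {T r x1 x2 x3 x4 k y1 y2 t : ℝ} (hNA : 0 < NA) (hNB : 0 < NB) (hT : 0 < T)
    (hr : 0 < r) (ht : t = r / ((NA + NB) * (1 + T))) (h1 : x1 ≤ t) (h2 : x2 ≤ t) (h3 : x3 ≤ t)
    (h4 : x4 ≤ t) (e6 : T * k ≤ r / 4) (hy1 : 0 ≤ y1) (hy2 : 0 ≤ y2)
    (g1 : y1 ≤ min 1 (r / 16)) (g2 : y2 ≤ min 1 (r / 16)) :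
    NA * x1 + NB * x2 + T * NA * x3 + T * NB * x4 + 2 * (T * k) * (y1 + y2) +
      4 * (y1 + y2) ^ 2 ≤ 3 * r := by
  have e0 : (NA + NB) * (1 + T) * t = r := by rw [ht]; field_simp
  have e1 : NA * x1 ≤ NA * t := mul_le_mul_of_nonneg_left h1 hNA.le
  have e2 : NB * x2 ≤ NB * t := mul_le_mul_of_nonneg_left h2 hNB.le
  have e3 : T * NA * x3 ≤ T * NA * t := mul_le_mul_of_nonneg_left h3 (by positivity)
  have e4 : T * NB * x4 ≤ T * NB * t := mul_le_mul_of_nonneg_left h4 (by positivity)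
  have y11 := g1.trans (min_le_left _ _)
  have y12 := g1.trans (min_le_right _ _)
  have y21 := g2.trans (min_le_left _ _)
  have y22 := g2.trans (min_le_right _ _)
  have e5 : (y1 + y2) ^ 2 ≤ 2 * (r / 8) := by
    rw [sq]; exact mul_le_mul (by linarith) (by linarith) (by linarith) (by norm_num)
  have e7 : 2 * (T * k) * (y1 + y2) ≤ 2 * (r / 4) * 2 :=
    mul_le_mul (by linarith) (by linarith) (by linarith) (by positivity)
  linarith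

theorem minb_ell0 {δ : ℝ} (hδ : δ ∈ Set.Ioc (0 : ℝ) 1) : 0 ≤ δ * (1 - Real.log δ) := by
  have := Real.log_nonpos hδ.1.le hδ.2
  exact mul_nonneg hδ.1.le (by linarith)

theorem bdy_small (hη : η ∈ Set.Ioo (0 : ℝ) 1) (hNA : 0 < NA) (hNB : 0 < NB)
    (hε : ε ∈ Set.Ioo (0 : ℝ) 1) {δ θ : ℝ} (hδ : δ ∈ Set.Ioc (0 : ℝ) 1) (hθ : 0 < θ) :
    ∃ K₁ : ℕ, ∀ K, K₁ ≤ K → ∀ (m : MinData n η NA NB ε δ K) (j : Fin n)
      (Y : Matrix (VK n (2 * K)) (VK n (2 * K)) ℂ) (Z : Matrix (VK n K) (VK n K) ℂ),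
      (Y = mlog m.UC m.pC ∧ (Z = 1 ∨ Z = (ann n K j)ᴴ)) ∨
        (Y = (Pm (η * NA + (1 - η) * NB) (mlog m.UC m.pC) (ann n (2 * K) j))ᴴ ∧ Z = 1) →
      ‖bdy (Vbs n η K)
          (dfc (Vbs n η K) (√η) (-√(1 - η)) (ann n K j) (ann n (2 * K) j) (ann n (2 * K) j))
          (dg m.UA m.pA) (dg m.UB m.pB) Y Z‖ ≤ θ ∧
      ‖bdy (sw (Vbs n η K))
          (dfc (sw (Vbs n η K)) (√(1 - η)) (√η) (ann n K j) (ann n (2 * K) j) (ann n (2 * K) j))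
          (dg m.UB m.pB) (dg m.UA m.pA) Y Z‖ ≤ θ := by
  have hN := minb_N hη hNA hNB
  set N := η * NA + (1 - η) * NB with hNdef
  have hT : 0 < Tm N := Tm_pos hN
  obtain ⟨C0, hC0, h0⟩ := apriori (n := n) hη hNA hNB hε
  obtain ⟨C1, hC1, h1⟩ := opn_mlog_le (n := n) hN
  have hlog : 0 ≤ -Real.log δ := by
    have := Real.log_nonpos hδ.1.le hδ.2
    linarith
  set c2 := C1 * (3 - Real.log δ) with hc2
  have hc2' : 0 ≤ c2 := mul_nonneg hC1 (by linarith)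
  set c3 := 6 * ((2 * Tm N + 1) * c2 + 1) with hc3
  have hc3' : 0 ≤ c3 := by positivity
  obtain ⟨K₁, hK₁⟩ := exists_nat_ge (√(6 * C0 / δ) * c3 / θ)
  refine ⟨max K₁ 1, fun K hK m j Y Z hYZ => ?_⟩
  have hK1 : 1 ≤ K := le_trans (le_max_right _ _) hK
  have hK' : (1 : ℝ) ≤ K := by exact_mod_cast hK1
  have hKK : √(6 * C0 / δ) * c3 / θ ≤ K :=
    hK₁.trans (by exact_mod_cast le_trans (le_max_left _ _) hK)
  have hη' : η ∈ Set.Icc (0 : ℝ) 1 := ⟨hη.1.le, hη.2.le⟩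
  have hV := Vbs_iso (n := n) hη' K
  have hA := m.critA.dens
  have hB := m.critB.dens
  obtain ⟨pA, pB⟩ := h0 δ hδ K _ _ hA hB m.isMin
  set s := √(((2 * K : ℕ) : ℝ)) with hs
  have hss : s ^ 2 = 2 * K := by rw [hs, Real.sq_sqrt (by positivity)]; push_cast; ring
  have hs0 : 0 ≤ s := Real.sqrt_nonneg _
  have hs1 : 1 ≤ s := Real.one_le_sqrt.2 (by push_cast; linarith)
  have ha : opn (ann n K j) ≤ s :=
    (opn_ann j).trans (Real.sqrt_le_sqrt (by push_cast; linarith))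
  have hc : opn (ann n (2 * K) j) ≤ s := opn_ann j
  have hΛ : opn (mlog m.UC m.pC) ≤ c2 * K := by
    refine (h1 δ hδ _ _ m.unitC _ _ (out_density _ hV hA hB) m.eqC).trans ?_
    rw [hc2, mul_assoc]
    refine mul_le_mul_of_nonneg_left ?_ hC1
    push_cast
    have := mul_le_mul_of_nonneg_left hK' hlog
    linarith
  have hYZ' : s * (opn Y * opn Z) ≤ 2 * K * (((2 * Tm N + 1) * c2 + 1) * K) := by
    refine minb_n1 hss hs0 hK' hc2' hT (opn_nonneg _) (opn_nonneg _) ?_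
    rcases hYZ with ⟨rfl, hZ⟩ | ⟨rfl, rfl⟩
    · refine Or.inl ⟨hΛ, ?_⟩
      rcases hZ with rfl | rfl
      · exact opn_one.trans hs1
      · rw [opn_conjTranspose]; exact ha
    · refine Or.inr ⟨?_, opn_one⟩
      rw [opn_conjTranspose]
      have hP := opn_Pm N (mlog m.UC m.pC) (ann n (2 * K) j)
      rw [abs_of_pos hT] at hP
      refine hP.trans (mul_le_mul ?_ hc (opn_nonneg _) (by positivity))
      have := mul_le_mul_of_nonneg_left hΛ (show 0 ≤ 2 * Tm N by positivity)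
      linarith
  have key : ∀ (V' : Matrix (VK n (2 * K) × VK n (2 * K)) (VK n K × VK n K) ℂ) (u v : ℝ)
      (ρ ρ' : Matrix (VK n K) (VK n K) ℂ), V'ᴴ * V' = 1 → |u| ≤ 1 → |v| ≤ 1 →
      (topP n K ⊗ₖ (1 : Matrix (VK n K) (VK n K) ℂ)) *
        dfc V' u v (ann n K j) (ann n (2 * K) j) (ann n (2 * K) j) =
        dfc V' u v (ann n K j) (ann n (2 * K) j) (ann n (2 * K) j) →
      IsDensity ρ → IsDensity ρ' → δ * (ρ * dN n K f6).trace.re ≤ C0 →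
      ‖bdy V' (dfc V' u v (ann n K j) (ann n (2 * K) j) (ann n (2 * K) j)) ρ ρ' Y Z‖ ≤ θ := by
    intro V' u v ρ ρ' hV' hu hv hF hρ hρ' hpen
    refine (bdy_le hV' topP_herm topP_mul hF hρ hρ' Y Z).trans ?_
    have hF' : opn (dfc V' u v (ann n K j) (ann n (2 * K) j) (ann n (2 * K) j)) ≤ 3 * s :=
      (opn_dfc hV' hu hv _ _ _).trans (by linarith)
    have t := minb_top hK1 hδ.1 hρ hpen
    have hYZ0 : 0 ≤ opn Y * opn Z := mul_nonneg (opn_nonneg _) (opn_nonneg _)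
    have b1 : opn (dfc V' u v (ann n K j) (ann n (2 * K) j) (ann n (2 * K) j)) * opn Y * opn Z ≤
        c3 * (K : ℝ) ^ 2 := by
      rw [mul_assoc]
      calc _ ≤ 3 * s * (opn Y * opn Z) := mul_le_mul_of_nonneg_right hF' hYZ0
        _ ≤ 3 * (2 * K * (((2 * Tm N + 1) * c2 + 1) * K)) := by rw [mul_assoc]; linarith
        _ = _ := by rw [hc3]; ring
    calc _ ≤ √(6 * C0 / δ) / (K : ℝ) ^ 3 * (c3 * (K : ℝ) ^ 2) := by
          refine mul_le_mul t b1 ?_ (by positivity)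
          rw [mul_assoc]; exact mul_nonneg (opn_nonneg _) hYZ0
      _ = √(6 * C0 / δ) * c3 / K := by field_simp
      _ ≤ θ := by
          rw [div_le_iff₀ hθ] at hKK
          rw [div_le_iff₀ (by positivity)]
          linarith
  have q1 : |√η| ≤ 1 := by
    rw [abs_of_nonneg (Real.sqrt_nonneg _)]; exact Real.sqrt_le_one.2 hη.2.le
  have q2 : |√(1 - η)| ≤ 1 := by
    rw [abs_of_nonneg (Real.sqrt_nonneg _)]; exact Real.sqrt_le_one.2 (by linarith [hη.1])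
  exact ⟨key _ _ _ _ _ hV q1 (by rwa [abs_neg]) (dfc_top_a η K j) hA hB pA,
    key _ _ _ _ _ (sw_iso _ hV) q2 q1 (dfc_top_b η K j) hB hA pB⟩

theorem alpha_small (hη : η ∈ Set.Ioo (0 : ℝ) 1) (hNA : 0 < NA) (hNB : 0 < NB)
    (hε : ε ∈ Set.Ioo (0 : ℝ) 1) {θ : ℝ} (hθ : 0 < θ) :
    ∃ δ₀ ∈ Set.Ioc (0 : ℝ) 1, ∀ δ ∈ Set.Ioc (0 : ℝ) δ₀, ∃ K₁ : ℕ, ∀ K, K₁ ≤ K →
      ∀ (m : MinData n η NA NB ε δ K) (j : Fin n),
        ‖(dg m.UA m.pA * ann n K j).trace‖ ≤ θ ∧ ‖(dg m.UB m.pB * ann n K j).trace‖ ≤ θ := by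
  have hN := minb_N hη hNA hNB
  set N := η * NA + (1 - η) * NB with hNdef
  have hT : 0 < Tm N := Tm_pos hN
  have hη0 := hη.1
  have hη1 : 0 < 1 - η := by linarith [hη.2]
  have hε0 := hε.1
  obtain ⟨C0, hC0, h0⟩ := apriori (n := n) hη hNA hNB hε
  obtain ⟨Ck, hCk, hk⟩ := kappa_le (n := n) hN
  set w := min η (1 - η) with hw
  have hw0 : 0 < w := lt_min hη0 hη1
  obtain ⟨Cg, hCg, hg⟩ := gann_le (lam := ε * θ / 4 / (C0 + 1)) (by positivity)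
  obtain ⟨δ₁, hδ₁, hℓ⟩ := minb_ell (r := ε * w * θ / 4 / (Tm N * (Ck + 1))) (by positivity)
  refine ⟨min δ₁ (ε * θ / 4 / (Cg + 1)), ⟨lt_min hδ₁.1 (by positivity),
    (min_le_left _ _).trans hδ₁.2⟩, fun δ hδ => ?_⟩
  have hδ1 : δ ∈ Set.Ioc (0 : ℝ) δ₁ := ⟨hδ.1, hδ.2.trans (min_le_left _ _)⟩
  have hδ2 : δ ≤ ε * θ / 4 / (Cg + 1) := hδ.2.trans (min_le_right _ _)
  have hδ' : δ ∈ Set.Ioc (0 : ℝ) 1 := ⟨hδ.1, hδ1.2.trans hδ₁.2⟩
  obtain ⟨K₁, hK₁⟩ := bdy_small (n := n) hη hNA hNB hε hδ' (θ := ε * w * θ / 4 / Tm N)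
    (by positivity)
  refine ⟨K₁, fun K hK m j => ?_⟩
  have hη' : η ∈ Set.Icc (0 : ℝ) 1 := ⟨hη.1.le, hη.2.le⟩
  have hV := Vbs_iso (n := n) hη' K
  have hA := m.critA.dens
  have hB := m.critB.dens
  obtain ⟨pA, pB⟩ := h0 δ hδ' K _ _ hA hB m.isMin
  obtain ⟨bA, bB⟩ := hK₁ K hK m j (mlog m.UC m.pC) 1 (Or.inl ⟨rfl, Or.inl rfl⟩)
  have hκ := hk δ hδ' _ _ m.unitC _ _ (out_density _ hV hA hB) m.eqC j
  have hκ' : Tm N * ‖(out (Vbs n η K) (dg m.UA m.pA) (dg m.UB m.pB) *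
      (ann n (2 * K) j * mlog m.UC m.pC - mlog m.UC m.pC * ann n (2 * K) j)).trace‖ ≤
      ε * w * θ / 4 := by
    exact minb_n3 hT (minb_ell0 hδ') hCk hκ (hℓ δ hδ1)
  have sA : √η ^ 2 = η := Real.sq_sqrt hη0.le
  have sB : √(1 - η) ^ 2 = 1 - η := Real.sq_sqrt hη1.le
  constructor
  · have al := alpha_le (NA := NA) (Vbs_ann_a hη' K j) (g := gann n K j) (H := Hpen n K η ε δ)
      (by rw [sA]; exact ann_Hpen j η ε δ) (by rw [sA]; exact m.critA) hε0.le hε.2.le hδ.1.le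
      (Real.sqrt_nonneg _) hN
    exact minb_n2 hε0 hθ hw0 hT hδ.1 hC0 hCg hδ2 sA (Real.sqrt_nonneg _) (min_le_left _ _) hη.2.le
      (norm_nonneg _) al hκ' bA (hg n K _ hA j) pA
  · have al := alpha_le (NA := NB) (Vbs_ann_b hη' K j) (g := gann n K j) (H := Hpen n K (1 - η) ε δ)
      (by rw [sB]; exact ann_Hpen j (1 - η) ε δ) (by rw [sB]; exact m.critB) hε0.le hε.2.le hδ.1.le
      (Real.sqrt_nonneg _) hN
    rw [out_sw] at al
    exact minb_n2 hε0 hθ hw0 hT hδ.1 hC0 hCg hδ2 sB (Real.sqrt_nonneg _) (min_le_right _ _)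
      (by linarith) (norm_nonneg _) al hκ' bB (hg n K _ hB j) pB

theorem current_small (hη : η ∈ Set.Ioo (0 : ℝ) 1) (hNA : 0 < NA) (hNB : 0 < NB)
    (hε : ε ∈ Set.Ioo (0 : ℝ) 1) {θ : ℝ} (hθ : 0 < θ) :
    ∃ δ₀ ∈ Set.Ioc (0 : ℝ) 1, ∀ δ ∈ Set.Ioc (0 : ℝ) δ₀, ∃ K₁ : ℕ, ∀ K, K₁ ≤ K →
      ∀ (m : MinData n η NA NB ε δ K) (j : Fin n),
        wf m.UC (fun i k => (m.pC i + m.pC k)⁻¹)
          (qm (η * NA + (1 - η) * NB) (dg m.UC m.pC) (ann n (2 * K) j)) ≤ θ := by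
  have hN := minb_N hη hNA hNB
  set N := η * NA + (1 - η) * NB with hNdef
  have hT : 0 < Tm N := Tm_pos hN
  have hη0 := hη.1
  have hη1 : 0 < 1 - η := by linarith [hη.2]
  have hε0 := hε.1
  have hε1 : 0 < 1 - ε := by linarith [hε.2]
  obtain ⟨Ck, hCk, hk⟩ := kappa_le (n := n) hN
  obtain ⟨CA, hCA, hgA⟩ := ip_gann_le n hNA
  obtain ⟨CB, hCB, hgB⟩ := ip_gann_le n hNB
  set r := ε * θ / 4 / (n + 1) with hr
  have hr0 : 0 < r := by positivity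
  obtain ⟨δ₁, hδ₁, hal⟩ := alpha_small (n := n) hη hNA hNB hε (θ := min 1 (r / 16))
    (lt_min one_pos (by positivity))
  obtain ⟨δ₂, hδ₂, hℓ⟩ := minb_ell (r := r / 4 / (Tm N * (Ck + 1))) (by positivity)
  refine ⟨min δ₁ (min δ₂ (ε * θ / 4 * (1 - ε) / (CA + CB + 1))),
    ⟨lt_min hδ₁.1 (lt_min hδ₂.1 (by positivity)), (min_le_left _ _).trans hδ₁.2⟩, fun δ hδ => ?_⟩
  have hδ1 : δ ∈ Set.Ioc (0 : ℝ) δ₁ := ⟨hδ.1, hδ.2.trans (min_le_left _ _)⟩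
  have hδ2 : δ ∈ Set.Ioc (0 : ℝ) δ₂ :=
    ⟨hδ.1, hδ.2.trans ((min_le_right _ _).trans (min_le_left _ _))⟩
  have hδ3 : δ ≤ ε * θ / 4 * (1 - ε) / (CA + CB + 1) :=
    hδ.2.trans ((min_le_right _ _).trans (min_le_right _ _))
  have hδ' : δ ∈ Set.Ioc (0 : ℝ) 1 := ⟨hδ.1, hδ1.2.trans hδ₁.2⟩
  obtain ⟨K₁, hK₁⟩ := hal δ hδ1
  obtain ⟨K₂, hK₂⟩ := bdy_small (n := n) hη hNA hNB hε hδ'
    (θ := r / ((NA + NB) * (1 + Tm N))) (by positivity)
  refine ⟨max K₁ K₂, fun K hK m => ?_⟩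
  have hK1 : K₁ ≤ K := le_trans (le_max_left _ _) hK
  have hK2 : K₂ ≤ K := le_trans (le_max_right _ _) hK
  have hη' : η ∈ Set.Icc (0 : ℝ) 1 := ⟨hη.1.le, hη.2.le⟩
  have hV := Vbs_iso (n := n) hη' K
  have hA := m.critA.dens
  have hB := m.critB.dens
  have sA : √η ^ 2 = η := Real.sq_sqrt hη0.le
  have sB : √(1 - η) ^ 2 = 1 - η := Real.sq_sqrt hη1.le
  set Q : Fin n → ℝ := fun j => wf m.UC (fun i k => (m.pC i + m.pC k)⁻¹)
    (qm N (dg m.UC m.pC) (ann n (2 * K) j)) with hQ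
  set gA : Fin n → ℝ := fun j => (ip (gann n K j) (qm NA (dg m.UA m.pA) (ann n K j))).re with hgA'
  set gB : Fin n → ℝ := fun j => (ip (gann n K j) (qm NB (dg m.UB m.pB) (ann n K j))).re with hgB'
  have Q0 : ∀ j, 0 ≤ Q j := fun j =>
    Finset.sum_nonneg fun i _ => Finset.sum_nonneg fun k _ =>
      mul_nonneg (inv_nonneg.2 (add_pos (m.posC i) (m.posC k)).le) (by positivity)
  have each : ∀ j, ε * Q j ≤ 3 * r + δ / (1 - ε) * (η * gA j + (1 - η) * gB j) := by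
    intro j
    have hFA : ((ann n K j)ᴴ ⊗ₖ (1 : Matrix (VK n K) (VK n K) ℂ)) *
        dfc (Vbs n η K) (√η) (-√(1 - η)) (ann n K j) (ann n (2 * K) j) (ann n (2 * K) j) = 0 := by
      rw [← dfc_top_a, ← Matrix.mul_assoc, ← mul_kronecker_mul, annH_mul_topP, zero_kronecker,
        Matrix.zero_mul]
    have hFB : ((ann n K j)ᴴ ⊗ₖ (1 : Matrix (VK n K) (VK n K) ℂ)) *
        dfc (sw (Vbs n η K)) (√(1 - η)) (√η) (ann n K j) (ann n (2 * K) j) (ann n (2 * K) j) = 0 := by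
      rw [← dfc_top_b, ← Matrix.mul_assoc, ← mul_kronecker_mul, annH_mul_topP, zero_kronecker,
        Matrix.zero_mul]
    have co := core (NA := NA) (NB := NB) (NC := N) (gA := gann n K j) (gB := gann n K j)
      (HA := Hpen n K η ε δ) (HB := Hpen n K (1 - η) ε δ) (δ := δ) hV (Real.sqrt_pos.2 hη0)
      (Real.sqrt_pos.2 hη1) (by rw [sA, sB]; ring) (by ring) hε0.le hε.2 hNA hNB
      (by rw [sA, sB]) (Vbs_ann_a hη' K j) (Vbs_ann_b hη' K j)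
      (by rw [sA]; exact ann_Hpen j η ε δ) (by rw [sB]; exact ann_Hpen j (1 - η) ε δ) hFA hFB
      m.unitC m.posC (dN_psd fun _ => mul_nonneg hδ.1.le (by positivity)) (qm_flo j hN δ) m.eqC
      (by rw [sA]; exact m.critA) (by rw [sB]; exact m.critB)
    rw [sA, sB] at co
    obtain ⟨b1, b2⟩ := hK₂ K hK2 m j _ 1 (Or.inr ⟨rfl, rfl⟩)
    obtain ⟨b3, b4⟩ := hK₂ K hK2 m j _ (ann n K j)ᴴ (Or.inl ⟨rfl, Or.inr rfl⟩)
    obtain ⟨a1, a2⟩ := hK₁ K hK1 m j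
    have hκ := hk δ hδ' _ _ m.unitC _ _ (out_density _ hV hA hB) m.eqC j
    refine co.trans ?_
    have := minb_n4 hNA hNB hT hr0 rfl b1 b2 b3 b4
      (minb_n3 hT (minb_ell0 hδ') hCk hκ (hℓ δ hδ2)) (norm_nonneg _) (norm_nonneg _) a1 a2
    simp only [hgA', hgB']
    linarith
  have hsum : ε * ∑ j, Q j ≤ ε * θ := by
    rw [Finset.mul_sum]
    refine (Finset.sum_le_sum fun j _ => each j).trans ?_
    rw [Finset.sum_add_distrib, ← Finset.mul_sum, ← Finset.mul_sum, Finset.sum_add_distrib,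
      ← Finset.mul_sum, ← Finset.mul_sum]
    have s1 : ∑ j, gA j ≤ CA := hgA K _ hA
    have s2 : ∑ j, gB j ≤ CB := hgB K _ hB
    have s3 : η * ∑ j, gA j + (1 - η) * ∑ j, gB j ≤ CA + CB + 1 := by
      have t1 := mul_le_mul_of_nonneg_left s1 hη0.le
      have t2 := mul_le_mul_of_nonneg_left s2 hη1.le
      have t3 := mul_nonneg hη0.le hCB
      have t4 := mul_nonneg hη1.le hCA
      linarith
    have s4 : δ / (1 - ε) * (η * ∑ j, gA j + (1 - η) * ∑ j, gB j) ≤ ε * θ / 4 := by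
      refine (mul_le_mul_of_nonneg_left s3 (div_nonneg hδ.1.le hε1.le)).trans ?_
      rw [le_div_iff₀ (by positivity)] at hδ3
      rw [div_mul_eq_mul_div, div_le_iff₀ hε1]
      exact hδ3
    have s5 : (n : ℝ) * r ≤ ε * θ / 4 := by
      have : ((n : ℝ) + 1) * r = ε * θ / 4 := by rw [hr]; field_simp
      linarith
    simp only [Finset.sum_const, Finset.card_univ, Fintype.card_fin, nsmul_eq_mul]
    have := mul_pos hε0 hθ
    linarith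
  intro j
  have h1 : Q j ≤ ∑ j, Q j := Finset.single_le_sum (fun j _ => Q0 j) (Finset.mem_univ j)
  exact h1.trans (le_of_mul_le_mul_left hsum hε0)

end Crest.Agent.R331

end
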