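import Crest.Agent.R331.RigA
import Crest.Agent.R331.Sums

/-!
# Rigidity: a small current forces the free energy to be almost thermal

`x = N/(N+1)`, `β = -log x = 1/Tm N`, `s₀ = Re σ 0 0`, `E = Re Tr (σ num)`.  From `energy_le`, `E ≤ n N + o(1)`.
Fix `ζ > 0` small, then `M` large, then `θ` small; `θ' = √(4θ)` bounds the entries of the currents (`qm_entry_le`).
By `near_thermal`, `|σ k k - x^|k| s₀| ≤ 2 M θ'` on `|k| ≤ M`; summing, `s₀ Zs n M x = ∑_{|k| ≤ M} σ k k ± o(1)` lies in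
`[1 - E/M - o(1), 1 + o(1)]`.  `le_diag`: `σ ≤ diagonal b` with `b k = (1+ζ)(x^|k| s₀ + 2 M θ' card(VK n M))` for
`|k| ≤ M` and `b k = (1 + 1/ζ) Tr σ` otherwise.  For small `θ`, `b k ≤ (1+ζ)^3 x^|k| / Zs n M x` on `|k| ≤ M`.
`ent_ge_of_le` gives `S(σ) ≥ ∑_{|k| ≤ M} σ k k (β |k| + log (Zs n M x) - 3ζ) - log (2 (1+1/ζ)) E/M`, and
`∑_{|k| ≤ M} σ k k |k| ≥ s₀ Es n M x - o(1) ≥ n N - o(1)` (`tendsto_Zs`, `tendsto_Es`: `Zs → (1+N)^n`,
`Es / Zs → n N`).  (Sums over `{k : VK n L | tot k ≤ M}` are sums over `VK n M` when `M ≤ L`.)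
-/

open scoped ComplexOrder Kronecker Matrix
open Matrix Crest.Quantum Crest.MathPhysics.Bosonic

noncomputable section

namespace Crest.Agent.R331

variable {n L : ℕ}

section aux
variable {ι : Type*} [Fintype ι] [DecidableEq ι]

theorem rigid_diag_form (d : ι → ℝ) (v : ι → ℂ) :
    (star v ⬝ᵥ ((diagonal fun k => (d k : ℂ)) *ᵥ v)).re = ∑ k, d k * ‖v k‖ ^ 2 := by
  simp only [dotProduct, mulVec_diagonal, Complex.re_sum, Pi.star_apply]
  refine Finset.sum_congr rfl fun k _ => ?_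
  have : star (v k) * ((d k : ℂ) * v k) = ((d k * ‖v k‖ ^ 2 : ℝ) : ℂ) := by
    rw [Complex.star_def, mul_left_comm, Complex.conj_mul']
    push_cast; ring
  rw [this, Complex.ofReal_re]

theorem rigid_trace_psd {σ : Matrix ι ι ℂ} (hσ : σ.PosSemidef) :
    (((σ.trace.re : ℝ) : ℂ) • (1 : Matrix ι ι ℂ) - σ).PosSemidef := by
  obtain ⟨U, hU, p, rfl⟩ := exists_dg hσ.1
  have hp := nonneg_of_dg hU hσ
  rw [trace_dg hU, Complex.ofReal_re]
  have h1 : dg U (fun _ => ∑ i, p i) = dg U (fun i => ∑ j, p j - p i) + dg U p := by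
    rw [← dg_add]; congr 1; funext i; ring
  rw [← dg_const hU, h1, add_sub_cancel_right]
  refine dg_psd U fun i => ?_
  have := Finset.single_le_sum (f := p) (fun j _ => hp j) (Finset.mem_univ i)
  linarith

theorem rigid_form_le_trace {σ : Matrix ι ι ℂ} (hσ : σ.PosSemidef) (v : ι → ℂ) :
    (star v ⬝ᵥ (σ *ᵥ v)).re ≤ σ.trace.re * ∑ k, ‖v k‖ ^ 2 := by
  have h := (rigid_trace_psd hσ).re_dotProduct_nonneg v
  have h1 : (((σ.trace.re : ℝ) : ℂ) • (1 : Matrix ι ι ℂ)) = diagonal fun _ => ((σ.trace.re : ℝ) : ℂ) := by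
    rw [← diagonal_one, ← diagonal_smul]; congr 1; funext k; simp
  rw [sub_mulVec, dotProduct_sub, h1] at h
  have h2 := rigid_diag_form (fun _ : ι => σ.trace.re) v
  simp only [RCLike.re_to_complex, Complex.sub_re] at h
  rw [h2, ← Finset.mul_sum] at h
  linarith

theorem rigid_form_le_low {σ : Matrix ι ι ℂ} (q : ι → Prop) [DecidablePred q] {r c : ℝ} (hr : 0 ≤ r)
    (hc : ((Finset.univ.filter q).card : ℝ) ≤ c) (w : ι → ℝ)
    (h : ∀ k l, q k → q l → ‖σ k l - (if k = l then (w k : ℂ) else 0)‖ ≤ r)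
    (v : ι → ℂ) (hv : ∀ k, ¬ q k → v k = 0) :
    (star v ⬝ᵥ (σ *ᵥ v)).re ≤ ∑ k, (w k + r * c) * ‖v k‖ ^ 2 := by
  have hσ : σ = (diagonal fun k => (w k : ℂ)) + (σ - diagonal fun k => (w k : ℂ)) := by abel
  have h1 : (star v ⬝ᵥ ((σ - diagonal fun k => (w k : ℂ)) *ᵥ v)).re ≤ r * (∑ k, ‖v k‖) ^ 2 := by
    refine (Complex.re_le_norm _).trans ?_
    simp only [dotProduct, mulVec, Pi.star_apply]
    refine (norm_sum_le _ _).trans ?_
    rw [sq, Finset.sum_mul_sum, Finset.mul_sum]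
    refine Finset.sum_le_sum fun k _ => ?_
    rw [Finset.mul_sum, Finset.mul_sum]
    refine (norm_sum_le _ _).trans (Finset.sum_le_sum fun l _ => ?_)
    rw [norm_mul, norm_mul, norm_star]
    by_cases hk : q k
    · by_cases hl : q l
      · have := h k l hk hl
        rw [Matrix.sub_apply, diagonal_apply]
        calc ‖v k‖ * (‖σ k l - if k = l then (w k : ℂ) else 0‖ * ‖v l‖)
            ≤ ‖v k‖ * (r * ‖v l‖) := by gcongr
          _ = r * (‖v k‖ * ‖v l‖) := by ring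
      · simp [hv l hl]
    · simp [hv k hk]
  have h2 : (∑ k, ‖v k‖) ^ 2 ≤ c * ∑ k, ‖v k‖ ^ 2 := by
    have e1 : ∑ k, ‖v k‖ = ∑ k ∈ Finset.univ.filter q, ‖v k‖ := by
      rw [Finset.sum_filter]
      refine Finset.sum_congr rfl fun k _ => ?_
      by_cases hk : q k
      · simp [hk]
      · simp [hk, hv k hk]
    rw [e1]
    refine (sq_sum_le_card_mul_sum_sq).trans ?_
    have e2 : ∑ k ∈ Finset.univ.filter q, ‖v k‖ ^ 2 ≤ ∑ k, ‖v k‖ ^ 2 :=
      Finset.sum_le_sum_of_subset_of_nonneg (Finset.filter_subset _ _) fun _ _ _ => by positivity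
    have e3 : 0 ≤ ∑ k ∈ Finset.univ.filter q, ‖v k‖ ^ 2 := by positivity
    exact mul_le_mul hc e2 e3 ((Nat.cast_nonneg _).trans hc)
  rw [hσ, add_mulVec, dotProduct_add, Complex.add_re, rigid_diag_form]
  simp only [add_mul, Finset.sum_add_distrib]
  rw [← Finset.mul_sum]
  nlinarith [mul_le_mul_of_nonneg_left h2 hr]

omit [DecidableEq ι] in
theorem rigid_form_split {σ : Matrix ι ι ℂ} (hσ : σ.PosSemidef) {ζ : ℝ} (hζ : 0 < ζ) (a b : ι → ℂ) :
    (star (a + b) ⬝ᵥ (σ *ᵥ (a + b))).re ≤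
      (1 + ζ) * (star a ⬝ᵥ (σ *ᵥ a)).re + (1 + 1 / ζ) * (star b ⬝ᵥ (σ *ᵥ b)).re := by
  have h := hσ.re_dotProduct_nonneg ((ζ : ℂ) • a - b)
  simp only [star_sub, star_smul, mulVec_sub, mulVec_smul, sub_dotProduct, dotProduct_sub,
    smul_dotProduct, dotProduct_smul, smul_eq_mul, RCLike.re_to_complex, Complex.star_def,
    Complex.conj_ofReal, Complex.sub_re, Complex.re_ofReal_mul] at h
  simp only [star_add, mulVec_add, add_dotProduct, dotProduct_add, Complex.add_re]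
  set A := (star a ⬝ᵥ (σ *ᵥ a)).re
  set B := (star b ⬝ᵥ (σ *ᵥ b)).re
  set C := (star a ⬝ᵥ (σ *ᵥ b)).re
  set D := (star b ⬝ᵥ (σ *ᵥ a)).re
  have : C + D ≤ ζ * A + 1 / ζ * B := by
    have h2 : ζ * (C + D) ≤ ζ * (ζ * A + 1 / ζ * B) := by
      have : ζ * (1 / ζ * B) = B := by field_simp
      nlinarith
    exact le_of_mul_le_mul_left h2 hζ
  nlinarith

end aux

theorem rigid_card_le (M : ℕ) :
    (Finset.univ.filter fun k : VK n L => tot k.1 ≤ M).card ≤ Fintype.card (VK n M) := by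
  rw [← Fintype.card_subtype]
  refine Fintype.card_le_of_injective (fun k => (⟨k.1.1, k.2⟩ : VK n M)) ?_
  intro a b hab
  exact Subtype.ext (Subtype.ext (congrArg (fun z : VK n M => z.1) hab))

/-- block bound: `v* σ v ≤ (1+ζ) v₁* σ v₁ + (1+1/ζ) v₂* σ v₂` for `v = v₁ + v₂` (low and high part) -/
theorem le_diag {σ : Matrix (VK n L) (VK n L) ℂ} (hσ : σ.PosSemidef) (M : ℕ) {ζ r : ℝ} (hζ : 0 < ζ)
    (hr : 0 ≤ r) (w : VK n L → ℝ)
    (h : ∀ k l : VK n L, tot k.1 ≤ M → tot l.1 ≤ M →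
      ‖σ k l - (if k = l then (w k : ℂ) else 0)‖ ≤ r) :
    ((diagonal fun k : VK n L => ((if tot k.1 ≤ M then
        (1 + ζ) * (w k + r * Fintype.card (VK n M)) else (1 + 1 / ζ) * σ.trace.re : ℝ) : ℂ)) -
      σ).PosSemidef := by
  have hH : ((diagonal fun k : VK n L => ((if tot k.1 ≤ M then
        (1 + ζ) * (w k + r * Fintype.card (VK n M)) else (1 + 1 / ζ) * σ.trace.re : ℝ) : ℂ)) -
      σ).IsHermitian := by
    refine IsHermitian.sub ?_ hσ.1
    rw [isHermitian_diagonal_iff]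
    intro k
    exact Complex.conj_ofReal _
  refine PosSemidef.of_dotProduct_mulVec_nonneg hH fun v => ?_
  refine Complex.nonneg_iff.2 ⟨?_, (hH.im_star_dotProduct_mulVec_self v).symm⟩
  rw [sub_mulVec, dotProduct_sub, Complex.sub_re, rigid_diag_form, sub_nonneg]
  set a : VK n L → ℂ := fun k => if tot k.1 ≤ M then v k else 0 with ha
  set b : VK n L → ℂ := fun k => if tot k.1 ≤ M then 0 else v k with hb
  have hv : v = a + b := by
    funext k
    by_cases hk : tot k.1 ≤ M <;> simp [ha, hb, hk]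
  have h1 := rigid_form_split hσ hζ a b
  rw [← hv] at h1
  have h2 := rigid_form_le_low (σ := σ) (fun k : VK n L => tot k.1 ≤ M) hr
    (c := Fintype.card (VK n M)) (by exact_mod_cast rigid_card_le M) w h a
    (fun k hk => by simp [ha, hk])
  have h3 := rigid_form_le_trace hσ b
  refine h1.trans ?_
  have h4 : (1 + ζ) * (star a ⬝ᵥ (σ *ᵥ a)).re + (1 + 1 / ζ) * (star b ⬝ᵥ (σ *ᵥ b)).re ≤
      (1 + ζ) * (∑ k, (w k + r * Fintype.card (VK n M)) * ‖a k‖ ^ 2) +
        (1 + 1 / ζ) * (σ.trace.re * ∑ k, ‖b k‖ ^ 2) := by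
    have : 0 ≤ 1 + 1 / ζ := by positivity
    gcongr
  refine h4.trans (le_of_eq ?_)
  rw [Finset.mul_sum, Finset.mul_sum, Finset.mul_sum, ← Finset.sum_add_distrib]
  refine Finset.sum_congr rfl fun k _ => ?_
  by_cases hk : tot k.1 ≤ M
  · simp [ha, hb, hk]; ring
  · simp [ha, hb, hk]; ring


theorem rigid_sum_low {M : ℕ} (hML : M ≤ L) (f : ℕ → ℝ) :
    ∑ k : VK n L, (if tot k.1 ≤ M then f (tot k.1) else 0) = ∑ k : VK n M, f (tot k.1) := by
  symm
  refine Finset.sum_of_injOn (fun k : VK n M => (⟨k.1, k.2.trans hML⟩ : VK n L)) ?_ ?_ ?_ ?_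
  · intro a _ b _ hab
    exact Subtype.ext (congrArg (fun z : VK n L => z.1) hab)
  · intro _ _; exact Finset.mem_univ _
  · intro k _ hk
    rw [if_neg]
    intro h
    exact hk ⟨(⟨k.1, h⟩ : VK n M), by simp, rfl⟩
  · intro k _
    rw [if_pos k.2]

/-- energy bound -/
def rigid_Eb (n : ℕ) (N u : ℝ) : ℝ := n * ((N * (1 + u ^ 2) + 2 * u) / (1 - u))

/-- total entrywise error -/
def rigid_rc (n M : ℕ) (u : ℝ) : ℝ := 4 * M * u * Fintype.card (VK n M)

def rigid_A (n M : ℕ) (N u : ℝ) : ℝ :=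
  (1 + u ^ 2 + rigid_rc n M u) / Zs n M (N / (N + 1)) + rigid_rc n M u / (N / (N + 1)) ^ M

def rigid_La (n M : ℕ) (N ζ u : ℝ) : ℝ := -Real.log ((1 + ζ) * rigid_A n M N u)

/-- the lower bound for the free energy -/
def rigid_F (n M : ℕ) (N ζ u : ℝ) : ℝ :=
  Tm N * (rigid_La n M N ζ u - |rigid_La n M N ζ u| * (rigid_Eb n N u / (M + 1) + u ^ 2)) -
    Tm N * Real.log (2 * (1 + 1 / ζ)) * (rigid_Eb n N u / (M + 1)) - rigid_Eb n N u +
    (1 - rigid_Eb n N u / (M + 1) - rigid_rc n M u) * (Es n M (N / (N + 1)) / Zs n M (N / (N + 1))) -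
    M * rigid_rc n M u

theorem rigid_energy {U : Matrix (VK n L) (VK n L) ℂ} (hU : U ∈ unitaryGroup (VK n L) ℂ)
    {p : VK n L → ℝ} (hp : ∀ i, 0 < p i) {N u : ℝ} (hN : 0 < N) (hu0 : 0 ≤ u) (hu : u < 1)
    (ht : ∑ i, p i ≤ 1 + u ^ 2)
    (hw : ∀ j, wf U (fun i k => (p i + p k)⁻¹) (qm N (dg U p) (ann n L j)) ≤ u ^ 2) :
    (dg U p * num n L).trace.re ≤ rigid_Eb n N u := by
  have hσ := dg_psd U (fun i => (hp i).le)
  rw [← sum_annH_mul_ann, Finset.mul_sum, trace_sum, Complex.re_sum]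
  have key : ∀ j, (dg U p * ((ann n L j)ᴴ * ann n L j)).trace.re ≤
      (N * (1 + u ^ 2) + 2 * u) / (1 - u) := by
    intro j
    have h1 := energy_le hU hp hN j
    have h0 : 0 ≤ (dg U p * ((ann n L j)ᴴ * ann n L j)).trace.re :=
      trace_mul_nonneg hσ (posSemidef_conjTranspose_mul_self _)
    set e := (dg U p * ((ann n L j)ᴴ * ann n L j)).trace.re
    have ht0 : 0 ≤ ∑ i, p i := Finset.sum_nonneg fun i _ => (hp i).le
    set t := ∑ i, p i
    have h2 : √(wf U (fun i k => (p i + p k)⁻¹) (qm N (dg U p) (ann n L j))) ≤ u :=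
      Real.sqrt_le_iff.2 ⟨hu0, hw j⟩
    have h3 : √(2 * e + t) ≤ e + 2 := by
      refine Real.sqrt_le_iff.2 ⟨by positivity, ?_⟩
      nlinarith
    have h4 : e ≤ N * (1 + u ^ 2) + u * (e + 2) := by
      refine h1.trans (add_le_add (mul_le_mul_of_nonneg_left ht hN.le) ?_)
      exact mul_le_mul h2 h3 (Real.sqrt_nonneg _) hu0
    rw [le_div_iff₀ (by linarith)]
    nlinarith
  refine (Finset.sum_le_sum fun j _ => key j).trans (le_of_eq ?_)
  simp [rigid_Eb]

theorem rigid_entries {U : Matrix (VK n L) (VK n L) ℂ} (hU : U ∈ unitaryGroup (VK n L) ℂ)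
    {p : VK n L → ℝ} (hp : ∀ i, 0 < p i) {N u : ℝ} (hN : 0 < N) (hu0 : 0 ≤ u) (hu : u < 1)
    (ht : ∑ i, p i ≤ 1 + u ^ 2)
    (hw : ∀ j, wf U (fun i k => (p i + p k)⁻¹) (qm N (dg U p) (ann n L j)) ≤ u ^ 2) (M : ℕ) :
    ∃ s : ℝ, ∀ k l : VK n L, tot k.1 ≤ M → tot l.1 ≤ M →
      ‖dg U p k l - (if k = l then (((N / (N + 1)) ^ tot k.1 * s : ℝ) : ℂ) else 0)‖ ≤ 4 * M * u := by
  have hq : ∀ j k l, ‖qm N (dg U p) (ann n L j) k l‖ ≤ 2 * u := by
    intro j k l
    have h1 := qm_entry_le hU hp (qm N (dg U p) (ann n L j)) k l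
    have ht0 : 0 ≤ ∑ i, p i := Finset.sum_nonneg fun i _ => (hp i).le
    have h2 : 2 * (∑ i, p i) * wf U (fun i k => (p i + p k)⁻¹) (qm N (dg U p) (ann n L j)) ≤
        2 * (∑ i, p i) * u ^ 2 := mul_le_mul_of_nonneg_left (hw j) (by positivity)
    have h3 : 2 * (∑ i, p i) * u ^ 2 ≤ (2 * u) ^ 2 := by
      have : ∑ i, p i ≤ 2 := by nlinarith
      nlinarith [sq_nonneg u]
    exact (pow_le_pow_iff_left₀ (norm_nonneg _) (by positivity) two_ne_zero).1 (h1.trans (h2.trans h3))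
  refine ⟨(dg U p ⟨0, by simp [tot]⟩ ⟨0, by simp [tot]⟩).re, fun k l hk hl => ?_⟩
  have h1 := near_thermal (dg_herm U p) hN hq k l
  have h2 : (((dg U p ⟨0, by simp [tot]⟩ ⟨0, by simp [tot]⟩).re : ℝ) : ℂ) =
      dg U p ⟨0, by simp [tot]⟩ ⟨0, by simp [tot]⟩ := by
    rw [dg_apply_self, Complex.ofReal_re]
  rw [Complex.ofReal_mul, h2]
  refine h1.trans ?_
  have hk' : (tot k.1 : ℝ) ≤ M := by exact_mod_cast hk
  have hl' : (tot l.1 : ℝ) ≤ M := by exact_mod_cast hl
  nlinarith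


set_option maxHeartbeats 800000 in
theorem rigid_lower {M : ℕ} (hML : M ≤ L) {U : Matrix (VK n L) (VK n L) ℂ}
    (hU : U ∈ unitaryGroup (VK n L) ℂ)
    {p : VK n L → ℝ} (hp : ∀ i, 0 < p i) {N u ζ : ℝ} (hN : 0 < N) (hu0 : 0 ≤ u) (hu : u < 1)
    (hζ : 0 < ζ) (ht1 : 1 ≤ ∑ i, p i) (ht : ∑ i, p i ≤ 1 + u ^ 2)
    (hw : ∀ j, wf U (fun i k => (p i + p k)⁻¹) (qm N (dg U p) (ann n L j)) ≤ u ^ 2) :
    rigid_F n M N ζ u ≤ Tm N * vnEntropy (dg U p) - (dg U p * num n L).trace.re := by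
  have ht2 : ∑ i, p i ≤ 2 := by nlinarith
  have hu2 : 0 ≤ u ^ 2 := sq_nonneg u
  have hσ := dg_psd U (fun i => (hp i).le)
  have hE := rigid_energy hU hp hN hu0 hu ht hw
  obtain ⟨s, hs⟩ := rigid_entries hU hp hN hu0 hu ht hw M
  have htr : (dg U p).trace.re = ∑ i, p i := by rw [trace_dg hU, Complex.ofReal_re]
  have hT := Tm_pos hN
  have hx0 : 0 < N / (N + 1) := by positivity
  have hx1 : N / (N + 1) < 1 := by rw [div_lt_one (by positivity)]; linarith
  have hlx := neg_log_ratio hN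
  have hZ := one_le_Zs (n := n) M hx0.le
  have hr : 0 ≤ 4 * (M : ℝ) * u := by positivity
  have hdiag := le_diag hσ M hζ hr (fun k => (N / (N + 1)) ^ tot k.1 * s) hs
  rw [htr] at hdiag
  unfold rigid_F rigid_La
  have hAdef : rigid_A n M N u = (1 + u ^ 2 + rigid_rc n M u) / Zs n M (N / (N + 1)) +
      rigid_rc n M u / (N / (N + 1)) ^ M := rfl
  have hrc : 4 * (M : ℝ) * u * Fintype.card (VK n M) = rigid_rc n M u := rfl
  have hrc0 : 0 ≤ rigid_rc n M u := by rw [← hrc]; positivity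
  rw [num, trace_mul_dN] at hE ⊢
  have htr' : ∑ k, (dg U p k k).re = ∑ i, p i := by
    rw [← htr, trace, Complex.re_sum]; rfl
  have hZdef : Zs n M (N / (N + 1)) =
      ∑ k : VK n L, (if tot k.1 ≤ M then (N / (N + 1)) ^ tot k.1 else 0) :=
    (rigid_sum_low hML fun m => (N / (N + 1)) ^ m).symm
  have hEdef : Es n M (N / (N + 1)) =
      ∑ k : VK n L, (if tot k.1 ≤ M then (tot k.1 : ℝ) * (N / (N + 1)) ^ tot k.1 else 0) :=
    (rigid_sum_low hML fun m => (m : ℝ) * (N / (N + 1)) ^ m).symm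
  have hcdef : (Fintype.card (VK n M) : ℝ) = ∑ k : VK n L, (if tot k.1 ≤ M then (1 : ℝ) else 0) := by
    rw [rigid_sum_low hML fun _ => (1 : ℝ)]; simp
  have hEs0 : 0 ≤ Es n M (N / (N + 1)) := Finset.sum_nonneg fun k _ => by positivity
  rw [hrc] at hdiag
  generalize hσd : dg U p = σ at *
  set x := N / (N + 1) with hx
  set Z := Zs n M x
  set Ez := Es n M x
  set A := rigid_A n M N u
  set Eb := rigid_Eb n N u
  set rc := rigid_rc n M u
  set t := ∑ i, p i
  set T := Tm N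
  set d : VK n L → ℝ := fun k => (σ k k).re with hd
  have hd0 : ∀ k, 0 ≤ d k := fun k => (Complex.nonneg_iff.1 (hσ.diag_nonneg (i := k))).1
  have hdk : ∀ k : VK n L, tot k.1 ≤ M → |d k - x ^ tot k.1 * s| ≤ 4 * M * u := by
    intro k hk
    have h1 := hs k k hk hk
    rw [if_pos rfl] at h1
    refine le_trans ?_ h1
    have := Complex.abs_re_le_norm (σ k k - ((x ^ tot k.1 * s : ℝ) : ℂ))
    rwa [Complex.sub_re, Complex.ofReal_re] at this
  -- low and high mass
  set tl := ∑ k : VK n L, (if tot k.1 ≤ M then d k else 0) with htl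
  set th := ∑ k : VK n L, (if tot k.1 ≤ M then 0 else d k) with hth
  set El := ∑ k : VK n L, (if tot k.1 ≤ M then d k * tot k.1 else 0) with hEl
  have htlh : tl + th = t := by
    rw [← htr', htl, hth, ← Finset.sum_add_distrib]
    refine Finset.sum_congr rfl fun k _ => ?_
    split_ifs <;> simp [hd]
  have hth0 : 0 ≤ th := Finset.sum_nonneg fun k _ => by
    split_ifs
    · exact le_rfl
    · exact hd0 k
  have hthE : th ≤ Eb / (M + 1) := by
    rw [le_div_iff₀ (by positivity)]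
    refine le_trans ?_ hE
    rw [hth, Finset.sum_mul]
    refine Finset.sum_le_sum fun k _ => ?_
    split_ifs with hk
    · rw [zero_mul]; exact mul_nonneg (hd0 k) (Nat.cast_nonneg _)
    · refine mul_le_mul_of_nonneg_left ?_ (hd0 k)
      have : M + 1 ≤ tot k.1 := by omega
      exact_mod_cast this
  have hsZ1 : s * Z ≤ tl + rc := by
    rw [hZdef, ← hrc, hcdef, htl, Finset.mul_sum, Finset.mul_sum, ← Finset.sum_add_distrib]
    refine Finset.sum_le_sum fun k _ => ?_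
    split_ifs with hk
    · have := (abs_le.1 (hdk k hk)).1
      linarith
    · simp
  have hsZ2 : tl ≤ s * Z + rc := by
    rw [hZdef, ← hrc, hcdef, htl, Finset.mul_sum, Finset.mul_sum, ← Finset.sum_add_distrib]
    refine Finset.sum_le_sum fun k _ => ?_
    split_ifs with hk
    · have := (abs_le.1 (hdk k hk)).2
      linarith
    · simp
  have hElge : s * Ez ≤ El + M * rc := by
    rw [hEdef, ← hrc, hcdef, hEl, Finset.mul_sum, Finset.mul_sum, Finset.mul_sum,
      ← Finset.sum_add_distrib]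
    refine Finset.sum_le_sum fun k _ => ?_
    split_ifs with hk
    · have h1 := (abs_le.1 (hdk k hk)).1
      have hk' : (tot k.1 : ℝ) ≤ M := by exact_mod_cast hk
      have hk0 : (0 : ℝ) ≤ tot k.1 := Nat.cast_nonneg _
      have h2 : (tot k.1 : ℝ) * (x ^ tot k.1 * s) ≤ tot k.1 * (d k + 4 * M * u) :=
        mul_le_mul_of_nonneg_left (by linarith) hk0
      have h3 : (tot k.1 : ℝ) * (4 * M * u) ≤ M * (4 * M * u) := mul_le_mul_of_nonneg_right hk' hr
      linarith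
    · simp
  have hZ0 : 0 < Z := by linarith
  have hsle : s ≤ (1 + u ^ 2 + rc) / Z := by
    rw [le_div_iff₀ hZ0]; linarith
  have hsge : (1 - Eb / (M + 1) - rc) / Z ≤ s := by
    rw [div_le_iff₀ hZ0]; linarith
  have hA0 : 0 < A := by rw [hAdef]; positivity
  -- the dominating diagonal matrix
  have hb : ∀ k : VK n L, 0 < (if tot k.1 ≤ M then (1 + ζ) * A * x ^ tot k.1 else 2 * (1 + 1 / ζ)) := by
    intro k; split_ifs <;> positivity
  have hdom : ((diagonal fun k : VK n L =>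
      ((if tot k.1 ≤ M then (1 + ζ) * A * x ^ tot k.1 else 2 * (1 + 1 / ζ) : ℝ) : ℂ)) - σ).PosSemidef := by
    have h1 : (diagonal fun k : VK n L =>
        (((if tot k.1 ≤ M then (1 + ζ) * A * x ^ tot k.1 else 2 * (1 + 1 / ζ)) -
          (if tot k.1 ≤ M then (1 + ζ) * (x ^ tot k.1 * s + rc) else (1 + 1 / ζ) * t) : ℝ) : ℂ)).PosSemidef := by
      rw [posSemidef_diagonal_iff]
      intro k
      rw [Complex.zero_le_real, sub_nonneg]
      split_ifs with hk
      · rw [mul_assoc]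
        refine mul_le_mul_of_nonneg_left ?_ (by positivity)
        have hxk : x ^ M ≤ x ^ tot k.1 := pow_le_pow_of_le_one hx0.le hx1.le hk
        have hxM : 0 < x ^ M := by positivity
        have h2 : rc ≤ rc / x ^ M * x ^ tot k.1 := by
          rw [div_mul_eq_mul_div, le_div_iff₀ hxM]
          exact mul_le_mul_of_nonneg_left hxk hrc0
        have h3 : x ^ tot k.1 * s ≤ x ^ tot k.1 * ((1 + u ^ 2 + rc) / Z) :=
          mul_le_mul_of_nonneg_left hsle (by positivity)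
        rw [hAdef]
        linarith
      · have h0 : 0 ≤ 1 + 1 / ζ := by positivity
        rw [mul_comm 2]
        exact mul_le_mul_of_nonneg_left ht2 h0
    convert h1.add hdiag using 1
    rw [← add_sub_assoc, diagonal_add]
    congr 2
    funext k
    push_cast
    ring
  have hent := ent_ge_of_le hσ hb hdom
  set La := -Real.log ((1 + ζ) * A) with hLa
  set H := Real.log (2 * (1 + 1 / ζ)) with hH
  have hH0 : 0 ≤ H := Real.log_nonneg (by
    have : 0 ≤ 1 / ζ := by positivity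
    linarith)
  have hsum : ∑ k : VK n L, (σ k k).re * (-Real.log
      (if tot k.1 ≤ M then (1 + ζ) * A * x ^ tot k.1 else 2 * (1 + 1 / ζ))) =
      La * tl + T⁻¹ * El - H * th := by
    rw [htl, hth, hEl, Finset.mul_sum, Finset.mul_sum, Finset.mul_sum, ← Finset.sum_add_distrib,
      ← Finset.sum_sub_distrib]
    refine Finset.sum_congr rfl fun k _ => ?_
    split_ifs with hk
    · rw [Real.log_mul (by positivity) (by positivity), Real.log_pow, ← hlx, hLa]
      simp only [hd]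
      ring
    · simp only [hd]
      ring
  rw [hsum] at hent
  have h1 : T * (La * tl + T⁻¹ * El - H * th) ≤ T * vnEntropy σ := mul_le_mul_of_nonneg_left hent hT.le
  have h2 : T * (La * tl + T⁻¹ * El - H * th) = T * (La * tl) + El - T * H * th := by
    field_simp
  have h3 : La - |La| * (Eb / (M + 1) + u ^ 2) ≤ La * tl := by
    have e1 : |tl - 1| ≤ Eb / (M + 1) + u ^ 2 := by
      rw [abs_le]
      constructor <;> linarith
    have e2 : -(La * (tl - 1)) ≤ |La| * (Eb / (M + 1) + u ^ 2) := by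
      refine (neg_le_abs _).trans ?_
      rw [abs_mul]
      exact mul_le_mul_of_nonneg_left e1 (abs_nonneg _)
    linarith
  have h4 : T * (La - |La| * (Eb / (M + 1) + u ^ 2)) ≤ T * (La * tl) :=
    mul_le_mul_of_nonneg_left h3 hT.le
  have h5 : T * H * th ≤ T * H * (Eb / (M + 1)) := mul_le_mul_of_nonneg_left hthE (by positivity)
  have h6 : (1 - Eb / (M + 1) - rc) * (Ez / Z) ≤ s * Ez := by
    have := mul_le_mul_of_nonneg_right hsge hEs0
    calc (1 - Eb / (M + 1) - rc) * (Ez / Z) = (1 - Eb / (M + 1) - rc) / Z * Ez := by ring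
      _ ≤ _ := this
  linarith


theorem rigid_cont (n M : ℕ) {N ζ : ℝ} (hN : 0 < N) (hζ : 0 < ζ) :
    ContinuousAt (fun u => rigid_F n M N ζ u) 0 := by
  have hx0 : 0 < N / (N + 1) := by positivity
  have hZ := one_le_Zs (n := n) M hx0.le
  have hEb : ContinuousAt (fun u => rigid_Eb n N u) 0 := by
    unfold rigid_Eb
    refine continuousAt_const.mul (ContinuousAt.div (by fun_prop) (by fun_prop) (by simp))
  have hrc : ContinuousAt (fun u => rigid_rc n M u) 0 := by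
    unfold rigid_rc; fun_prop
  have hA : ContinuousAt (fun u => rigid_A n M N u) 0 := by
    unfold rigid_A; fun_prop
  have hA0 : 0 < rigid_A n M N 0 := by
    have : 0 < Zs n M (N / (N + 1)) := by linarith
    simp only [rigid_A, rigid_rc]
    simp [this]
  have hLa : ContinuousAt (fun u => rigid_La n M N ζ u) 0 := by
    unfold rigid_La
    refine ContinuousAt.neg (ContinuousAt.log (continuousAt_const.mul hA) ?_)
    positivity
  unfold rigid_F
  fun_prop

theorem rigid_lim (n : ℕ) {N ζ : ℝ} (hN : 0 < N) (hζ : 0 < ζ) :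
    Filter.Tendsto (fun M : ℕ => rigid_F n M N ζ 0) Filter.atTop
      (nhds (Tm N * (n * Real.log (1 + N) - Real.log (1 + ζ)))) := by
  have hx0 : 0 < N / (N + 1) := by positivity
  have hx1 : N / (N + 1) < 1 := by rw [div_lt_one (by positivity)]; linarith
  have hinv : (1 - N / (N + 1))⁻¹ = 1 + N := by field_simp; ring
  have hZ := tendsto_Zs (n := n) hx0.le hx1
  have hE := tendsto_Es (n := n) hx0.le hx1
  rw [hinv] at hZ hE
  have hZ0 : (1 + N) ^ n ≠ 0 := by positivity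
  have hLa : Filter.Tendsto (fun M : ℕ => rigid_La n M N ζ 0) Filter.atTop
      (nhds (n * Real.log (1 + N) - Real.log (1 + ζ))) := by
    have h1 : Filter.Tendsto (fun M : ℕ => Real.log (Zs n M (N / (N + 1))) - Real.log (1 + ζ))
        Filter.atTop (nhds (Real.log ((1 + N) ^ n) - Real.log (1 + ζ))) :=
      (hZ.log hZ0).sub_const _
    rw [Real.log_pow] at h1
    refine h1.congr fun M => ?_
    have : 0 < Zs n M (N / (N + 1)) := lt_of_lt_of_le one_pos (one_le_Zs M hx0.le)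
    simp only [rigid_La, rigid_A, rigid_rc]
    simp only [mul_zero, zero_mul, add_zero, zero_div, ne_eq, OfNat.ofNat_ne_zero,
      not_false_eq_true, zero_pow]
    rw [Real.log_mul (by positivity) (by positivity), one_div, Real.log_inv]
    ring
  have h0 : Filter.Tendsto (fun M : ℕ => rigid_Eb n N 0 / ((M : ℝ) + 1)) Filter.atTop (nhds 0) :=
    Filter.Tendsto.div_atTop tendsto_const_nhds
      (Filter.tendsto_atTop_add_const_right _ _ tendsto_natCast_atTop_atTop)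
  have hq := hE.div hZ hZ0
  have hlim := ((((hLa.sub (hLa.abs.mul h0)).const_mul (Tm N)).sub
    (h0.const_mul (Tm N * Real.log (2 * (1 + 1 / ζ))))).sub_const (rigid_Eb n N 0)).add
      ((h0.const_sub 1).mul hq)
  convert hlim using 2
  · simp [rigid_F, rigid_rc]
  · simp only [rigid_Eb]
    field_simp
    ring

theorem rigid (n : ℕ) {N γ : ℝ} (hN : 0 < N) (hγ : 0 < γ) :
    ∃ θ : ℝ, 0 < θ ∧ ∃ M : ℕ, ∀ L, M ≤ L → ∀ U ∈ unitaryGroup (VK n L) ℂ, ∀ p : VK n L → ℝ,
      (∀ i, 0 < p i) → 1 ≤ ∑ i, p i → ∑ i, p i ≤ 1 + θ →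
      (∀ j, wf U (fun i k => (p i + p k)⁻¹) (qm N (dg U p) (ann n L j)) ≤ θ) →
      n * (Tm N * Real.log (1 + N)) - γ ≤
        Tm N * vnEntropy (dg U p) - (dg U p * num n L).trace.re := by
  have hT := Tm_pos hN
  have hζ : 0 < γ / (2 * Tm N) := by positivity
  have hlt : n * (Tm N * Real.log (1 + N)) - γ <
      Tm N * (n * Real.log (1 + N) - Real.log (1 + γ / (2 * Tm N))) := by
    have h1 : Real.log (1 + γ / (2 * Tm N)) ≤ γ / (2 * Tm N) := by
      have := Real.log_le_sub_one_of_pos (x := 1 + γ / (2 * Tm N)) (by positivity)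
      linarith
    have h2 : Tm N * Real.log (1 + γ / (2 * Tm N)) ≤ Tm N * (γ / (2 * Tm N)) :=
      mul_le_mul_of_nonneg_left h1 hT.le
    have h3 : Tm N * (γ / (2 * Tm N)) = γ / 2 := by field_simp
    nlinarith
  obtain ⟨M, hM⟩ := ((rigid_lim n hN hζ).eventually (lt_mem_nhds hlt)).exists
  have h1 : ∀ᶠ u in nhds (0 : ℝ), n * (Tm N * Real.log (1 + N)) - γ <
      rigid_F n M N (γ / (2 * Tm N)) u := (rigid_cont n M hN hζ).eventually (lt_mem_nhds hM)
  have h2 : ∀ᶠ u in nhds (0 : ℝ), u < 1 := gt_mem_nhds one_pos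
  have h3 : ∀ᶠ u in nhdsWithin (0 : ℝ) (Set.Ioi 0), (n * (Tm N * Real.log (1 + N)) - γ <
      rigid_F n M N (γ / (2 * Tm N)) u ∧ u < 1) ∧ 0 < u :=
    ((h1.and h2).filter_mono nhdsWithin_le_nhds).and self_mem_nhdsWithin
  obtain ⟨u, ⟨hu1, hu2⟩, hu3⟩ := h3.exists
  refine ⟨u ^ 2, by positivity, M, fun L hL U hU p hp ht1 ht hw => ?_⟩
  exact hu1.le.trans (rigid_lower hL hU hp hN hu3.le hu2 hζ ht1 ht hw)

end Crest.Agent.R331

end
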