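import Crest.Agent.R331.MinA
import Crest.Agent.R331.MinB
import Crest.Agent.R331.Rigid

/-!
# Lower bound for the minimum

For the minimiser `m` (`exists_minData`): `gibbs` for both inputs and `δ f ≥ 0` give
`PsiF ≥ (1-ε) (T_C S(σ) - η E_A - (1-η) E_B) - n (η T_A log (1+NA) + (1-η) T_B log (1+NB))`;
`energy_c` summed over the modes (`sum_annH_mul_ann`) and `alpha_small` give
`η E_A + (1-η) E_B ≤ E(ρ_C) + 2 n θ^2 ≤ E(σ) + 2 n θ^2`; `∑ pC = Tr σ ∈ [1, 1 + δ (N+1)^n]`; `rigid` with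
`current_small`.
-/

open scoped ComplexOrder Kronecker Matrix
open Matrix Crest.Quantum Crest.MathPhysics.Bosonic

noncomputable section

namespace Crest.Agent.R331

theorem minlb_pen {n K : ℕ} {X : Matrix (VK n K) (VK n K) ℂ} (hX : X.PosSemidef) {w δ : ℝ} (ε : ℝ)
    (hw : 0 ≤ w) (hδ : 0 ≤ δ) :
    w * ε * (X * num n K).trace.re ≤ (X * Hpen n K w ε δ).trace.re := by
  rw [num, Hpen, trace_mul_dN, trace_mul_dN, Finset.mul_sum]
  refine Finset.sum_le_sum fun k _ => ?_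
  have h1 : 0 ≤ (X k k).re := (Complex.nonneg_iff.1 (hX.diag_nonneg (i := k))).1
  have h2 : 0 ≤ (X k k).re * (w * (δ * f6 (tot k.1))) :=
    mul_nonneg h1 (mul_nonneg hw (mul_nonneg hδ (f6_nonneg _)))
  nlinarith

theorem minlb_num {n K : ℕ} (X : Matrix (VK n K) (VK n K) ℂ) :
    (X * num n K).trace.re = ∑ j, (X * ((ann n K j)ᴴ * ann n K j)).trace.re := by
  rw [← sum_annH_mul_ann, Finset.mul_sum, trace_sum, Complex.re_sum]

theorem minlb_energy {n K : ℕ} {η θ : ℝ} (hη : η ∈ Set.Ioo (0 : ℝ) 1)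
    {X Y : Matrix (VK n K) (VK n K) ℂ} (hX : IsDensity X) (hY : IsDensity Y) (hθ : 0 ≤ θ)
    (h : ∀ j, ‖(X * ann n K j).trace‖ ≤ θ ∧ ‖(Y * ann n K j).trace‖ ≤ θ) :
    η * (X * num n K).trace.re + (1 - η) * (Y * num n K).trace.re ≤
      (out (Vbs n η K) X Y * num n (2 * K)).trace.re + n * θ ^ 2 := by
  have hη' : η ∈ Set.Icc (0 : ℝ) 1 := Set.Ioo_subset_Icc_self hη
  have e1 : √η ^ 2 = η := Real.sq_sqrt hη.1.le
  have e2 : √(1 - η) ^ 2 = 1 - η := Real.sq_sqrt (sub_pos.2 hη.2).le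
  rw [minlb_num X, minlb_num Y, minlb_num (out _ _ _), Finset.mul_sum, Finset.mul_sum,
    ← Finset.sum_add_distrib]
  have e3 : (n : ℝ) * θ ^ 2 = ∑ _j : Fin n, θ ^ 2 := by simp
  rw [e3, ← Finset.sum_add_distrib]
  refine Finset.sum_le_sum fun j _ => ?_
  have h1 := energy_c (Vbs_iso hη' K) (by rw [e1, e2]; ring) (by ring) (Vbs_ann_a hη' K j)
    (Vbs_ann_b hη' K j) hX hY (Real.sqrt_nonneg _) (Real.sqrt_nonneg _)
  rw [e1, e2] at h1
  refine h1.trans (add_le_add le_rfl ?_)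
  have h2 : ‖(X * ann n K j).trace‖ * ‖(Y * ann n K j).trace‖ ≤ θ * θ :=
    mul_le_mul (h j).1 (h j).2 (norm_nonneg _) hθ
  have h3 : 2 * √η * √(1 - η) ≤ 1 := by nlinarith [sq_nonneg (√η - √(1 - η))]
  calc _ ≤ 1 * (θ * θ) := mul_le_mul h3 h2 (by positivity) zero_le_one
    _ = _ := by ring

theorem min_lb (n : ℕ) {η NA NB ε γ : ℝ} (hη : η ∈ Set.Ioo (0 : ℝ) 1) (hNA : 0 < NA) (hNB : 0 < NB)
    (hε : ε ∈ Set.Ioo (0 : ℝ) 1) (hγ : 0 < γ) :
    ∃ δ₀ ∈ Set.Ioc (0 : ℝ) 1, ∀ δ ∈ Set.Ioc (0 : ℝ) δ₀, ∃ K₁ : ℕ, ∀ K, K₁ ≤ K →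
      ∀ ρA ρB : Matrix (VK n K) (VK n K) ℂ, IsDensity ρA → IsDensity ρB →
        n * ((1 - ε) * (Tm (η * NA + (1 - η) * NB) * Real.log (1 + (η * NA + (1 - η) * NB))) -
            η * (Tm NA * Real.log (1 + NA)) - (1 - η) * (Tm NB * Real.log (1 + NB))) - γ ≤
          PsiF n η NA NB ε δ K ρA ρB := by
  have hη' : η ∈ Set.Icc (0 : ℝ) 1 := Set.Ioo_subset_Icc_self hη
  have h1η : 0 < 1 - η := sub_pos.2 hη.2
  have h1ε : 0 < 1 - ε := sub_pos.2 hε.2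
  have hNC : 0 < η * NA + (1 - η) * NB := add_pos (mul_pos hη.1 hNA) (mul_pos h1η hNB)
  obtain ⟨θ, hθ, M, hrig⟩ := rigid n hNC (half_pos hγ)
  obtain ⟨θ1, hθ1, hθ1γ⟩ : ∃ θ1 : ℝ, 0 < θ1 ∧ n * θ1 ^ 2 ≤ γ / 2 := by
    have hn : (0 : ℝ) ≤ n := Nat.cast_nonneg n
    refine ⟨√(γ / (2 * (n + 1))), by positivity, ?_⟩
    rw [Real.sq_sqrt (by positivity), ← mul_div_assoc, div_le_div_iff₀ (by positivity) two_pos]
    nlinarith
  obtain ⟨δ1, hδ1, H1⟩ := alpha_small (n := n) hη hNA hNB hε hθ1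
  obtain ⟨δ2, hδ2, H2⟩ := current_small (n := n) hη hNA hNB hε hθ
  have hP : 0 < (η * NA + (1 - η) * NB + 1) ^ n := by positivity
  refine ⟨min (min δ1 δ2) (θ / (η * NA + (1 - η) * NB + 1) ^ n),
    ⟨lt_min (lt_min hδ1.1 hδ2.1) (div_pos hθ hP),
      (min_le_left _ _).trans ((min_le_left _ _).trans hδ1.2)⟩, fun δ hδ => ?_⟩
  obtain ⟨K1, h1⟩ := H1 δ ⟨hδ.1, hδ.2.trans ((min_le_left _ _).trans (min_le_left _ _))⟩
  obtain ⟨K2, h2⟩ := H2 δ ⟨hδ.1, hδ.2.trans ((min_le_left _ _).trans (min_le_right _ _))⟩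
  have hδθ : δ * (η * NA + (1 - η) * NB + 1) ^ n ≤ θ :=
    (le_div_iff₀ hP).1 (hδ.2.trans (min_le_right _ _))
  refine ⟨K1 + K2 + M, fun K hK ρA ρB hA hB => ?_⟩
  obtain ⟨m⟩ := exists_minData n hη hNA hNB hε hδ.1 K
  refine le_trans ?_ (m.isMin ρA ρB hA hB)
  have dA := m.critA.dens
  have dB := m.critB.dens
  have pflo : (flo n (2 * K) (η * NA + (1 - η) * NB) δ).PosSemidef :=
    dN_psd fun _ => by have := hδ.1; positivity
  have htr : ∑ i, m.pC i = 1 + (flo n (2 * K) (η * NA + (1 - η) * NB) δ).trace.re := by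
    have h := congrArg (fun X => (trace X).re) m.eqC
    simp only [trace_dg m.unitC, trace_add, (out_density _ (Vbs_iso hη' K) dA dB).2, Complex.add_re,
      Complex.one_re, Complex.ofReal_re] at h
    exact h
  have hf0 : 0 ≤ (flo n (2 * K) (η * NA + (1 - η) * NB) δ).trace.re :=
    (Complex.nonneg_iff.1 pflo.trace_nonneg).1
  have hf1 := trace_flo_le (n := n) (2 * K) hNC hδ.1.le
  have a1 := hrig (2 * K) (by omega) m.UC m.unitC m.pC m.posC (by linarith) (by linarith)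
    (h2 K (by omega) m)
  have a2 := minlb_energy hη dA dB hθ1.le (h1 K (by omega) m)
  have a3 : (out (Vbs n η K) (dg m.UA m.pA) (dg m.UB m.pB) * num n (2 * K)).trace.re ≤
      (dg m.UC m.pC * num n (2 * K)).trace.re := by
    rw [m.eqC, add_mul, trace_add, Complex.add_re]
    exact le_add_of_nonneg_right (trace_mul_nonneg pflo (dN_psd fun _ => Nat.cast_nonneg _))
  have a4 := gibbs dA hNA
  have a5 := gibbs dB hNB
  have a6 := minlb_pen dA.1 ε hη.1.le hδ.1.le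
  have a7 := minlb_pen dB.1 ε h1η.le hδ.1.le
  rw [PsiF, Psi, ← m.eqC]
  have b1 := mul_le_mul_of_nonneg_left a4 hη.1.le
  have b2 := mul_le_mul_of_nonneg_left a5 h1η.le
  have b3 : n * (Tm (η * NA + (1 - η) * NB) * Real.log (1 + (η * NA + (1 - η) * NB))) - γ ≤
      Tm (η * NA + (1 - η) * NB) * vnEntropy (dg m.UC m.pC) -
        (η * (dg m.UA m.pA * num n K).trace.re + (1 - η) * (dg m.UB m.pB * num n K).trace.re) := by
    linarith
  have b4 := mul_le_mul_of_nonneg_left b3 h1ε.le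
  have b5 : 0 ≤ ε * γ := mul_nonneg hε.1.le hγ.le
  linarith

end Crest.Agent.R331

end
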