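import Crest.Agent.R331.NetA

/-!
# `rho` is a valid weight (limit of series-parallel networks)

Let `n = ∑ i, b i ≥ 3`, `r b = rz z b`, `x : y = x y / (x + y)`.
* `rz_rec`: `(n - 2) r b = ∑ i, b i (z i : r (b + e i))` (`Iz_one`, `Iz_split`).
* `rz_bounds`: by `Iz_one` and `Iz_zero`, `(n - 2) r b` is a weighted mean of the `z i`.
* `Valid.par`: for `v` put `v₁ j = g' j / (g j + g' j) * v j`, `v₂ = v - v₁`; then
  `∑ (g : g') |v|^2 = ∑ g |v₁|^2 + ∑ g' |v₂|^2`, and pointwise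
  `(f : f') |x₁ + x₂|^2 ≤ f |x₁|^2 + f' |x₂|^2`.
* `valid_rho`: let `m ≤ z ≤ M` bound all weights (`I`, `J` finite), `μ = m / M`, `C = (M/m)^2`.
  Claim `P d`: for every `b` with `n ≥ 3`, `Valid W (r b) ((1 + (C-1) / (1 + μ h)) * r b)`,
  `h = ∑_{l < d} 1 / (n - 1 + l)`.  `P 0` from `rz_bounds` and validity of `z 0`.  Step: if `c = 1 + e`, `0 ≤ e ≤ C - 1`,
  `r = r (b + e i) ≥ m / (n - 1)`, `z = z i ≤ M`, then `z : (c r) ≤ (1 + e z / (z + r)) (z : r)` and
  `z / (z + r) ≤ 1 / (1 + μ / (n-1))`, and `(1 + μ h)(1 + μ/(n-1)) ≥ 1 + μ (h + 1/(n-1))`.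
  Let `d → ∞` (divergence of the harmonic series, `Real.tendsto_sum_range_one_div_nat_succ_atTop`).
-/

open scoped ComplexOrder Kronecker Matrix
open Matrix Crest.Quantum Crest.MathPhysics.Bosonic

noncomputable section

namespace Crest.Agent.R331

theorem rz_pos {z : Fin 4 → ℝ} (hz : ∀ i, 0 < z i) (b : Fin 4 → ℕ) : 0 < rz z b :=
  div_pos (Iz_pos hz b 1) (Iz_pos hz b 0)

theorem rho_pos {z : Fin 4 → ℝ} (hz : ∀ i, 0 < z i) : 0 < rho z := rz_pos hz _

theorem rz_rec {z : Fin 4 → ℝ} (hz : ∀ i, 0 < z i) {b : Fin 4 → ℕ} (hb : 3 ≤ ∑ i, b i) :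
    (((∑ i, b i : ℕ) : ℝ) - 2) * rz z b =
      ∑ i, (b i : ℝ) * (z i * rz z (b + Pi.single i 1) / (z i + rz z (b + Pi.single i 1))) := by
  rw [rz, ← mul_div_assoc, Iz_one hz hb, Finset.sum_div]
  refine Finset.sum_congr rfl fun i _ => ?_
  have h1 := Iz_pos hz (b + Pi.single i 1) 0
  have h2 := Iz_pos hz (b + Pi.single i 1) 1
  have h3 := hz i
  rw [Iz_split hz (by omega) i, rz]
  field_simp
  ring

theorem rz_bounds {z : Fin 4 → ℝ} {m M : ℝ} (hm : 0 < m) (hz : ∀ i, m ≤ z i ∧ z i ≤ M)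
    {b : Fin 4 → ℕ} (hb : 3 ≤ ∑ i, b i) :
    m ≤ (((∑ i, b i : ℕ) : ℝ) - 2) * rz z b ∧ (((∑ i, b i : ℕ) : ℝ) - 2) * rz z b ≤ M := by
  have hz' : ∀ i, 0 < z i := fun i => hm.trans_le (hz i).1
  have h0 := Iz_pos hz' b 0
  rw [rz, ← mul_div_assoc, Iz_one hz' hb, le_div_iff₀ h0, div_le_iff₀ h0, Iz_zero hz' (by omega),
    Finset.mul_sum, Finset.mul_sum]
  have h1 : ∀ i, 0 ≤ (b i : ℝ) * Iz z (b + Pi.single i 1) 1 := fun i =>
    mul_nonneg (Nat.cast_nonneg _) (Iz_pos hz' _ _).le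
  constructor
  · refine Finset.sum_le_sum fun i _ => ?_
    have := mul_le_mul_of_nonneg_right (hz i).1 (h1 i)
    linarith
  · refine Finset.sum_le_sum fun i _ => ?_
    have := mul_le_mul_of_nonneg_right (hz i).2 (h1 i)
    linarith

variable {I J : Type*} [Fintype I] [Fintype J] {W : (J → ℂ) →ₗ[ℂ] (I → ℂ)}

theorem Valid.par {f f' : I → ℝ} {g g' : J → ℝ} (hf : ∀ i, 0 < f i) (hf' : ∀ i, 0 < f' i)
    (hg : ∀ j, 0 < g j) (hg' : ∀ j, 0 < g' j) (h : Valid W f g) (h' : Valid W f' g') :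
    Valid W (fun i => f i * f' i / (f i + f' i)) (fun j => g j * g' j / (g j + g' j)) := by
  intro v
  obtain ⟨v₁, h1⟩ : ∃ v₁ : J → ℂ, v₁ = fun j => ((g' j / (g j + g' j) : ℝ) : ℂ) * v j := ⟨_, rfl⟩
  obtain ⟨v₂, h2⟩ : ∃ v₂ : J → ℂ, v₂ = fun j => ((g j / (g j + g' j) : ℝ) : ℂ) * v j := ⟨_, rfl⟩
  have hv : v = v₁ + v₂ := by
    funext j
    have h3 : g' j / (g j + g' j) + g j / (g j + g' j) = 1 := by
      have := hg j
      have := hg' j
      field_simp
      ring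
    rw [h1, h2, Pi.add_apply, ← add_mul, ← Complex.ofReal_add, h3, Complex.ofReal_one, one_mul]
  calc ∑ i, f i * f' i / (f i + f' i) * ‖W v i‖ ^ 2
      ≤ ∑ i, (f i * ‖W v₁ i‖ ^ 2 + f' i * ‖W v₂ i‖ ^ 2) := by
        refine Finset.sum_le_sum fun i _ => ?_
        have h3 := hf i
        have h4 := hf' i
        have h5 : ‖W v i‖ ^ 2 ≤ (‖W v₁ i‖ + ‖W v₂ i‖) ^ 2 := by
          rw [hv, map_add, Pi.add_apply]
          gcongr
          exact norm_add_le _ _
        generalize ‖W v₁ i‖ = x at h5 ⊢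
        generalize ‖W v₂ i‖ = y at h5 ⊢
        rw [div_mul_eq_mul_div, div_le_iff₀ (by positivity)]
        have h6 := mul_le_mul_of_nonneg_left h5 (mul_pos h3 h4).le
        have h7 := sq_nonneg (f i * x - f' i * y)
        linarith
    _ ≤ ∑ j, g j * ‖v₁ j‖ ^ 2 + ∑ j, g' j * ‖v₂ j‖ ^ 2 := by
        rw [Finset.sum_add_distrib]
        exact add_le_add (h v₁) (h' v₂)
    _ = _ := by
        rw [← Finset.sum_add_distrib]
        refine Finset.sum_congr rfl fun j _ => ?_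
        have := hg j
        have := hg' j
        simp only [h1, h2, norm_mul, mul_pow, Complex.norm_real, Real.norm_eq_abs, sq_abs]
        field_simp
        ring

theorem net_mono {f f' : I → ℝ} {g g' : J → ℝ} (h : Valid W f g) (hf : ∀ i, f' i ≤ f i)
    (hg : ∀ j, g j ≤ g' j) : Valid W f' g' := fun v =>
  (Finset.sum_le_sum fun i _ => mul_le_mul_of_nonneg_right (hf i) (sq_nonneg _)).trans
    ((h v).trans (Finset.sum_le_sum fun j _ => mul_le_mul_of_nonneg_right (hg j) (sq_nonneg _)))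

theorem net_smul {f : I → ℝ} {g : J → ℝ} (h : Valid W f g) {c : ℝ} (hc : 0 ≤ c) :
    Valid W (fun i => c * f i) (fun j => c * g j) := fun v => by
  simp only [mul_assoc, ← Finset.mul_sum]
  exact mul_le_mul_of_nonneg_left (h v) hc

theorem net_sum {f : Fin 4 → I → ℝ} {g : Fin 4 → J → ℝ} (h : ∀ k, Valid W (f k) (g k)) :
    Valid W (fun i => ∑ k, f k i) (fun j => ∑ k, g k j) := fun v => by
  simp only [Finset.sum_mul]
  rw [Finset.sum_comm, Finset.sum_comm (s := (Finset.univ : Finset J))]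
  exact Finset.sum_le_sum fun k _ => h k v

theorem net_bounds {κ : Type*} [Fintype κ] {w : κ → ℝ} (hw : ∀ k, 0 < w k) :
    ∃ m M : ℝ, 0 < m ∧ m ≤ 1 ∧ 1 ≤ M ∧ ∀ k, m ≤ w k ∧ w k ≤ M := by
  have h1 : 0 ≤ ∑ k, w k := Finset.sum_nonneg fun k _ => (hw k).le
  have h2 : 0 ≤ ∑ k, (w k)⁻¹ := Finset.sum_nonneg fun k _ => (inv_pos.2 (hw k)).le
  refine ⟨(1 + ∑ k, (w k)⁻¹)⁻¹, 1 + ∑ k, w k, by positivity,
    inv_le_one_of_one_le₀ (by linarith), by linarith, fun k => ⟨?_, ?_⟩⟩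
  · refine inv_le_of_inv_le₀ (hw k) ?_
    have := Finset.single_le_sum (f := fun k => (w k)⁻¹) (fun k _ => (inv_pos.2 (hw k)).le)
      (Finset.mem_univ k)
    linarith
  · have := Finset.single_le_sum (f := w) (fun k _ => (hw k).le) (Finset.mem_univ k)
    linarith

theorem net_scal {z r e e' : ℝ} (hz : 0 < z) (hr : 0 < r) (he : 0 ≤ e) (he' : 0 ≤ e')
    (h : e * z ≤ e' * (z + r)) :
    z * ((1 + e) * r) / (z + (1 + e) * r) ≤ (1 + e') * (z * r / (z + r)) := by
  rw [← mul_div_assoc, div_le_div_iff₀ (by positivity) (by positivity)]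
  have h1 : (1 + e) * (z + r) ≤ (1 + e') * (z + (1 + e) * r) := by
    have : 0 ≤ e' * (e * r) := by positivity
    linarith
  have h2 := mul_le_mul_of_nonneg_left h1 (mul_pos hz hr).le
  linarith

theorem net_scal2 {z r D μ h s : ℝ} (hr : 0 < r) (hD : 0 ≤ D) (hμ : 0 ≤ μ)
    (hh : 0 ≤ h) (hs : 0 ≤ s) (h1 : μ * s * z ≤ r) :
    D / (1 + μ * h) * z ≤ D / (1 + μ * (h + s)) * (z + r) := by
  rw [div_mul_eq_mul_div, div_mul_eq_mul_div, div_le_div_iff₀ (by positivity) (by positivity)]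
  have h2 : z * (1 + μ * (h + s)) ≤ (z + r) * (1 + μ * h) := by
    have : 0 ≤ r * (μ * h) := by positivity
    linarith
  have h3 := mul_le_mul_of_nonneg_left h2 hD
  linarith

theorem net_claim {zI : I → Fin 4 → ℝ} {zJ : J → Fin 4 → ℝ} {m M : ℝ} (hm : 0 < m) (hM : m ≤ M)
    (hI : ∀ i k, m ≤ zI i k ∧ zI i k ≤ M) (hJ : ∀ j k, m ≤ zJ j k ∧ zJ j k ≤ M)
    (h : ∀ k, Valid W (fun i => zI i k) (fun j => zJ j k)) (d : ℕ) :
    ∀ (b : Fin 4 → ℕ) (n : ℕ), ∑ i, b i = n + 3 → Valid W (fun i => rz (zI i) b)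
      (fun j => (1 + ((M / m) ^ 2 - 1) / (1 + m / M * ∑ l ∈ Finset.range d, 1 / ((n : ℝ) + 2 + l)))
        * rz (zJ j) b) := by
  have hM0 : 0 < M := hm.trans_le hM
  have hI0 : ∀ i k, 0 < zI i k := fun i k => hm.trans_le (hI i k).1
  have hJ0 : ∀ j k, 0 < zJ j k := fun j k => hm.trans_le (hJ j k).1
  have hD : 0 ≤ (M / m) ^ 2 - 1 :=
    sub_nonneg.2 (one_le_pow₀ ((one_le_div hm).2 hM))
  have hc : ∀ (b : Fin 4 → ℕ) (n : ℕ), ∑ i, b i = n + 3 →
      ((∑ i, b i : ℕ) : ℝ) - 2 = n + 1 := fun b n hb => by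
    rw [hb]; push_cast; ring
  induction d with
  | zero =>
    intro b n hb
    have hn : (0 : ℝ) < n + 1 := by positivity
    refine net_mono (net_smul (h 0) (c := M / m / (n + 1)) (by positivity)) (fun i => ?_)
      fun j => ?_
    · have h1 := (rz_bounds hm (hI i) (b := b) (by omega)).2
      rw [hc b n hb] at h1
      rw [div_mul_eq_mul_div, le_div_iff₀ hn, div_mul_eq_mul_div, le_div_iff₀ hm]
      have h2 := mul_le_mul_of_nonneg_right h1 hm.le
      have h3 := mul_le_mul_of_nonneg_left (hI i 0).1 hM0.le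
      linarith
    · have h1 := (rz_bounds hm (hJ j) (b := b) (by omega)).1
      rw [hc b n hb] at h1
      simp only [Finset.range_zero, Finset.sum_empty, mul_zero, add_zero, div_one, add_sub_cancel]
      rw [div_mul_eq_mul_div, div_le_iff₀ hn]
      calc M / m * zJ j 0 ≤ M / m * M := by gcongr; exact (hJ j 0).2
        _ = (M / m) ^ 2 * m := by field_simp
        _ ≤ (M / m) ^ 2 * ((n + 1) * rz (zJ j) b) := by gcongr
        _ = _ := by ring
  | succ d ih =>
    intro b n hb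
    have hn : (0 : ℝ) < n + 1 := by positivity
    have hb' : ∀ k : Fin 4, ∑ i, (b + Pi.single k 1 : Fin 4 → ℕ) i = n + 1 + 3 := fun k => by
      simp only [Pi.add_apply, Finset.sum_add_distrib, hb, Finset.sum_pi_single', Finset.mem_univ,
        if_true]
    have hs : ∑ l ∈ Finset.range (d + 1), 1 / ((n : ℝ) + 2 + l) =
        ∑ l ∈ Finset.range d, 1 / (((n + 1 : ℕ) : ℝ) + 2 + l) + 1 / ((n : ℝ) + 2) := by
      rw [Finset.sum_range_succ']
      congr 1
      · refine Finset.sum_congr rfl fun l _ => ?_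
        push_cast
        ring
      · simp
    rw [hs]
    have ih' := fun k => ih _ _ (hb' k)
    have hh : 0 ≤ ∑ l ∈ Finset.range d, 1 / (((n + 1 : ℕ) : ℝ) + 2 + l) :=
      Finset.sum_nonneg fun l _ => by positivity
    generalize ∑ l ∈ Finset.range d, 1 / (((n + 1 : ℕ) : ℝ) + 2 + l) = H at ih' hh ⊢
    generalize (M / m) ^ 2 - 1 = D at ih' hD ⊢
    have h1 := net_sum fun k => net_smul (Valid.par (hI0 · k) (fun i => rz_pos (hI0 i) _)
      (hJ0 · k) (fun j => mul_pos (by positivity) (rz_pos (hJ0 j) _)) (h k) (ih' k))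
      (c := (b k : ℝ) / (n + 1)) (by positivity)
    refine net_mono h1 (fun i => le_of_eq ?_) fun j => ?_
    · have h2 := rz_rec (hI0 i) (b := b) (by omega)
      rw [hc b n hb] at h2
      simp only [div_mul_eq_mul_div (b _ : ℝ), ← Finset.sum_div]
      rw [← h2]
      field_simp
    · have h2 := rz_rec (hJ0 j) (b := b) (by omega)
      rw [hc b n hb] at h2
      simp only [div_mul_eq_mul_div (b _ : ℝ), ← Finset.sum_div]
      rw [div_le_iff₀ hn, mul_assoc, mul_comm (rz (zJ j) b), h2, Finset.mul_sum]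
      refine Finset.sum_le_sum fun k _ => ?_
      rw [mul_left_comm _ (b k : ℝ)]
      refine mul_le_mul_of_nonneg_left ?_ (Nat.cast_nonneg (α := ℝ) (b k))
      have hr := rz_pos (hJ0 j) (b + Pi.single k 1)
      refine net_scal (hJ0 j k) hr (by positivity) (by positivity)
        (net_scal2 hr hD (by positivity) hh (by positivity) ?_)
      have h3 := (rz_bounds hm (hJ j) (b := b + Pi.single k 1) (by rw [hb' k]; omega)).1
      rw [hc _ _ (hb' k)] at h3
      push_cast at h3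
      calc m / M * (1 / ((n : ℝ) + 2)) * zJ j k ≤ m / M * (1 / ((n : ℝ) + 2)) * M := by
            gcongr; exact (hJ j k).2
        _ = m / (n + 2) := by field_simp
        _ ≤ _ := by rw [div_le_iff₀ (by positivity)]; linarith

theorem valid_rho {zI : I → Fin 4 → ℝ} {zJ : J → Fin 4 → ℝ} (hI : ∀ i k, 0 < zI i k)
    (hJ : ∀ j k, 0 < zJ j k) (h : ∀ k, Valid W (fun i => zI i k) (fun j => zJ j k)) :
    Valid W (fun i => rho (zI i)) (fun j => rho (zJ j)) := by
  obtain ⟨m, M, hm, hm1, hM1, hb⟩ := net_bounds (κ := (I ⊕ J) × Fin 4)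
    (w := fun p => Sum.elim zI zJ p.1 p.2) (by
      rintro ⟨i | j, k⟩
      · exact hI i k
      · exact hJ j k)
  have hM0 : 0 < M := by linarith
  have key := fun d => net_claim hm (hm1.trans hM1) (fun i k => hb (Sum.inl i, k))
    (fun j k => hb (Sum.inr j, k)) h d (fun _ => 1) 1 (by simp)
  have h1 : Filter.Tendsto (fun d : ℕ => ∑ l ∈ Finset.range d, 1 / (((1 : ℕ) : ℝ) + 2 + l))
      Filter.atTop Filter.atTop := by
    refine Filter.tendsto_atTop_mono (fun d => ?_)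
      (Real.tendsto_sum_range_one_div_nat_succ_atTop.const_mul_atTop (r := 1 / 3) (by norm_num))
    rw [Finset.mul_sum]
    refine Finset.sum_le_sum fun l _ => ?_
    have : (0 : ℝ) ≤ l := Nat.cast_nonneg l
    rw [div_mul_div_comm, one_mul]
    exact one_div_le_one_div_of_le (by positivity) (by push_cast; linarith)
  have h2 := (tendsto_const_nhds (x := (M / m) ^ 2 - 1)).div_atTop
    (Filter.tendsto_atTop_add_const_left _ 1 (h1.const_mul_atTop (div_pos hm hM0)))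
  intro v
  have h3 := tendsto_finsetSum (Finset.univ : Finset J) fun j _ =>
    ((h2.const_add 1).mul_const (rho (zJ j))).mul_const (‖v j‖ ^ 2)
  simp only [add_zero, one_mul] at h3
  exact ge_of_tendsto' h3 fun d => key d v

end Crest.Agent.R331

end
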