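import Crest.Agent.R331.Scal

/-!
# The integrals `Iz`

With `n = ∑ i, b i` and `D(t) = ∏ i, (t + (1-t) z i)^(b i) > 0` on `[0,1]`:
* `Iz_split`: pointwise `t (1-t)^(n-2) + z i (1-t)^(n-1) = (1-t)^(n-2) (t + (1-t) z i)`.
* `Iz_zero`: `G(t) = t (1-t)^(n-1) / D(t)` vanishes at `0` and `1`, and
  `G' = (1-t)^(n-2)/D - ∑ b i t (1-t)^(n-2) / (D (t + (1-t) z i))`
  (use `(1-t)(1 - z i) = 1 - (t + (1-t) z i)` and `D'/D = ∑ b i (1 - z i)/(t + (1-t) z i)`).
* `Iz_one`: the same with `G(t) = t^2 (1-t)^(n-2) / D(t)`: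
  `G' = ∑ b i z i t (1-t)^(n-2) / (D (t + (1-t) z i)) - (n-2) t (1-t)^(n-3)/D`.
* `rho_surface`: with `d i = t + (1-t) z i`,
  `1/(d 0 d 1) - 1/(d 2 d 3) = (t (1-t) (z 2 + z 3 - z 0 - z 1) + (1-t)^2 (z 2 z 3 - z 0 z 1)) / ∏ d i`, and
  `∫_0^1 dt / (d 0 d 1) = invL (z 0) (z 1)` (`int_two`: if `x ≠ y` the antiderivative of `(y - x)/(..)` is
  `log (t + (1-t) x) - log (t + (1-t) y)`, compare with `invL_mul`; if `x = y` the antiderivative is
  `t / (x (t + (1-t) x))`).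
-/

open scoped ComplexOrder Kronecker Matrix
open Matrix Crest.Quantum Crest.MathPhysics.Bosonic

noncomputable section

namespace Crest.Agent.R331

theorem neta_pos {x t : ℝ} (hx : 0 < x) (ht : t ∈ Set.uIcc (0 : ℝ) 1) : 0 < t + (1 - t) * x := by
  rw [Set.uIcc_of_le zero_le_one] at ht
  rcases ht.1.eq_or_lt with h | h
  · rw [← h]; simpa using hx
  · exact add_pos_of_pos_of_nonneg h (mul_nonneg (sub_nonneg.2 ht.2) hx.le)

/-- the denominator -/
def netaD (z : Fin 4 → ℝ) (b : Fin 4 → ℕ) (t : ℝ) : ℝ := ∏ i, (t + (1 - t) * z i) ^ b i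

/-- the integrand -/
def netaF (z : Fin 4 → ℝ) (b : Fin 4 → ℕ) (c : ℕ) (t : ℝ) : ℝ :=
  t ^ c * (1 - t) ^ (∑ i, b i - 2 - c) / netaD z b t

theorem neta_Iz (z : Fin 4 → ℝ) (b : Fin 4 → ℕ) (c : ℕ) :
    Iz z b c = ∫ t in (0 : ℝ)..1, netaF z b c t := rfl

theorem netaD_pos {z : Fin 4 → ℝ} (hz : ∀ i, 0 < z i) (b : Fin 4 → ℕ) {t : ℝ}
    (ht : t ∈ Set.uIcc (0 : ℝ) 1) : 0 < netaD z b t :=
  Finset.prod_pos fun i _ => pow_pos (neta_pos (hz i) ht) _

theorem netaF_int {z : Fin 4 → ℝ} (hz : ∀ i, 0 < z i) (b : Fin 4 → ℕ) (c : ℕ) :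
    IntervalIntegrable (netaF z b c) MeasureTheory.volume 0 1 := by
  refine ContinuousOn.intervalIntegrable (ContinuousOn.div (by fun_prop) ?_
    fun t ht => (netaD_pos hz b ht).ne')
  unfold netaD
  fun_prop

theorem netaF_succ (z : Fin 4 → ℝ) (b : Fin 4 → ℕ) (i : Fin 4) (c : ℕ) (t : ℝ) :
    netaF z (b + Pi.single i 1) c t =
      t ^ c * (1 - t) ^ (∑ i, b i + 1 - 2 - c) / (netaD z b t * (t + (1 - t) * z i)) := by
  have h1 : ∑ j, (b + Pi.single i 1 : Fin 4 → ℕ) j = ∑ j, b j + 1 := by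
    simp [Finset.sum_add_distrib]
  have h2 : netaD z (b + Pi.single i 1) t = netaD z b t * (t + (1 - t) * z i) := by
    simp only [netaD, Pi.add_apply, pow_add, Finset.prod_mul_distrib]
    congr 1
    rw [Finset.prod_eq_single i (fun j _ hj => by simp [hj]) (by simp)]
    simp
  rw [netaF, h1, h2]

theorem neta_lin (x t : ℝ) : HasDerivAt (fun t : ℝ => t + (1 - t) * x) (1 - x) t := by
  refine ((hasDerivAt_id' t).fun_add (((hasDerivAt_id' t).const_sub 1).mul_const x)).congr_deriv ?_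
  ring

theorem netaD_deriv {z : Fin 4 → ℝ} (hz : ∀ i, 0 < z i) (b : Fin 4 → ℕ) {t : ℝ}
    (ht : t ∈ Set.uIcc (0 : ℝ) 1) : HasDerivAt (netaD z b)
      (netaD z b t * ∑ i, (b i : ℝ) * (1 - z i) / (t + (1 - t) * z i)) t := by
  unfold netaD
  induction (Finset.univ : Finset (Fin 4)) using Finset.induction_on with
  | empty => simpa using hasDerivAt_const t (1 : ℝ)
  | insert i s hi ih =>
    simp only [Finset.prod_insert hi, Finset.sum_insert hi]
    have h1 : HasDerivAt (fun t : ℝ => (t + (1 - t) * z i) ^ b i)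
        ((t + (1 - t) * z i) ^ b i * ((b i : ℝ) * (1 - z i) / (t + (1 - t) * z i))) t := by
      refine ((neta_lin (z i) t).fun_pow (b i)).congr_deriv ?_
      have := (neta_pos (hz i) ht).ne'
      rcases b i with _ | k
      · simp
      · rw [Nat.add_sub_cancel, pow_succ]
        field_simp
    refine (h1.fun_mul ih).congr_deriv ?_
    ring

theorem neta_sum {z : Fin 4 → ℝ} (hz : ∀ i, 0 < z i) (b : Fin 4 → ℕ) {t : ℝ}
    (ht : t ∈ Set.uIcc (0 : ℝ) 1) :
    (1 - t) * ∑ i, (b i : ℝ) * (1 - z i) / (t + (1 - t) * z i) =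
      ∑ i, (b i : ℝ) / (t + (1 - t) * z i) - ((∑ i, b i : ℕ) : ℝ) := by
  rw [Nat.cast_sum, Finset.mul_sum, ← Finset.sum_sub_distrib]
  refine Finset.sum_congr rfl fun i _ => ?_
  have := (neta_pos (hz i) ht).ne'
  field_simp
  ring

/-- derivative of `t ^ (c+1) (1-t) ^ (m+1) / D` -/
theorem netaG_deriv {z : Fin 4 → ℝ} (hz : ∀ i, 0 < z i) (b : Fin 4 → ℕ) (c m : ℕ)
    (hm : ∑ i, b i = c + m + 2) {t : ℝ} (ht : t ∈ Set.uIcc (0 : ℝ) 1) :
    HasDerivAt (fun t : ℝ => t ^ (c + 1) * (1 - t) ^ (m + 1) / netaD z b t)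
      (t ^ c * (1 - t) ^ m / netaD z b t *
        ((c + 1) - t * ∑ i, (b i : ℝ) / (t + (1 - t) * z i))) t := by
  have h0 := (netaD_pos hz b ht).ne'
  have h1 := neta_sum hz b ht
  refine (((hasDerivAt_pow (c + 1) t).fun_mul (((hasDerivAt_id' t).const_sub 1).fun_pow
    (m + 1))).fun_div (netaD_deriv hz b ht) h0).congr_deriv ?_
  rw [hm, eq_sub_iff_add_eq] at h1
  rw [← h1]
  simp only [Nat.add_sub_cancel]
  push_cast
  field_simp
  ring

theorem netaG_int {z : Fin 4 → ℝ} (hz : ∀ i, 0 < z i) (b : Fin 4 → ℕ) (c m : ℕ)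
    (hm : ∑ i, b i = c + m + 2) {f : ℝ → ℝ} (hf : IntervalIntegrable f MeasureTheory.volume 0 1)
    (h : ∀ t ∈ Set.uIcc (0 : ℝ) 1, f t = t ^ c * (1 - t) ^ m / netaD z b t *
        ((c + 1) - t * ∑ i, (b i : ℝ) / (t + (1 - t) * z i))) :
    ∫ t in (0 : ℝ)..1, f t = 0 := by
  rw [intervalIntegral.integral_eq_sub_of_hasDerivAt
    (fun t ht => (h t ht).symm ▸ netaG_deriv hz b c m hm ht) hf]
  simp

theorem Iz_pos {z : Fin 4 → ℝ} (hz : ∀ i, 0 < z i) (b : Fin 4 → ℕ) (c : ℕ) : 0 < Iz z b c := by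
  refine intervalIntegral.intervalIntegral_pos_of_pos_on (netaF_int hz b c) (fun t ht => ?_) one_pos
  exact div_pos (mul_pos (pow_pos ht.1 _) (pow_pos (sub_pos.2 ht.2) _))
    (netaD_pos hz b (Set.Icc_subset_uIcc (Set.Ioo_subset_Icc_self ht)))

theorem Iz_split {z : Fin 4 → ℝ} (hz : ∀ i, 0 < z i) {b : Fin 4 → ℕ} (hb : 2 ≤ ∑ i, b i)
    (i : Fin 4) :
    Iz z b 0 = Iz z (b + Pi.single i 1) 1 + z i * Iz z (b + Pi.single i 1) 0 := by
  obtain ⟨m, hm⟩ := Nat.exists_eq_add_of_le' hb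
  rw [neta_Iz, neta_Iz, neta_Iz, ← intervalIntegral.integral_const_mul,
    ← intervalIntegral.integral_add (netaF_int hz _ _) ((netaF_int hz _ _).const_mul _)]
  refine intervalIntegral.integral_congr fun t ht => ?_
  have h0 := (netaD_pos hz b ht).ne'
  have h1 := (neta_pos (hz i) ht).ne'
  simp only [netaF_succ]
  rw [netaF, hm, show m + 2 - 2 - 0 = m by omega, show m + 2 + 1 - 2 - 1 = m by omega,
    show m + 2 + 1 - 2 - 0 = m + 1 by omega]
  field_simp
  ring

theorem Iz_zero {z : Fin 4 → ℝ} (hz : ∀ i, 0 < z i) {b : Fin 4 → ℕ} (hb : 2 ≤ ∑ i, b i) :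
    Iz z b 0 = ∑ i, (b i : ℝ) * Iz z (b + Pi.single i 1) 1 := by
  obtain ⟨m, hm⟩ := Nat.exists_eq_add_of_le' hb
  have hi : ∀ i ∈ Finset.univ, IntervalIntegrable
      (fun t => (b i : ℝ) * netaF z (b + Pi.single i 1) 1 t) MeasureTheory.volume 0 1 :=
    fun i _ => (netaF_int hz _ _).const_mul _
  have hs : IntervalIntegrable (fun t => ∑ i, (b i : ℝ) * netaF z (b + Pi.single i 1) 1 t)
      MeasureTheory.volume 0 1 := by
    simpa only [Finset.sum_fn] using IntervalIntegrable.sum _ hi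
  simp only [neta_Iz, ← intervalIntegral.integral_const_mul]
  rw [← intervalIntegral.integral_finsetSum hi, ← sub_eq_zero,
    ← intervalIntegral.integral_sub (netaF_int hz _ _) hs]
  refine netaG_int hz b 0 m (by omega) ((netaF_int hz _ _).sub hs) fun t ht => ?_
  simp only [netaF_succ]
  rw [netaF, hm, show m + 2 - 2 - 0 = m by omega, show m + 2 + 1 - 2 - 1 = m by omega, mul_sub,
    Finset.mul_sum, Finset.mul_sum]
  congr 1
  · simp
  · refine Finset.sum_congr rfl fun i _ => ?_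
    rw [← div_div]
    ring

theorem Iz_one {z : Fin 4 → ℝ} (hz : ∀ i, 0 < z i) {b : Fin 4 → ℕ} (hb : 3 ≤ ∑ i, b i) :
    (((∑ i, b i : ℕ) : ℝ) - 2) * Iz z b 1 = ∑ i, (b i : ℝ) * z i * Iz z (b + Pi.single i 1) 1 := by
  obtain ⟨m, hm⟩ := Nat.exists_eq_add_of_le' hb
  have hi : ∀ i ∈ Finset.univ, IntervalIntegrable
      (fun t => (b i : ℝ) * z i * netaF z (b + Pi.single i 1) 1 t) MeasureTheory.volume 0 1 :=
    fun i _ => (netaF_int hz _ _).const_mul _
  have hs : IntervalIntegrable (fun t => ∑ i, (b i : ℝ) * z i * netaF z (b + Pi.single i 1) 1 t)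
      MeasureTheory.volume 0 1 := by
    simpa only [Finset.sum_fn] using IntervalIntegrable.sum _ hi
  simp only [neta_Iz, ← intervalIntegral.integral_const_mul]
  rw [← intervalIntegral.integral_finsetSum hi, eq_comm, ← sub_eq_zero,
    ← intervalIntegral.integral_sub hs ((netaF_int hz _ _).const_mul _)]
  refine netaG_int hz b 1 m (by omega) (hs.sub ((netaF_int hz _ _).const_mul _)) fun t ht => ?_
  have h0 := (netaD_pos hz b ht).ne'
  have e : ∀ i ∈ Finset.univ, (b i : ℝ) * z i * netaF z (b + Pi.single i 1) 1 t =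
      t * (1 - t) ^ m / netaD z b t * (b i - t * (b i / (t + (1 - t) * z i))) := fun i _ => by
    have h1 := (neta_pos (hz i) ht).ne'
    have h2 := mul_comm (1 - t) (z i) ▸ h1
    rw [netaF_succ, hm, show m + 3 + 1 - 2 - 1 = m + 1 by omega]
    field_simp
    ring
  rw [Finset.sum_congr rfl e, ← Finset.mul_sum, Finset.sum_sub_distrib, ← Finset.mul_sum,
    ← Nat.cast_sum, netaF, hm, show m + 3 - 2 - 1 = m by omega]
  push_cast
  ring

theorem neta_int_two {x y : ℝ} (hx : 0 < x) (hy : 0 < y) : IntervalIntegrable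
    (fun t : ℝ => 1 / ((t + (1 - t) * x) * (t + (1 - t) * y))) MeasureTheory.volume 0 1 :=
  ContinuousOn.intervalIntegrable (ContinuousOn.div (by fun_prop) (by fun_prop)
    fun _ ht => (mul_pos (neta_pos hx ht) (neta_pos hy ht)).ne')

theorem int_two {x y : ℝ} (hx : 0 < x) (hy : 0 < y) :
    ∫ t in (0 : ℝ)..1, 1 / ((t + (1 - t) * x) * (t + (1 - t) * y)) = invL x y := by
  rcases eq_or_ne y x with rfl | hne
  · rw [invL_self, intervalIntegral.integral_eq_sub_of_hasDerivAt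
      (f := fun t => t / (y * (t + (1 - t) * y))) (fun t ht => ?_) (neta_int_two hx hy)]
    · simp
    · have h1 := (neta_pos hy ht).ne'
      have h2 := mul_comm (1 - t) y ▸ h1
      refine ((hasDerivAt_id' t).fun_div ((neta_lin y t).const_mul y)
        (mul_ne_zero hy.ne' h1)).congr_deriv ?_
      field_simp
      ring
  · refine mul_left_cancel₀ (sub_ne_zero.2 hne) ?_
    rw [invL_mul hx hy, ← intervalIntegral.integral_const_mul,
      intervalIntegral.integral_eq_sub_of_hasDerivAt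
      (f := fun t => Real.log (t + (1 - t) * x) - Real.log (t + (1 - t) * y)) (fun t ht => ?_)
      ((neta_int_two hx hy).const_mul _)]
    · simp
    · have h1 := (neta_pos hx ht).ne'
      have h2 := (neta_pos hy ht).ne'
      refine (((neta_lin x t).log h1).fun_sub ((neta_lin y t).log h2)).congr_deriv ?_
      rw [div_sub_div _ _ h1 h2, mul_one_div]
      congr 1
      ring

theorem rho_surface {z : Fin 4 → ℝ} (hz : ∀ i, 0 < z i)
    (h : invL (z 0) (z 1) = invL (z 2) (z 3)) :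
    rho z * ((z 0 + z 1) - (z 2 + z 3)) = z 2 * z 3 - z 0 * z 1 := by
  have h0 := (Iz_pos hz (fun _ => 1) 0).ne'
  rw [← int_two (hz 0) (hz 1), ← int_two (hz 2) (hz 3), ← sub_eq_zero,
    ← intervalIntegral.integral_sub (neta_int_two (hz 0) (hz 1)) (neta_int_two (hz 2) (hz 3))] at h
  have key : (z 2 + z 3 - (z 0 + z 1)) * Iz z (fun _ => 1) 1 +
      (z 2 * z 3 - z 0 * z 1) * Iz z (fun _ => 1) 0 = 0 := by
    rw [neta_Iz, neta_Iz, ← intervalIntegral.integral_const_mul,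
      ← intervalIntegral.integral_const_mul, ← intervalIntegral.integral_add
        ((netaF_int hz _ _).const_mul _) ((netaF_int hz _ _).const_mul _)]
    refine (intervalIntegral.integral_congr fun t ht => ?_).trans h
    have a0 := (neta_pos (hz 0) ht).ne'
    have a1 := (neta_pos (hz 1) ht).ne'
    have a2 := (neta_pos (hz 2) ht).ne'
    have a3 := (neta_pos (hz 3) ht).ne'
    simp only [netaF, netaD, Fin.prod_univ_four, Fin.sum_univ_four, pow_one]
    norm_num only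
    rw [div_sub_div _ _ (mul_ne_zero a0 a1) (mul_ne_zero a2 a3), ← mul_div_assoc, ← mul_div_assoc,
      ← add_div]
    congr 1 <;> ring
  rw [rho, rz, div_mul_eq_mul_div, div_eq_iff h0]
  linarith

end Crest.Agent.R331

end
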