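import Crest.Agent.R331.Net

/-!
# The network inequality in coordinates

At a point with `z = zpt N p1 p0 = ![x₀, x₁, y₀, y₁]`, `L = LM p1 p0`, `T = Tm N`, `ρ = rho z` and entry `a` put
`Y₁ = T (x₁ - y₁) / L * a`, `Y₂ = T (y₀ - x₀) / L * a`.  Then (`LM_log`, `rho_surface`, `zpt_surface`)
* `Y₁ + Y₂ = Pv N p1 p0 a`, `x₀ Y₁ + x₁ Y₂ = qv N p1 p0 a =: q`,
* `(x₀ + y₀) Y₁ + ρ (Y₁ - Y₂) = q` and `(x₁ + y₁) Y₂ - ρ (Y₁ - Y₂) = q`
  (use `ρ (x₀ + x₁ - y₀ - y₁) = y₀ y₁ - x₀ x₁`).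
So for the positive form `B(U, Y) = (x₀+y₀) conj U₁ Y₁ + (x₁+y₁) conj U₂ Y₂ + ρ conj (U₁-U₂) (Y₁-Y₂)` we have
`B(U, Y) = conj (U₁ + U₂) q`.  On `I` apply `2 Re B(U, Y) ≤ B(U,U) + B(Y,Y)` with `U = (1-ε) (W Y₁, W Y₂)`
(`Y₁, Y₂` the fields on `J`).  With `W' = √(1-ε) • W` all four weights are valid for `W'`, hence so is `rho`
(`valid_rho`), and `x₀`, `x₁` even with the factor `1 - ε` on the right; so
`B(U,U) ≤ (1-ε) (B_J(Y,Y) - ε ∑ (x₀ |Y₁|^2 + x₁ |Y₂|^2))`.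
Finally `|q|^2 = |x₀ Y₁ + x₁ Y₂|^2 ≤ (x₀ + x₁)(x₀ |Y₁|^2 + x₁ |Y₂|^2)`.
-/

open scoped ComplexOrder Kronecker Matrix
open Matrix Crest.Quantum Crest.MathPhysics.Bosonic

noncomputable section

namespace Crest.Agent.R331

/-- coefficient of the first field -/
def netcoreA (N p1 p0 : ℝ) : ℝ := Tm N / LM p1 p0 * p1 - (N + 1)

/-- coefficient of the second field -/
def netcoreB (N p1 p0 : ℝ) : ℝ := N - Tm N / LM p1 p0 * p0

theorem netcore_P {N p1 p0 : ℝ} (h1 : 0 < p1) (h0 : 0 < p0) (a : ℂ) :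
    Pv N p1 p0 a = netcoreA N p1 p0 * a + netcoreB N p1 p0 * a := by
  have hL := (LM_pos h1 h0).ne'
  have h := LM_log h1 h0
  have e : Tm N * (Real.log p1 - Real.log p0) - 1 = netcoreA N p1 p0 + netcoreB N p1 p0 := by
    unfold netcoreA netcoreB
    field_simp
    linear_combination (-Tm N) * h
  rw [Pv, e, Complex.ofReal_add, add_mul]

theorem netcore_q {N p1 p0 : ℝ} (hN : 0 < N) (h1 : 0 < p1) (h0 : 0 < p0) :
    N * p1 - (N + 1) * p0 = p0 * netcoreA N p1 p0 + p1 * netcoreB N p1 p0 ∧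
    N * p1 - (N + 1) * p0 = (p0 + N * (LM p1 p0 / Tm N)) * netcoreA N p1 p0 +
      rho (zpt N p1 p0) * (netcoreA N p1 p0 - netcoreB N p1 p0) ∧
    N * p1 - (N + 1) * p0 = (p1 + (N + 1) * (LM p1 p0 / Tm N)) * netcoreB N p1 p0 -
      rho (zpt N p1 p0) * (netcoreA N p1 p0 - netcoreB N p1 p0) := by
  have hL := (LM_pos h1 h0).ne'
  have hT := (Tm_pos hN).ne'
  have hs : rho (zpt N p1 p0) * (p0 + p1 - (N * (LM p1 p0 / Tm N) + (N + 1) * (LM p1 p0 / Tm N))) =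
      N * (LM p1 p0 / Tm N) * ((N + 1) * (LM p1 p0 / Tm N)) - p0 * p1 :=
    rho_surface (zpt_pos hN h1 h0) (zpt_surface hN h1 h0)
  have hk : Tm N / LM p1 p0 * (LM p1 p0 / Tm N) = 1 := by field_simp
  unfold netcoreA netcoreB
  generalize Tm N / LM p1 p0 = k at *
  generalize LM p1 p0 / Tm N = m at *
  generalize rho (zpt N p1 p0) = r at *
  refine ⟨by ring, ?_, ?_⟩
  · linear_combination (-k) * hs - (N * p1 + N * (N + 1) * m + r * (2 * N + 1)) * hk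
  · linear_combination k * hs + (N * (N + 1) * m + (N + 1) * p0 + r * (2 * N + 1)) * hk

theorem netcore_I {A B r α β q : ℝ} (hA : 0 ≤ A) (hB : 0 ≤ B) (hr : 0 ≤ r)
    (h1 : q = A * α + r * (α - β)) (h2 : q = B * β - r * (α - β)) (t : ℝ) (U V a : ℂ) :
    2 * t * (star (U + V) * (q * a)).re ≤ t ^ 2 * (A * ‖U‖ ^ 2 + B * ‖V‖ ^ 2 + r * ‖U - V‖ ^ 2) +
      (star (α * a + β * a) * (q * a)).re := by
  simp only [Complex.sq_norm, Complex.normSq_apply, Complex.star_def, Complex.mul_re,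
    Complex.mul_im, Complex.conj_re, Complex.conj_im, Complex.add_re, Complex.add_im,
    Complex.sub_re, Complex.sub_im, Complex.ofReal_re, Complex.ofReal_im]
  have e1 := mul_nonneg hA
    (add_nonneg (sq_nonneg (t * U.re - α * a.re)) (sq_nonneg (t * U.im - α * a.im)))
  have e2 := mul_nonneg hB
    (add_nonneg (sq_nonneg (t * V.re - β * a.re)) (sq_nonneg (t * V.im - β * a.im)))
  have e3 := mul_nonneg hr (add_nonneg (sq_nonneg (t * (U.re - V.re) - (α - β) * a.re))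
    (sq_nonneg (t * (U.im - V.im) - (α - β) * a.im)))
  linear_combination e1 + e2 + e3 +
    (2 * t * (U.re * a.re + U.im * a.im) - α * (a.re ^ 2 + a.im ^ 2)) * h1 +
    (2 * t * (V.re * a.re + V.im * a.im) - β * (a.re ^ 2 + a.im ^ 2)) * h2

theorem netcore_J {A B r α β q : ℝ} (h1 : q = A * α + r * (α - β)) (h2 : q = B * β - r * (α - β))
    (a : ℂ) : (star (α * a + β * a) * (q * a)).re =
      A * ‖α * a‖ ^ 2 + B * ‖β * a‖ ^ 2 + r * ‖α * a - β * a‖ ^ 2 := by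
  simp only [Complex.sq_norm, Complex.normSq_apply, Complex.star_def, Complex.mul_re,
    Complex.mul_im, Complex.conj_re, Complex.conj_im, Complex.add_re, Complex.add_im,
    Complex.sub_re, Complex.sub_im, Complex.ofReal_re, Complex.ofReal_im]
  linear_combination α * (a.re ^ 2 + a.im ^ 2) * h1 + β * (a.re ^ 2 + a.im ^ 2) * h2

theorem netcore_cs {x y α β q : ℝ} (hx : 0 < x) (hy : 0 < y) (h : q = x * α + y * β) (a : ℂ) :
    (y + x)⁻¹ * ‖q * a‖ ^ 2 ≤ x * ‖α * a‖ ^ 2 + y * ‖β * a‖ ^ 2 := by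
  rw [inv_mul_le_iff₀ (add_pos hy hx)]
  simp only [norm_mul, mul_pow, Complex.norm_real, Real.norm_eq_abs, sq_abs]
  have := mul_nonneg (mul_nonneg (mul_pos hx hy).le (sq_nonneg (α - β))) (sq_nonneg ‖a‖)
  rw [h]
  linarith

theorem netcore_valid {I J : Type*} [Fintype I] [Fintype J] {W : (J → ℂ) →ₗ[ℂ] (I → ℂ)} {t : ℝ}
    (ht : 0 ≤ t) {f : I → ℝ} {g : J → ℝ} :
    Valid ((√t : ℂ) • W) f g ↔ Valid W (fun i => t * f i) g := by
  refine forall_congr' fun v => ?_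
  rw [Finset.sum_congr rfl fun i _ => show f i * ‖((√t : ℂ) • W) v i‖ ^ 2 = t * f i * ‖W v i‖ ^ 2 by
    rw [LinearMap.smul_apply, Pi.smul_apply, norm_smul, mul_pow, Complex.norm_real, Real.norm_eq_abs,
      sq_abs, Real.sq_sqrt ht]
    ring]

theorem netcore_mono {I J : Type*} [Fintype I] [Fintype J] {W : (J → ℂ) →ₗ[ℂ] (I → ℂ)} {t : ℝ}
    (ht : t ≤ 1) {f : I → ℝ} {g : J → ℝ} (hf : ∀ i, 0 < f i) (h : Valid W f g) :
    Valid W (fun i => t * f i) g := fun v =>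
  (Finset.sum_le_sum fun i _ => mul_le_mul_of_nonneg_right
    (mul_le_of_le_one_left (hf i).le ht) (sq_nonneg _)).trans (h v)

theorem net_core {I J : Type*} [Fintype I] [Fintype J] (W : (J → ℂ) →ₗ[ℂ] (I → ℂ)) {ε : ℝ}
    (hε0 : 0 ≤ ε) (hε1 : ε < 1) (NI p1 p0 : I → ℝ) (aI : I → ℂ) (NJ : ℝ) (s1 s0 : J → ℝ)
    (cJ : J → ℂ) (hNI : ∀ i, 0 < NI i) (hp1 : ∀ i, 0 < p1 i) (hp0 : ∀ i, 0 < p0 i) (hNJ : 0 < NJ)
    (hs1 : ∀ j, 0 < s1 j) (hs0 : ∀ j, 0 < s0 j) (v0 : Valid W p0 s0) (v1 : Valid W p1 s1)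
    (v2 : Valid W (fun i => (1 - ε) * (NI i * (LM (p1 i) (p0 i) / Tm (NI i))))
      (fun j => NJ * (LM (s1 j) (s0 j) / Tm NJ)))
    (v3 : Valid W (fun i => (1 - ε) * ((NI i + 1) * (LM (p1 i) (p0 i) / Tm (NI i))))
      (fun j => (NJ + 1) * (LM (s1 j) (s0 j) / Tm NJ))) :
    2 * (1 - ε) * (∑ i, star (W (fun j => Pv NJ (s1 j) (s0 j) (cJ j)) i) *
        qv (NI i) (p1 i) (p0 i) (aI i)).re ≤
      (1 - ε) * ((∑ j, star (Pv NJ (s1 j) (s0 j) (cJ j)) * qv NJ (s1 j) (s0 j) (cJ j)).re -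
          ε * ∑ j, (s1 j + s0 j)⁻¹ * ‖qv NJ (s1 j) (s0 j) (cJ j)‖ ^ 2) +
        (∑ i, star (Pv (NI i) (p1 i) (p0 i) (aI i)) * qv (NI i) (p1 i) (p0 i) (aI i)).re := by
  set t := 1 - ε with ht
  have ht0 : 0 < t := by linarith
  have ht1 : t ≤ 1 := by linarith
  have vr : Valid W (fun i => t * rho (zpt (NI i) (p1 i) (p0 i)))
      fun j => rho (zpt NJ (s1 j) (s0 j)) := by
    refine (netcore_valid ht0.le).1 (valid_rho (fun i => zpt_pos (hNI i) (hp1 i) (hp0 i))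
      (fun j => zpt_pos hNJ (hs1 j) (hs0 j)) fun k => (netcore_valid ht0.le).2 ?_)
    fin_cases k
    · exact netcore_mono ht1 hp0 v0
    · exact netcore_mono ht1 hp1 v1
    · exact v2
    · exact v3
  set Y1 : J → ℂ := fun j => netcoreA NJ (s1 j) (s0 j) * cJ j with hY1
  set Y2 : J → ℂ := fun j => netcoreB NJ (s1 j) (s0 j) * cJ j with hY2
  have eP : (fun j => Pv NJ (s1 j) (s0 j) (cJ j)) = Y1 + Y2 :=
    funext fun j => netcore_P (hs1 j) (hs0 j) _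
  have a0 := mul_le_mul_of_nonneg_left (v0 Y1) (sq_nonneg t)
  have a1 := mul_le_mul_of_nonneg_left (v1 Y2) (sq_nonneg t)
  have a2 := mul_le_mul_of_nonneg_left (v2 Y1) ht0.le
  have a3 := mul_le_mul_of_nonneg_left (v3 Y2) ht0.le
  have a4 := mul_le_mul_of_nonneg_left (vr (Y1 - Y2)) ht0.le
  have b1 : 2 * t * (∑ i, star (W (Y1 + Y2) i) * qv (NI i) (p1 i) (p0 i) (aI i)).re ≤
      t ^ 2 * ∑ i, p0 i * ‖W Y1 i‖ ^ 2 + t ^ 2 * ∑ i, p1 i * ‖W Y2 i‖ ^ 2 +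
      t * ∑ i, t * (NI i * (LM (p1 i) (p0 i) / Tm (NI i))) * ‖W Y1 i‖ ^ 2 +
      t * ∑ i, t * ((NI i + 1) * (LM (p1 i) (p0 i) / Tm (NI i))) * ‖W Y2 i‖ ^ 2 +
      t * ∑ i, t * rho (zpt (NI i) (p1 i) (p0 i)) * ‖W (Y1 - Y2) i‖ ^ 2 +
      (∑ i, star (Pv (NI i) (p1 i) (p0 i) (aI i)) * qv (NI i) (p1 i) (p0 i) (aI i)).re := by
    simp only [Complex.re_sum, Finset.mul_sum, ← Finset.sum_add_distrib]
    refine Finset.sum_le_sum fun i _ => ?_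
    have hz := zpt_pos (hNI i) (hp1 i) (hp0 i)
    obtain ⟨-, h1, h2⟩ := netcore_q (hNI i) (hp1 i) (hp0 i)
    have := netcore_I (add_pos (hp0 i) (hz 2)).le (add_pos (hp1 i) (hz 3)).le (rho_pos hz).le h1 h2
      t (W Y1 i) (W Y2 i) (aI i)
    rw [netcore_P (hp1 i) (hp0 i), qv, map_add, map_sub, Pi.add_apply, Pi.sub_apply]
    refine this.trans_eq ?_
    change t ^ 2 * ((p0 i + NI i * (LM (p1 i) (p0 i) / Tm (NI i))) * _ +
      (p1 i + (NI i + 1) * (LM (p1 i) (p0 i) / Tm (NI i))) * _ + _) + _ = _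
    ring
  have b2 : (∑ j, star (Pv NJ (s1 j) (s0 j) (cJ j)) * qv NJ (s1 j) (s0 j) (cJ j)).re =
      ∑ j, s0 j * ‖Y1 j‖ ^ 2 + ∑ j, s1 j * ‖Y2 j‖ ^ 2 +
      ∑ j, NJ * (LM (s1 j) (s0 j) / Tm NJ) * ‖Y1 j‖ ^ 2 +
      ∑ j, (NJ + 1) * (LM (s1 j) (s0 j) / Tm NJ) * ‖Y2 j‖ ^ 2 +
      ∑ j, rho (zpt NJ (s1 j) (s0 j)) * ‖(Y1 - Y2) j‖ ^ 2 := by
    simp only [Complex.re_sum, ← Finset.sum_add_distrib]
    refine Finset.sum_congr rfl fun j _ => ?_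
    obtain ⟨-, h1, h2⟩ := netcore_q hNJ (hs1 j) (hs0 j)
    rw [netcore_P (hs1 j) (hs0 j), qv, netcore_J h1 h2, Pi.sub_apply, hY1, hY2]
    ring
  have b3 : ∑ j, (s1 j + s0 j)⁻¹ * ‖qv NJ (s1 j) (s0 j) (cJ j)‖ ^ 2 ≤
      ∑ j, s0 j * ‖Y1 j‖ ^ 2 + ∑ j, s1 j * ‖Y2 j‖ ^ 2 := by
    rw [← Finset.sum_add_distrib]
    exact Finset.sum_le_sum fun j _ =>
      netcore_cs (hs0 j) (hs1 j) (netcore_q hNJ (hs1 j) (hs0 j)).1 (cJ j)
  have b4 := mul_le_mul_of_nonneg_left b3 (mul_nonneg ht0.le hε0)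
  have he : ε = 1 - t := by rw [ht]; ring
  rw [eP, b2]
  clear_value t
  subst he
  linarith

end Crest.Agent.R331

end
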