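import Crest.Agent.R331.MatNet
import Crest.Agent.R331.Alg

/-!
# Rigidity, part A: consequences of a small weighted current

Let `σ = dg U p`, `t = ∑ p i`, `q = qm N σ a`, `Q = wf U (p i + p k)⁻¹ q`.
* `qm_entry_le`: `‖q k l‖^2 ≤ ∑ ‖q k l‖^2 = ip q q = ∑ ‖(Uᴴ q U) i k‖^2 ≤ 2 t Q` since `p i + p k ≤ 2 t`.
* `energy_le`: `Re ip a q = N Tr (σ a aᴴ) - (N+1) Tr (σ aᴴ a) ≤ N t - E` (`ann_mul_annH`, `annH_mul_ann`), and
  `|ip a q| ≤ √Q √(wf U (p i + p k) a) = √Q √(Tr σ a aᴴ + Tr σ aᴴ a) ≤ √Q √(2E + t)` (`ip_eq_sum`, `wf_left`,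
  `wf_right`).
* `near_thermal`: for `k' = k + e j`: `(N+1) √(k' j) σ k' l = N √(l j) σ k (l - e j) - q k l`.  Induction on
  `tot k + tot l`: if `k ≠ l` pick `j` with `k j > l j` (or use `‖σ k l‖ = ‖σ l k‖`); if `k = l ≠ 0` pick `j` with `k j > 0`.
-/

open scoped ComplexOrder Kronecker Matrix
open Matrix Crest.Quantum Crest.MathPhysics.Bosonic

noncomputable section

namespace Crest.Agent.R331

variable {n L : ℕ}

theorem riga_ip_self {ι : Type*} [Fintype ι] [DecidableEq ι] {U : Matrix ι ι ℂ}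
    (hU : U ∈ unitaryGroup ι ℂ) (q : Matrix ι ι ℂ) :
    (ip q q).re = ∑ i, ∑ k, ‖(Uᴴ * q * U) i k‖ ^ 2 := by
  rw [ip_eq_sum hU, Complex.re_sum]
  refine Finset.sum_congr rfl fun i _ => ?_
  rw [Complex.re_sum]
  refine Finset.sum_congr rfl fun k _ => ?_
  rw [Complex.star_def, Complex.conj_mul', ← Complex.ofReal_pow, Complex.ofReal_re]

theorem riga_cs {ι : Type*} [Fintype ι] [DecidableEq ι] {U : Matrix ι ι ℂ}
    (hU : U ∈ unitaryGroup ι ℂ) {w : ι → ι → ℝ} (hw : ∀ i k, 0 < w i k) (a q : Matrix ι ι ℂ) :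
    ‖ip a q‖ ≤ √(wf U (fun i k => (w i k)⁻¹) q) * √(wf U w a) := by
  have h1 : ‖ip a q‖ ≤ ∑ ik : ι × ι, ‖(Uᴴ * a * U) ik.1 ik.2‖ * ‖(Uᴴ * q * U) ik.1 ik.2‖ := by
    rw [ip_eq_sum hU, Fintype.sum_prod_type]
    refine (norm_sum_le _ _).trans (Finset.sum_le_sum fun i _ => (norm_sum_le _ _).trans ?_)
    refine Finset.sum_le_sum fun k _ => ?_
    rw [norm_mul, norm_star]
  have h2 := Finset.sum_sq_le_sum_mul_sum_of_sq_le_mul (Finset.univ : Finset (ι × ι))
    (r := fun ik => ‖(Uᴴ * a * U) ik.1 ik.2‖ * ‖(Uᴴ * q * U) ik.1 ik.2‖)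
    (f := fun ik => (w ik.1 ik.2)⁻¹ * ‖(Uᴴ * q * U) ik.1 ik.2‖ ^ 2)
    (g := fun ik => w ik.1 ik.2 * ‖(Uᴴ * a * U) ik.1 ik.2‖ ^ 2)
    (fun ik _ => by have := hw ik.1 ik.2; positivity)
    (fun ik _ => by have := hw ik.1 ik.2; positivity)
    (fun ik _ => by have := (hw ik.1 ik.2).ne'; exact le_of_eq (by field_simp))
  have h3 : 0 ≤ wf U (fun i k => (w i k)⁻¹) q :=
    Finset.sum_nonneg fun i _ => Finset.sum_nonneg fun k _ => by have := hw i k; positivity
  rw [← Real.sqrt_mul h3]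
  refine h1.trans (Real.le_sqrt_of_sq_le (h2.trans_eq ?_))
  rw [wf, wf, Fintype.sum_prod_type, Fintype.sum_prod_type]

theorem qm_entry_le {U : Matrix (VK n L) (VK n L) ℂ} (hU : U ∈ unitaryGroup (VK n L) ℂ)
    {p : VK n L → ℝ} (hp : ∀ i, 0 < p i) (q : Matrix (VK n L) (VK n L) ℂ) (k l : VK n L) :
    ‖q k l‖ ^ 2 ≤ 2 * (∑ i, p i) * wf U (fun i k => (p i + p k)⁻¹) q := by
  have h1 : ‖q k l‖ ^ 2 ≤ ∑ i, ∑ k, ‖q i k‖ ^ 2 :=
    (Finset.single_le_sum (f := fun l => ‖q k l‖ ^ 2) (fun _ _ => by positivity)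
      (Finset.mem_univ l)).trans
      (Finset.single_le_sum (f := fun i => ∑ k, ‖q i k‖ ^ 2) (fun _ _ => by positivity)
        (Finset.mem_univ k))
  have h2 := riga_ip_self (one_mem (unitaryGroup (VK n L) ℂ)) q
  rw [conjTranspose_one, Matrix.one_mul, Matrix.mul_one, riga_ip_self hU] at h2
  rw [← h2] at h1
  refine h1.trans ?_
  rw [wf, Finset.mul_sum]
  refine Finset.sum_le_sum fun i _ => ?_
  rw [Finset.mul_sum]
  refine Finset.sum_le_sum fun k _ => ?_
  have hi : p i ≤ ∑ i, p i := Finset.single_le_sum (fun i _ => (hp i).le) (Finset.mem_univ i)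
  have hk : p k ≤ ∑ i, p i := Finset.single_le_sum (fun i _ => (hp i).le) (Finset.mem_univ k)
  have h0 : 0 < p i + p k := add_pos (hp i) (hp k)
  rw [← mul_assoc]
  refine le_mul_of_one_le_left (by positivity) ?_
  rw [← div_eq_mul_inv, one_le_div h0]
  linarith

theorem energy_le {U : Matrix (VK n L) (VK n L) ℂ} (hU : U ∈ unitaryGroup (VK n L) ℂ)
    {p : VK n L → ℝ} (hp : ∀ i, 0 < p i) {N : ℝ} (hN : 0 < N) (j : Fin n) :
    (dg U p * ((ann n L j)ᴴ * ann n L j)).trace.re ≤ N * ∑ i, p i +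
      √(wf U (fun i k => (p i + p k)⁻¹) (qm N (dg U p) (ann n L j))) *
        √(2 * (dg U p * ((ann n L j)ᴴ * ann n L j)).trace.re + ∑ i, p i) := by
  set a := ann n L j with ha
  set σ := dg U p with hσ
  set q := qm N σ a with hq
  set E := (σ * (aᴴ * a)).trace.re with hE
  set F := (σ * (a * aᴴ)).trace.re with hF
  have hFE : F ≤ E + ∑ i, p i := by
    have h1 : (aᴴ * a + 1 - a * aᴴ).PosSemidef := by
      rw [ha, annH_mul_ann, ann_mul_annH, ← diagonal_one, diagonal_add, diagonal_sub]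
      refine PosSemidef.diagonal fun k => ?_
      change (0 : ℂ) ≤ ((k.1 j : ℝ) : ℂ) + 1 - _
      rw [← Complex.ofReal_one, ← Complex.ofReal_add, ← Complex.ofReal_sub, Complex.zero_le_real]
      split_ifs
      · simp
      · rw [sub_zero]; positivity
    have h2 := trace_mul_nonneg (dg_psd U fun i => (hp i).le) h1
    rw [Matrix.mul_sub, Matrix.mul_add, Matrix.mul_one, trace_sub, trace_add, trace_dg hU,
      Complex.sub_re, Complex.add_re, Complex.ofReal_re] at h2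
    linarith
  have h3 : (ip a q).re = N * F - (N + 1) * E := by
    have e : ((N : ℂ) + 1) = ((N + 1 : ℝ) : ℂ) := by push_cast; rfl
    rw [ip, hq, qm, Matrix.mul_sub, Matrix.mul_smul, Matrix.mul_smul, trace_sub, trace_smul,
      trace_smul, trace_mul_comm aᴴ (σ * a), Matrix.mul_assoc, ← Matrix.mul_assoc aᴴ,
      trace_mul_comm (aᴴ * a), smul_eq_mul, smul_eq_mul, e, Complex.sub_re, Complex.re_ofReal_mul,
      Complex.re_ofReal_mul]
  have h4 : wf U (fun i k => p i + p k) a = F + E := by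
    rw [hF, hE, hσ, ← wf_left p a hU, ← wf_right p a hU]
    simp only [wf, add_mul, Finset.sum_add_distrib]
  have h5 := riga_cs hU (w := fun i k => p i + p k) (fun i k => add_pos (hp i) (hp k)) a q
  have h6 := (abs_le.1 ((Complex.abs_re_le_norm _).trans h5)).1
  have h7 : √(wf U (fun i k => p i + p k) a) ≤ √(2 * E + ∑ i, p i) :=
    Real.sqrt_le_sqrt (by linarith)
  have h8 := mul_le_mul_of_nonneg_left h7
    (Real.sqrt_nonneg (wf U (fun i k => (p i + p k)⁻¹) q))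
  have h9 := mul_le_mul_of_nonneg_left hFE hN.le
  linarith

/-- remove one photon from mode `j` -/
def rigaDown (k : VK n L) (j : Fin n) : VK n L :=
  ⟨k.1 - Pi.single j 1, le_trans (Finset.sum_le_sum fun _ _ => Nat.sub_le _ _) k.2⟩

/-- deviation from the thermal state -/
def rigaD (σ : Matrix (VK n L) (VK n L) ℂ) (N : ℝ) (k l : VK n L) : ℂ :=
  σ k l - (if k = l then (((N / (N + 1)) ^ tot k.1 : ℝ) : ℂ) * σ ⟨0, by simp [tot]⟩ ⟨0, by simp [tot]⟩
    else 0)

theorem riga_down_add {k : VK n L} {j : Fin n} (hj : 0 < k.1 j) :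
    (rigaDown k j).1 + Pi.single j 1 = k.1 := by
  funext i
  simp only [rigaDown, Pi.add_apply, Pi.sub_apply, Pi.single_apply]
  split_ifs with h
  · subst h; omega
  · omega

theorem riga_tot_down {k : VK n L} {j : Fin n} (hj : 0 < k.1 j) :
    tot (rigaDown k j).1 + 1 = tot k.1 := by
  rw [← riga_down_add hj, tot_add, tot_single]

theorem riga_tot_down_le (k : VK n L) (j : Fin n) : tot (rigaDown k j).1 ≤ tot k.1 :=
  Finset.sum_le_sum fun _ _ => Nat.sub_le _ _

theorem riga_rec (σ : Matrix (VK n L) (VK n L) ℂ) (N : ℝ) {k : VK n L} {j : Fin n}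
    (hj : 0 < k.1 j) (l : VK n L) :
    qm N σ (ann n L j) (rigaDown k j) l =
      (N : ℂ) * (√(l.1 j : ℝ) * σ (rigaDown k j) (rigaDown l j)) -
        ((N : ℂ) + 1) * (√(k.1 j : ℝ) * σ k l) := by
  have e1 := riga_down_add hj
  have e2 : ((rigaDown k j).1 j : ℝ) + 1 = k.1 j := by
    have := congrFun e1 j
    rw [Pi.add_apply, Pi.single_eq_same] at this
    exact_mod_cast this
  have e3 : tot ((rigaDown k j).1 + Pi.single j 1) ≤ L := by rw [e1]; exact k.2
  have e4 : (⟨(rigaDown k j).1 + Pi.single j 1, e3⟩ : VK n L) = k := Subtype.ext e1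
  rw [qm, Matrix.sub_apply, Matrix.smul_apply, Matrix.smul_apply, mul_ann_apply, ann_mul_apply,
    dif_pos e3, e4, e2]
  rfl

theorem riga_step {σ : Matrix (VK n L) (VK n L) ℂ} {N θ : ℝ} (hN : 0 < N)
    (h : ∀ j k l, ‖qm N σ (ann n L j) k l‖ ≤ θ) {k l : VK n L} {j : Fin n} (hj : 0 < k.1 j)
    (hc : k = l ∨ l.1 j < k.1 j) :
    ‖rigaD σ N k l‖ ≤ ‖rigaD σ N (rigaDown k j) (rigaDown l j)‖ + θ := by
  have e : ((N : ℂ) + 1) * (√(k.1 j : ℝ) * rigaD σ N k l) =
      (N : ℂ) * (√(l.1 j : ℝ) * rigaD σ N (rigaDown k j) (rigaDown l j)) -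
        qm N σ (ann n L j) (rigaDown k j) l := by
    rw [riga_rec σ N hj l, rigaD, rigaD]
    rcases hc with rfl | hc
    · have hN1 : (N : ℂ) + 1 ≠ 0 := by exact_mod_cast (by linarith : N + 1 ≠ 0)
      rw [if_pos rfl, if_pos rfl, ← riga_tot_down hj, pow_succ]
      push_cast
      field_simp
      ring
    · rw [if_neg (fun e => by rw [e] at hc; exact lt_irrefl _ hc)]
      by_cases h0 : l.1 j = 0
      · rw [h0]
        simp
      · rw [if_neg]
        · ring
        · intro e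
          have := congrFun (congrArg Subtype.val e) j
          simp only [rigaDown, Pi.sub_apply, Pi.single_eq_same] at this
          omega
  have hlk : (l.1 j : ℝ) ≤ k.1 j := by
    rcases hc with rfl | hc
    · exact le_rfl
    · exact_mod_cast hc.le
  have s1 : 1 ≤ √(k.1 j : ℝ) := Real.one_le_sqrt.2 (by exact_mod_cast hj)
  have s2 : √(l.1 j : ℝ) ≤ √(k.1 j : ℝ) := Real.sqrt_le_sqrt hlk
  have n1 := congrArg norm e
  have n2 := norm_sub_le ((N : ℂ) * (√(l.1 j : ℝ) * rigaD σ N (rigaDown k j) (rigaDown l j)))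
    (qm N σ (ann n L j) (rigaDown k j) l)
  have e1 : ((N : ℂ) + 1) = ((N + 1 : ℝ) : ℂ) := by push_cast; rfl
  rw [← n1, e1] at n2
  simp only [norm_mul, Complex.norm_real, Real.norm_eq_abs, abs_of_pos hN,
    abs_of_pos (add_pos hN one_pos), abs_of_nonneg (Real.sqrt_nonneg _)] at n2
  have n3 := h j (rigaDown k j) l
  have hθ : 0 ≤ θ := (norm_nonneg _).trans n3
  set x := ‖rigaD σ N k l‖
  set y := ‖rigaD σ N (rigaDown k j) (rigaDown l j)‖
  have hy : 0 ≤ y := norm_nonneg _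
  have c0 : 0 < (N + 1) * √(k.1 j : ℝ) := by positivity
  refine le_of_mul_le_mul_left ?_ c0
  have c1 : N * (√(l.1 j : ℝ) * y) ≤ (N + 1) * √(k.1 j : ℝ) * y := by
    rw [← mul_assoc]
    exact mul_le_mul_of_nonneg_right (mul_le_mul (by linarith) s2 (Real.sqrt_nonneg _)
      (by linarith)) hy
  have c2 : θ ≤ (N + 1) * √(k.1 j : ℝ) * θ :=
    le_mul_of_one_le_left hθ (one_le_mul_of_one_le_of_one_le (by linarith) s1)
  rw [mul_add, mul_assoc]
  linarith

theorem near_thermal {σ : Matrix (VK n L) (VK n L) ℂ} (hσ : σ.IsHermitian) {N θ : ℝ} (hN : 0 < N)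
    (h : ∀ j k l, ‖qm N σ (ann n L j) k l‖ ≤ θ) (k l : VK n L) :
    ‖σ k l - (if k = l then (((N / (N + 1)) ^ tot k.1 : ℝ) : ℂ) * σ ⟨0, by simp [tot]⟩ ⟨0, by simp [tot]⟩
      else 0)‖ ≤ (tot k.1 + tot l.1) * θ := by
  change ‖rigaD σ N k l‖ ≤ _
  have h0 : ∀ k : VK n L, tot k.1 = 0 → rigaD σ N k k = 0 := fun k hk => by
    have e : k = ⟨0, by simp [tot]⟩ :=
      Subtype.ext (funext fun j => (Finset.sum_eq_zero_iff.1 hk) j (Finset.mem_univ j))
    rw [rigaD, if_pos rfl, hk, pow_zero, Complex.ofReal_one, one_mul, ← e, sub_self]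
  have key : ∀ m : ℕ, ∀ k l : VK n L, tot k.1 + tot l.1 < m →
      ‖rigaD σ N k l‖ ≤ (tot k.1 + tot l.1) * θ := fun m => by
    induction m with
    | zero => intro k l hm; omega
    | succ m ih =>
      have aux : ∀ k l : VK n L, tot k.1 + tot l.1 < m + 1 → ∀ j, 0 < k.1 j →
          (k = l ∨ l.1 j < k.1 j) → ‖rigaD σ N k l‖ ≤ (tot k.1 + tot l.1) * θ := by
        intro k l hm j hj hc
        have t1 := riga_tot_down hj
        have t2 := riga_tot_down_le l j
        have h1 := ih (rigaDown k j) (rigaDown l j) (by omega)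
        have hθ : 0 ≤ θ := (norm_nonneg _).trans (h j k l)
        refine (riga_step hN h hj hc).trans ?_
        have t3 : ((tot (rigaDown k j).1 : ℝ) + tot (rigaDown l j).1) + 1 ≤ tot k.1 + tot l.1 := by
          exact_mod_cast (by omega : tot (rigaDown k j).1 + tot (rigaDown l j).1 + 1 ≤
            tot k.1 + tot l.1)
        nlinarith
      intro k l hm
      by_cases hkl : k = l
      · subst hkl
        by_cases hk : tot k.1 = 0
        · rw [h0 k hk, hk]
          simp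
        · obtain ⟨j, -, hj⟩ := Finset.exists_ne_zero_of_sum_ne_zero hk
          exact aux k k hm j (Nat.pos_of_ne_zero hj) (Or.inl rfl)
      · obtain ⟨j, hj⟩ := Function.ne_iff.1 (fun e => hkl (Subtype.ext e) : k.1 ≠ l.1)
        rcases lt_or_gt_of_ne hj with hlt | hgt
        · have h1 := aux l k (by omega) j (by omega) (Or.inr hlt)
          rw [rigaD, if_neg (Ne.symm hkl), sub_zero, ← hσ.apply, norm_star, add_comm] at h1
          rwa [rigaD, if_neg hkl, sub_zero]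
        · exact aux k l hm j (by omega) (Or.inr hgt)
  exact key _ k l (Nat.lt_succ_self _)

end Crest.Agent.R331

end
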